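import Vale.Agent.Lib.P078.ApproxDefs

/-!
# Inclusions that are approximately finite-dimensional over the subalgebra (P078)
-/

namespace Vale.Agent.Lib.P078

open scoped InnerProductSpace

variable {H : Type*} [NormedAddCommGroup H] [InnerProductSpace ℂ H] [CompleteSpace H]

/-- The inclusion `A ⊆ M` is approximately finite-dimensional over `A` with respect to the
vector `Ω`: for every self-adjoint `x ∈ M`, every `η > 0` and every `m₀` there are a system
`e` of `m × m` matrix units of `M`, `m ≥ m₀`, with diagonal in `A` and normalizing `A`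
(`e i j * a * e j i ∈ A` for `a ∈ A`), and a self-adjoint `y` in the linear span of the
products `a * e i j`, `a ∈ A`, with `‖y‖ ≤ ‖x‖` and `‖(x - y) Ω‖ ≤ η`. -/
def IsAFDOver (A M : VonNeumannAlgebra H) (Ω : H) : Prop :=
  ∀ x ∈ M, IsSelfAdjoint x → ∀ η : ℝ, 0 < η → ∀ m₀ : ℕ,
    ∃ (m : ℕ) (e : Fin m → Fin m → H →L[ℂ] H), m₀ ≤ m ∧ IsMatrixUnitsOver A M e ∧
      (∀ i j, ∀ a ∈ A, e i j * a * e j i ∈ A) ∧
      ∃ y ∈ Submodule.span ℂ {z : H →L[ℂ] H | ∃ a ∈ A, ∃ i j, z = a * e i j},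
        IsSelfAdjoint y ∧ ‖y‖ ≤ ‖x‖ ∧ ‖(x - y) Ω‖ ≤ η

end Vale.Agent.Lib.P078
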