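import Vale.Agent.Lib.P078.Atoms

/-!
# MASAs of `B(H)` with infinitely many atoms: the so-paving number is the matrix paving number

Over a MASA `A` of `B(H)` with infinitely many atoms, `(ε, r)` so-paving of all self-adjoint
operators is equivalent to `(ε, r)` paving of all Hermitian matrices over their diagonals: the
matrices are transported to operators supported on finitely many atoms, the slack coming from the
projection `q` is removed by compactness, and the other direction is the transfer theorem of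
`Core.lean`.
-/

namespace Vale.Agent.Lib.P078

open scoped InnerProductSpace Matrix.Norms.L2Operator
open ContinuousLinearMap

variable {H : Type*} [NormedAddCommGroup H] [InnerProductSpace ℂ H] [CompleteSpace H]

/-! ### Removing the slack by compactness -/

/-- Changing the diagonal part of a paved matrix changes it by a diagonal matrix. -/
lemma taskX2_sub {n r : ℕ} (T : Matrix (Fin n) (Fin n) ℂ) (c : Fin n → Fin r)
    (d d' : Fin n → ℝ) :
    pavedMatrix T c d - pavedMatrix T c d'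
      = - Matrix.diagonal (fun j => ((d j - d' j : ℝ) : ℂ)) := by
  ext j k
  simp only [pavedMatrix, Matrix.sub_apply, Matrix.of_apply, Matrix.neg_apply,
    Matrix.diagonal_apply]
  by_cases hjk : j = k
  · subst hjk
    simp only [if_true]
    push_cast
    ring
  · simp only [if_neg hjk]
    ring

/-- The norm of a paved matrix is a 1-Lipschitz function of its diagonal part. -/
lemma taskX2_lipschitz {n r : ℕ} (T : Matrix (Fin n) (Fin n) ℂ) (c : Fin n → Fin r)
    (d d' : Fin n → ℝ) :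
    |‖pavedMatrix T c d‖ - ‖pavedMatrix T c d'‖| ≤ ‖d - d'‖ := by
  refine (abs_norm_sub_norm_le _ _).trans ?_
  rw [taskX2_sub, norm_neg, Matrix.l2_opNorm_diagonal]
  rw [pi_norm_le_iff_of_nonneg (norm_nonneg _)]
  intro j
  rw [Complex.norm_real]
  exact norm_le_pi_norm (d - d') j

lemma taskX2_continuous {n r : ℕ} (T : Matrix (Fin n) (Fin n) ℂ) (c : Fin n → Fin r) :
    Continuous (fun d : Fin n → ℝ => ‖pavedMatrix T c d‖) := by
  have hlip : LipschitzWith 1 (fun d : Fin n → ℝ => ‖pavedMatrix T c d‖) := by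
    apply LipschitzWith.of_dist_le_mul
    intro d d'
    rw [Real.dist_eq, dist_eq_norm, NNReal.coe_one, one_mul]
    exact taskX2_lipschitz T c d d'
  exact hlip.continuous

theorem exists_paved_of_slack {n r : ℕ} (T : Matrix (Fin n) (Fin n) ℂ) (C : ℝ)
    (h : ∀ η : ℝ, 0 < η → ∃ (c : Fin n → Fin r) (d : Fin n → ℝ),
      (∀ j, |d j| ≤ ‖T‖) ∧ ‖pavedMatrix T c d‖ ≤ C + η) :
    ∃ (c : Fin n → Fin r) (d : Fin n → ℝ), (∀ j, |d j| ≤ ‖T‖) ∧ ‖pavedMatrix T c d‖ ≤ C := by
  obtain ⟨K, hK⟩ : ∃ K : Set (Fin n → ℝ), K = Metric.closedBall (0 : Fin n → ℝ) ‖T‖ :=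
    ⟨_, rfl⟩
  have hKc : IsCompact K := by
    rw [hK]
    exact isCompact_closedBall _ _
  have hmemK : ∀ d : Fin n → ℝ, d ∈ K ↔ ∀ j, |d j| ≤ ‖T‖ := by
    intro d
    rw [hK, mem_closedBall_zero_iff, pi_norm_le_iff_of_nonneg (norm_nonneg T)]
    simp only [Real.norm_eq_abs]
  have hK0 : (0 : Fin n → ℝ) ∈ K := by
    rw [hmemK]
    intro j
    simp
  have hmin : ∀ c : Fin n → Fin r, ∃ d ∈ K, ∀ d' ∈ K,
      ‖pavedMatrix T c d‖ ≤ ‖pavedMatrix T c d'‖ := by
    intro c
    obtain ⟨d, hd, hdmin⟩ := hKc.exists_isMinOn ⟨0, hK0⟩ (taskX2_continuous T c).continuousOn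
    exact ⟨d, hd, fun d' hd' => hdmin hd'⟩
  choose dmin hdK hdmin using hmin
  obtain ⟨c1, -, -, -⟩ := h 1 one_pos
  have : Nonempty (Fin n → Fin r) := ⟨c1⟩
  obtain ⟨c0, hc0⟩ :=
    Finite.exists_min (fun c : Fin n → Fin r => ‖pavedMatrix T c (dmin c)‖)
  refine ⟨c0, dmin c0, (hmemK _).mp (hdK c0), ?_⟩
  apply le_of_forall_pos_le_add
  intro η hη
  obtain ⟨c, d, hd, hle⟩ := h η hη
  calc ‖pavedMatrix T c0 (dmin c0)‖ ≤ ‖pavedMatrix T c (dmin c)‖ := hc0 c
    _ ≤ ‖pavedMatrix T c d‖ := hdmin c d ((hmemK d).mpr hd)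
    _ ≤ C + η := hle

/-! ### So-paving over a MASA with infinitely many atoms gives matrix paving -/

/-- **From a MASA with infinitely many atoms to matrices.** If a MASA `A` of `B(H)` has
infinitely many atoms and every self-adjoint operator is `(ε, r)` so-pavable over `A`, then finite
matrices are `(ε, r)`-pavable over their diagonals (with the same `ε` and `r`). -/
theorem matrixPavable_of_soPavable_atoms (A M : VonNeumannAlgebra H) (hA : IsMASA A M)
    (hinf : Set.Infinite {e : H →L[ℂ] H | IsAtomOf A e}) {ε : ℝ} {r : ℕ}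
    (h : ∀ x : H →L[ℂ] H, IsSelfAdjoint x → SoPavable A M x ε r) : MatrixPavable ε r := by
  have hAc := hA.2.1
  obtain ⟨e0, he0⟩ := hinf.nonempty
  have he0' : IsAtomOf A e0 := he0
  have h1ne : (1 : H →L[ℂ] H) ≠ 0 := by
    intro h10
    apply he0'.2.2.1
    rw [← mul_one e0, h10, mul_zero]
  have hε : 0 ≤ ε := by
    by_contra hneg
    rw [not_le] at hneg
    obtain ⟨p, a, q, -, -, -, -, -, -, -, hb⟩ := h 1 (IsSelfAdjoint.one _) ∅ 1 one_pos
    have h1 : 0 < ‖(1 : H →L[ℂ] H)‖ := norm_pos_iff.mpr h1ne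
    nlinarith [norm_nonneg (q * (pinching p 1 - a) * q)]
  intro n T hT
  obtain ⟨e, he, hinj⟩ : ∃ e : Fin n → H →L[ℂ] H,
      (∀ j, IsAtomOf A (e j)) ∧ Function.Injective e := by
    refine ⟨fun j => ((hinf.natEmbedding _ (j : ℕ) : {e : H →L[ℂ] H | IsAtomOf A e}) :
      H →L[ℂ] H), fun j => (hinf.natEmbedding _ (j : ℕ)).2, ?_⟩
    intro j k hjk
    exact Fin.val_injective ((hinf.natEmbedding _).injective (Subtype.val_injective hjk))
  choose u hu heu using fun j => atom_exists_unit A (he j)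
  have hxsa := isSelfAdjoint_synth_conj u T hT
  exact exists_paved_of_slack T (ε * ‖T‖) (fun η hη =>
    paved_of_soPavable_atoms A M hAc e he hinj u hu heu T hε (h _ hxsa) hη)

/-- **MASAs with infinitely many atoms.** Over a MASA `A` of `B(H)` with infinitely many atoms,
every self-adjoint operator is `(ε, r)` so-pavable if and only if finite matrices are
`(ε, r)`-pavable over their diagonals. -/
theorem soPavable_iff_matrixPavable (A M : VonNeumannAlgebra H) (hM : ∀ y : H →L[ℂ] H, y ∈ M)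
    (hA : IsMASA A M) (hinf : Set.Infinite {e : H →L[ℂ] H | IsAtomOf A e}) (ε : ℝ) (r : ℕ) :
    (∀ x : H →L[ℂ] H, IsSelfAdjoint x → SoPavable A M x ε r) ↔ MatrixPavable ε r :=
  ⟨fun h => matrixPavable_of_soPavable_atoms A M hA hinf h,
    fun hmp x hx => soPavable_of_isMASA hmp A M hM hA x hx⟩

/-- **The so-paving number of a MASA with infinitely many atoms** is the paving number of finite
matrices. -/
theorem soPavingNumber_eq_of_infinite_atoms (A M : VonNeumannAlgebra H)
    (hM : ∀ y : H →L[ℂ] H, y ∈ M) (hA : IsMASA A M)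
    (hinf : Set.Infinite {e : H →L[ℂ] H | IsAtomOf A e}) (ε : ℝ) :
    soPavingNumber A M ε = ⨅ (r : ℕ) (_ : 1 ≤ r ∧ MatrixPavable ε r), (r : ℕ∞) := by
  unfold soPavingNumber
  have hiff : ∀ r : ℕ, (1 ≤ r ∧ ∀ x ∈ M, IsSelfAdjoint x → SoPavable A M x ε r) ↔
      (1 ≤ r ∧ MatrixPavable ε r) := by
    intro r
    rw [← soPavable_iff_matrixPavable A M hM hA hinf ε r]
    exact ⟨fun h => ⟨h.1, fun x hx => h.2 x (hM x) hx⟩, fun h => ⟨h.1, fun x _ hx => h.2 x hx⟩⟩
  refine le_antisymm ?_ ?_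
  · refine le_iInf (fun r => le_iInf (fun hr => ?_))
    exact iInf₂_le r ((hiff r).2 hr)
  · refine le_iInf (fun r => le_iInf (fun hr => ?_))
    exact iInf₂_le r ((hiff r).1 hr)

end Vale.Agent.Lib.P078
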