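import Vale.Agent.Lib.P078.TypeOneDefs

/-!
# Type I von Neumann algebras: from an abelian projection of `M` to one of the commutant

Let `M` be a von Neumann algebra on `H` with an abelian projection `f` of central support `1`
(the standard definition of a type I von Neumann algebra).  A maximal family `Ξ` of vectors
fixed by `f` which are pairwise centrally orthogonal gives the projection `e` of the commutant
`M'` onto the closed span of `M Ξ`; it is abelian in `M'` and `x ↦ x e` is injective on `M`.
Hence the so-paving theorem of `InduceMain.lean` applies to every type I von Neumann algebra.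
-/

namespace Vale.Agent.Lib.P078

open scoped InnerProductSpace

variable {H : Type*} [NormedAddCommGroup H] [InnerProductSpace ℂ H] [CompleteSpace H]

/-! ### Cyclic projections of vectors under an abelian projection -/

/-- Compressions by a projection `f` commute with `t * f` whenever `t` commutes with them and
with `f`. -/
lemma taskZ1_comm_corner (M : VonNeumannAlgebra H) (f : H →L[ℂ] H) (hf : f ∈ M)
    (hfp : IsStarProjection f) (t : H →L[ℂ] H) (ht : t ∈ M.commutant)
    (m : H →L[ℂ] H) (hm : m ∈ M) :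
    (f * m * f) * (t * f) = (t * f) * (f * m * f) := by
  have hff : f * f = f := hfp.isIdempotentElem.eq
  have hb : f * m * f ∈ M := mul_mem (mul_mem hf hm) hf
  have h1 : t * (f * m * f) = (f * m * f) * t := commutant_comm M hb ht
  calc (f * m * f) * (t * f) = ((f * m * f) * t) * f := by simp only [mul_assoc]
    _ = (t * (f * m * f)) * f := by rw [h1]
    _ = t * (f * m * (f * f)) := by simp only [mul_assoc]
    _ = t * ((f * f) * m * f) := by rw [hff]
    _ = (t * f) * (f * m * f) := by simp only [mul_assoc]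

theorem abelian_cyclic_projection (M : VonNeumannAlgebra H) (f : H →L[ℂ] H) (hf : f ∈ M)
    (hfp : IsStarProjection f)
    (hfab : ∀ a ∈ M, ∀ b ∈ M, (f * a * f) * (f * b * f) = (f * b * f) * (f * a * f))
    (hfc : ∀ z ∈ M.commutant, z * f = 0 → z = 0) (ξ : H) (hξ : f ξ = ξ)
    (y z : H →L[ℂ] H) (hy : y ∈ M.commutant) (hz : z ∈ M.commutant) :
    ((orbit M ξ).topologicalClosure.starProjection * y *
        (orbit M ξ).topologicalClosure.starProjection) *
      ((orbit M ξ).topologicalClosure.starProjection * z *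
        (orbit M ξ).topologicalClosure.starProjection)
    = ((orbit M ξ).topologicalClosure.starProjection * z *
        (orbit M ξ).topologicalClosure.starProjection) *
      ((orbit M ξ).topologicalClosure.starProjection * y *
        (orbit M ξ).topologicalClosure.starProjection) := by
  have hff : f * f = f := hfp.isIdempotentElem.eq
  have hfs : star f = f := hfp.isSelfAdjoint.star_eq
  -- the cyclic projection and its basic properties
  have heM' : (orbit M ξ).topologicalClosure.starProjection ∈ M.commutant := by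
    refine starProjection_closure_mem M.commutant (orbit M ξ) ?_
    intro m hm v hv
    rw [VonNeumannAlgebra.commutant_commutant] at hm
    obtain ⟨a, ha, rfl⟩ := hv
    exact ⟨m * a, mul_mem hm ha, rfl⟩
  have hemem' : ∀ w : H, (orbit M ξ).topologicalClosure.starProjection w
      ∈ (orbit M ξ).topologicalClosure := fun w => Submodule.starProjection_apply_mem _ w
  have heP' : IsStarProjection (orbit M ξ).topologicalClosure.starProjection :=
    isStarProjection_starProjection
  obtain ⟨e, he⟩ : ∃ e, e = (orbit M ξ).topologicalClosure.starProjection := ⟨_, rfl⟩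
  rw [← he] at heM' hemem' heP' ⊢
  have hes : star e = e := heP'.isSelfAdjoint.star_eq
  -- the abelian hull of the corner
  have hSc : ∀ a ∈ {b : H →L[ℂ] H | ∃ m ∈ M, b = f * m * f},
      ∀ b ∈ {b : H →L[ℂ] H | ∃ m ∈ M, b = f * m * f}, a * b = b * a := by
    rintro _ ⟨m, hm, rfl⟩ _ ⟨m', hm', rfl⟩
    exact hfab m hm m' hm'
  have hSstar : ∀ a ∈ {b : H →L[ℂ] H | ∃ m ∈ M, b = f * m * f},
      star a ∈ {b : H →L[ℂ] H | ∃ m ∈ M, b = f * m * f} := by
    rintro _ ⟨m, hm, rfl⟩
    refine ⟨star m, star_mem hm, ?_⟩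
    rw [star_mul, star_mul, hfs, mul_assoc]
  obtain ⟨Cn, hCn⟩ : ∃ Cn : VonNeumannAlgebra H,
      Cn = taskG_centralizer {b : H →L[ℂ] H | ∃ m ∈ M, b = f * m * f} := ⟨_, rfl⟩
  have hCmem : ∀ T : H →L[ℂ] H, T ∈ Cn ↔ ∀ b ∈ {b : H →L[ℂ] H | ∃ m ∈ M, b = f * m * f},
      b * T = T * b ∧ star b * T = T * star b := by
    intro T
    rw [hCn]
    exact taskG_mem_centralizer _ T
  have hSC : ∀ a ∈ {b : H →L[ℂ] H | ∃ m ∈ M, b = f * m * f}, a ∈ Cn := by
    intro a ha
    rw [hCmem]
    intro b hb
    exact ⟨hSc b hb a ha, hSc (star b) (hSstar b hb) a ha⟩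
  have hWcomm : ∀ g ∈ Cn.commutant, ∀ b ∈ {b : H →L[ℂ] H | ∃ m ∈ M, b = f * m * f},
      b * g = g * b := by
    intro g hg b hb
    rw [VonNeumannAlgebra.mem_commutant_iff] at hg
    exact hg b (hSC b hb)
  have hWc : ∀ a ∈ Cn.commutant, ∀ b ∈ Cn.commutant, a * b = b * a := by
    intro g hg g' hg'
    have hg'C : g' ∈ Cn := by
      rw [hCmem]
      intro b hb
      exact ⟨hWcomm g' hg' b hb, hWcomm g' hg' (star b) (hSstar b hb)⟩
    rw [VonNeumannAlgebra.mem_commutant_iff] at hg
    exact (hg g' hg'C).symm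
  have hSW : ∀ a ∈ {b : H →L[ℂ] H | ∃ m ∈ M, b = f * m * f}, a ∈ Cn.commutant := by
    intro a ha
    rw [VonNeumannAlgebra.mem_commutant_iff]
    intro g hg
    rw [hCmem] at hg
    exact ((hg a ha).1).symm
  have hCW : ∀ T ∈ Cn, ∀ g ∈ Cn.commutant, g * T = T * g := by
    intro T hT g hg
    rw [VonNeumannAlgebra.mem_commutant_iff] at hg
    exact (hg T hT).symm
  -- operators of the commutant times `f` lie in the centralizer
  have hTC : ∀ t ∈ M.commutant, t * f ∈ Cn := by
    intro t ht
    rw [hCmem]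
    rintro _ ⟨m, hm, rfl⟩
    refine ⟨taskZ1_comm_corner M f hf hfp t ht m hm, ?_⟩
    have h1 : star (f * m * f) = f * star m * f := by
      rw [star_mul, star_mul, hfs, mul_assoc]
    rw [h1]
    exact taskZ1_comm_corner M f hf hfp t ht (star m) (star_mem hm)
  -- `f` maps the cyclic subspace of `M` into that of the hull
  have hfmap : (orbit M ξ).topologicalClosure ≤
      Submodule.comap (f : H →ₗ[ℂ] H) (orbit Cn.commutant ξ).topologicalClosure := by
    refine Submodule.topologicalClosure_minimal _ ?_ ?_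
    · rintro _ ⟨a, ha, rfl⟩
      rw [Submodule.mem_comap]
      apply Submodule.le_topologicalClosure
      refine ⟨f * a * f, hSW _ ⟨a, ha, rfl⟩, ?_⟩
      rw [mul_apply_eq_comp, mul_apply_eq_comp, hξ]
      rfl
    · exact ((orbit Cn.commutant ξ).isClosed_topologicalClosure).preimage f.continuous
  have hpP' : IsStarProjection (orbit Cn.commutant ξ).topologicalClosure.starProjection :=
    isStarProjection_starProjection
  have hpfix' : ∀ w : H, (orbit Cn.commutant ξ).topologicalClosure.starProjection (f (e w))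
      = f (e w) := by
    intro w
    rw [Submodule.starProjection_eq_self_iff]
    exact hfmap (hemem' w)
  have hcyc := cyclic_commutant_comm Cn.commutant hWc ξ
  obtain ⟨p, hp⟩ : ∃ p, p = (orbit Cn.commutant ξ).topologicalClosure.starProjection :=
    ⟨_, rfl⟩
  rw [← hp] at hpP' hpfix' hcyc
  have hps : star p = p := hpP'.isSelfAdjoint.star_eq
  -- support of the compressed operators
  have hleft : ∀ t ∈ M.commutant, p * ((e * t * e) * f) = (e * t * e) * f := by
    intro t ht
    have hT : e * t * e ∈ M.commutant := mul_mem (mul_mem heM' ht) heM'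
    have hcomm : (e * t * e) * f = f * (e * t * e) := commutant_comm M hf hT
    rw [hcomm]
    ext v
    rw [mul_apply_eq_comp, mul_apply_eq_comp, mul_apply_eq_comp, mul_apply_eq_comp]
    exact hpfix' (t (e v))
  have hright : ∀ t ∈ M.commutant, ((e * t * e) * f) * p = (e * t * e) * f := by
    intro t ht
    have hT : e * t * e ∈ M.commutant := mul_mem (mul_mem heM' ht) heM'
    have hcomm : (e * t * e) * f = f * (e * t * e) := commutant_comm M hf hT
    have h1 := congrArg star (hleft (star t) (star_mem ht))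
    rw [star_mul, star_mul, star_mul, star_mul, hps, hfs, hes, star_star, ← mul_assoc e t e] at h1
    rw [hcomm]
    exact h1
  have hboth : ∀ t ∈ M.commutant, p * ((e * t * e) * f) * p = (e * t * e) * f := by
    intro t ht
    rw [hleft t ht, hright t ht]
  have hYM : e * y * e ∈ M.commutant := mul_mem (mul_mem heM' hy) heM'
  have hZM : e * z * e ∈ M.commutant := mul_mem (mul_mem heM' hz) heM'
  have hkey := hcyc ((e * y * e) * f) ((e * z * e) * f)
    (fun g hg => hCW _ (hTC _ hYM) g hg) (fun g hg => hCW _ (hTC _ hZM) g hg)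
    (hboth y hy) (hboth z hz)
  have hYf : (e * y * e) * f = f * (e * y * e) := commutant_comm M hf hYM
  have hZf : (e * z * e) * f = f * (e * z * e) := commutant_comm M hf hZM
  have h1 : ((e * y * e) * f) * ((e * z * e) * f) = ((e * y * e) * (e * z * e)) * f := by
    calc ((e * y * e) * f) * ((e * z * e) * f)
        = (e * y * e) * (f * (e * z * e)) * f := by simp only [mul_assoc]
      _ = (e * y * e) * ((e * z * e) * f) * f := by rw [hZf]
      _ = ((e * y * e) * (e * z * e)) * (f * f) := by simp only [mul_assoc]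
      _ = ((e * y * e) * (e * z * e)) * f := by rw [hff]
  have h2 : ((e * z * e) * f) * ((e * y * e) * f) = ((e * z * e) * (e * y * e)) * f := by
    calc ((e * z * e) * f) * ((e * y * e) * f)
        = (e * z * e) * (f * (e * y * e)) * f := by simp only [mul_assoc]
      _ = (e * z * e) * ((e * y * e) * f) * f := by rw [hYf]
      _ = ((e * z * e) * (e * y * e)) * (f * f) := by simp only [mul_assoc]
      _ = ((e * z * e) * (e * y * e)) * f := by rw [hff]
  have h3 : ((e * y * e) * (e * z * e) - (e * z * e) * (e * y * e)) * f = 0 := by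
    rw [sub_mul, ← h1, ← h2, hkey, sub_self]
  have h4 := hfc _ (sub_mem (mul_mem hYM hZM) (mul_mem hZM hYM)) h3
  exact sub_eq_zero.mp h4

/-! ### A maximal centrally orthogonal family -/

/-- A maximal centrally orthogonal family of vectors fixed by `f` exists (Zorn). -/
theorem exists_maximal_cofamily (M : VonNeumannAlgebra H) (f : H →L[ℂ] H) :
    ∃ Ξ : Set H, IsCOFamily M f Ξ ∧ ∀ Ξ' : Set H, IsCOFamily M f Ξ' → Ξ ⊆ Ξ' → Ξ' ⊆ Ξ := by
  have hzorn : ∀ c ⊆ {Ξ : Set H | IsCOFamily M f Ξ}, IsChain (· ⊆ ·) c →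
      ∃ ub ∈ {Ξ : Set H | IsCOFamily M f Ξ}, ∀ s ∈ c, s ⊆ ub := by
    intro c hc hchain
    have hmem : ∀ s ∈ c, IsCOFamily M f s := fun s hs => hc hs
    refine ⟨⋃₀ c, ⟨?_, ?_⟩, fun s hs => Set.subset_sUnion_of_mem hs⟩
    · intro ξ hξ
      obtain ⟨s, hs, hξs⟩ := Set.mem_sUnion.mp hξ
      exact (hmem s hs).1 ξ hξs
    · intro ξ hξ ξ' hξ' hne
      obtain ⟨s, hs, hξs⟩ := Set.mem_sUnion.mp hξ
      obtain ⟨s', hs', hξs'⟩ := Set.mem_sUnion.mp hξ'
      rcases hchain.total hs hs' with h | h
      · exact (hmem s' hs').2 ξ (h hξs) ξ' hξs' hne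
      · exact (hmem s hs).2 ξ hξs ξ' (h hξs') hne
  obtain ⟨Ξ, hΞ⟩ := zorn_subset {Ξ : Set H | IsCOFamily M f Ξ} hzorn
  have hΞ1 : IsCOFamily M f Ξ := hΞ.1
  exact ⟨Ξ, hΞ1, fun Ξ' hΞ' hsub => hΞ.2 (show Ξ' ∈ {Ξ : Set H | IsCOFamily M f Ξ} from hΞ') hsub⟩

/-! ### Faithfulness of a maximal family -/

/-- The linear span of `M' M Ξ`. -/
def taskZ3a_G (M : VonNeumannAlgebra H) (Ξ : Set H) : Submodule ℂ H :=
  Submodule.span ℂ {v | ∃ y ∈ M.commutant, ∃ m ∈ M, ∃ ξ ∈ Ξ, v = y (m ξ)}

/-- The span of `M' M Ξ` is invariant under the commutant. -/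
lemma taskZ3a_G_inv_comm (M : VonNeumannAlgebra H) (Ξ : Set H) :
    ∀ y ∈ M.commutant, ∀ v ∈ taskZ3a_G M Ξ, y v ∈ taskZ3a_G M Ξ := by
  intro y hy v hv
  unfold taskZ3a_G at hv ⊢
  induction hv using Submodule.span_induction with
  | mem v hv =>
    obtain ⟨y', hy', m, hm, ξ, hξ, rfl⟩ := hv
    exact Submodule.subset_span ⟨y * y', mul_mem hy hy', m, hm, ξ, hξ, rfl⟩
  | zero => simp
  | add u v _ _ hu hv => rw [map_add]; exact add_mem hu hv
  | smul c v _ hv => rw [map_smul]; exact Submodule.smul_mem _ c hv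

/-- The span of `M' M Ξ` is invariant under `M`. -/
lemma taskZ3a_G_inv (M : VonNeumannAlgebra H) (Ξ : Set H) :
    ∀ m ∈ M, ∀ v ∈ taskZ3a_G M Ξ, m v ∈ taskZ3a_G M Ξ := by
  intro m hm v hv
  unfold taskZ3a_G at hv ⊢
  induction hv using Submodule.span_induction with
  | mem v hv =>
    obtain ⟨y, hy, m', hm', ξ, hξ, rfl⟩ := hv
    refine Submodule.subset_span ⟨y, hy, m * m', mul_mem hm hm', ξ, hξ, ?_⟩
    have h := commutant_comm M hm hy
    have h2 : (m * y) (m' ξ) = (y * m) (m' ξ) := by rw [h]
    exact h2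
  | zero => simp
  | add u v _ _ hu hv => rw [map_add]; exact add_mem hu hv
  | smul c v _ hv => rw [map_smul]; exact Submodule.smul_mem _ c hv

/-- An element of `M` killing the projection onto the closed span of `M Ξ` kills the projection
onto the closed span of `M' M Ξ`. -/
lemma taskZ3a_vanish (M : VonNeumannAlgebra H) (Ξ : Set H) (x : H →L[ℂ] H) (hx : x ∈ M)
    (hxe : x * (famSpan M Ξ).topologicalClosure.starProjection = 0) :
    x * (taskZ3a_G M Ξ).topologicalClosure.starProjection = 0 := by
  have h1 : ∀ m ∈ M, ∀ ξ ∈ Ξ, x (m ξ) = 0 := by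
    intro m hm ξ hξ
    have hmem : m ξ ∈ famSpan M Ξ := Submodule.subset_span ⟨m, hm, ξ, hξ, rfl⟩
    have he : (famSpan M Ξ).topologicalClosure.starProjection (m ξ) = m ξ :=
      Submodule.starProjection_eq_self_iff.mpr ((famSpan M Ξ).le_topologicalClosure hmem)
    have h2 : (x * (famSpan M Ξ).topologicalClosure.starProjection) (m ξ) = 0 := by
      rw [hxe, zero_apply]
    rw [mul_apply_eq_comp, he] at h2
    exact h2
  have hker : (taskZ3a_G M Ξ).topologicalClosure
      ≤ LinearMap.ker ((x : H →L[ℂ] H) : H →ₗ[ℂ] H) := by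
    refine Submodule.topologicalClosure_minimal _ ?_ x.isClosed_ker
    unfold taskZ3a_G
    rw [Submodule.span_le]
    rintro _ ⟨y, hy, m, hm, ξ, hξ, rfl⟩
    rw [SetLike.mem_coe, LinearMap.mem_ker]
    show x (y (m ξ)) = 0
    have hcomm := commutant_comm M hx hy
    have h3 : (x * y) (m ξ) = (y * x) (m ξ) := by rw [hcomm]
    have h4 : x (y (m ξ)) = y (x (m ξ)) := h3
    rw [h4, h1 m hm ξ hξ, map_zero]
  ext v
  rw [mul_apply_eq_comp, zero_apply]
  have hv : (taskZ3a_G M Ξ).topologicalClosure.starProjection v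
      ∈ (taskZ3a_G M Ξ).topologicalClosure := Submodule.starProjection_apply_mem _ v
  exact LinearMap.mem_ker.mp (hker hv)

theorem faithful_of_maximal (M : VonNeumannAlgebra H) (f : H →L[ℂ] H) (hf : f ∈ M)
    (hfp : IsStarProjection f) (hfc : ∀ z ∈ M.commutant, z * f = 0 → z = 0)
    (Ξ : Set H) (hΞ : IsCOFamily M f Ξ)
    (hmax : ∀ Ξ' : Set H, IsCOFamily M f Ξ' → Ξ ⊆ Ξ' → Ξ' ⊆ Ξ) :
    ∀ x ∈ M, x * (famSpan M Ξ).topologicalClosure.starProjection = 0 → x = 0 := by
  intro x hx hxe
  obtain ⟨c, hc⟩ : ∃ c : H →L[ℂ] H,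
      c = (taskZ3a_G M Ξ).topologicalClosure.starProjection := ⟨_, rfl⟩
  have hxc : x * c = 0 := by
    rw [hc]
    exact taskZ3a_vanish M Ξ x hx hxe
  have hcM : c ∈ M := by
    rw [hc]
    exact starProjection_closure_mem M _ (taskZ3a_G_inv_comm M Ξ)
  have hcM' : c ∈ M.commutant := by
    rw [hc]
    apply starProjection_closure_mem M.commutant
    rw [VonNeumannAlgebra.commutant_commutant]
    exact taskZ3a_G_inv M Ξ
  have hcp : IsStarProjection c := by
    rw [hc]
    exact isStarProjection_starProjection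
  have hcG : ∀ v ∈ taskZ3a_G M Ξ, c v = v := by
    intro v hv
    rw [hc]
    exact Submodule.starProjection_eq_self_iff.mpr ((taskZ3a_G M Ξ).le_topologicalClosure hv)
  have hgen : ∀ y ∈ M.commutant, ∀ m ∈ M, ∀ ξ ∈ Ξ, y (m ξ) ∈ taskZ3a_G M Ξ := by
    intro y hy m hm ξ hξ
    exact Submodule.subset_span ⟨y, hy, m, hm, ξ, hξ, rfl⟩
  have hc1 : c = 1 := by
    by_contra hne
    obtain ⟨z, hz⟩ : ∃ z : H →L[ℂ] H, z = 1 - c := ⟨_, rfl⟩
    have hz0 : z ≠ 0 := by
      intro h0
      apply hne
      rw [hz, sub_eq_zero] at h0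
      exact h0.symm
    have hzM : z ∈ M := by
      rw [hz]
      exact sub_mem (one_mem _) hcM
    have hzM' : z ∈ M.commutant := by
      rw [hz]
      exact sub_mem (one_mem _) hcM'
    have hzz : z * z = z := by
      rw [hz, mul_sub, mul_one, sub_mul, one_mul, hcp.isIdempotentElem.eq, sub_self, sub_zero]
    have hzsa : star z = z := by
      rw [hz, star_sub, star_one, hcp.isSelfAdjoint.star_eq]
    have hzadj : ∀ a b : H, ⟪z a, b⟫_ℂ = ⟪a, z b⟫_ℂ := by
      intro a b
      have h := ContinuousLinearMap.adjoint_inner_right z a b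
      rw [← ContinuousLinearMap.star_eq_adjoint, hzsa] at h
      exact h.symm
    have hzG : ∀ v ∈ taskZ3a_G M Ξ, z v = 0 := by
      intro v hv
      rw [hz, sub_apply, one_apply_eq_self, hcG v hv, sub_self]
    have hzf : z * f ≠ 0 := fun h => hz0 (hfc z hzM' h)
    obtain ⟨v, hv⟩ : ∃ v, z (f v) ≠ 0 := by
      by_contra hcon
      push Not at hcon
      apply hzf
      ext v
      rw [mul_apply_eq_comp, zero_apply]
      exact hcon v
    have hfξ' : f (z (f v)) = z (f v) := by
      have h1 := commutant_comm M hf hzM'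
      have h2 : (f * z) (f v) = (z * f) (f v) := by rw [h1]
      have h3 : f (z (f v)) = z (f (f v)) := h2
      have h4 : f (f v) = f v := by
        have h5 : (f * f) v = f v := by rw [hfp.isIdempotentElem.eq]
        exact h5
      rw [h3, h4]
    have hzξ' : z (z (f v)) = z (f v) := by
      have h1 : (z * z) (f v) = z (f v) := by rw [hzz]
      exact h1
    have hzΞ : ∀ ξ ∈ Ξ, z ξ = 0 := by
      intro ξ hξ
      exact hzG ξ (hgen 1 (one_mem _) 1 (one_mem _) ξ hξ)
    have hnot : z (f v) ∉ Ξ := by
      intro hmem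
      have h1 := hzΞ _ hmem
      rw [hzξ'] at h1
      exact hv h1
    have hco : IsCOFamily M f (insert (z (f v)) Ξ) := by
      refine ⟨?_, ?_⟩
      · intro ξ hξ
        rcases Set.mem_insert_iff.mp hξ with h | h
        · rw [h]
          exact hfξ'
        · exact hΞ.1 ξ h
      · intro ξ hξ ξ₂ hξ₂ hne2
        rcases Set.mem_insert_iff.mp hξ with h | h
        · rcases Set.mem_insert_iff.mp hξ₂ with h' | h'
          · exact absurd (h.trans h'.symm) hne2
          · rw [h]
            intro m hm y hy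
            have e1 : y (m (z (f v))) = z (y (m (f v))) := by
              have ha := commutant_comm M hm hzM'
              have hb := commutant_comm M hzM hy
              have h1 : (m * z) (f v) = (z * m) (f v) := by rw [ha]
              have h2 : m (z (f v)) = z (m (f v)) := h1
              have h3 : (y * z) (m (f v)) = (z * y) (m (f v)) := by rw [hb]
              have h4 : y (z (m (f v))) = z (y (m (f v))) := h3
              rw [h2, h4]
            rw [e1, hzadj, hzΞ ξ₂ h', inner_zero_right]
        · rcases Set.mem_insert_iff.mp hξ₂ with h' | h'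
          · rw [h']
            intro m hm y hy
            rw [← hzadj (y (m ξ)) (f v), hzG _ (hgen y hy m hm ξ h), inner_zero_left]
          · exact hΞ.2 ξ h ξ₂ h' hne2
    exact hnot (hmax _ hco (Set.subset_insert _ _) (Set.mem_insert _ _))
  rw [hc1, mul_one] at hxc
  exact hxc

/-! ### The projection onto the closed span is abelian -/

/-- The linear span of the vectors `y (m ξ)` with `y` in the commutant of `M` and `m` in `M`. -/
def taskZ3b_G (M : VonNeumannAlgebra H) (ξ : H) : Submodule ℂ H :=
  Submodule.span ℂ {v | ∃ y ∈ M.commutant, ∃ m ∈ M, v = y (m ξ)}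

omit [CompleteSpace H] in
/-- A vector orthogonal to a set is orthogonal to the closure of its span. -/
lemma taskZ3b_span_orth (S : Set H) (x : H) (h : ∀ v ∈ S, ⟪v, x⟫_ℂ = 0) :
    x ∈ (Submodule.span ℂ S).topologicalClosureᗮ := by
  rw [Submodule.orthogonal_closure, Submodule.mem_orthogonal]
  intro u hu
  induction hu using Submodule.span_induction with
  | mem v hv => exact h v hv
  | zero => exact inner_zero_left _
  | add u v _ _ hu hv => rw [inner_add_left, hu, hv, add_zero]
  | smul c v _ hv => rw [inner_smul_left, hv, mul_zero]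

/-- Central orthogonality of `ξ` and `ξ'` makes `y (a ξ)` orthogonal to `m ξ'`. -/
lemma taskZ3b_inner (M : VonNeumannAlgebra H) {ξ ξ' : H} (h : COrth M ξ ξ')
    {y a m : H →L[ℂ] H} (hy : y ∈ M.commutant) (ha : a ∈ M) (hm : m ∈ M) :
    ⟪y (a ξ), m ξ'⟫_ℂ = 0 := by
  have h1 : ⟪y (a ξ), m ξ'⟫_ℂ = ⟪(star m) (y (a ξ)), ξ'⟫_ℂ := by
    rw [ContinuousLinearMap.star_eq_adjoint, ContinuousLinearMap.adjoint_inner_left]
  have hc : y * star m = star m * y := commutant_comm M (star_mem hm) hy
  have e1 : (star m) (y (a ξ)) = (star m * y) (a ξ) := (mul_apply_eq_comp (star m) y (a ξ)).symm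
  have e2 : y ((star m * a) ξ) = (y * star m) (a ξ) := by
    rw [mul_apply_eq_comp, mul_apply_eq_comp]
  have h2 : (star m) (y (a ξ)) = y ((star m * a) ξ) := by
    rw [e1, e2, hc]
  rw [h1, h2]
  exact h (star m * a) (mul_mem (star_mem hm) ha) y hy

lemma taskZ3b_orbit_le (M : VonNeumannAlgebra H) (Ξ : Set H) {ξ : H} (hξ : ξ ∈ Ξ) :
    orbit M ξ ≤ famSpan M Ξ := by
  rintro v ⟨a, ha, rfl⟩
  exact Submodule.subset_span ⟨a, ha, ξ, hξ, rfl⟩

/-- Key lemma: on a vector orthogonal to all `M ξ'`, `ξ' ≠ ξ`, the projection onto the closed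
span of `M Ξ` agrees with the cyclic projection of `ξ`. -/
lemma taskZ3b_key (M : VonNeumannAlgebra H) (f : H →L[ℂ] H) (Ξ : Set H)
    (hΞ : IsCOFamily M f Ξ) {ξ : H} (hξ : ξ ∈ Ξ) (w : H)
    (hw : ∀ m ∈ M, ∀ ξ' ∈ Ξ, ξ' ≠ ξ → ⟪w, m ξ'⟫_ℂ = 0) :
    (famSpan M Ξ).topologicalClosure.starProjection w
      = (orbit M ξ).topologicalClosure.starProjection w := by
  have hmem : (orbit M ξ).topologicalClosure.starProjection w
      ∈ (famSpan M Ξ).topologicalClosure :=
    Submodule.topologicalClosure_mono (taskZ3b_orbit_le M Ξ hξ)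
      (Submodule.starProjection_apply_mem _ w)
  have hd : w - (orbit M ξ).topologicalClosure.starProjection w
      ∈ (famSpan M Ξ).topologicalClosureᗮ := by
    unfold famSpan
    apply taskZ3b_span_orth
    rintro v ⟨m, hm, ξ'', hξ'', rfl⟩
    rw [inner_eq_zero_symm]
    by_cases hne : ξ'' = ξ
    · rw [hne]
      have h1 := Submodule.sub_starProjection_mem_orthogonal
        (K := (orbit M ξ).topologicalClosure) w
      rw [Submodule.mem_orthogonal'] at h1
      exact h1 (m ξ) (Submodule.le_topologicalClosure _ ⟨m, hm, rfl⟩)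
    · have h1 : ⟪w, m ξ''⟫_ℂ = 0 := hw m hm ξ'' hξ'' hne
      have h2 : m ξ'' ∈ (orbit M ξ).topologicalClosureᗮ := by
        rw [Submodule.orthogonal_closure, Submodule.mem_orthogonal]
        rintro u ⟨a, ha, rfl⟩
        have h3 := taskZ3b_inner M (hΞ.2 ξ hξ ξ'' hξ'' (fun h => hne h.symm))
          (one_mem M.commutant) ha hm
        rw [one_apply_eq_self] at h3
        exact h3
      have h4 : ⟪(orbit M ξ).topologicalClosure.starProjection w, m ξ''⟫_ℂ = 0 :=
        (Submodule.mem_orthogonal _ _).mp h2 _ (Submodule.starProjection_apply_mem _ w)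
      rw [inner_sub_left, h1, h4, sub_zero]
  refine Submodule.eq_starProjection_of_mem_of_inner_eq_zero hmem ?_
  intro x hx
  exact (Submodule.mem_orthogonal' _ _).mp hd x hx

/-- The key lemma applies to the closure of the span of `M' M ξ`. -/
lemma taskZ3b_key_G (M : VonNeumannAlgebra H) (f : H →L[ℂ] H) (Ξ : Set H)
    (hΞ : IsCOFamily M f Ξ) {ξ : H} (hξ : ξ ∈ Ξ) (w : H)
    (hw : w ∈ (taskZ3b_G M ξ).topologicalClosure) :
    (famSpan M Ξ).topologicalClosure.starProjection w
      = (orbit M ξ).topologicalClosure.starProjection w := by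
  refine taskZ3b_key M f Ξ hΞ hξ w ?_
  intro m hm ξ' hξ' hne
  have h1 : m ξ' ∈ (taskZ3b_G M ξ).topologicalClosureᗮ := by
    unfold taskZ3b_G
    apply taskZ3b_span_orth
    rintro v ⟨y, hy, a, ha, rfl⟩
    exact taskZ3b_inner M (hΞ.2 ξ hξ ξ' hξ' (fun h => hne h.symm)) hy ha hm
  exact (Submodule.mem_orthogonal _ _).mp h1 w hw

/-- On a vector of the family the two compressed products agree. -/
lemma taskZ3b_apply (M : VonNeumannAlgebra H) (f : H →L[ℂ] H) (Ξ : Set H)
    (hΞ : IsCOFamily M f Ξ) {ξ : H} (hξ : ξ ∈ Ξ) (y z : H →L[ℂ] H) (hy : y ∈ M.commutant)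
    (hz : z ∈ M.commutant) :
    (((famSpan M Ξ).topologicalClosure.starProjection * y *
        (famSpan M Ξ).topologicalClosure.starProjection) *
      ((famSpan M Ξ).topologicalClosure.starProjection * z *
        (famSpan M Ξ).topologicalClosure.starProjection)) ξ
    = (((orbit M ξ).topologicalClosure.starProjection * y *
        (orbit M ξ).topologicalClosure.starProjection) *
      ((orbit M ξ).topologicalClosure.starProjection * z *
        (orbit M ξ).topologicalClosure.starProjection)) ξ := by
  obtain ⟨e, he⟩ : ∃ e, e = (famSpan M Ξ).topologicalClosure.starProjection := ⟨_, rfl⟩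
  obtain ⟨p, hp⟩ : ∃ p, p = (orbit M ξ).topologicalClosure.starProjection := ⟨_, rfl⟩
  have hKey : ∀ w ∈ (taskZ3b_G M ξ).topologicalClosure, e w = p w := by
    intro w hw
    rw [he, hp]
    exact taskZ3b_key_G M f Ξ hΞ hξ w hw
  have heξ : e ξ = ξ := by
    rw [he, Submodule.starProjection_eq_self_iff]
    exact Submodule.le_topologicalClosure _
      (Submodule.subset_span ⟨1, one_mem M, ξ, hξ, (one_apply_eq_self ξ).symm⟩)
  have hpξ : p ξ = ξ := by
    rw [hp, Submodule.starProjection_eq_self_iff]
    exact Submodule.le_topologicalClosure _ ⟨1, one_mem M, one_apply_eq_self ξ⟩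
  have hee : ∀ v, e (e v) = e v := by
    intro v
    rw [he, Submodule.starProjection_eq_self_iff]
    exact Submodule.starProjection_apply_mem _ v
  have hpp : ∀ v, p (p v) = p v := by
    intro v
    rw [hp, Submodule.starProjection_eq_self_iff]
    exact Submodule.starProjection_apply_mem _ v
  have hzG : z ξ ∈ (taskZ3b_G M ξ).topologicalClosure :=
    Submodule.le_topologicalClosure _
      (Submodule.subset_span ⟨z, hz, 1, one_mem M, by rw [one_apply_eq_self]⟩)
  have hyG : y (p (z ξ)) ∈ (taskZ3b_G M ξ).topologicalClosure := by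
    have hle : (orbit M ξ).topologicalClosure
        ≤ ((taskZ3b_G M ξ).topologicalClosure).comap (y : H →ₗ[ℂ] H) := by
      refine Submodule.topologicalClosure_minimal _ ?_ ?_
      · rintro v ⟨a, ha, rfl⟩
        exact Submodule.le_topologicalClosure _ (Submodule.subset_span ⟨y, hy, a, ha, rfl⟩)
      · exact ((taskZ3b_G M ξ).isClosed_topologicalClosure).preimage y.continuous
    have hmem : p (z ξ) ∈ (orbit M ξ).topologicalClosure := by
      rw [hp]
      exact Submodule.starProjection_apply_mem _ _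
    exact hle hmem
  rw [← he, ← hp]
  simp only [mul_apply_eq_comp]
  rw [heξ, hpξ, hee, hpp, hKey _ hzG, hKey _ hyG]

theorem abelian_of_cofamily (M : VonNeumannAlgebra H) (f : H →L[ℂ] H) (hf : f ∈ M)
    (hfp : IsStarProjection f)
    (hfab : ∀ a ∈ M, ∀ b ∈ M, (f * a * f) * (f * b * f) = (f * b * f) * (f * a * f))
    (hfc : ∀ z ∈ M.commutant, z * f = 0 → z = 0)
    (Ξ : Set H) (hΞ : IsCOFamily M f Ξ) (y z : H →L[ℂ] H) (hy : y ∈ M.commutant)
    (hz : z ∈ M.commutant) :
    ((famSpan M Ξ).topologicalClosure.starProjection * y *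
        (famSpan M Ξ).topologicalClosure.starProjection) *
      ((famSpan M Ξ).topologicalClosure.starProjection * z *
        (famSpan M Ξ).topologicalClosure.starProjection)
    = ((famSpan M Ξ).topologicalClosure.starProjection * z *
        (famSpan M Ξ).topologicalClosure.starProjection) *
      ((famSpan M Ξ).topologicalClosure.starProjection * y *
        (famSpan M Ξ).topologicalClosure.starProjection) := by
  obtain ⟨e, he⟩ : ∃ e, e = (famSpan M Ξ).topologicalClosure.starProjection := ⟨_, rfl⟩
  rw [← he]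
  have heM : e ∈ M.commutant := by
    rw [he]
    apply starProjection_closure_mem M.commutant
    intro m hm v hv
    rw [VonNeumannAlgebra.commutant_commutant] at hm
    exact famSpan_invariant M Ξ m hm v hv
  have hee : e * e = e := by
    have hP : IsStarProjection (famSpan M Ξ).topologicalClosure.starProjection :=
      isStarProjection_starProjection
    rw [he]
    exact hP.isIdempotentElem.eq
  obtain ⟨D, hD⟩ : ∃ D, D = (e * y * e) * (e * z * e) - (e * z * e) * (e * y * e) := ⟨_, rfl⟩
  have hDM : D ∈ M.commutant := by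
    rw [hD]
    exact sub_mem (mul_mem (mul_mem (mul_mem heM hy) heM) (mul_mem (mul_mem heM hz) heM))
      (mul_mem (mul_mem (mul_mem heM hz) heM) (mul_mem (mul_mem heM hy) heM))
  have hDξ : ∀ ξ ∈ Ξ, D ξ = 0 := by
    intro ξ hξ
    rw [hD, sub_apply, sub_eq_zero, he,
      taskZ3b_apply M f Ξ hΞ hξ y z hy hz, taskZ3b_apply M f Ξ hΞ hξ z y hz hy,
      abelian_cyclic_projection M f hf hfp hfab hfc ξ (hΞ.1 ξ hξ) y z hy hz]
  have hker : (famSpan M Ξ).topologicalClosure ≤ LinearMap.ker (D : H →ₗ[ℂ] H) := by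
    refine Submodule.topologicalClosure_minimal _ ?_ D.isClosed_ker
    unfold famSpan
    rw [Submodule.span_le]
    rintro v ⟨m, hm, ξ, hξ, rfl⟩
    have hc : D * m = m * D := commutant_comm M hm hDM
    rw [SetLike.mem_coe, LinearMap.mem_ker]
    change D (m ξ) = 0
    rw [← mul_apply_eq_comp, hc, mul_apply_eq_comp, hDξ ξ hξ, map_zero]
  have hDe : D * e = D := by
    rw [hD, sub_mul]
    simp only [mul_assoc, hee]
  have hD0 : D = 0 := by
    ext v
    rw [zero_apply, ← hDe, mul_apply_eq_comp]
    have hmem : e v ∈ (famSpan M Ξ).topologicalClosure := by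
      rw [he]
      exact Submodule.starProjection_apply_mem _ v
    exact LinearMap.mem_ker.mp (hker hmem)
  rw [hD] at hD0
  exact sub_eq_zero.mp hD0

/-! ### The commutant of a type I algebra and the so-paving theorem -/

/-- If `M` has an abelian projection with central support `1`, then so does its commutant. -/
theorem exists_abelian_projection_commutant (M : VonNeumannAlgebra H) (f : H →L[ℂ] H)
    (hf : f ∈ M) (hfp : IsStarProjection f)
    (hfab : ∀ a ∈ M, ∀ b ∈ M, (f * a * f) * (f * b * f) = (f * b * f) * (f * a * f))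
    (hfc : ∀ z ∈ M.commutant, z * f = 0 → z = 0) :
    ∃ e ∈ M.commutant, IsStarProjection e ∧
      (∀ y ∈ M.commutant, ∀ z ∈ M.commutant,
        (e * y * e) * (e * z * e) = (e * z * e) * (e * y * e)) ∧
      (∀ x ∈ M, x * e = 0 → x = 0) := by
  obtain ⟨Ξ, hΞ, hmax⟩ := exists_maximal_cofamily M f
  refine ⟨(famSpan M Ξ).topologicalClosure.starProjection, ?_, isStarProjection_starProjection,
    fun y hy z hz => abelian_of_cofamily M f hf hfp hfab hfc Ξ hΞ y z hy hz,
    faithful_of_maximal M f hf hfp hfc Ξ hΞ hmax⟩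
  refine starProjection_closure_mem M.commutant (famSpan M Ξ) ?_
  intro m hm v hv
  rw [VonNeumannAlgebra.commutant_commutant] at hm
  exact famSpan_invariant M Ξ m hm v hv

/-- Finite-dimensional `(ε, r)` paving implies `(ε', r)` so-paving, for every `ε' > ε`, over every
MASA `A` of every type I von Neumann algebra `M`: one with an abelian projection `f` of central
support `1`. -/
theorem soPavable_of_type_one {ε ε' : ℝ} {r : ℕ} (hεε' : ε < ε')
    (hmp : MatrixPavable ε r) (A M : VonNeumannAlgebra H) (hA : IsMASA A M)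
    (f : H →L[ℂ] H) (hf : f ∈ M) (hfp : IsStarProjection f)
    (hfab : ∀ a ∈ M, ∀ b ∈ M, (f * a * f) * (f * b * f) = (f * b * f) * (f * a * f))
    (hfc : ∀ z ∈ M.commutant, z * f = 0 → z = 0)
    (x : H →L[ℂ] H) (hxM : x ∈ M) (hx : IsSelfAdjoint x) : SoPavable A M x ε' r := by
  obtain ⟨e, he, hep, habel, hfaith⟩ := exists_abelian_projection_commutant M f hf hfp hfab hfc
  exact soPavable_of_abelian_projection hεε' hmp A M hA e he hep habel hfaith x hxM hx

/-! ### Central support: the standard formulation -/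

/-- The linear span of `M f H`. -/
def taskZ4_span (M : VonNeumannAlgebra H) (f : H →L[ℂ] H) : Submodule ℂ H :=
  Submodule.span ℂ {v | ∃ m ∈ M, ∃ w : H, v = m (f w)}

/-- The span of `M f H` is invariant under `M`. -/
lemma taskZ4_inv_alg (M : VonNeumannAlgebra H) (f : H →L[ℂ] H) :
    ∀ m ∈ M, ∀ v ∈ taskZ4_span M f, m v ∈ taskZ4_span M f := by
  intro m hm v hv
  unfold taskZ4_span at hv ⊢
  induction hv using Submodule.span_induction with
  | mem v hv =>
    obtain ⟨m', hm', w, rfl⟩ := hv
    refine Submodule.subset_span ⟨m * m', mul_mem hm hm', w, ?_⟩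
    rw [mul_apply_eq_comp]
  | zero => simp
  | add u v _ _ hu hv => rw [map_add]; exact add_mem hu hv
  | smul c v _ hv => rw [map_smul]; exact Submodule.smul_mem _ c hv

/-- The span of `M f H` is invariant under the commutant of `M`, when `f ∈ M`. -/
lemma taskZ4_inv_comm (M : VonNeumannAlgebra H) (f : H →L[ℂ] H) (hf : f ∈ M) :
    ∀ y ∈ M.commutant, ∀ v ∈ taskZ4_span M f, y v ∈ taskZ4_span M f := by
  intro y hy v hv
  unfold taskZ4_span at hv ⊢
  induction hv using Submodule.span_induction with
  | mem v hv =>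
    obtain ⟨m, hm, w, rfl⟩ := hv
    refine Submodule.subset_span ⟨m, hm, y w, ?_⟩
    have h1 : y * (m * f) = (m * f) * y := commutant_comm M (mul_mem hm hf) hy
    have h2 : (y * (m * f)) w = ((m * f) * y) w := by rw [h1]
    rw [mul_apply_eq_comp, mul_apply_eq_comp, mul_apply_eq_comp, mul_apply_eq_comp] at h2
    exact h2
  | zero => simp
  | add u v _ _ hu hv => rw [map_add]; exact add_mem hu hv
  | smul c v _ hv => rw [map_smul]; exact Submodule.smul_mem _ c hv

/-- An element of the commutant killing `f` kills the closure of the span of `M f H`. -/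
lemma taskZ4_ker (M : VonNeumannAlgebra H) (f : H →L[ℂ] H) (z : H →L[ℂ] H)
    (hz : z ∈ M.commutant) (hzf : z * f = 0) :
    ∀ v ∈ (taskZ4_span M f).topologicalClosure, z v = 0 := by
  have hle : (taskZ4_span M f).topologicalClosure ≤ LinearMap.ker (z : H →ₗ[ℂ] H) := by
    refine Submodule.topologicalClosure_minimal _ ?_ z.isClosed_ker
    intro v hv
    rw [LinearMap.mem_ker]
    unfold taskZ4_span at hv
    induction hv using Submodule.span_induction with
    | mem v hv =>
      obtain ⟨m, hm, w, rfl⟩ := hv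
      have h1 : z * m = m * z := commutant_comm M hm hz
      have h2 : (z * m) (f w) = (m * z) (f w) := by rw [h1]
      rw [mul_apply_eq_comp, mul_apply_eq_comp] at h2
      have h3 : z (f w) = 0 := by
        rw [← mul_apply_eq_comp, hzf, zero_apply]
      show z (m (f w)) = 0
      rw [h2, h3, map_zero]
    | zero => exact map_zero _
    | add u v _ _ hu hv =>
      show z (u + v) = 0
      have hu' : z u = 0 := hu
      have hv' : z v = 0 := hv
      rw [map_add, hu', hv', add_zero]
    | smul c v _ hv =>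
      show z (c • v) = 0
      have hv' : z v = 0 := hv
      rw [map_smul, hv', smul_zero]
  intro v hv
  have := hle hv
  rw [LinearMap.mem_ker] at this
  exact this

/-- If every central projection `z` of `M` with `z f = 0` vanishes (central support of `f` is `1`), then every `z` in the commutant with `z f = 0` vanishes. -/
theorem faithful_of_central_support (M : VonNeumannAlgebra H) (f : H →L[ℂ] H) (hf : f ∈ M)
    (hcs : ∀ z ∈ M, z ∈ M.commutant → IsStarProjection z → z * f = 0 → z = 0) :
    ∀ z ∈ M.commutant, z * f = 0 → z = 0 := by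
  obtain ⟨S, hS⟩ : ∃ S, S = taskZ4_span M f := ⟨_, rfl⟩
  obtain ⟨P, hP⟩ : ∃ P, P = S.topologicalClosure.starProjection := ⟨_, rfl⟩
  have hPM : P ∈ M := by
    rw [hP]
    refine starProjection_closure_mem M S ?_
    rw [hS]
    exact taskZ4_inv_comm M f hf
  have hPM' : P ∈ M.commutant := by
    rw [hP]
    refine starProjection_closure_mem M.commutant S ?_
    rw [VonNeumannAlgebra.commutant_commutant, hS]
    exact taskZ4_inv_alg M f
  have hPproj : IsStarProjection P := by
    rw [hP]
    exact isStarProjection_starProjection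
  have hPf : P * f = f := by
    ext w
    rw [mul_apply_eq_comp, hP]
    refine Submodule.starProjection_eq_self_iff.mpr (S.le_topologicalClosure ?_)
    rw [hS]
    refine Submodule.subset_span ⟨1, one_mem M, w, ?_⟩
    rw [one_apply_eq_self]
  have h1P : (1 - P) = 0 := by
    refine hcs (1 - P) (sub_mem (one_mem M) hPM) (sub_mem (one_mem _) hPM') hPproj.one_sub ?_
    rw [sub_mul, one_mul, hPf, sub_self]
  have hP1 : P = 1 := by
    have := sub_eq_zero.mp h1P
    exact this.symm
  intro z hz hzf
  ext v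
  have hv : v ∈ S.topologicalClosure := by
    have h2 : P v = v := by rw [hP1, one_apply_eq_self]
    rw [hP] at h2
    exact Submodule.starProjection_eq_self_iff.mp h2
  rw [hS] at hv
  rw [taskZ4_ker M f z hz hzf v hv, zero_apply]

/-! ### The so-paving theorem for type I algebras, standard formulation -/

/-- Finite-dimensional `(ε, r)` paving implies `(ε', r)` so-paving, for every `ε' > ε`, over every
MASA `A` of every type I von Neumann algebra `M`, with the standard definition of type I: `M` has
a projection `f` such that `f M f` is commutative and no nonzero central projection `z` of `M`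
satisfies `z f = 0`. -/
theorem soPavable_of_type_one_central {ε ε' : ℝ} {r : ℕ} (hεε' : ε < ε')
    (hmp : MatrixPavable ε r) (A M : VonNeumannAlgebra H) (hA : IsMASA A M)
    (f : H →L[ℂ] H) (hf : f ∈ M) (hfp : IsStarProjection f)
    (hfab : ∀ a ∈ M, ∀ b ∈ M, (f * a * f) * (f * b * f) = (f * b * f) * (f * a * f))
    (hcs : ∀ z ∈ M, z ∈ M.commutant → IsStarProjection z → z * f = 0 → z = 0)
    (x : H →L[ℂ] H) (hxM : x ∈ M) (hx : IsSelfAdjoint x) : SoPavable A M x ε' r :=
  soPavable_of_type_one hεε' hmp A M hA f hf hfp hfab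
    (faithful_of_central_support M f hf hcs) x hxM hx

end Vale.Agent.Lib.P078
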