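import Vale.Agent.Lib.P078.MatrixNumberDefs
import Vale.Agent.Lib.P078.TypeOne
import Vale.Agent.Lib.P078.AtomsExact

/-!
# So-paving numbers and the paving number of finite matrices (P078)

The so-paving number of a MASA of a type I von Neumann algebra is bounded by the paving number of
finite matrices, with equality for the MASAs of `B(H)` with infinitely many atoms.
-/

namespace Vale.Agent.Lib.P078

variable {H : Type*} [NormedAddCommGroup H] [InnerProductSpace ℂ H] [CompleteSpace H]

/-- **Type I algebras.** For a MASA `A` of a type I von Neumann algebra `M` (one with an abelian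
projection `f` of central support `1`) and `ε < ε'`, the so-paving number at `ε'` is at most the
paving number of finite matrices at `ε`. -/
theorem soPavingNumber_le_matrixPavingNumber_of_type_one (A M : VonNeumannAlgebra H)
    (hA : IsMASA A M) (f : H →L[ℂ] H) (hf : f ∈ M) (hfp : IsStarProjection f)
    (hfab : ∀ a ∈ M, ∀ b ∈ M, (f * a * f) * (f * b * f) = (f * b * f) * (f * a * f))
    (hcs : ∀ z ∈ M, z ∈ M.commutant → IsStarProjection z → z * f = 0 → z = 0)
    {ε ε' : ℝ} (hεε' : ε < ε') : soPavingNumber A M ε' ≤ matrixPavingNumber ε := by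
  unfold soPavingNumber matrixPavingNumber
  refine le_iInf (fun r => le_iInf (fun hr => ?_))
  exact iInf₂_le r ⟨hr.1, fun x hxM hx =>
    soPavable_of_type_one_central hεε' hr.2 A M hA f hf hfp hfab hcs x hxM hx⟩

/-- **`B(H)`.** For every MASA `A` of `B(H)` the so-paving number is at most the paving number of
finite matrices (same `ε`). -/
theorem soPavingNumber_le_matrixPavingNumber (A M : VonNeumannAlgebra H)
    (hM : ∀ y : H →L[ℂ] H, y ∈ M) (hA : IsMASA A M) (ε : ℝ) :
    soPavingNumber A M ε ≤ matrixPavingNumber ε := by
  unfold soPavingNumber matrixPavingNumber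
  refine le_iInf (fun r => le_iInf (fun hr => ?_))
  exact iInf₂_le r ⟨hr.1, fun x _ hx => soPavable_of_isMASA hr.2 A M hM hA x hx⟩

/-- **`B(H)`, infinitely many atoms.** The so-paving number equals the paving number of finite
matrices. -/
theorem soPavingNumber_eq_matrixPavingNumber (A M : VonNeumannAlgebra H)
    (hM : ∀ y : H →L[ℂ] H, y ∈ M) (hA : IsMASA A M)
    (hinf : Set.Infinite {e : H →L[ℂ] H | IsAtomOf A e}) (ε : ℝ) :
    soPavingNumber A M ε = matrixPavingNumber ε :=
  soPavingNumber_eq_of_infinite_atoms A M hM hA hinf ε

end Vale.Agent.Lib.P078
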