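import Vale.Agent.Lib.P078.AtomDefs

/-!
# Atoms of MASAs of `B(H)` and the growth of the so-paving number

Let `A` be a MASA of `B(H)`.  An atom of `A` is a minimal nonzero projection of `A`.

* If `A` has infinitely many atoms, Walsh-Hadamard matrices placed on `2 ^ m` atoms give
  self-adjoint operators whose `(ε, r)` so-paving forces `ε ^ 2 * r ≥ 1 - r / 2 ^ m`; hence
  the so-paving number is at least `ε⁻²`.
* If `A` has finitely many atoms, say `k`, the atoms are used as singleton pieces and the rest of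
  `A` is a diffuse MASA of `B(U)` on the complementary subspace `U`, where `⌈1/ε⌉` pieces suffice;
  hence the so-paving number is at most `k + ⌈1/ε⌉`.
-/

namespace Vale.Agent.Lib.P078

open scoped InnerProductSpace Matrix.Norms.L2Operator
open ContinuousLinearMap

variable {H : Type*} [NormedAddCommGroup H] [InnerProductSpace ℂ H] [CompleteSpace H]

/-! ### Atoms: basic facts -/

theorem atom_mul_eq (A : VonNeumannAlgebra H) (hAc : ∀ a ∈ A, ∀ b ∈ A, a * b = b * a)
    {e : H →L[ℂ] H} (he : IsAtomOf A e) {p : H →L[ℂ] H} (hpA : p ∈ A)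
    (hp : IsStarProjection p) : p * e = e ∨ p * e = 0 := by
  have hpe : e * p = p * e := hAc e he.1 p hpA
  have hidem : p * e * (p * e) = p * e := by
    calc p * e * (p * e) = p * (e * p) * e := by simp only [mul_assoc]
      _ = p * (p * e) * e := by rw [hpe]
      _ = (p * p) * (e * e) := by simp only [mul_assoc]
      _ = p * e := by rw [hp.isIdempotentElem.eq, he.2.1.isIdempotentElem.eq]
  have hsa : star (p * e) = p * e := by
    rw [star_mul, hp.isSelfAdjoint.star_eq, he.2.1.isSelfAdjoint.star_eq, hpe]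
  have hle : e * (p * e) = p * e := by
    rw [← mul_assoc, hpe, mul_assoc, he.2.1.isIdempotentElem.eq]
  rcases he.2.2.2 (p * e) (mul_mem hpA he.1) ⟨hidem, hsa⟩ hle with h | h
  · exact Or.inr h
  · exact Or.inl h

theorem atom_orth (A : VonNeumannAlgebra H) (hAc : ∀ a ∈ A, ∀ b ∈ A, a * b = b * a)
    {e e' : H →L[ℂ] H} (he : IsAtomOf A e) (he' : IsAtomOf A e') (hne : e ≠ e') :
    e * e' = 0 := by
  rcases atom_mul_eq A hAc he he'.1 he'.2.1 with h | h
  · rcases he'.2.2.2 e he.1 he.2.1 h with h0 | h1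
    · exact absurd h0 he.2.2.1
    · exact absurd h1 hne
  · rw [hAc e he.1 e' he'.1]
    exact h

theorem atom_exists_unit (A : VonNeumannAlgebra H) {e : H →L[ℂ] H} (he : IsAtomOf A e) :
    ∃ u : H, ‖u‖ = 1 ∧ e u = u := by
  obtain ⟨v, hv⟩ : ∃ v, e v ≠ 0 := by
    by_contra hcon
    push Not at hcon
    apply he.2.2.1
    ext v
    exact hcon v
  have hn : ‖e v‖ ≠ 0 := norm_ne_zero_iff.mpr hv
  have hee : e (e v) = e v := by
    have h1 : (e * e) v = e v := by rw [he.2.1.isIdempotentElem.eq]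
    exact h1
  refine ⟨((‖e v‖⁻¹ : ℝ) : ℂ) • e v, ?_, ?_⟩
  · rw [norm_smul, Complex.norm_real, norm_inv, norm_norm, inv_mul_cancel₀ hn]
  · rw [map_smul, hee]

/-! ### The matrix of a pinching between atoms -/

/-- Unit vectors in the ranges of distinct atoms are orthonormal. -/
lemma taskD2a_orthonormal (A : VonNeumannAlgebra H)
    (hAc : ∀ a ∈ A, ∀ b ∈ A, a * b = b * a)
    {n : ℕ} (e : Fin n → H →L[ℂ] H) (he : ∀ j, IsAtomOf A (e j)) (hinj : Function.Injective e)
    (u : Fin n → H) (hu : ∀ j, ‖u j‖ = 1) (heu : ∀ j, e j (u j) = u j) :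
    Orthonormal ℂ u := by
  rw [orthonormal_iff_ite]
  intro j k
  by_cases h : j = k
  · subst h
    rw [if_pos rfl, inner_self_eq_norm_sq_to_K, hu]
    simp
  · rw [if_neg h]
    have h1 : e j * e k = 0 := atom_orth A hAc (he j) (he k) (fun h' => h (hinj h'))
    have h2 : adjoint (e j) = e j := (he j).2.1.isSelfAdjoint.adjoint_eq
    calc ⟪u j, u k⟫_ℂ = ⟪adjoint (e j) (u j), e k (u k)⟫_ℂ := by rw [h2, heu, heu]
      _ = ⟪u j, (e j * e k) (u k)⟫_ℂ := by rw [adjoint_inner_left, mul_apply_eq_comp]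
      _ = 0 := by rw [h1, _root_.zero_apply, inner_zero_right]

/-- Every atom lies under exactly one piece of a partition. -/
lemma taskD2a_colour (A : VonNeumannAlgebra H)
    (hAc : ∀ a ∈ A, ∀ b ∈ A, a * b = b * a)
    {e : H →L[ℂ] H} (he : IsAtomOf A e) {r : ℕ} (p : Fin r → H →L[ℂ] H)
    (hp : IsPartitionIn A p) :
    ∃ i, p i * e = e ∧ ∀ i', i' ≠ i → p i' * e = 0 := by
  have h1 : ∃ i, p i * e ≠ 0 := by
    by_contra hcon
    have h0 : ∀ i, p i * e = 0 := fun i => by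
      by_contra h'
      exact hcon ⟨i, h'⟩
    have h2 : e = 0 := by
      calc e = (∑ i, p i) * e := by rw [hp.2.2, one_mul]
        _ = ∑ i, p i * e := Finset.sum_mul _ _ _
        _ = 0 := Finset.sum_eq_zero (fun i _ => h0 i)
    exact he.2.2.1 h2
  obtain ⟨i, hi⟩ := h1
  have h3 : p i * e = e := by
    rcases atom_mul_eq A hAc he (hp.1 i).1 (hp.1 i).2 with h | h
    · exact h
    · exact absurd h hi
  refine ⟨i, h3, fun i' hi' => ?_⟩
  calc p i' * e = p i' * (p i * e) := by rw [h3]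
    _ = (p i' * p i) * e := (mul_assoc _ _ _).symm
    _ = 0 := by rw [hp.2.1 i' i hi', zero_mul]

/-- A self-adjoint member of the algebra acts on a unit vector of an atom by a real scalar. -/
lemma taskD2a_diag (A : VonNeumannAlgebra H)
    (hAc : ∀ a ∈ A, ∀ b ∈ A, a * b = b * a)
    {e : H →L[ℂ] H} (he : IsAtomOf A e) {u : H} (hu : ‖u‖ = 1) (heu : e u = u)
    {a : H →L[ℂ] H} (haA : a ∈ A) (ha : IsSelfAdjoint a) :
    ∃ d : ℝ, a u = (d : ℂ) • u := by
  obtain ⟨α, hα⟩ := smul_of_minimal_projection A hAc he.1 he.2.1 he.2.2.2 haA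
  have h1 : a u = α • u := by
    calc a u = (a * e) u := by rw [mul_apply_eq_comp, heu]
      _ = α • u := by rw [hα, _root_.smul_apply, heu]
  have huu : ⟪u, u⟫_ℂ = 1 := by
    rw [inner_self_eq_norm_sq_to_K, hu]
    simp
  have h2 : ⟪u, a u⟫_ℂ = α := by
    rw [h1, inner_smul_right, huu, mul_one]
  have h3 : ⟪a u, u⟫_ℂ = (starRingEnd ℂ) α := by
    rw [h1, inner_smul_left, huu, mul_one]
  have h4 : ⟪a u, u⟫_ℂ = ⟪u, a u⟫_ℂ := by
    have h5 : adjoint a = a := ha.adjoint_eq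
    calc ⟪a u, u⟫_ℂ = ⟪adjoint a u, u⟫_ℂ := by rw [h5]
      _ = ⟪u, a u⟫_ℂ := adjoint_inner_left a u u
  have h6 : (starRingEnd ℂ) α = α := by rw [← h3, h4, h2]
  refine ⟨α.re, ?_⟩
  rw [h1, Complex.conj_eq_iff_re.mp h6]

/-- The operator built from a matrix in an orthonormal family sends the `k`-th vector to the
combination of the family given by the `k`-th column. -/
lemma taskD2a_x_apply {n : ℕ} {u : Fin n → H} (hu : Orthonormal ℂ u)
    (T : Matrix (Fin n) (Fin n) ℂ) (k : Fin n) :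
    (synth u ∘L Matrix.toEuclideanCLM (n := Fin n) (𝕜 := ℂ) T ∘L adjoint (synth u)) (u k)
      = ∑ i, T i k • u i := by
  rw [coe_comp, Function.comp_apply, coe_comp, Function.comp_apply, synth_apply]
  refine Finset.sum_congr rfl (fun i _ => ?_)
  congr 1
  have h1 : ((Matrix.toEuclideanCLM (n := Fin n) (𝕜 := ℂ) T) (adjoint (synth u) (u k))).ofLp i
      = T.mulVec (adjoint (synth u) (u k)).ofLp i := by
    rw [Matrix.ofLp_toEuclideanCLM]
  refine h1.trans ?_
  rw [Matrix.mulVec, dotProduct]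
  have h2 : ∀ l, (adjoint (synth u) (u k)).ofLp l = if l = k then 1 else 0 := by
    intro l
    have := synth_adjoint_apply u (u k) l
    rw [orthonormal_iff_ite.mp hu l k] at this
    exact this
  simp only [h2]
  simp

theorem atoms_pinching_matrix (A : VonNeumannAlgebra H)
    (hAc : ∀ a ∈ A, ∀ b ∈ A, a * b = b * a)
    {n : ℕ} (e : Fin n → H →L[ℂ] H) (he : ∀ j, IsAtomOf A (e j)) (hinj : Function.Injective e)
    (u : Fin n → H) (hu : ∀ j, ‖u j‖ = 1) (heu : ∀ j, e j (u j) = u j)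
    (T : Matrix (Fin n) (Fin n) ℂ) {r : ℕ} (p : Fin r → H →L[ℂ] H) (hp : IsPartitionIn A p)
    (a : H →L[ℂ] H) (haA : a ∈ A) (ha : IsSelfAdjoint a) :
    ∃ (c : Fin n → Fin r) (d : Fin n → ℝ), (∀ j, |d j| ≤ ‖a‖) ∧
      adjoint (synth u) ∘L
        (pinching p (synth u ∘L Matrix.toEuclideanCLM (n := Fin n) (𝕜 := ℂ) T ∘L
          adjoint (synth u)) - a) ∘L synth u
        = Matrix.toEuclideanCLM (n := Fin n) (𝕜 := ℂ) (pavedMatrix T c d) := by
  have hon : Orthonormal ℂ u := taskD2a_orthonormal A hAc e he hinj u hu heu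
  have hite := orthonormal_iff_ite.mp hon
  choose c hc1 hc2 using fun k => taskD2a_colour A hAc (he k) p hp
  choose d hd using fun k => taskD2a_diag A hAc (he k) (hu k) (heu k) haA ha
  refine ⟨c, d, fun j => ?_, ?_⟩
  · have h1 := le_opNorm a (u j)
    rw [hd j, norm_smul, hu j, mul_one, mul_one, Complex.norm_real, Real.norm_eq_abs] at h1
    exact h1
  obtain ⟨x, hx⟩ : ∃ x, x = synth u ∘L Matrix.toEuclideanCLM (n := Fin n) (𝕜 := ℂ) T ∘L
      adjoint (synth u) := ⟨_, rfl⟩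
  rw [← hx]
  have hxu : ∀ k, x (u k) = ∑ i, T i k • u i := fun k => by
    rw [hx]; exact taskD2a_x_apply hon T k
  -- action of the pieces on the vectors
  have hpu : ∀ i k, p i (u k) = if c k = i then u k else 0 := by
    intro i k
    by_cases h : c k = i
    · rw [if_pos h, ← h]
      calc p (c k) (u k) = (p (c k) * e k) (u k) := by rw [mul_apply_eq_comp, heu]
        _ = u k := by rw [hc1, heu]
    · rw [if_neg h]
      calc p i (u k) = (p i * e k) (u k) := by rw [mul_apply_eq_comp, heu]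
        _ = 0 := by rw [hc2 k i (fun h' => h h'.symm), _root_.zero_apply]
  have hpin : ∀ k, pinching p x (u k) = ∑ i, T i k • (if c i = c k then u i else 0) := by
    intro k
    unfold pinching
    rw [_root_.sum_apply]
    have h1 : ∀ i, (p i * x * p i) (u k) = if c k = i then p i (x (u k)) else 0 := by
      intro i
      rw [mul_apply_eq_comp, mul_apply_eq_comp, hpu i k]
      by_cases h : c k = i
      · rw [if_pos h, if_pos h]
      · rw [if_neg h, if_neg h, map_zero, map_zero]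
    simp only [h1]
    rw [Finset.sum_ite_eq Finset.univ (c k) (fun i => p i (x (u k))), if_pos (Finset.mem_univ _),
      hxu k, map_sum]
    refine Finset.sum_congr rfl (fun i _ => ?_)
    rw [map_smul, hpu]
  rw [synth_conj_eq_matrix]
  congr 1
  ext j k
  rw [Matrix.of_apply, pavedMatrix, Matrix.of_apply, _root_.sub_apply, inner_sub_right,
    hpin k, hd k, inner_sum, inner_smul_right, hite j k]
  congr 1
  · by_cases h : c j = c k
    · rw [if_pos h]
      rw [Finset.sum_eq_single j]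
      · rw [if_pos h, inner_smul_right, hite j j, if_pos rfl, mul_one]
      · intro i _ hij
        rw [inner_smul_right]
        by_cases h' : c i = c k
        · rw [if_pos h', hite j i, if_neg (fun h'' => hij h''.symm), mul_zero]
        · rw [if_neg h', inner_zero_right, mul_zero]
      · intro hj
        exact absurd (Finset.mem_univ j) hj
    · rw [if_neg h]
      refine Finset.sum_eq_zero (fun i _ => ?_)
      rw [inner_smul_right]
      by_cases h' : c i = c k
      · rw [if_pos h', hite j i, if_neg (fun h'' : j = i => h (by rw [h'']; exact h')), mul_zero]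
      · rw [if_neg h', inner_zero_right, mul_zero]
  · by_cases h : j = k
    · rw [if_pos h, if_pos h, mul_one, h]
    · rw [if_neg h, if_neg h, mul_zero]

/-! ### A compression estimate -/

/-- The norm of a composition is at most the product of bounds of the norms. -/
lemma taskD2b_comp_le {E F G : Type*} [NormedAddCommGroup E] [NormedSpace ℂ E]
    [NormedAddCommGroup F] [NormedSpace ℂ F] [NormedAddCommGroup G] [NormedSpace ℂ G]
    (A : F →L[ℂ] G) (B : E →L[ℂ] F) {a b : ℝ} (hA : ‖A‖ ≤ a) (hB : ‖B‖ ≤ b) :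
    ‖A ∘L B‖ ≤ a * b :=
  (opNorm_comp_le A B).trans (mul_le_mul hA hB (norm_nonneg _) ((norm_nonneg _).trans hA))

omit [CompleteSpace H] in
/-- The synthesis operator followed by a projection which almost annihilates the family. -/
lemma taskD2b_norm_R {n : ℕ} (u : Fin n → H) (q : H →L[ℂ] H) {δ : ℝ}
    (hδ : ∀ j, ‖(1 - q) (u j)‖ ≤ δ) : ‖(1 - q) ∘L synth u‖ ≤ (n : ℝ) * δ := by
  have hnδ : 0 ≤ (n : ℝ) * δ := by
    rcases Nat.eq_zero_or_pos n with h | h
    · subst h
      simp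
    · exact mul_nonneg (Nat.cast_nonneg n) ((norm_nonneg _).trans (hδ ⟨0, h⟩))
  refine opNorm_le_bound _ hnδ (fun w => ?_)
  rw [coe_comp, Function.comp_apply, synth_apply, map_sum]
  calc ‖∑ k, (1 - q) (w k • u k)‖ ≤ ∑ k, ‖(1 - q) (w k • u k)‖ := norm_sum_le _ _
    _ ≤ ∑ _k : Fin n, ‖w‖ * δ := by
        refine Finset.sum_le_sum (fun k _ => ?_)
        rw [map_smul, norm_smul]
        exact mul_le_mul (PiLp.norm_apply_le w k) (hδ k) (norm_nonneg _) (norm_nonneg _)
    _ = (n : ℝ) * δ * ‖w‖ := by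
        rw [Finset.sum_const, Finset.card_univ, Fintype.card_fin, nsmul_eq_mul]
        ring

theorem norm_synth_conj_le {n : ℕ} (u : Fin n → H) (hu : Orthonormal ℂ u) (y q : H →L[ℂ] H)
    (hq : IsStarProjection q) {δ : ℝ} (hδ : ∀ j, ‖(1 - q) (u j)‖ ≤ δ) :
    ‖adjoint (synth u) ∘L y ∘L synth u‖ ≤ ‖q * y * q‖ + 2 * (n : ℝ) * δ * ‖y‖ := by
  obtain ⟨R, hRdef⟩ : ∃ R : EuclideanSpace ℂ (Fin n) →L[ℂ] H, R = (1 - q) ∘L synth u :=
    ⟨_, rfl⟩
  have hRn : ‖R‖ ≤ (n : ℝ) * δ := by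
    rw [hRdef]
    exact taskD2b_norm_R u q hδ
  have hRa : adjoint R = adjoint (synth u) ∘L (1 - q) := by
    rw [hRdef, adjoint_comp, hq.one_sub.isSelfAdjoint.adjoint_eq]
  have hRan : ‖adjoint R‖ ≤ (n : ℝ) * δ := by
    rw [LinearIsometryEquiv.norm_map]
    exact hRn
  have hS := norm_synth_le hu
  have hS' := norm_adjoint_synth_le hu
  have hqn : ‖q‖ ≤ 1 := IsStarProjection.norm_le _ hq
  have hdec : adjoint (synth u) ∘L y ∘L synth u
      = adjoint (synth u) ∘L (q * y * q) ∘L synth u + adjoint R ∘L y ∘L synth u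
        + adjoint (synth u) ∘L q ∘L y ∘L R := by
    rw [hRa, hRdef]
    refine ContinuousLinearMap.ext (fun w => ?_)
    simp only [coe_comp, Function.comp_apply, add_apply, mul_apply_eq_comp, sub_apply,
      one_apply_eq_self, map_sub]
    abel
  have h1 : ‖adjoint (synth u) ∘L (q * y * q) ∘L synth u‖ ≤ 1 * (‖q * y * q‖ * 1) :=
    taskD2b_comp_le _ _ hS' (taskD2b_comp_le _ _ le_rfl hS)
  have h2 : ‖adjoint R ∘L y ∘L synth u‖ ≤ (n : ℝ) * δ * (‖y‖ * 1) :=
    taskD2b_comp_le _ _ hRan (taskD2b_comp_le _ _ le_rfl hS)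
  have h3 : ‖adjoint (synth u) ∘L q ∘L y ∘L R‖ ≤ 1 * (1 * (‖y‖ * ((n : ℝ) * δ))) :=
    taskD2b_comp_le _ _ hS' (taskD2b_comp_le _ _ hqn (taskD2b_comp_le _ _ le_rfl hRn))
  rw [hdec]
  have h4 := norm_add₃_le (a := adjoint (synth u) ∘L (q * y * q) ∘L synth u)
    (b := adjoint R ∘L y ∘L synth u) (c := adjoint (synth u) ∘L q ∘L y ∘L R)
  linarith

/-! ### From so-paving over atoms to matrix paving with slack -/

/-- Unit vectors in the ranges of pairwise distinct atoms of a commutative algebra are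
orthonormal. -/
theorem taskD2c_orthonormal (A : VonNeumannAlgebra H)
    (hAc : ∀ a ∈ A, ∀ b ∈ A, a * b = b * a)
    {n : ℕ} (e : Fin n → H →L[ℂ] H) (he : ∀ j, IsAtomOf A (e j)) (hinj : Function.Injective e)
    (u : Fin n → H) (hu : ∀ j, ‖u j‖ = 1) (heu : ∀ j, e j (u j) = u j) :
    Orthonormal ℂ u := by
  rw [orthonormal_iff_ite]
  intro j k
  by_cases hjk : j = k
  · rw [if_pos hjk, hjk, inner_self_eq_norm_sq_to_K, hu k]
    norm_num
  · rw [if_neg hjk]
    have hne : e j ≠ e k := fun h => hjk (hinj h)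
    have h0 : e j * e k = 0 := atom_orth A hAc (he j) (he k) hne
    have hsa : IsSelfAdjoint (e j) := (he j).2.1.isSelfAdjoint
    have hadj : adjoint (e j) = e j := by
      rw [← star_eq_adjoint]
      exact hsa.star_eq
    have h1 : ⟪e j (u j), e k (u k)⟫_ℂ = ⟪u j, (e j * e k) (u k)⟫_ℂ := by
      rw [← adjoint_inner_right (e j) (u j) (e k (u k)), hadj]
      rfl
    calc ⟪u j, u k⟫_ℂ = ⟪e j (u j), e k (u k)⟫_ℂ := by rw [heu j, heu k]
      _ = ⟪u j, (e j * e k) (u k)⟫_ℂ := h1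
      _ = 0 := by rw [h0, zero_apply, inner_zero_right]

/-- The synthesized operator of a matrix has norm at most the matrix norm. -/
theorem taskD2c_norm_le {n : ℕ} (u : Fin n → H) (huo : Orthonormal ℂ u)
    (T : Matrix (Fin n) (Fin n) ℂ) :
    ‖synth u ∘L Matrix.toEuclideanCLM (n := Fin n) (𝕜 := ℂ) T ∘L adjoint (synth u)‖ ≤ ‖T‖ := by
  have hT : ‖Matrix.toEuclideanCLM (n := Fin n) (𝕜 := ℂ) T‖ = ‖T‖ := rfl
  have h1 : ‖synth u‖ ≤ 1 := norm_synth_le huo
  have h2 : ‖adjoint (synth u)‖ ≤ 1 := norm_adjoint_synth_le huo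
  have h3 : ‖Matrix.toEuclideanCLM (n := Fin n) (𝕜 := ℂ) T ∘L adjoint (synth u)‖
      ≤ ‖T‖ * 1 := by
    refine le_trans (opNorm_comp_le _ _) ?_
    rw [hT]
    exact mul_le_mul le_rfl h2 (norm_nonneg _) (norm_nonneg _)
  calc ‖synth u ∘L Matrix.toEuclideanCLM (n := Fin n) (𝕜 := ℂ) T ∘L adjoint (synth u)‖
      ≤ ‖synth u‖ * ‖Matrix.toEuclideanCLM (n := Fin n) (𝕜 := ℂ) T ∘L adjoint (synth u)‖ :=
        opNorm_comp_le _ _
    _ ≤ 1 * (‖T‖ * 1) := mul_le_mul h1 h3 (norm_nonneg _) zero_le_one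
    _ = ‖T‖ := by ring

theorem paved_of_soPavable_atoms (A M : VonNeumannAlgebra H)
    (hAc : ∀ a ∈ A, ∀ b ∈ A, a * b = b * a)
    {n : ℕ} (e : Fin n → H →L[ℂ] H) (he : ∀ j, IsAtomOf A (e j)) (hinj : Function.Injective e)
    (u : Fin n → H) (hu : ∀ j, ‖u j‖ = 1) (heu : ∀ j, e j (u j) = u j)
    (T : Matrix (Fin n) (Fin n) ℂ) {ε : ℝ} (hε : 0 ≤ ε) {r : ℕ}
    (hpav : SoPavable A M
      (synth u ∘L Matrix.toEuclideanCLM (n := Fin n) (𝕜 := ℂ) T ∘L adjoint (synth u)) ε r)
    {η : ℝ} (hη : 0 < η) :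
    ∃ (c : Fin n → Fin r) (d : Fin n → ℝ),
      (∀ j, |d j| ≤ ‖T‖) ∧ ‖pavedMatrix T c d‖ ≤ ε * ‖T‖ + η := by
  classical
  have huo : Orthonormal ℂ u := taskD2c_orthonormal A hAc e he hinj u hu heu
  have hxT := taskD2c_norm_le u huo T
  obtain ⟨x, hx⟩ : ∃ x : H →L[ℂ] H,
      x = synth u ∘L Matrix.toEuclideanCLM (n := Fin n) (𝕜 := ℂ) T ∘L adjoint (synth u) :=
    ⟨_, rfl⟩
  rw [← hx] at hpav hxT
  obtain ⟨D, hD⟩ : ∃ D : ℝ, D = 2 * (n : ℝ) * ((r : ℝ) + 1) * ‖T‖ := ⟨_, rfl⟩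
  have hTnn : 0 ≤ ‖T‖ := norm_nonneg T
  have hDnn : 0 ≤ D := by
    rw [hD]
    positivity
  have hD1 : 0 < D + 1 := by linarith
  obtain ⟨δ, hδ⟩ : ∃ δ : ℝ, δ = η / (D + 1) := ⟨_, rfl⟩
  have hδpos : 0 < δ := by
    rw [hδ]
    exact div_pos hη hD1
  have hδD : δ * (D + 1) = η := by
    rw [hδ]
    exact div_mul_cancel₀ η (ne_of_gt hD1)
  obtain ⟨p, a, q, hp, haA, ha, hax, -, hq, hqF, hbound⟩ :=
    hpav (Finset.univ.image u) δ hδpos
  have hqu : ∀ j, ‖(1 - q) (u j)‖ ≤ δ := fun j =>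
    (hqF (u j) (Finset.mem_image_of_mem u (Finset.mem_univ j))).le
  obtain ⟨c, d, hdb, hcd⟩ := atoms_pinching_matrix A hAc e he hinj u hu heu T p hp a haA ha
  rw [← hx] at hcd
  refine ⟨c, d, fun j => (hdb j).trans (hax.trans hxT), ?_⟩
  have hy : ‖pinching p x - a‖ ≤ ((r : ℝ) + 1) * ‖T‖ := by
    have hpin : ‖pinching p x‖ ≤ (r : ℝ) * ‖x‖ :=
      taskT2_norm_pinching_le p (fun i => (hp.1 i).2) x
    have hxnn : 0 ≤ ‖x‖ := norm_nonneg x
    have hrnn : (0 : ℝ) ≤ (r : ℝ) := Nat.cast_nonneg r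
    calc ‖pinching p x - a‖ ≤ ‖pinching p x‖ + ‖a‖ := norm_sub_le _ _
      _ ≤ (r : ℝ) * ‖x‖ + ‖x‖ := add_le_add hpin hax
      _ = ((r : ℝ) + 1) * ‖x‖ := by ring
      _ ≤ ((r : ℝ) + 1) * ‖T‖ := mul_le_mul_of_nonneg_left hxT (by linarith)
  have hconj := norm_synth_conj_le u huo (pinching p x - a) q hq hqu
  have hnorm : ‖pavedMatrix T c d‖
      = ‖adjoint (synth u) ∘L (pinching p x - a) ∘L synth u‖ := by
    rw [hcd]
    rfl
  have hnnn : (0 : ℝ) ≤ (n : ℝ) := Nat.cast_nonneg n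
  have hstep : 2 * (n : ℝ) * δ * ‖pinching p x - a‖ ≤ δ * D := by
    have h2 : 0 ≤ 2 * (n : ℝ) * δ := by positivity
    calc 2 * (n : ℝ) * δ * ‖pinching p x - a‖
        ≤ 2 * (n : ℝ) * δ * (((r : ℝ) + 1) * ‖T‖) := mul_le_mul_of_nonneg_left hy h2
      _ = δ * D := by
          rw [hD]
          ring
  have hεx : ε * ‖x‖ ≤ ε * ‖T‖ := mul_le_mul_of_nonneg_left hxT hε
  have hδle : δ * D ≤ η := by
    rw [← hδD]
    nlinarith
  rw [hnorm]
  linarith

/-! ### A lower bound for pavings of flat matrices -/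

/-- The squared Euclidean norm of every column of a matrix is at most the squared operator
norm. -/
theorem taskD3_col_le {n : ℕ} (P : Matrix (Fin n) (Fin n) ℂ) (k : Fin n) :
    ∑ j, ‖P j k‖ ^ 2 ≤ ‖P‖ ^ 2 := by
  have h1 : ‖Matrix.toEuclideanCLM (n := Fin n) (𝕜 := ℂ) P (EuclideanSpace.single k (1 : ℂ))‖
      ≤ ‖Matrix.toEuclideanCLM (n := Fin n) (𝕜 := ℂ) P‖
        * ‖(EuclideanSpace.single k (1 : ℂ) : EuclideanSpace ℂ (Fin n))‖ :=
    (Matrix.toEuclideanCLM (n := Fin n) (𝕜 := ℂ) P).le_opNorm _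
  have hone : ‖(EuclideanSpace.single k (1 : ℂ) : EuclideanSpace ℂ (Fin n))‖ = 1 := by
    rw [show (EuclideanSpace.single k (1 : ℂ) : EuclideanSpace ℂ (Fin n))
      = PiLp.single 2 k (1 : ℂ) from rfl, PiLp.norm_single, norm_one]
  rw [hone, mul_one] at h1
  have h2 : ‖Matrix.toEuclideanCLM (n := Fin n) (𝕜 := ℂ) P (EuclideanSpace.single k (1 : ℂ))‖ ^ 2
      = ∑ j, ‖P j k‖ ^ 2 := by
    rw [EuclideanSpace.norm_sq_eq]
    refine Finset.sum_congr rfl (fun j _ => ?_)
    have hjk : (Matrix.toEuclideanCLM (n := Fin n) (𝕜 := ℂ) P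
        (EuclideanSpace.single k (1 : ℂ))).ofLp j = P j k := by
      rw [Matrix.ofLp_toEuclideanCLM]
      simp
    rw [hjk]
  have h3 : ‖P‖ = ‖Matrix.toEuclideanCLM (n := Fin n) (𝕜 := ℂ) P‖ := rfl
  rw [← h2, h3]
  exact pow_le_pow_left₀ (norm_nonneg _) h1 2

/-- Pigeonhole: some colour class has at least `n / r` elements. -/
theorem taskD3_pigeon {n r : ℕ} (hr : 0 < r) (c : Fin n → Fin r) :
    ∃ i : Fin r, n ≤ r * (Finset.univ.filter (fun j => c j = i)).card := by
  classical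
  by_contra hcon
  push Not at hcon
  have hsum : ∑ i : Fin r, (Finset.univ.filter (fun j => c j = i)).card = n := by
    have h := Finset.card_eq_sum_card_fiberwise (f := c) (s := Finset.univ) (t := Finset.univ)
      (fun _ _ => Finset.mem_univ _)
    rw [Finset.card_univ, Fintype.card_fin] at h
    exact h.symm
  have h2 : ∑ i : Fin r, r * (Finset.univ.filter (fun j => c j = i)).card
      < ∑ _i : Fin r, n :=
    Finset.sum_lt_sum_of_nonempty ⟨⟨0, hr⟩, Finset.mem_univ _⟩ (fun i _ => hcon i)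
  rw [← Finset.mul_sum, hsum, Finset.sum_const, Finset.card_univ, Fintype.card_fin,
    smul_eq_mul] at h2
  exact lt_irrefl _ h2

theorem paved_norm_sq_ge {n r : ℕ} (hn : 0 < n) (hr : 0 < r) (T : Matrix (Fin n) (Fin n) ℂ)
    (hT : ∀ j k, ‖T j k‖ ^ 2 = 1 / (n : ℝ)) (c : Fin n → Fin r) (d : Fin n → ℝ) :
    1 / (r : ℝ) - 1 / (n : ℝ) ≤ ‖pavedMatrix T c d‖ ^ 2 := by
  classical
  obtain ⟨i, hi⟩ := taskD3_pigeon hr c
  obtain ⟨S, hS⟩ : ∃ S : Finset (Fin n), S = Finset.univ.filter (fun j => c j = i) := ⟨_, rfl⟩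
  rw [← hS] at hi
  have hSpos : 0 < S.card := by
    rcases Nat.eq_zero_or_pos S.card with h0 | h0
    · rw [h0] at hi
      omega
    · exact h0
  obtain ⟨k, hk⟩ := Finset.card_pos.mp hSpos
  have hmemS : ∀ j, j ∈ S → c j = i := by
    intro j hj
    rw [hS] at hj
    exact (Finset.mem_filter.mp hj).2
  have hck : c k = i := hmemS k hk
  have hcol := taskD3_col_le (pavedMatrix T c d) k
  have hsub : ∑ j ∈ S.erase k, ‖pavedMatrix T c d j k‖ ^ 2
      ≤ ∑ j, ‖pavedMatrix T c d j k‖ ^ 2 :=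
    Finset.sum_le_sum_of_subset_of_nonneg (Finset.subset_univ _) (fun _ _ _ => by positivity)
  have hval : ∑ j ∈ S.erase k, ‖pavedMatrix T c d j k‖ ^ 2 = ((S.card : ℝ) - 1) / n := by
    have hterm : ∀ j ∈ S.erase k, ‖pavedMatrix T c d j k‖ ^ 2 = 1 / (n : ℝ) := by
      intro j hj
      have hjk : j ≠ k := Finset.ne_of_mem_erase hj
      have hcj : c j = c k := by
        rw [hck]
        exact hmemS j (Finset.mem_of_mem_erase hj)
      simp only [pavedMatrix, Matrix.of_apply]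
      rw [if_pos hcj, if_neg hjk, sub_zero]
      exact hT j k
    rw [Finset.sum_congr rfl hterm, Finset.sum_const, Finset.card_erase_of_mem hk, nsmul_eq_mul,
      Nat.cast_sub hSpos, Nat.cast_one]
    ring
  have hfin : 1 / (r : ℝ) - 1 / (n : ℝ) ≤ ((S.card : ℝ) - 1) / n := by
    have hnR : (0 : ℝ) < n := by exact_mod_cast hn
    have hrR : (0 : ℝ) < r := by exact_mod_cast hr
    have hiR : (n : ℝ) ≤ r * S.card := by exact_mod_cast hi
    rw [div_sub_div _ _ hrR.ne' hnR.ne', div_le_div_iff₀ (by positivity) hnR]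
    nlinarith [mul_le_mul_of_nonneg_left hiR hnR.le]
  linarith

/-! ### Walsh-Hadamard matrices -/

/-- Orthogonality of the two characters of the two-element group. -/
theorem taskD4_chi (a a' : Bool) :
    ∑ b : Bool, (if a && b then (-1 : ℂ) else 1) * (if b && a' then (-1 : ℂ) else 1) =
      if a = a' then 2 else 0 := by
  rw [Fintype.sum_bool]
  cases a <;> cases a' <;> norm_num

/-- The Walsh-Hadamard matrix indexed by the Boolean cube. -/
theorem taskD4_bool (m : ℕ) : ∃ W : Matrix (Fin m → Bool) (Fin m → Bool) ℂ,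
    W.IsHermitian ∧ W * W = 1 ∧ ∀ s t, ‖W s t‖ ^ 2 = 1 / ((2 ^ m : ℕ) : ℝ) := by
  obtain ⟨c, hc⟩ : ∃ c : ℝ, c = (Real.sqrt (2 ^ m))⁻¹ := ⟨_, rfl⟩
  have hc2 : c * c = ((2 : ℝ) ^ m)⁻¹ := by
    rw [hc, ← mul_inv, Real.mul_self_sqrt (by positivity)]
  refine ⟨Matrix.of fun s t => (c : ℂ) * ∏ i, (if s i && t i then (-1 : ℂ) else 1), ?_, ?_, ?_⟩
  · apply Matrix.IsHermitian.ext
    intro s t
    simp only [Matrix.of_apply]
    rw [star_mul', star_prod]
    congr 1
    · exact Complex.conj_ofReal c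
    · apply Finset.prod_congr rfl
      intro i _
      rw [Bool.and_comm]
      split_ifs <;> simp
  · ext s u
    rw [Matrix.mul_apply, Matrix.one_apply]
    simp only [Matrix.of_apply]
    have h1 : ∀ t : Fin m → Bool,
        (c : ℂ) * (∏ i, (if s i && t i then (-1 : ℂ) else 1)) *
          ((c : ℂ) * ∏ i, (if t i && u i then (-1 : ℂ) else 1)) =
        ((c * c : ℝ) : ℂ) * ∏ i, ((if s i && t i then (-1 : ℂ) else 1) *
          (if t i && u i then (-1 : ℂ) else 1)) := by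
      intro t
      rw [Finset.prod_mul_distrib]
      push_cast
      ring
    rw [Finset.sum_congr rfl (fun t _ => h1 t), ← Finset.mul_sum,
      ← Fintype.prod_sum (fun (i : Fin m) (b : Bool) =>
        (if s i && b then (-1 : ℂ) else 1) * (if b && u i then (-1 : ℂ) else 1))]
    simp only [taskD4_chi]
    by_cases hsu : s = u
    · subst hsu
      simp only [if_true, Finset.prod_const, Finset.card_univ, Fintype.card_fin]
      rw [hc2]
      push_cast
      rw [inv_mul_cancel₀ (pow_ne_zero m two_ne_zero)]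
    · rw [if_neg hsu]
      obtain ⟨i, hi⟩ : ∃ i, s i ≠ u i := by
        by_contra hcon
        push Not at hcon
        exact hsu (funext hcon)
      rw [Finset.prod_eq_zero (Finset.mem_univ i) (by rw [if_neg hi]), mul_zero]
  · intro s t
    simp only [Matrix.of_apply]
    have h2 : ‖∏ i, (if s i && t i then (-1 : ℂ) else 1)‖ = 1 := by
      rw [norm_prod]
      apply Finset.prod_eq_one
      intro i _
      split_ifs <;> simp
    rw [norm_mul, h2, mul_one, Complex.norm_real, Real.norm_eq_abs, sq_abs, sq, hc2]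
    push_cast
    rw [one_div]

theorem exists_walsh (m : ℕ) : ∃ T : Matrix (Fin (2 ^ m)) (Fin (2 ^ m)) ℂ,
    T.IsHermitian ∧ T * T = 1 ∧ ‖T‖ = 1 ∧ ∀ j k, ‖T j k‖ ^ 2 = 1 / ((2 ^ m : ℕ) : ℝ) := by
  obtain ⟨W, hWh, hWW, hWe⟩ := taskD4_bool m
  have hcard : Fintype.card (Fin m → Bool) = 2 ^ m := by simp
  obtain ⟨e⟩ : Nonempty ((Fin m → Bool) ≃ Fin (2 ^ m)) := ⟨Fintype.equivFinOfCardEq hcard⟩
  have hT : (W.submatrix e.symm e.symm).IsHermitian := hWh.submatrix e.symm
  have hTT : W.submatrix e.symm e.symm * W.submatrix e.symm e.symm = 1 := by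
    rw [Matrix.submatrix_mul_equiv, hWW, Matrix.submatrix_one_equiv]
  refine ⟨W.submatrix e.symm e.symm, hT, hTT, ?_, fun j k => hWe _ _⟩
  have hne : Nonempty (Fin (2 ^ m)) := ⟨⟨0, Nat.two_pow_pos m⟩⟩
  apply CStarRing.norm_of_mem_unitary
  rw [Unitary.mem_iff, Matrix.star_eq_conjTranspose, hT.eq]
  exact ⟨hTT, hTT⟩

/-! ### Transport of a Hermitian matrix -/

/-- The operator of a Hermitian matrix on Euclidean space is self-adjoint. -/
theorem taskD5_adjoint_toEuclideanCLM {n : ℕ} (T : Matrix (Fin n) (Fin n) ℂ)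
    (hT : T.IsHermitian) :
    adjoint (Matrix.toEuclideanCLM (n := Fin n) (𝕜 := ℂ) T)
      = Matrix.toEuclideanCLM (n := Fin n) (𝕜 := ℂ) T := by
  have hsa : IsSelfAdjoint (Matrix.toEuclideanCLM (n := Fin n) (𝕜 := ℂ) T) := by
    rw [IsSelfAdjoint, ← map_star]
    congr 1
  have h := hsa.star_eq
  rw [star_eq_adjoint] at h
  exact h

theorem isSelfAdjoint_synth_conj {n : ℕ} (u : Fin n → H) (T : Matrix (Fin n) (Fin n) ℂ)
    (hT : T.IsHermitian) :
    IsSelfAdjoint (synth u ∘L Matrix.toEuclideanCLM (n := Fin n) (𝕜 := ℂ) T ∘L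
      adjoint (synth u)) := by
  rw [IsSelfAdjoint, star_eq_adjoint, adjoint_comp, adjoint_comp, adjoint_adjoint,
    taskD5_adjoint_toEuclideanCLM T hT, comp_assoc]

/-! ### The lower bound for infinitely many atoms -/

/-- **Lower bound for MASAs with infinitely many atoms.** If a MASA `A` of `B(H)` has infinitely
many atoms and every self-adjoint operator is `(ε, r)` so-pavable over `A`, then
`r ≥ ε⁻²`. -/
theorem sq_mul_ge_of_infinite_atoms (A M : VonNeumannAlgebra H) (hA : IsMASA A M)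
    (hinf : Set.Infinite {e : H →L[ℂ] H | IsAtomOf A e}) {ε : ℝ} {r : ℕ}
    (h : ∀ x : H →L[ℂ] H, IsSelfAdjoint x → SoPavable A M x ε r) : 1 ≤ ε ^ 2 * r := by
  have hAc := hA.2.1
  obtain ⟨e0, he0⟩ := hinf.nonempty
  have he0' : IsAtomOf A e0 := he0
  have h1ne : (1 : H →L[ℂ] H) ≠ 0 := by
    intro h10
    apply he0'.2.2.1
    rw [← mul_one e0, h10, mul_zero]
  have hε : 0 ≤ ε := by
    by_contra hneg
    rw [not_le] at hneg
    obtain ⟨p, a, q, -, -, -, -, -, -, -, hb⟩ := h 1 (IsSelfAdjoint.one _) ∅ 1 one_pos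
    have h1 : 0 < ‖(1 : H →L[ℂ] H)‖ := norm_pos_iff.mpr h1ne
    nlinarith [norm_nonneg (q * (pinching p 1 - a) * q)]
  have hr : 0 < r := by
    rcases Nat.eq_zero_or_pos r with h0 | h0
    · exfalso
      subst h0
      obtain ⟨p, a, q, hp, -⟩ := h 1 (IsSelfAdjoint.one _) ∅ 1 one_pos
      have h2 := hp.2.2
      rw [Finset.univ_eq_empty, Finset.sum_empty] at h2
      exact h1ne h2.symm
    · exact h0
  have hr0 : (0 : ℝ) < r := Nat.cast_pos.mpr hr
  have key : ∀ m : ℕ, 1 / (r : ℝ) - 1 / ((2 ^ m : ℕ) : ℝ) ≤ ε ^ 2 := by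
    intro m
    obtain ⟨T, hTh, -, hTn, hTe⟩ := exists_walsh m
    obtain ⟨e, he, hinj⟩ : ∃ e : Fin (2 ^ m) → H →L[ℂ] H,
        (∀ j, IsAtomOf A (e j)) ∧ Function.Injective e := by
      refine ⟨fun j => ((hinf.natEmbedding _ (j : ℕ) : {e : H →L[ℂ] H | IsAtomOf A e}) :
        H →L[ℂ] H), fun j => (hinf.natEmbedding _ (j : ℕ)).2, ?_⟩
      intro j k hjk
      exact Fin.val_injective ((hinf.natEmbedding _).injective (Subtype.val_injective hjk))
    choose u hu heu using fun j => atom_exists_unit A (he j)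
    have hxsa := isSelfAdjoint_synth_conj u T hTh
    have hη : ∀ η : ℝ, 0 < η → 1 / (r : ℝ) - 1 / ((2 ^ m : ℕ) : ℝ) ≤ (ε + η) ^ 2 := by
      intro η hη
      obtain ⟨c, d, -, hcd⟩ :=
        paved_of_soPavable_atoms A M hAc e he hinj u hu heu T hε (h _ hxsa) hη
      have h3 := paved_norm_sq_ge (Nat.pos_of_ne_zero (by positivity)) hr T hTe c d
      rw [hTn, mul_one] at hcd
      calc 1 / (r : ℝ) - 1 / ((2 ^ m : ℕ) : ℝ) ≤ ‖pavedMatrix T c d‖ ^ 2 := h3
        _ ≤ (ε + η) ^ 2 := by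
            have h4 := norm_nonneg (pavedMatrix T c d)
            nlinarith
    by_contra hcon
    rw [not_le] at hcon
    obtain ⟨L, hL⟩ : ∃ L : ℝ, L = 1 / (r : ℝ) - 1 / ((2 ^ m : ℕ) : ℝ) := ⟨_, rfl⟩
    rw [← hL] at hcon hη
    have hgap : 0 < L - ε ^ 2 := sub_pos.mpr hcon
    have hden : 0 < 2 * ε + 1 := by linarith
    have hη1 := hη (min 1 ((L - ε ^ 2) / (2 * (2 * ε + 1)))) (lt_min one_pos (by positivity))
    have hm1 : min 1 ((L - ε ^ 2) / (2 * (2 * ε + 1))) ≤ 1 := min_le_left _ _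
    have hm2 : min 1 ((L - ε ^ 2) / (2 * (2 * ε + 1))) ≤ (L - ε ^ 2) / (2 * (2 * ε + 1)) :=
      min_le_right _ _
    have hm0 : 0 < min 1 ((L - ε ^ 2) / (2 * (2 * ε + 1))) := lt_min one_pos (by positivity)
    have hm3 : min 1 ((L - ε ^ 2) / (2 * (2 * ε + 1))) * (2 * (2 * ε + 1)) ≤ L - ε ^ 2 := by
      rw [← le_div_iff₀ (by positivity)]
      exact hm2
    nlinarith
  by_contra hcon
  rw [not_le] at hcon
  have hgap : 0 < 1 / (r : ℝ) - ε ^ 2 := by
    rw [sub_pos, lt_div_iff₀ hr0]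
    exact hcon
  obtain ⟨m, hm⟩ := exists_pow_lt_of_lt_one hgap (by norm_num : (1 / 2 : ℝ) < 1)
  have hkey := key m
  have h5 : 1 / ((2 ^ m : ℕ) : ℝ) = (1 / 2 : ℝ) ^ m := by
    push_cast
    rw [one_div, one_div, inv_pow]
  rw [h5] at hkey
  linarith

/-! ### The reduction of a MASA to the range of one of its projections -/

lemma taskE1_extz_injective (U : Submodule ℂ H) [CompleteSpace U] {S T : U →L[ℂ] U}
    (h : extz U S = extz U T) : S = T := by
  have h1 := congrArg (compr U) h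
  rwa [compr_extz, compr_extz] at h1

lemma taskE1_mul_extz (U : Submodule ℂ H) [CompleteSpace U] {a : H →L[ℂ] H}
    (ha : a * U.starProjection = U.starProjection * a) (y : U →L[ℂ] U) :
    a * extz U y = extz U (compr U a * y) := by
  rw [extz_mul, extz_compr, mul_assoc, proj_mul_extz, ← ha, mul_assoc, proj_mul_extz]

lemma taskE1_extz_mul (U : Submodule ℂ H) [CompleteSpace U] {a : H →L[ℂ] H}
    (ha : a * U.starProjection = U.starProjection * a) (y : U →L[ℂ] U) :
    extz U y * a = extz U (y * compr U a) := by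
  rw [extz_mul, extz_compr, ← mul_assoc, ← mul_assoc, extz_mul_proj, mul_assoc, ha,
    ← mul_assoc, extz_mul_proj]

lemma taskE1_comm_of_mem (A : VonNeumannAlgebra H) (hAc : ∀ a ∈ A, ∀ b ∈ A, a * b = b * a)
    (U : Submodule ℂ H) [CompleteSpace U] (hU : U.starProjection ∈ A) (y : U →L[ℂ] U)
    (hy : extz U y ∈ A) {a : H →L[ℂ] H} (ha : a ∈ A) :
    compr U a * y = y * compr U a := by
  have hP : a * U.starProjection = U.starProjection * a := hAc a ha _ hU
  apply taskE1_extz_injective U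
  rw [← taskE1_mul_extz U hP, ← taskE1_extz_mul U hP]
  exact hAc a ha _ hy

theorem mem_reducedAlg_iff (A : VonNeumannAlgebra H) (hAc : ∀ a ∈ A, ∀ b ∈ A, a * b = b * a)
    (hAm : ∀ y : H →L[ℂ] H, (∀ a ∈ A, a * y = y * a) → y ∈ A)
    (U : Submodule ℂ H) [CompleteSpace U] (hU : U.starProjection ∈ A) (y : U →L[ℂ] U) :
    y ∈ reducedAlg U A ↔ extz U y ∈ A := by
  unfold reducedAlg
  rw [taskG_mem_centralizer]
  constructor
  · intro h
    apply hAm
    intro a ha
    have hP : a * U.starProjection = U.starProjection * a := hAc a ha _ hU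
    rw [taskE1_mul_extz U hP, taskE1_extz_mul U hP, (h _ ⟨a, ha, rfl⟩).1]
  · rintro h b ⟨a, ha, rfl⟩
    refine ⟨taskE1_comm_of_mem A hAc U hU y h ha, ?_⟩
    rw [← compr_star]
    exact taskE1_comm_of_mem A hAc U hU y h (star_mem ha)

theorem isMASA_reducedAlg (A : VonNeumannAlgebra H) (hAc : ∀ a ∈ A, ∀ b ∈ A, a * b = b * a)
    (hAm : ∀ y : H →L[ℂ] H, (∀ a ∈ A, a * y = y * a) → y ∈ A)
    (U : Submodule ℂ H) [CompleteSpace U] (hU : U.starProjection ∈ A)
    (MU : VonNeumannAlgebra U) (hMU : ∀ y : U →L[ℂ] U, y ∈ MU) :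
    IsMASA (reducedAlg U A) MU := by
  refine ⟨fun y _ => hMU y, ?_, ?_⟩
  · intro y hy y' hy'
    rw [mem_reducedAlg_iff A hAc hAm U hU] at hy hy'
    apply taskE1_extz_injective U
    rw [extz_mul, extz_mul]
    exact hAc _ hy _ hy'
  · intro x _ hx
    have hmem : ∀ a ∈ A, compr U a ∈ reducedAlg U A := by
      intro a ha
      rw [mem_reducedAlg_iff A hAc hAm U hU, extz_compr]
      exact mul_mem (mul_mem hU ha) hU
    unfold reducedAlg
    rw [taskG_mem_centralizer]
    rintro b ⟨a, ha, rfl⟩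
    refine ⟨hx _ (hmem a ha), ?_⟩
    rw [← compr_star]
    exact hx _ (hmem _ (star_mem ha))

/-! ### Diffuseness of the reduced algebra -/

/-- The extension by zero of the zero operator is zero. -/
lemma taskE2_extz_zero (U : Submodule ℂ H) [CompleteSpace U] :
    extz U (0 : U →L[ℂ] U) = 0 := by
  have h := extz_sub U (0 : U →L[ℂ] U) 0
  rw [sub_self, sub_self] at h
  exact h

theorem isDiffuse_reducedAlg (A : VonNeumannAlgebra H) (hAc : ∀ a ∈ A, ∀ b ∈ A, a * b = b * a)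
    (hAm : ∀ y : H →L[ℂ] H, (∀ a ∈ A, a * y = y * a) → y ∈ A)
    (U : Submodule ℂ H) [CompleteSpace U] (hU : U.starProjection ∈ A)
    (hna : ∀ e : H →L[ℂ] H, IsAtomOf A e → U.starProjection * e = 0) :
    IsDiffuse (reducedAlg U A) := by
  intro p hpA hp hp0
  have hEA : extz U p ∈ A := (mem_reducedAlg_iff A hAc hAm U hU p).mp hpA
  have hEproj : IsStarProjection (extz U p) := by
    refine ⟨?_, ?_⟩
    · show extz U p * extz U p = extz U p
      rw [← extz_mul, hp.isIdempotentElem.eq]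
    · show star (extz U p) = extz U p
      rw [← extz_star, hp.isSelfAdjoint.star_eq]
  have hPE : U.starProjection * extz U p = extz U p := proj_mul_extz U p
  have hE0 : extz U p ≠ 0 := by
    intro h
    apply hp0
    have h1 := compr_extz U p
    rw [h, compr_zero] at h1
    exact h1.symm
  have hnot : ¬ IsAtomOf A (extz U p) := by
    intro hat
    have h1 := hna _ hat
    rw [hPE] at h1
    exact hE0 h1
  have hex : ∃ p2 ∈ A, IsStarProjection p2 ∧ extz U p * p2 = p2 ∧ p2 ≠ 0 ∧ p2 ≠ extz U p := by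
    by_contra hcon
    apply hnot
    refine ⟨hEA, hEproj, hE0, ?_⟩
    intro p' hp'A hp' hle
    by_contra hne
    push Not at hne
    exact hcon ⟨p', hp'A, hp', hle, hne.1, hne.2⟩
  obtain ⟨p2, hp2A, hp2, hEp2, hp20, hp2E⟩ := hex
  have hPp2 : U.starProjection * p2 = p2 := by
    rw [← hEp2, ← mul_assoc, hPE]
  have hPproj : IsStarProjection U.starProjection := isStarProjection_starProjection
  have hp2P : p2 * U.starProjection = p2 := taskS_mul_comm_of_le hPproj hp2 hPp2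
  have hcomm : p2 * U.starProjection = U.starProjection * p2 := by rw [hp2P, hPp2]
  have hext : extz U (compr U p2) = p2 := by
    rw [extz_compr, hPp2, hp2P]
  refine ⟨compr U p2, ?_, ?_, ?_, ?_, ?_⟩
  · rw [mem_reducedAlg_iff A hAc hAm U hU, hext]
    exact hp2A
  · refine ⟨?_, ?_⟩
    · show compr U p2 * compr U p2 = compr U p2
      rw [← compr_mul_of_comm_right U p2 hcomm, hp2.isIdempotentElem.eq]
    · show star (compr U p2) = compr U p2
      rw [← compr_star, hp2.isSelfAdjoint.star_eq]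
  · intro h
    apply hp20
    rw [← hext, h]
    exact taskE2_extz_zero U
  · intro h
    apply hp2E
    rw [← hext, h]
  · calc p * compr U p2 = compr U (extz U p) * compr U p2 := by rw [compr_extz]
      _ = compr U (extz U p * p2) := (compr_mul_of_comm_right U _ hcomm).symm
      _ = compr U p2 := by rw [hEp2]

/-! ### Norm of an orthogonal sum -/

omit [CompleteSpace H] in
/-- Pythagoras for a finite pairwise orthogonal family -/
lemma taskE3_pyth_sum {ι : Type*} (s : Finset ι) (v : ι → H)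
    (h : ∀ i ∈ s, ∀ j ∈ s, i ≠ j → ⟪v i, v j⟫_ℂ = 0) :
    ‖∑ i ∈ s, v i‖ ^ 2 = ∑ i ∈ s, ‖v i‖ ^ 2 := by
  classical
  induction s using Finset.induction_on with
  | empty => simp
  | insert a s ha ih =>
    rw [Finset.sum_insert ha, Finset.sum_insert ha, norm_add_sq (𝕜 := ℂ), inner_sum,
      Finset.sum_eq_zero, ih]
    · simp
    · intro i hi j hj hij
      exact h i (Finset.mem_insert_of_mem hi) j (Finset.mem_insert_of_mem hj) hij
    · intro i hi
      refine h a (Finset.mem_insert_self a s) i (Finset.mem_insert_of_mem hi) ?_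
      rintro rfl
      exact ha hi

theorem norm_atoms_add_extz_le {k : ℕ} (e : Fin k → H →L[ℂ] H)
    (hep : ∀ j, IsStarProjection (e j)) (horth : ∀ j l, j ≠ l → e j * e l = 0)
    (U : Submodule ℂ H) [CompleteSpace U] (hU : U.starProjection = 1 - ∑ j, e j)
    (x : H →L[ℂ] H) (a' : U →L[ℂ] U) (ha' : ‖a'‖ ≤ ‖x‖) :
    ‖∑ j, e j * x * e j + extz U a'‖ ≤ ‖x‖ := by
  refine opNorm_le_bound _ (norm_nonneg x) fun ξ => ?_
  have hsa : ∀ j (s t : H), ⟪e j s, t⟫_ℂ = ⟪s, e j t⟫_ℂ := by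
    intro j s t
    have h1 : star (e j) = e j := (hep j).isSelfAdjoint
    rw [← adjoint_inner_right, ← star_eq_adjoint, h1]
  have hinner1 : ∀ j l, j ≠ l → ∀ s t : H, ⟪e j s, e l t⟫_ℂ = 0 := by
    intro j l hjl s t
    rw [hsa, ← mul_apply_eq_comp, horth j l hjl]
    simp
  have heP : ∀ j, e j * U.starProjection = 0 := by
    intro j
    rw [hU, mul_sub, mul_one, Finset.mul_sum, Finset.sum_eq_single j]
    · rw [(hep j).isIdempotentElem.eq, sub_self]
    · intro l _ hl
      exact horth j l (Ne.symm hl)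
    · intro h
      exact absurd (Finset.mem_univ j) h
  have hinner2 : ∀ j (s : H) (u : U), ⟪e j s, (u : H)⟫_ℂ = 0 := by
    intro j s u
    have hu : U.starProjection (u : H) = u := Submodule.starProjection_eq_self_iff.2 u.2
    rw [hsa, ← hu, ← mul_apply_eq_comp, heP]
    simp
  have pyth : ∀ (s : Fin k → H) (u : U),
      ‖∑ j, e j (s j) + (u : H)‖ ^ 2 = ∑ j, ‖e j (s j)‖ ^ 2 + ‖(u : H)‖ ^ 2 := by
    intro s u
    rw [norm_add_sq (𝕜 := ℂ), sum_inner, Finset.sum_eq_zero (fun j _ => hinner2 j (s j) u),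
      taskE3_pyth_sum]
    · simp
    · intro i _ j _ hij
      exact hinner1 i j hij _ _
  have hξ : ξ = ∑ j, e j ξ + ((U.orthogonalProjectionOnto ξ : U) : H) := by
    have h1 : U.starProjection ξ = ξ - ∑ j, e j ξ := by
      rw [hU]
      simp
    have h2 : ((U.orthogonalProjectionOnto ξ : U) : H) = U.starProjection ξ := rfl
    rw [h2, h1]
    abel
  have h1 : ‖ξ‖ ^ 2 = ∑ j, ‖e j ξ‖ ^ 2 + ‖((U.orthogonalProjectionOnto ξ : U) : H)‖ ^ 2 := by
    conv_lhs => rw [hξ]
    exact pyth (fun _ => ξ) _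
  have h2 : (∑ j, e j * x * e j + extz U a') ξ
      = ∑ j, e j (x (e j ξ)) + ((a' (U.orthogonalProjectionOnto ξ) : U) : H) := by
    simp [mul_apply_eq_comp, extz_apply]
  rw [h2]
  have h3 := pyth (fun j => x (e j ξ)) (a' (U.orthogonalProjectionOnto ξ))
  have b1 : ∀ j, ‖e j (x (e j ξ))‖ ^ 2 ≤ ‖x‖ ^ 2 * ‖e j ξ‖ ^ 2 := by
    intro j
    have hle : ‖e j (x (e j ξ))‖ ≤ ‖x‖ * ‖e j ξ‖ := by
      calc ‖e j (x (e j ξ))‖ ≤ ‖e j‖ * ‖x (e j ξ)‖ := le_opNorm _ _
        _ ≤ 1 * (‖x‖ * ‖e j ξ‖) :=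
          mul_le_mul (IsStarProjection.norm_le _ (hep j)) (le_opNorm _ _) (norm_nonneg _)
            zero_le_one
        _ = ‖x‖ * ‖e j ξ‖ := one_mul _
    calc ‖e j (x (e j ξ))‖ ^ 2 ≤ (‖x‖ * ‖e j ξ‖) ^ 2 :=
          pow_le_pow_left₀ (norm_nonneg _) hle 2
      _ = ‖x‖ ^ 2 * ‖e j ξ‖ ^ 2 := mul_pow _ _ _
  have b2 : ‖((a' (U.orthogonalProjectionOnto ξ) : U) : H)‖ ^ 2
      ≤ ‖x‖ ^ 2 * ‖((U.orthogonalProjectionOnto ξ : U) : H)‖ ^ 2 := by
    have hle : ‖((a' (U.orthogonalProjectionOnto ξ) : U) : H)‖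
        ≤ ‖x‖ * ‖((U.orthogonalProjectionOnto ξ : U) : H)‖ := by
      have e1 : ∀ u : U, ‖(u : H)‖ = ‖u‖ := fun u => rfl
      rw [e1, e1]
      calc ‖a' (U.orthogonalProjectionOnto ξ)‖ ≤ ‖a'‖ * ‖U.orthogonalProjectionOnto ξ‖ :=
            le_opNorm _ _
        _ ≤ ‖x‖ * ‖U.orthogonalProjectionOnto ξ‖ :=
          mul_le_mul_of_nonneg_right ha' (norm_nonneg _)
    calc ‖((a' (U.orthogonalProjectionOnto ξ) : U) : H)‖ ^ 2
          ≤ (‖x‖ * ‖((U.orthogonalProjectionOnto ξ : U) : H)‖) ^ 2 :=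
          pow_le_pow_left₀ (norm_nonneg _) hle 2
      _ = _ := mul_pow _ _ _
  have h4 : ‖∑ j, e j (x (e j ξ)) + ((a' (U.orthogonalProjectionOnto ξ) : U) : H)‖ ^ 2
      ≤ (‖x‖ * ‖ξ‖) ^ 2 := by
    rw [h3, mul_pow, h1, mul_add, Finset.mul_sum]
    exact add_le_add (Finset.sum_le_sum fun j _ => b1 j) b2
  exact (abs_le_of_sq_le_sq' h4 (by positivity)).2

/-! ### So-paving with finitely many atoms -/

omit [CompleteSpace H] in
lemma taskE4_extz_zero (U : Submodule ℂ H) [CompleteSpace U] :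
    extz U (0 : U →L[ℂ] U) = 0 := by
  ext ξ
  simp [extz]

lemma taskE4_extz_sum (U : Submodule ℂ H) [CompleteSpace U] {ι : Type*} (s : Finset ι)
    (T : ι → U →L[ℂ] U) : extz U (∑ i ∈ s, T i) = ∑ i ∈ s, extz U (T i) := by
  classical
  induction s using Finset.induction_on with
  | empty => rw [Finset.sum_empty, Finset.sum_empty, taskE4_extz_zero]
  | insert a s ha ih => rw [Finset.sum_insert ha, Finset.sum_insert ha, extz_add, ih]

omit [CompleteSpace H] in
lemma taskE4_extz_mul_mul (U : Submodule ℂ H) [CompleteSpace U] (S T : U →L[ℂ] U)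
    (x : H →L[ℂ] H) : extz U S * x * extz U T = extz U (S * compr U x * T) := by
  ext ξ
  rfl

lemma taskE4_isStarProjection_extz (U : Submodule ℂ H) [CompleteSpace U] {T : U →L[ℂ] U}
    (hT : IsStarProjection T) : IsStarProjection (extz U T) where
  isIdempotentElem := by
    rw [IsIdempotentElem, ← extz_mul, hT.isIdempotentElem.eq]
  isSelfAdjoint := by
    rw [IsSelfAdjoint, ← extz_star, hT.isSelfAdjoint.star_eq]

theorem soPavable_of_finite_atoms (A M : VonNeumannAlgebra H) (hM : ∀ y : H →L[ℂ] H, y ∈ M)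
    (hA : IsMASA A M) {k : ℕ} (e : Fin k → H →L[ℂ] H) (he : ∀ j, IsAtomOf A (e j))
    (hinj : Function.Injective e) (hall : ∀ e' : H →L[ℂ] H, IsAtomOf A e' → ∃ j, e j = e')
    {ε : ℝ} {r : ℕ} (hεr : 1 ≤ ε * r) (x : H →L[ℂ] H) (hx : IsSelfAdjoint x) :
    SoPavable A M x ε (k + r) := by
  classical
  have hAc := hA.2.1
  have hAm : ∀ y : H →L[ℂ] H, (∀ a ∈ A, a * y = y * a) → y ∈ A :=
    fun y hy => hA.2.2 y (hM y) hy
  have hep : ∀ j, IsStarProjection (e j) := fun j => (he j).2.1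
  have heA : ∀ j, e j ∈ A := fun j => (he j).1
  have horth : ∀ j l, j ≠ l → e j * e l = 0 := fun j l hjl =>
    atom_orth A hAc (he j) (he l) (fun h => hjl (hinj h))
  obtain ⟨E, hE⟩ : ∃ E : H →L[ℂ] H, E = ∑ j, e j := ⟨_, rfl⟩
  have hEp : IsStarProjection E := by
    rw [hE]
    exact isStarProjection_sum Finset.univ e (fun j _ => hep j)
      (fun j _ l _ hjl => horth j l hjl)
  have hEA : E ∈ A := by
    rw [hE]
    exact sum_mem (fun j _ => heA j)
  have h1E : IsStarProjection (1 - E) := hEp.one_sub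
  obtain ⟨U, hUc, hU⟩ := exists_complete_range h1E
  have hPA : U.starProjection ∈ A := by
    rw [← hU]
    exact sub_mem (one_mem A) hEA
  have heE : ∀ j, e j * E = e j := by
    intro j
    rw [hE, Finset.mul_sum, Finset.sum_eq_single j]
    · exact (hep j).isIdempotentElem.eq
    · intro l _ hl
      exact horth j l (Ne.symm hl)
    · intro h
      exact absurd (Finset.mem_univ j) h
  have hEe : ∀ j, E * e j = e j := by
    intro j
    rw [hE, Finset.sum_mul, Finset.sum_eq_single j]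
    · exact (hep j).isIdempotentElem.eq
    · intro l _ hl
      exact horth l j hl
    · intro h
      exact absurd (Finset.mem_univ j) h
  have heP : ∀ j, e j * U.starProjection = 0 := by
    intro j
    rw [← hU, mul_sub, mul_one, heE, sub_self]
  have hPe : ∀ j, U.starProjection * e j = 0 := by
    intro j
    rw [← hU, sub_mul, one_mul, hEe, sub_self]
  have hEP : E * U.starProjection = 0 := by
    rw [← hU, mul_sub, mul_one, hEp.isIdempotentElem.eq, sub_self]
  have hPE : U.starProjection * E = 0 := by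
    rw [← hU, sub_mul, one_mul, hEp.isIdempotentElem.eq, sub_self]
  have he_ext : ∀ j (S : U →L[ℂ] U), e j * extz U S = 0 := by
    intro j S
    rw [← proj_mul_extz U S, ← mul_assoc, heP, zero_mul]
  have hext_e : ∀ j (S : U →L[ℂ] U), extz U S * e j = 0 := by
    intro j S
    rw [← extz_mul_proj U S, mul_assoc, hPe, mul_zero]
  have hE_ext : ∀ S : U →L[ℂ] U, E * extz U S = 0 := by
    intro S
    rw [← proj_mul_extz U S, ← mul_assoc, hEP, zero_mul]
  have hext_E : ∀ S : U →L[ℂ] U, extz U S * E = 0 := by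
    intro S
    rw [← extz_mul_proj U S, mul_assoc, hPE, mul_zero]
  -- the reduced algebra
  have hMASA : IsMASA (reducedAlg U A) (topAlgebra U) :=
    isMASA_reducedAlg A hAc hAm U hPA (topAlgebra U) mem_topAlgebra
  have hdiff : IsDiffuse (reducedAlg U A) := by
    refine isDiffuse_reducedAlg A hAc hAm U hPA ?_
    intro e' he'
    obtain ⟨j, rfl⟩ := hall e' he'
    exact hPe j
  have hxU : IsSelfAdjoint (compr U x) := by
    rw [IsSelfAdjoint, ← compr_star, hx.star_eq]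
  have hnxU : ‖compr U x‖ ≤ ‖x‖ := norm_compr_le U x
  have hpav := soPavable_of_diffuse_of_le (reducedAlg U A) (topAlgebra U) mem_topAlgebra hMASA
    hdiff hεr (compr U x) hxU
  have hε : 0 < ε := by
    by_contra h
    push Not at h
    have h2 : ε * r ≤ 0 := mul_nonpos_of_nonpos_of_nonneg h (Nat.cast_nonneg r)
    linarith
  intro F δ hδ
  obtain ⟨p', a', q', hp', ha'A, ha'sa, ha'n, -, hq'p, hq'F, hq'n⟩ :=
    hpav (F.image U.orthogonalProjectionOnto) δ hδ
  obtain ⟨p, hp⟩ : ∃ p : Fin (k + r) → H →L[ℂ] H,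
      p = Fin.addCases (fun j => e j) (fun i => extz U (p' i)) := ⟨_, rfl⟩
  have hpl : ∀ j, p (Fin.castAdd r j) = e j := by
    intro j
    rw [hp]
    exact Fin.addCases_left j
  have hpr : ∀ i, p (Fin.natAdd k i) = extz U (p' i) := by
    intro i
    rw [hp]
    exact Fin.addCases_right i
  have hpinch : pinching p x = ∑ j, e j * x * e j + extz U (pinching p' (compr U x)) := by
    unfold pinching
    rw [Fin.sum_univ_add, taskE4_extz_sum]
    congr 1
    · exact Finset.sum_congr rfl (fun j _ => by rw [hpl])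
    · exact Finset.sum_congr rfl (fun i _ => by rw [hpr, taskE4_extz_mul_mul])
  refine ⟨p, ∑ j, e j * x * e j + extz U a', E + extz U q', ⟨?_, ?_, ?_⟩, ?_, ?_, ?_, hM _,
    ?_, ?_, ?_⟩
  · -- members and projections
    intro i
    refine Fin.addCases (fun j => ?_) (fun i' => ?_) i
    · rw [hpl]
      exact ⟨heA j, hep j⟩
    · rw [hpr]
      exact ⟨(mem_reducedAlg_iff A hAc hAm U hPA (p' i')).1 (hp'.1 i').1,
        taskE4_isStarProjection_extz U (hp'.1 i').2⟩
  · -- orthogonality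
    intro i j
    refine Fin.addCases (fun a => ?_) (fun a => ?_) i <;>
      refine Fin.addCases (fun b => ?_) (fun b => ?_) j
    · intro hij
      rw [hpl, hpl]
      exact horth a b (fun h => hij (by rw [h]))
    · intro _
      rw [hpl, hpr]
      exact he_ext a _
    · intro _
      rw [hpr, hpl]
      exact hext_e b _
    · intro hij
      rw [hpr, hpr, ← extz_mul, hp'.2.1 a b (fun h => hij (by rw [h])), taskE4_extz_zero]
  · -- sum
    rw [Fin.sum_univ_add]
    have h1 : ∑ j : Fin k, p (Fin.castAdd r j) = E := by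
      rw [hE]
      exact Finset.sum_congr rfl (fun j _ => hpl j)
    have h2 : ∑ i : Fin r, p (Fin.natAdd k i) = U.starProjection := by
      rw [← extz_one, ← hp'.2.2, taskE4_extz_sum]
      exact Finset.sum_congr rfl (fun i _ => hpr i)
    rw [h1, h2, ← hU]
    abel
  · -- a in A
    refine add_mem (sum_mem (fun j _ => ?_)) ((mem_reducedAlg_iff A hAc hAm U hPA a').1 ha'A)
    obtain ⟨c, hc⟩ := taskX1_compress A hAc hAm (heA j) (hep j) (he j).2.2.2 x
    rw [hc]
    exact A.toStarSubalgebra.smul_mem (heA j) c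
  · -- a self-adjoint
    refine IsSelfAdjoint.add (isSelfAdjoint_sum _ (fun j _ => ?_)) ?_
    · rw [IsSelfAdjoint, star_mul, star_mul, (hep j).isSelfAdjoint.star_eq, hx.star_eq]
      exact (mul_assoc _ _ _).symm
    · rw [IsSelfAdjoint, ← extz_star, ha'sa.star_eq]
  · -- norm of a
    exact norm_atoms_add_extz_le e hep horth U (by rw [← hU, hE]) x a' (ha'n.trans hnxU)
  · -- q projection
    exact IsStarProjection.add hEp (taskE4_isStarProjection_extz U hq'p) (hE_ext q')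
  · -- q close to one on F
    intro ξ hξ
    have h1q : 1 - (E + extz U q') = extz U (1 - q') := by
      rw [extz_sub, extz_one, ← hU]
      abel
    rw [h1q, extz_apply, ← Submodule.coe_norm]
    exact hq'F _ (Finset.mem_image_of_mem _ hξ)
  · -- the paving estimate
    have hdiffeq : pinching p x - (∑ j, e j * x * e j + extz U a')
        = extz U (pinching p' (compr U x) - a') := by
      rw [hpinch, extz_sub]
      abel
    have hq : (E + extz U q') * extz U (pinching p' (compr U x) - a') * (E + extz U q')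
        = extz U (q' * (pinching p' (compr U x) - a') * q') := by
      rw [add_mul, hE_ext, zero_add, mul_add, mul_assoc (extz U q') _ E, hext_E, mul_zero,
        zero_add, ← extz_mul, ← extz_mul]
    rw [hdiffeq, hq, norm_extz]
    exact hq'n.trans (mul_le_mul_of_nonneg_left hnxU hε.le)

/-! ### The so-paving numbers -/

/-- **MASAs with infinitely many atoms**: the so-paving number is at least `⌈ε⁻²⌉`. -/
theorem le_soPavingNumber_of_infinite_atoms (A M : VonNeumannAlgebra H)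
    (hM : ∀ y : H →L[ℂ] H, y ∈ M) (hA : IsMASA A M)
    (hinf : Set.Infinite {e : H →L[ℂ] H | IsAtomOf A e}) {ε : ℝ} (hε : 0 < ε) :
    ((⌈1 / ε ^ 2⌉₊ : ℕ) : ℕ∞) ≤ soPavingNumber A M ε := by
  unfold soPavingNumber
  refine le_iInf (fun r => le_iInf (fun hr => ?_))
  rw [Nat.cast_le, Nat.ceil_le]
  have h1 : 1 ≤ ε ^ 2 * r :=
    sq_mul_ge_of_infinite_atoms A M hA hinf (fun x hx => hr.2 x (hM x) hx)
  rw [div_le_iff₀ (by positivity), mul_comm]
  exact h1

/-- **MASAs with finitely many atoms**: the so-paving number is at most the number of atoms plus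
`⌈1/ε⌉`. -/
theorem soPavingNumber_le_of_finite_atoms (A M : VonNeumannAlgebra H)
    (hM : ∀ y : H →L[ℂ] H, y ∈ M) (hA : IsMASA A M)
    (hfin : Set.Finite {e : H →L[ℂ] H | IsAtomOf A e}) {ε : ℝ} (hε : 0 < ε) :
    soPavingNumber A M ε ≤
      (({e : H →L[ℂ] H | IsAtomOf A e}.ncard + ⌈1 / ε⌉₊ : ℕ) : ℕ∞) := by
  classical
  obtain ⟨k, hk⟩ : ∃ k : ℕ, k = {e : H →L[ℂ] H | IsAtomOf A e}.ncard := ⟨_, rfl⟩
  rw [← hk]
  have hpos : 0 < 1 / ε := by positivity
  have hfin' : Finite {e : H →L[ℂ] H | IsAtomOf A e} := hfin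
  have hcard : Nat.card {e : H →L[ℂ] H | IsAtomOf A e} = k := by
    rw [hk]
    rfl
  obtain ⟨f⟩ : Nonempty (Fin k ≃ {e : H →L[ℂ] H | IsAtomOf A e}) := by
    have h2 := Finite.equivFin {e : H →L[ℂ] H | IsAtomOf A e}
    rw [hcard] at h2
    exact ⟨h2.symm⟩
  unfold soPavingNumber
  refine iInf₂_le (k + ⌈1 / ε⌉₊) ⟨?_, fun x _ hx => ?_⟩
  · have h3 : 0 < ⌈1 / ε⌉₊ := Nat.ceil_pos.mpr hpos
    omega
  · refine soPavable_of_finite_atoms A M hM hA (fun j => ((f j : {e : H →L[ℂ] H | IsAtomOf A e}) :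
      H →L[ℂ] H)) (fun j => (f j).2) ?_ ?_ ?_ x hx
    · intro j l hjl
      exact f.injective (Subtype.val_injective hjl)
    · intro e' he'
      exact ⟨f.symm ⟨e', he'⟩, by simp⟩
    · have h1 : 1 / ε ≤ (⌈1 / ε⌉₊ : ℝ) := Nat.le_ceil _
      rw [div_le_iff₀ hε] at h1
      rw [mul_comm]
      exact h1

/-- **Growth dichotomy.** A MASA of `B(H)` has finitely many atoms if and only if its so-paving
number grows at most linearly in `1/ε`. -/
theorem finite_atoms_iff_linear_growth (A M : VonNeumannAlgebra H)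
    (hM : ∀ y : H →L[ℂ] H, y ∈ M) (hA : IsMASA A M) :
    Set.Finite {e : H →L[ℂ] H | IsAtomOf A e} ↔
      ∃ C : ℕ, ∀ ε : ℝ, 0 < ε → soPavingNumber A M ε ≤ ((C * ⌈1 / ε⌉₊ : ℕ) : ℕ∞) := by
  constructor
  · intro hfin
    refine ⟨{e : H →L[ℂ] H | IsAtomOf A e}.ncard + 1, fun ε hε => ?_⟩
    refine (soPavingNumber_le_of_finite_atoms A M hM hA hfin hε).trans ?_
    rw [Nat.cast_le]
    have h1 : 0 < ⌈1 / ε⌉₊ := Nat.ceil_pos.mpr (by positivity)
    nlinarith
  · rintro ⟨C, hC⟩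
    by_contra hinf
    have hinf' : Set.Infinite {e : H →L[ℂ] H | IsAtomOf A e} := hinf
    have hε : (0 : ℝ) < 1 / ((C : ℝ) + 1) := by positivity
    have h1 := le_soPavingNumber_of_infinite_atoms A M hM hA hinf' hε
    have h2 := h1.trans (hC _ hε)
    rw [Nat.cast_le] at h2
    have h3 : 1 / (1 / ((C : ℝ) + 1)) ^ 2 = (((C + 1) ^ 2 : ℕ) : ℝ) := by
      push_cast
      field_simp
    have h4 : 1 / (1 / ((C : ℝ) + 1)) = ((C + 1 : ℕ) : ℝ) := by
      push_cast
      field_simp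
    rw [h3, h4, Nat.ceil_natCast, Nat.ceil_natCast] at h2
    nlinarith

/-! ### A MASA with infinitely many atoms -/

/-- The sequence space of square-summable complex sequences. -/
abbrev taskW1_H : Type := lp (fun _ : ℕ => ℂ) 2

/-- The coordinate unit vectors. -/
noncomputable def taskW1_d (n : ℕ) : taskW1_H := lp.single 2 n (1 : ℂ)

/-- The rank-one projections onto the coordinate lines. -/
noncomputable def taskW1_P (n : ℕ) : taskW1_H →L[ℂ] taskW1_H := rankOneProj (taskW1_d n)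

/-- The diagonal algebra: all operators commuting with the coordinate projections. -/
noncomputable def taskW1_A : VonNeumannAlgebra taskW1_H :=
  taskG_centralizer (Set.range taskW1_P)

lemma taskW1_inner (n : ℕ) (ξ : taskW1_H) : ⟪taskW1_d n, ξ⟫_ℂ = ξ n := by
  unfold taskW1_d
  rw [lp.inner_single_left]
  simp

lemma taskW1_d_apply (n m : ℕ) : (taskW1_d n : taskW1_H) m = if m = n then 1 else 0 := by
  unfold taskW1_d
  rw [lp.single_apply]
  simp [Pi.single_apply]

lemma taskW1_P_apply (n : ℕ) (ξ : taskW1_H) : taskW1_P n ξ = ξ n • taskW1_d n := by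
  unfold taskW1_P
  rw [rankOneProj_apply, taskW1_inner]

lemma taskW1_d_ne_zero (n : ℕ) : taskW1_d n ≠ 0 := by
  intro h
  have h1 := congrArg (fun ξ : taskW1_H => ξ n) h
  simp [taskW1_d_apply] at h1

lemma taskW1_P_d (n m : ℕ) :
    taskW1_P n (taskW1_d m) = if n = m then taskW1_d n else 0 := by
  rw [taskW1_P_apply, taskW1_d_apply]
  split_ifs <;> simp

lemma taskW1_op_ext (w : taskW1_H →L[ℂ] taskW1_H) (hw : ∀ n, w (taskW1_d n) = 0) : w = 0 := by
  ext1 ξ
  have h1 := lp.hasSum_single (p := 2) (by norm_num) ξ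
  have h2 := w.hasSum h1
  have h3 : (fun i => w (lp.single 2 i (ξ i))) = fun _ => 0 := by
    funext i
    have h4 : lp.single 2 i (ξ i) = ξ i • taskW1_d i := by
      unfold taskW1_d
      rw [← lp.single_smul]
      simp
    rw [h4, map_smul, hw, smul_zero]
  rw [h3] at h2
  exact h2.unique hasSum_zero

lemma taskW1_P_mul (n m : ℕ) :
    taskW1_P n * taskW1_P m = if n = m then taskW1_P n else 0 := by
  ext1 ξ
  rw [_root_.mul_apply_eq_comp, taskW1_P_apply m ξ, map_smul, taskW1_P_d]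
  split_ifs with h
  · subst h
    rw [taskW1_P_apply]
  · simp

lemma taskW1_isStarProjection (n : ℕ) : IsStarProjection (taskW1_P n) :=
  ⟨by rw [IsIdempotentElem, taskW1_P_mul, if_pos rfl], isSelfAdjoint_rankOneProj _⟩

lemma taskW1_star_P (n : ℕ) : star (taskW1_P n) = taskW1_P n := isSelfAdjoint_rankOneProj _

lemma taskW1_mem_A (y : taskW1_H →L[ℂ] taskW1_H) :
    y ∈ taskW1_A ↔ ∀ n, taskW1_P n * y = y * taskW1_P n := by
  unfold taskW1_A
  rw [taskG_mem_centralizer]
  constructor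
  · intro h n
    exact (h _ ⟨n, rfl⟩).1
  · rintro h _ ⟨n, rfl⟩
    rw [taskW1_star_P]
    exact ⟨h n, h n⟩

lemma taskW1_P_mem_A (n : ℕ) : taskW1_P n ∈ taskW1_A := by
  rw [taskW1_mem_A]
  intro m
  rw [taskW1_P_mul, taskW1_P_mul]
  by_cases h : m = n
  · subst h
    simp
  · rw [if_neg h, if_neg (Ne.symm h)]

lemma taskW1_diag {y : taskW1_H →L[ℂ] taskW1_H} (hy : y ∈ taskW1_A) (n : ℕ) :
    y (taskW1_d n) = (y (taskW1_d n)) n • taskW1_d n := by
  rw [taskW1_mem_A] at hy
  have h := congrArg (fun w : taskW1_H →L[ℂ] taskW1_H => w (taskW1_d n)) (hy n)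
  simp only [_root_.mul_apply_eq_comp] at h
  rw [taskW1_P_apply, taskW1_P_d, if_pos rfl] at h
  exact h.symm

lemma taskW1_comm {y z : taskW1_H →L[ℂ] taskW1_H} (hy : y ∈ taskW1_A) (hz : z ∈ taskW1_A) :
    y * z = z * y := by
  rw [← sub_eq_zero]
  apply taskW1_op_ext
  intro n
  obtain ⟨a, ha⟩ : ∃ a : ℂ, y (taskW1_d n) = a • taskW1_d n := ⟨_, taskW1_diag hy n⟩
  obtain ⟨b, hb⟩ : ∃ b : ℂ, z (taskW1_d n) = b • taskW1_d n := ⟨_, taskW1_diag hz n⟩
  rw [_root_.sub_apply, _root_.mul_apply_eq_comp,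
    _root_.mul_apply_eq_comp, hb, ha, map_smul, map_smul, ha, hb, smul_smul, smul_smul,
    mul_comm a b, sub_self]

lemma taskW1_atom (n : ℕ) : IsAtomOf taskW1_A (taskW1_P n) := by
  refine ⟨taskW1_P_mem_A n, taskW1_isStarProjection n, ?_, ?_⟩
  · intro h
    have h1 := congrArg (fun w : taskW1_H →L[ℂ] taskW1_H => w (taskW1_d n)) h
    simp only [taskW1_P_d, _root_.zero_apply] at h1
    exact taskW1_d_ne_zero n h1
  · intro p' hp'A hp' hle
    obtain ⟨t, ht⟩ : ∃ t : ℂ, p' (taskW1_d n) = t • taskW1_d n := ⟨_, taskW1_diag hp'A n⟩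
    have hcomm : p' * taskW1_P n = p' := by
      rw [← (taskW1_mem_A p').mp hp'A n]
      exact hle
    have hform : p' = t • taskW1_P n := by
      ext1 ξ
      have h1 := congrArg (fun w : taskW1_H →L[ℂ] taskW1_H => w ξ) hcomm
      simp only [_root_.mul_apply_eq_comp] at h1
      rw [taskW1_P_apply, map_smul, ht] at h1
      rw [← h1, _root_.smul_apply, taskW1_P_apply, smul_smul, smul_smul, mul_comm]
    have hidem : t * t = t := by
      have h2 := congrArg (fun w : taskW1_H →L[ℂ] taskW1_H => w (taskW1_d n))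
        hp'.isIdempotentElem.eq
      simp only [_root_.mul_apply_eq_comp] at h2
      rw [ht, map_smul, ht, smul_smul] at h2
      have h3 : (t * t - t) • taskW1_d n = 0 := by rw [sub_smul, h2, sub_self]
      rcases smul_eq_zero.mp h3 with h4 | h4
      · exact sub_eq_zero.mp h4
      · exact absurd h4 (taskW1_d_ne_zero n)
    have ht01 : t = 0 ∨ t = 1 := by
      have h5 : t * (t - 1) = 0 := by rw [mul_sub, hidem, mul_one, sub_self]
      rcases mul_eq_zero.mp h5 with h | h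
      · exact Or.inl h
      · exact Or.inr (sub_eq_zero.mp h)
    rcases ht01 with h | h
    · left
      rw [hform, h, zero_smul]
    · right
      rw [hform, h, one_smul]

lemma taskW1_P_injective : Function.Injective taskW1_P := by
  intro n m h
  by_contra hne
  have h1 := congrArg (fun w : taskW1_H →L[ℂ] taskW1_H => w (taskW1_d n)) h
  simp only [taskW1_P_d, if_neg (Ne.symm hne)] at h1
  exact taskW1_d_ne_zero n h1

theorem exists_masa_infinite_atoms :
    ∃ A M : VonNeumannAlgebra (lp (fun _ : ℕ => ℂ) 2),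
      (∀ y : lp (fun _ : ℕ => ℂ) 2 →L[ℂ] lp (fun _ : ℕ => ℂ) 2, y ∈ M) ∧ IsMASA A M ∧
      Set.Infinite {e : lp (fun _ : ℕ => ℂ) 2 →L[ℂ] lp (fun _ : ℕ => ℂ) 2 | IsAtomOf A e} := by
  refine ⟨taskW1_A, topAlgebra _, mem_topAlgebra,
    ⟨fun a _ => mem_topAlgebra a, fun a ha b hb => taskW1_comm ha hb, fun x _ hx => ?_⟩, ?_⟩
  · rw [taskW1_mem_A]
    intro n
    exact hx _ (taskW1_P_mem_A n)
  · refine (Set.infinite_range_of_injective taskW1_P_injective).mono ?_
    rintro _ ⟨n, rfl⟩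
    exact taskW1_atom n

end Vale.Agent.Lib.P078
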