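import Vale.Agent.Lib.P078.TraceDefs
import Vale.Agent.Lib.P078.Atoms

/-!
# A lower bound for so-paving in the presence of a trace vector

Let `M` be a von Neumann algebra with a unit trace vector `Ω` and let `A ⊆ M` be a commutative
von Neumann subalgebra containing the diagonal of a system of `2 ^ k × 2 ^ k` matrix units of `M`.
The Walsh-Hadamard combination of the matrix units is a self-adjoint unitary `x ∈ M` which is not
`(ε, r)` so-pavable over `A` as soon as `ε ^ 2 < 1 / r - 1 / 2 ^ k`.  Hence, if such matrix units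
exist for every `k`, the so-paving number of `A ⊆ M` is at least `ε⁻²`.
-/

namespace Vale.Agent.Lib.P078

open scoped InnerProductSpace Matrix.Norms.L2Operator
open ContinuousLinearMap

variable {H : Type*} [NormedAddCommGroup H] [InnerProductSpace ℂ H] [CompleteSpace H]

/-! ### Trace vectors: adjoints and compressions -/

theorem trace_norm_star (M : VonNeumannAlgebra H) {Ω : H} (hΩ : IsTraceVector M Ω)
    {u : H →L[ℂ] H} (hu : u ∈ M) : ‖(star u) Ω‖ = ‖u Ω‖ := by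
  have hsu : star u ∈ M := star_mem hu
  have h1 : ⟪u Ω, u Ω⟫_ℂ = ⟪Ω, (star u) (u Ω)⟫_ℂ := by
    rw [star_eq_adjoint, adjoint_inner_right]
  have h2 : ⟪(star u) Ω, (star u) Ω⟫_ℂ = ⟪Ω, u ((star u) Ω)⟫_ℂ := by
    rw [star_eq_adjoint, adjoint_inner_left]
  have h3 := hΩ.2 (star u) hsu u hu
  have h4 : ⟪(star u) Ω, (star u) Ω⟫_ℂ = ⟪u Ω, u Ω⟫_ℂ := by
    rw [h1, h2, h3]
  have h5 : ‖(star u) Ω‖ ^ 2 = ‖u Ω‖ ^ 2 := by
    rw [norm_sq_eq_re_inner (𝕜 := ℂ), norm_sq_eq_re_inner (𝕜 := ℂ), h4]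
  exact (sq_eq_sq₀ (norm_nonneg _) (norm_nonneg _)).mp h5

theorem trace_norm_le_of_compression (M : VonNeumannAlgebra H) {Ω : H} (hΩ : IsTraceVector M Ω)
    {y q : H →L[ℂ] H} (hy : y ∈ M) (hq : q ∈ M) (hqp : IsStarProjection q) {ε δ : ℝ}
    (hδ : ‖(1 - q) Ω‖ ≤ δ) (hc : ‖q * y * q‖ ≤ ε) : ‖y Ω‖ ≤ ε + 2 * ‖y‖ * δ := by
  have h1q : (1 - q) ∈ M := M.sub_mem M.one_mem hq
  have halg : y = q * y * q + q * y * (1 - q) + (1 - q) * y := by
    noncomm_ring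
  have hdecomp : y Ω = (q * y * q) Ω + (q * y) ((1 - q) Ω) + ((1 - q) * y) Ω := by
    have h0 : y Ω = (q * y * q + q * y * (1 - q) + (1 - q) * y) Ω := by
      rw [← halg]
    rw [h0, _root_.add_apply, _root_.add_apply]
    rfl
  have hδ0 : 0 ≤ δ := le_trans (norm_nonneg _) hδ
  have e1 : ‖(q * y * q) Ω‖ ≤ ε := by
    calc ‖(q * y * q) Ω‖ ≤ ‖q * y * q‖ * ‖Ω‖ := ContinuousLinearMap.le_opNorm _ _
      _ = ‖q * y * q‖ := by rw [hΩ.1, mul_one]
      _ ≤ ε := hc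
  have hqn : ‖q‖ ≤ 1 := hqp.norm_le
  have e2 : ‖(q * y) ((1 - q) Ω)‖ ≤ ‖y‖ * δ := by
    calc ‖(q * y) ((1 - q) Ω)‖ ≤ ‖q * y‖ * ‖(1 - q) Ω‖ := ContinuousLinearMap.le_opNorm _ _
      _ ≤ (‖q‖ * ‖y‖) * δ :=
          mul_le_mul (norm_mul_le _ _) hδ (norm_nonneg _)
            (mul_nonneg (norm_nonneg _) (norm_nonneg _))
      _ ≤ (1 * ‖y‖) * δ :=
          mul_le_mul_of_nonneg_right (mul_le_mul_of_nonneg_right hqn (norm_nonneg _)) hδ0
      _ = ‖y‖ * δ := by rw [one_mul]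
  have e3 : ‖((1 - q) * y) Ω‖ ≤ ‖y‖ * δ := by
    have hm : (1 - q) * y ∈ M := M.mul_mem h1q hy
    rw [← trace_norm_star M hΩ hm]
    have hs : star ((1 - q) * y) = star y * (1 - q) := by
      rw [star_mul, (IsStarProjection.one_sub hqp).isSelfAdjoint.star_eq]
    rw [hs]
    calc ‖(star y * (1 - q)) Ω‖ = ‖(star y) ((1 - q) Ω)‖ := rfl
      _ ≤ ‖star y‖ * ‖(1 - q) Ω‖ := ContinuousLinearMap.le_opNorm _ _
      _ = ‖y‖ * ‖(1 - q) Ω‖ := by rw [norm_star]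
      _ ≤ ‖y‖ * δ := mul_le_mul_of_nonneg_left hδ (norm_nonneg _)
  rw [hdecomp]
  calc ‖(q * y * q) Ω + (q * y) ((1 - q) Ω) + ((1 - q) * y) Ω‖
      ≤ ‖(q * y * q) Ω‖ + ‖(q * y) ((1 - q) Ω)‖ + ‖((1 - q) * y) Ω‖ := norm_add₃_le
    _ ≤ ε + ‖y‖ * δ + ‖y‖ * δ := by linarith
    _ = ε + 2 * ‖y‖ * δ := by ring

/-! ### The trace of a diagonal matrix unit -/

theorem taskL3_tau_eq (A M : VonNeumannAlgebra H) {Ω : H} (hΩ : IsTraceVector M Ω)
    {n : ℕ} {e : Fin n → Fin n → H →L[ℂ] H} (he : IsMatrixUnitsOver A M e) (i j : Fin n) :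
    ⟪Ω, e i i Ω⟫_ℂ = ⟪Ω, e j j Ω⟫_ℂ := by
  obtain ⟨hM, _, _, hmul, _⟩ := he
  have h1 : e i j * e j i = e i i := by rw [hmul i j j i, if_pos rfl]
  have h2 : e j i * e i j = e j j := by rw [hmul j i i j, if_pos rfl]
  have h3 := hΩ.2 (e i j) (hM i j) (e j i) (hM j i)
  have h4 : e i j (e j i Ω) = e i i Ω := by
    rw [← h1]; rfl
  have h5 : e j i (e i j Ω) = e j j Ω := by
    rw [← h2]; rfl
  rw [h4, h5] at h3
  exact h3

theorem trace_matrix_unit_diag (A M : VonNeumannAlgebra H) {Ω : H} (hΩ : IsTraceVector M Ω)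
    {n : ℕ} {e : Fin n → Fin n → H →L[ℂ] H} (he : IsMatrixUnitsOver A M e) (i : Fin n) :
    ‖e i i Ω‖ ^ 2 = 1 / (n : ℝ) := by
  have htau := taskL3_tau_eq A M hΩ he
  obtain ⟨hM, _, hstar, hmul, hsum⟩ := he
  have hn : (n : ℝ) ≠ 0 := by
    have : 0 < n := Fin.pos i
    positivity
  -- sum of the diagonal traces is one
  have hone : ∑ j : Fin n, ⟪Ω, e j j Ω⟫_ℂ = 1 := by
    rw [← inner_sum]
    have h1 : ∑ j : Fin n, e j j Ω = Ω := by
      have h2 : (∑ j : Fin n, e j j) Ω = Ω := by rw [hsum]; rfl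
      rw [FunLike.coe_sum, Finset.sum_apply] at h2
      exact h2
    rw [h1, inner_self_eq_norm_sq_to_K, hΩ.1]
    simp
  have hconst : ∑ j : Fin n, ⟪Ω, e j j Ω⟫_ℂ = (n : ℂ) * ⟪Ω, e i i Ω⟫_ℂ := by
    rw [Finset.sum_congr rfl (fun j _ => (htau i j).symm)]
    simp
  have htaui : ⟪Ω, e i i Ω⟫_ℂ = 1 / (n : ℂ) := by
    have hnc : (n : ℂ) ≠ 0 := by exact_mod_cast hn
    rw [hconst] at hone
    field_simp
    rw [mul_comm]
    exact hone
  -- norm squared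
  have hidem : e i i (e i i Ω) = e i i Ω := by
    have h1 : e i i * e i i = e i i := by rw [hmul i i i i, if_pos rfl]
    conv_rhs => rw [← h1]
    rfl
  have hnorm : ⟪e i i Ω, e i i Ω⟫_ℂ = ⟪Ω, e i i Ω⟫_ℂ := by
    have h1 : ⟪e i i Ω, e i i Ω⟫_ℂ = ⟪Ω, (ContinuousLinearMap.adjoint (e i i)) (e i i Ω)⟫_ℂ := by
      rw [ContinuousLinearMap.adjoint_inner_right]
    rw [h1, ← ContinuousLinearMap.star_eq_adjoint, hstar i i, hidem]
  have h3 : ‖e i i Ω‖ ^ 2 = RCLike.re ⟪e i i Ω, e i i Ω⟫_ℂ := by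
    rw [inner_self_eq_norm_sq_to_K]
    norm_cast
  rw [h3, hnorm, htaui]
  have : (1 / (n : ℂ)) = ((1 / (n : ℝ) : ℝ) : ℂ) := by push_cast; rfl
  rw [this]
  exact RCLike.ofReal_re (K := ℂ) _

/-! ### The key inequality -/

/-- The vector state of `Ω`. -/
noncomputable def taskL4_tau (Ω : H) (z : H →L[ℂ] H) : ℂ := ⟪Ω, z Ω⟫_ℂ

omit [CompleteSpace H] in
theorem taskL4_tau_sum (Ω : H) {ι : Type*} (s : Finset ι) (f : ι → H →L[ℂ] H) :
    taskL4_tau Ω (∑ i ∈ s, f i) = ∑ i ∈ s, taskL4_tau Ω (f i) := by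
  unfold taskL4_tau
  rw [_root_.sum_apply, inner_sum]

theorem taskL4_tau_comm (M : VonNeumannAlgebra H) {Ω : H} (hΩ : IsTraceVector M Ω)
    {x y : H →L[ℂ] H} (hx : x ∈ M) (hy : y ∈ M) :
    taskL4_tau Ω (x * y) = taskL4_tau Ω (y * x) := by
  unfold taskL4_tau
  exact hΩ.2 x hx y hy

theorem taskL4_re_tau_star_mul (Ω : H) (z : H →L[ℂ] H) :
    RCLike.re (taskL4_tau Ω (star z * z)) = ‖z Ω‖ ^ 2 := by
  unfold taskL4_tau
  rw [mul_apply_eq_comp, ContinuousLinearMap.star_eq_adjoint,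
    ContinuousLinearMap.adjoint_inner_right]
  exact (norm_sq_eq_re_inner (𝕜 := ℂ) (z Ω)).symm

/-- The norms of the compressed matrix units as values of the trace. -/
theorem taskL4_norm_eq (A M : VonNeumannAlgebra H) (hAM : A ≤ M) {Ω : H}
    (hΩ : IsTraceVector M Ω) {n : ℕ} {e : Fin n → Fin n → H →L[ℂ] H}
    (he : IsMatrixUnitsOver A M e) {p : H →L[ℂ] H} (hpA : p ∈ A) (hp : IsStarProjection p)
    (i0 i j : Fin n) :
    ‖(p * e i j * p) Ω‖ ^ 2 =
      RCLike.re (taskL4_tau Ω ((e i0 j * p * e j i0) * (e i0 i * p * e i i0))) := by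
  have hpM : p ∈ M := hAM hpA
  have heM : ∀ a b, e a b ∈ M := he.1
  have hpp : p * p = p := hp.isIdempotentElem.eq
  have hpp_l : ∀ z : H →L[ℂ] H, p * (p * z) = p * z := fun z => by rw [← mul_assoc, hpp]
  have he_mul : ∀ a b c, e a b * e b c = e a c := fun a b c => by
    rw [he.2.2.2.1, if_pos rfl]
  have he_l : ∀ a b c (z : H →L[ℂ] H), e a b * (e b c * z) = e a c * z := fun a b c z => by
    rw [← mul_assoc, he_mul]
  rw [← taskL4_re_tau_star_mul]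
  congr 1
  have h1 : star (p * e i j * p) * (p * e i j * p) = (p * e j i * p * e i j) * p := by
    rw [star_mul, star_mul, hp.isSelfAdjoint.star_eq, he.2.2.1 i j]
    simp only [mul_assoc, hpp_l]
  have h2 : p * (p * e j i * p * e i j) = p * e j i * p * e i j := by
    simp only [mul_assoc, hpp_l]
  have h3 : p * e j i * p * e i j = (p * e j i0 * e i0 i * p * e i i0) * e i0 j := by
    simp only [mul_assoc, he_mul]
  have h4 : e i0 j * (p * e j i0 * e i0 i * p * e i i0) =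
      (e i0 j * p * e j i0) * (e i0 i * p * e i i0) := by
    simp only [mul_assoc]
  have hW : p * e j i * p * e i j ∈ M :=
    mul_mem (mul_mem (mul_mem hpM (heM j i)) hpM) (heM i j)
  have hX : p * e j i0 * e i0 i * p * e i i0 ∈ M :=
    mul_mem (mul_mem (mul_mem (mul_mem hpM (heM j i0)) (heM i0 i)) hpM) (heM i i0)
  rw [h1, taskL4_tau_comm M hΩ hW hpM, h2, h3, taskL4_tau_comm M hΩ hX (heM i0 j), h4]

theorem trace_offdiag_sum_ge (A M : VonNeumannAlgebra H) (hAM : A ≤ M)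
    (hAc : ∀ a ∈ A, ∀ b ∈ A, a * b = b * a) {Ω : H} (hΩ : IsTraceVector M Ω)
    {n : ℕ} {e : Fin n → Fin n → H →L[ℂ] H} (he : IsMatrixUnitsOver A M e)
    {p : H →L[ℂ] H} (hpA : p ∈ A) (hp : IsStarProjection p) :
    (n : ℝ) * (‖p Ω‖ ^ 2) ^ 2 - ‖p Ω‖ ^ 2 ≤
      ∑ i, ∑ j, if i = j then 0 else ‖(p * e i j * p) Ω‖ ^ 2 := by
  rcases Nat.eq_zero_or_pos n with hn | hn
  · subst hn
    simp
  obtain ⟨i0⟩ : Nonempty (Fin n) := ⟨⟨0, hn⟩⟩
  have hpM : p ∈ M := hAM hpA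
  have heM : ∀ a b, e a b ∈ M := he.1
  have hpp : p * p = p := hp.isIdempotentElem.eq
  have hpp_l : ∀ z : H →L[ℂ] H, p * (p * z) = p * z := fun z => by rw [← mul_assoc, hpp]
  have he_mul : ∀ a b c, e a b * e b c = e a c := fun a b c => by
    rw [he.2.2.2.1, if_pos rfl]
  have he_l : ∀ a b c (z : H →L[ℂ] H), e a b * (e b c * z) = e a c * z := fun a b c z => by
    rw [← mul_assoc, he_mul]
  have hcomm_l : ∀ (i : Fin n) (z : H →L[ℂ] H), e i i * (p * z) = p * (e i i * z) :=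
    fun i z => by rw [← mul_assoc, hAc (e i i) (he.2.1 i) p hpA, mul_assoc]
  obtain ⟨b, hb⟩ : ∃ b : Fin n → H →L[ℂ] H, b = fun i => e i0 i * p * e i i0 := ⟨_, rfl⟩
  obtain ⟨B, hB⟩ : ∃ B : H →L[ℂ] H, B = ∑ i, b i := ⟨_, rfl⟩
  have hbb : ∀ i, b i * b i = b i := by
    intro i
    rw [hb]
    simp only [mul_assoc, he_l, hcomm_l, hpp_l, he_mul]
  have hbstar : ∀ i, star (b i) = b i := by
    intro i
    rw [hb]
    simp only [star_mul, hp.isSelfAdjoint.star_eq, he.2.2.1, mul_assoc]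
  have hBstar : star B = B := by
    rw [hB, star_sum]
    exact Finset.sum_congr rfl (fun i _ => hbstar i)
  -- the entries
  have hent : ∀ i j, ‖(p * e i j * p) Ω‖ ^ 2 = RCLike.re (taskL4_tau Ω (b j * b i)) := by
    intro i j
    rw [hb]
    exact taskL4_norm_eq A M hAM hΩ he hpA hp i0 i j
  -- the full double sum
  have hfull : ∑ i, ∑ j, ‖(p * e i j * p) Ω‖ ^ 2 = ‖B Ω‖ ^ 2 := by
    rw [← taskL4_re_tau_star_mul, hBstar]
    have h1 : B * B = ∑ i, ∑ j, b j * b i := by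
      rw [hB, Finset.sum_mul_sum, Finset.sum_comm]
    rw [h1, taskL4_tau_sum, map_sum]
    refine Finset.sum_congr rfl (fun i _ => ?_)
    rw [taskL4_tau_sum, map_sum]
    exact Finset.sum_congr rfl (fun j _ => hent i j)
  -- the trace of the pieces
  have htb : ∀ i, taskL4_tau Ω (b i) = taskL4_tau Ω (p * e i i) := by
    intro i
    have h1 : b i = e i0 i * (p * e i i0) := by
      rw [hb]
      simp only [mul_assoc]
    have h2 : (p * e i i0) * e i0 i = p * e i i := by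
      rw [mul_assoc, he_mul]
    rw [h1, taskL4_tau_comm M hΩ (heM i0 i) (mul_mem hpM (heM i i0)), h2]
  have htp : RCLike.re (taskL4_tau Ω p) = ‖p Ω‖ ^ 2 := by
    rw [← taskL4_re_tau_star_mul, hp.isSelfAdjoint.star_eq, hpp]
  have htB : taskL4_tau Ω B = taskL4_tau Ω p := by
    rw [hB, taskL4_tau_sum]
    rw [Finset.sum_congr rfl (fun i _ => htb i), ← taskL4_tau_sum, ← Finset.mul_sum, he.2.2.2.2,
      mul_one]
  -- the diagonal sum
  have hdiag : ∑ i, ‖(p * e i i * p) Ω‖ ^ 2 = ‖p Ω‖ ^ 2 := by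
    rw [← htp, ← htB, hB, taskL4_tau_sum, map_sum]
    refine Finset.sum_congr rfl (fun i _ => ?_)
    rw [hent i i, hbb i]
  -- Cauchy-Schwarz
  have hcs : (n : ℝ) * (‖p Ω‖ ^ 2) ^ 2 ≤ ‖B Ω‖ ^ 2 := by
    have h1 : e i0 i0 * B = B := by
      rw [hB, Finset.mul_sum]
      refine Finset.sum_congr rfl (fun i _ => ?_)
      rw [hb]
      simp only [← mul_assoc, he_mul]
    have h2 : taskL4_tau Ω B = ⟪e i0 i0 Ω, B Ω⟫_ℂ := by
      have h3 : taskL4_tau Ω B = taskL4_tau Ω (e i0 i0 * B) := by rw [h1]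
      rw [h3]
      unfold taskL4_tau
      rw [mul_apply_eq_comp, ← ContinuousLinearMap.adjoint_inner_left,
        ← ContinuousLinearMap.star_eq_adjoint, he.2.2.1]
    have h4 : ‖p Ω‖ ^ 2 ≤ ‖e i0 i0 Ω‖ * ‖B Ω‖ := by
      calc ‖p Ω‖ ^ 2 = RCLike.re (taskL4_tau Ω B) := by rw [htB, htp]
        _ ≤ ‖taskL4_tau Ω B‖ := RCLike.re_le_norm _
        _ = ‖⟪e i0 i0 Ω, B Ω⟫_ℂ‖ := by rw [h2]
        _ ≤ ‖e i0 i0 Ω‖ * ‖B Ω‖ := norm_inner_le_norm _ _
    have h5 : ‖e i0 i0 Ω‖ ^ 2 = 1 / (n : ℝ) := trace_matrix_unit_diag A M hΩ he i0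
    have hn' : (0 : ℝ) < (n : ℝ) := by exact_mod_cast hn
    have h6 : (‖p Ω‖ ^ 2) ^ 2 ≤ (‖e i0 i0 Ω‖ * ‖B Ω‖) ^ 2 :=
      pow_le_pow_left₀ (by positivity) h4 2
    rw [mul_pow, h5] at h6
    calc (n : ℝ) * (‖p Ω‖ ^ 2) ^ 2 ≤ (n : ℝ) * (1 / (n : ℝ) * ‖B Ω‖ ^ 2) :=
          mul_le_mul_of_nonneg_left h6 hn'.le
      _ = ‖B Ω‖ ^ 2 := by field_simp
  -- assemble
  have hsplit : ∑ i, ∑ j, (if i = j then 0 else ‖(p * e i j * p) Ω‖ ^ 2) =
      ∑ i, ∑ j, ‖(p * e i j * p) Ω‖ ^ 2 - ∑ i, ‖(p * e i i * p) Ω‖ ^ 2 := by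
    rw [← Finset.sum_sub_distrib]
    refine Finset.sum_congr rfl (fun i _ => ?_)
    have h1 : ∀ j, (if i = j then (0 : ℝ) else ‖(p * e i j * p) Ω‖ ^ 2) =
        ‖(p * e i j * p) Ω‖ ^ 2 - (if i = j then ‖(p * e i j * p) Ω‖ ^ 2 else 0) := by
      intro j
      split_ifs <;> simp
    rw [Finset.sum_congr rfl (fun j _ => h1 j), Finset.sum_sub_distrib, Finset.sum_ite_eq]
    simp
  rw [hsplit, hfull, hdiag]
  linarith

/-! ### Orthogonality of compressed matrix units -/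

/-- The trace of `a * W * b` vanishes when `b * a = 0`. -/
theorem taskL5_trace_zero (M : VonNeumannAlgebra H) {Ω : H} (hΩ : IsTraceVector M Ω)
    {a b W : H →L[ℂ] H} (ha : a ∈ M) (hb : b ∈ M) (hW : W ∈ M) (hba : b * a = 0) :
    ⟪Ω, (a * W * b) Ω⟫_ℂ = 0 := by
  have h1 : (a * W * b) Ω = a ((W * b) Ω) := by
    rw [mul_assoc]
    rfl
  rw [h1, hΩ.2 a ha (W * b) (M.mul_mem hW hb)]
  have h2 : (W * b) (a Ω) = (W * (b * a)) Ω := by
    rw [← mul_assoc]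
    rfl
  rw [h2, hba, mul_zero]
  simp

/-- The inner product of two vectors `X Ω`, `Y Ω` as a trace. -/
theorem taskL5_inner_eq (Ω : H) (X Y : H →L[ℂ] H) :
    ⟪X Ω, Y Ω⟫_ℂ = ⟪Ω, (star X * Y) Ω⟫_ℂ := by
  have h1 : (star X * Y) Ω = (adjoint X) (Y Ω) := by
    rw [star_eq_adjoint]
    rfl
  rw [h1, adjoint_inner_right]

/-- A compressed matrix unit absorbs the diagonal unit of its row on the left. -/
theorem taskL5_absorb_left {A M : VonNeumannAlgebra H}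
    (hAc : ∀ a ∈ A, ∀ b ∈ A, a * b = b * a)
    {n : ℕ} {e : Fin n → Fin n → H →L[ℂ] H} (he : IsMatrixUnitsOver A M e)
    {p : H →L[ℂ] H} (hpA : p ∈ A) (l m : Fin n) :
    e l l * (p * e l m * p) = p * e l m * p := by
  obtain ⟨-, heA, -, hem, -⟩ := he
  calc e l l * (p * e l m * p) = (e l l * p) * e l m * p := by simp only [mul_assoc]
    _ = (p * e l l) * e l m * p := by rw [hAc p hpA (e l l) (heA l)]
    _ = p * (e l l * e l m) * p := by simp only [mul_assoc]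
    _ = p * e l m * p := by rw [hem, if_pos rfl]

/-- A compressed matrix unit absorbs the diagonal unit of its column on the right. -/
theorem taskL5_absorb_right {A M : VonNeumannAlgebra H}
    (hAc : ∀ a ∈ A, ∀ b ∈ A, a * b = b * a)
    {n : ℕ} {e : Fin n → Fin n → H →L[ℂ] H} (he : IsMatrixUnitsOver A M e)
    {p : H →L[ℂ] H} (hpA : p ∈ A) (l m : Fin n) :
    (p * e l m * p) * e m m = p * e l m * p := by
  obtain ⟨-, heA, -, hem, -⟩ := he
  calc (p * e l m * p) * e m m = p * e l m * (p * e m m) := by simp only [mul_assoc]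
    _ = p * e l m * (e m m * p) := by rw [hAc p hpA (e m m) (heA m)]
    _ = p * (e l m * e m m) * p := by simp only [mul_assoc]
    _ = p * e l m * p := by rw [hem, if_pos rfl]

theorem trace_compressed_units_orthogonal (A M : VonNeumannAlgebra H) (hAM : A ≤ M)
    (hAc : ∀ a ∈ A, ∀ b ∈ A, a * b = b * a) {Ω : H} (hΩ : IsTraceVector M Ω)
    {n : ℕ} {e : Fin n → Fin n → H →L[ℂ] H} (he : IsMatrixUnitsOver A M e)
    {p : H →L[ℂ] H} (hpA : p ∈ A) (hp : IsStarProjection p) (i j i' j' : Fin n)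
    (h : i ≠ i' ∨ j ≠ j') :
    ⟪(p * e i j * p) Ω, (p * e i' j' * p) Ω⟫_ℂ = 0 := by
  have hXl := taskL5_absorb_left hAc he hpA j i
  have hXr := taskL5_absorb_right hAc he hpA j i
  have hYl := taskL5_absorb_left hAc he hpA i' j'
  have hYr := taskL5_absorb_right hAc he hpA i' j'
  obtain ⟨heM, heA, hes, hem, -⟩ := he
  have hpM : p ∈ M := hAM hpA
  have hstar : star (p * e i j * p) = p * e j i * p := by
    rw [star_mul, star_mul, hp.isSelfAdjoint.star_eq, hes, mul_assoc]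
  rw [taskL5_inner_eq, hstar]
  have hXM : p * e j i * p ∈ M := M.mul_mem (M.mul_mem hpM (heM j i)) hpM
  have hYM : p * e i' j' * p ∈ M := M.mul_mem (M.mul_mem hpM (heM i' j')) hpM
  obtain ⟨X, hX⟩ : ∃ X, X = p * e j i * p := ⟨_, rfl⟩
  obtain ⟨Y, hY⟩ : ∃ Y, Y = p * e i' j' * p := ⟨_, rfl⟩
  rw [← hX] at hXl hXr hXM ⊢
  rw [← hY] at hYl hYr hYM ⊢
  rcases h with h | h
  · have h3 : e i i * e i' i' = 0 := by
      rw [hem, if_neg h]
    have hz : X * Y = 0 := by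
      calc X * Y = (X * e i i) * (e i' i' * Y) := by rw [hXr, hYl]
        _ = X * (e i i * e i' i') * Y := by simp only [mul_assoc]
        _ = 0 := by rw [h3, mul_zero, zero_mul]
    rw [hz]
    simp
  · have h3 : e j' j' * e j j = 0 := by
      rw [hem, if_neg (Ne.symm h)]
    have hZ : X * Y = e j j * (X * Y) * e j' j' := by
      calc X * Y = (e j j * X) * (Y * e j' j') := by rw [hXl, hYr]
        _ = e j j * (X * Y) * e j' j' := by simp only [mul_assoc]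
    rw [hZ]
    exact taskL5_trace_zero M hΩ (heM j j) (heM j' j') (M.mul_mem hXM hYM) h3

theorem trace_inner_diag_offdiag (A M : VonNeumannAlgebra H) (hAM : A ≤ M)
    (hAc : ∀ a ∈ A, ∀ b ∈ A, a * b = b * a) {Ω : H} (hΩ : IsTraceVector M Ω)
    {n : ℕ} {e : Fin n → Fin n → H →L[ℂ] H} (he : IsMatrixUnitsOver A M e)
    {c p : H →L[ℂ] H} (hcA : c ∈ A) (hpA : p ∈ A) (i j : Fin n) (hij : i ≠ j) :
    ⟪c Ω, (p * e i j * p) Ω⟫_ℂ = 0 := by
  have hYl := taskL5_absorb_left hAc he hpA i j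
  have hYr := taskL5_absorb_right hAc he hpA i j
  obtain ⟨heM, heA, hes, hem, -⟩ := he
  have hpM : p ∈ M := hAM hpA
  have hsA : star c ∈ A := star_mem hcA
  rw [taskL5_inner_eq]
  have hYM : p * e i j * p ∈ M := M.mul_mem (M.mul_mem hpM (heM i j)) hpM
  obtain ⟨Y, hY⟩ : ∃ Y, Y = p * e i j * p := ⟨_, rfl⟩
  rw [← hY] at hYl hYr hYM ⊢
  have h3 : e j j * e i i = 0 := by
    rw [hem, if_neg (Ne.symm hij)]
  have hZ : star c * Y = e i i * (star c * Y) * e j j := by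
    calc star c * Y = star c * ((e i i * Y) * e j j) := by rw [hYl, hYr]
      _ = (star c * e i i) * Y * e j j := by simp only [mul_assoc]
      _ = (e i i * star c) * Y * e j j := by rw [hAc (star c) hsA (e i i) (heA i)]
      _ = e i i * (star c * Y) * e j j := by simp only [mul_assoc]
  rw [hZ]
  exact taskL5_trace_zero M hΩ (heM i i) (heM j j) (M.mul_mem (hAM hsA) hYM) h3

/-! ### Pythagoras for the compressed combination -/

omit [CompleteSpace H] in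
theorem taskL6_pyth {ι : Type*} [Fintype ι] (v : ι → H)
    (hv : ∀ a b, a ≠ b → ⟪v a, v b⟫_ℂ = 0) : ‖∑ a, v a‖ ^ 2 = ∑ a, ‖v a‖ ^ 2 := by
  rw [← inner_self_eq_norm_sq (𝕜 := ℂ), sum_inner, map_sum]
  refine Finset.sum_congr rfl (fun a _ => ?_)
  rw [inner_sum, Finset.sum_eq_single a (fun b _ hb => hv a b (Ne.symm hb))
    (fun h => absurd (Finset.mem_univ a) h), inner_self_eq_norm_sq]

omit [CompleteSpace H] in
theorem taskL6_vec {n : ℕ} (e : Fin n → Fin n → H →L[ℂ] H) (p : H →L[ℂ] H)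
    (c : Fin n → Fin n → ℂ) (Ω : H) :
    (p * (∑ i, ∑ j, c i j • e i j) * p) Ω
      = ∑ q : Fin n × Fin n, c q.1 q.2 • (p * e q.1 q.2 * p) Ω := by
  rw [Fintype.sum_prod_type]
  simp only [Finset.mul_sum, Finset.sum_mul, mul_smul_comm, smul_mul_assoc,
    _root_.sum_apply, _root_.smul_apply]

theorem trace_norm_sq_compression_offdiag (A M : VonNeumannAlgebra H) (hAM : A ≤ M)
    (hAc : ∀ a ∈ A, ∀ b ∈ A, a * b = b * a) {Ω : H} (hΩ : IsTraceVector M Ω)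
    {n : ℕ} {e : Fin n → Fin n → H →L[ℂ] H} (he : IsMatrixUnitsOver A M e)
    {p : H →L[ℂ] H} (hpA : p ∈ A) (hp : IsStarProjection p)
    (T : Matrix (Fin n) (Fin n) ℂ) (hT : ∀ i j, ‖T i j‖ ^ 2 = 1 / (n : ℝ)) :
    ‖(p * (∑ i, ∑ j, (if i = j then (0 : ℂ) else T i j) • e i j) * p) Ω‖ ^ 2 =
      (1 / (n : ℝ)) * ∑ i, ∑ j, if i = j then 0 else ‖(p * e i j * p) Ω‖ ^ 2 := by
  rw [taskL6_vec e p (fun i j => if i = j then (0 : ℂ) else T i j) Ω, taskL6_pyth]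
  · rw [Fintype.sum_prod_type, Finset.mul_sum]
    refine Finset.sum_congr rfl (fun i _ => ?_)
    rw [Finset.mul_sum]
    refine Finset.sum_congr rfl (fun j _ => ?_)
    by_cases hij : i = j
    · simp [hij]
    · simp only [hij, if_false]
      rw [norm_smul, mul_pow, hT i j]
  · intro a b hab
    have h : a.1 ≠ b.1 ∨ a.2 ≠ b.2 := by
      by_cases h1 : a.1 = b.1
      · right
        intro h2
        exact hab (Prod.ext h1 h2)
      · left
        exact h1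
    rw [inner_smul_left, inner_smul_right,
      trace_compressed_units_orthogonal A M hAM hAc hΩ he hpA hp a.1 a.2 b.1 b.2 h]
    simp

/-! ### The lower bound for a pinching -/

omit [CompleteSpace H] in
/-- Pythagoras for a finite pairwise orthogonal family. -/
lemma taskL8_norm_sq_sum {ι : Type*} (s : Finset ι) (v : ι → H)
    (hv : ∀ k ∈ s, ∀ l ∈ s, k ≠ l → ⟪v k, v l⟫_ℂ = 0) :
    ‖∑ k ∈ s, v k‖ ^ 2 = ∑ k ∈ s, ‖v k‖ ^ 2 := by
  classical
  induction s using Finset.induction_on with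
  | empty => simp
  | insert a s ha ih =>
    rw [Finset.sum_insert ha, Finset.sum_insert ha]
    have h0 : ⟪v a, ∑ k ∈ s, v k⟫_ℂ = 0 := by
      rw [inner_sum]
      apply Finset.sum_eq_zero
      intro k hk
      refine hv a (Finset.mem_insert_self a s) k (Finset.mem_insert_of_mem hk) ?_
      rintro rfl
      exact ha hk
    have h1 := norm_add_sq_eq_norm_sq_add_norm_sq_of_inner_eq_zero (v a) (∑ k ∈ s, v k) h0
    have h2 : ‖∑ k ∈ s, v k‖ ^ 2 = ∑ k ∈ s, ‖v k‖ ^ 2 := by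
      apply ih
      intro k hk l hl hkl
      exact hv k (Finset.mem_insert_of_mem hk) l (Finset.mem_insert_of_mem hl) hkl
    rw [← h2, pow_two, pow_two, pow_two]
    exact h1

/-- Orthogonality of compressions to orthogonal projections. -/
lemma taskL8_inner_proj_zero {p q : H →L[ℂ] H} (hp : IsStarProjection p)
    (hpq : p * q = 0) (u w : H) : ⟪p u, q w⟫_ℂ = 0 := by
  have h1 : ⟪p u, q w⟫_ℂ = ⟪u, (p * q) w⟫_ℂ := by
    rw [_root_.mul_apply_eq_comp, ← ContinuousLinearMap.adjoint_inner_right,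
      ← ContinuousLinearMap.star_eq_adjoint, hp.isSelfAdjoint.star_eq]
  rw [h1, hpq, _root_.zero_apply, inner_zero_right]

/-- The squared norms of the pieces of the trace vector sum to one. -/
lemma taskL8_sum_norm_sq (A : VonNeumannAlgebra H) {Ω : H} (hΩ1 : ‖Ω‖ = 1)
    {r : ℕ} {p : Fin r → H →L[ℂ] H} (hp : IsPartitionIn A p) :
    ∑ k, ‖p k Ω‖ ^ 2 = 1 := by
  have h1 : ‖∑ k, p k Ω‖ ^ 2 = ∑ k, ‖p k Ω‖ ^ 2 := by
    apply taskL8_norm_sq_sum
    intro k _ l _ hkl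
    exact taskL8_inner_proj_zero (hp.1 k).2 (hp.2.1 k l hkl) Ω Ω
  have h2 : ∑ k, p k Ω = Ω := by
    rw [← _root_.sum_apply, hp.2.2]
    rfl
  rw [← h1, h2, hΩ1, one_pow]

/-- Cauchy-Schwarz lower bound for a sum of squares with unit total mass. -/
lemma taskL8_sum_sq_ge {r : ℕ} (hr : 0 < r) (t : Fin r → ℝ) (ht : ∑ k, t k = 1) :
    1 / (r : ℝ) ≤ ∑ k, t k ^ 2 := by
  have h1 := sq_sum_le_card_mul_sum_sq (s := (Finset.univ : Finset (Fin r))) (f := t)
  rw [ht, Finset.card_univ, Fintype.card_fin] at h1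
  have hr' : (0 : ℝ) < (r : ℝ) := by exact_mod_cast hr
  rw [div_le_iff₀ hr']
  calc (1 : ℝ) = 1 ^ 2 := by norm_num
    _ ≤ (r : ℝ) * ∑ k, t k ^ 2 := h1
    _ = (∑ k, t k ^ 2) * (r : ℝ) := by ring

theorem trace_norm_sq_pinching_ge (A M : VonNeumannAlgebra H) (hAM : A ≤ M)
    (hAc : ∀ a ∈ A, ∀ b ∈ A, a * b = b * a) {Ω : H} (hΩ : IsTraceVector M Ω)
    {n : ℕ} (hn : 0 < n) {e : Fin n → Fin n → H →L[ℂ] H} (he : IsMatrixUnitsOver A M e)
    {r : ℕ} (hr : 0 < r) {p : Fin r → H →L[ℂ] H} (hp : IsPartitionIn A p)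
    (T : Matrix (Fin n) (Fin n) ℂ) (hT : ∀ i j, ‖T i j‖ ^ 2 = 1 / (n : ℝ))
    {c : H →L[ℂ] H} (hcA : c ∈ A) :
    1 / (r : ℝ) - 1 / (n : ℝ) ≤
      ‖(pinching p (∑ i, ∑ j, (if i = j then (0 : ℂ) else T i j) • e i j) + c) Ω‖ ^ 2 := by
  classical
  have hn' : (0 : ℝ) < (n : ℝ) := by exact_mod_cast hn
  -- the norm of each compressed piece
  have hpiece : ∀ k, ‖p k Ω‖ ^ 2 ^ 2 - ‖p k Ω‖ ^ 2 / (n : ℝ) ≤
      ‖(p k * (∑ i, ∑ j, (if i = j then (0 : ℂ) else T i j) • e i j) * p k) Ω‖ ^ 2 := by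
    intro k
    rw [trace_norm_sq_compression_offdiag A M hAM hAc hΩ he (hp.1 k).1 (hp.1 k).2 T hT]
    have h1 := trace_offdiag_sum_ge A M hAM hAc hΩ he (hp.1 k).1 (hp.1 k).2
    have h2 : ‖p k Ω‖ ^ 2 ^ 2 - ‖p k Ω‖ ^ 2 / (n : ℝ) =
        (1 / (n : ℝ)) * ((n : ℝ) * (‖p k Ω‖ ^ 2) ^ 2 - ‖p k Ω‖ ^ 2) := by
      field_simp
      ring
    rw [h2]
    exact mul_le_mul_of_nonneg_left h1 (by positivity)
  -- orthogonality to the diagonal part
  have hcv : ∀ k, ⟪c Ω, (p k * (∑ i, ∑ j, (if i = j then (0 : ℂ) else T i j) • e i j) * p k) Ω⟫_ℂ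
      = 0 := by
    intro k
    have h1 : p k * (∑ i, ∑ j, (if i = j then (0 : ℂ) else T i j) • e i j) * p k =
        ∑ i, ∑ j, (if i = j then (0 : ℂ) else T i j) • (p k * e i j * p k) := by
      rw [Finset.mul_sum, Finset.sum_mul]
      apply Finset.sum_congr rfl
      intro i _
      rw [Finset.mul_sum, Finset.sum_mul]
      apply Finset.sum_congr rfl
      intro j _
      rw [mul_smul_comm, smul_mul_assoc]
    rw [h1, _root_.sum_apply, inner_sum]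
    apply Finset.sum_eq_zero
    intro i _
    rw [_root_.sum_apply, inner_sum]
    apply Finset.sum_eq_zero
    intro j _
    rw [_root_.smul_apply, inner_smul_right]
    by_cases hij : i = j
    · rw [if_pos hij, zero_mul]
    · rw [trace_inner_diag_offdiag A M hAM hAc hΩ he hcA (hp.1 k).1 i j hij, mul_zero]
  obtain ⟨x0, hx0⟩ : ∃ x0, x0 = ∑ i, ∑ j, (if i = j then (0 : ℂ) else T i j) • e i j := ⟨_, rfl⟩
  rw [← hx0] at hpiece hcv ⊢
  -- split the vector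
  have hsplit : (pinching p x0 + c) Ω = (∑ k, (p k * x0 * p k) Ω) + c Ω := by
    rw [_root_.add_apply, pinching, _root_.sum_apply]
  have horth : ⟪∑ k, (p k * x0 * p k) Ω, c Ω⟫_ℂ = 0 := by
    rw [sum_inner]
    apply Finset.sum_eq_zero
    intro k _
    exact inner_eq_zero_symm.mp (hcv k)
  have hpyth : ‖(∑ k, (p k * x0 * p k) Ω) + c Ω‖ ^ 2 =
      ‖∑ k, (p k * x0 * p k) Ω‖ ^ 2 + ‖c Ω‖ ^ 2 := by
    have h1 := norm_add_sq_eq_norm_sq_add_norm_sq_of_inner_eq_zero _ _ horth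
    rw [pow_two, pow_two, pow_two]
    exact h1
  have hsum : ‖∑ k, (p k * x0 * p k) Ω‖ ^ 2 = ∑ k, ‖(p k * x0 * p k) Ω‖ ^ 2 := by
    apply taskL8_norm_sq_sum
    intro k _ l _ hkl
    have h1 : ∀ m, (p m * x0 * p m) Ω = p m ((x0 * p m) Ω) := by
      intro m
      rw [mul_assoc, _root_.mul_apply_eq_comp]
    rw [h1 k, h1 l]
    exact taskL8_inner_proj_zero (hp.1 k).2 (hp.2.1 k l hkl) _ _
  have ht : ∑ k, ‖p k Ω‖ ^ 2 = 1 := taskL8_sum_norm_sq A hΩ.1 hp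
  have hsq : 1 / (r : ℝ) ≤ ∑ k, (‖p k Ω‖ ^ 2) ^ 2 :=
    taskL8_sum_sq_ge hr (fun k => ‖p k Ω‖ ^ 2) ht
  have hlow : 1 / (r : ℝ) - 1 / (n : ℝ) ≤ ∑ k, ‖(p k * x0 * p k) Ω‖ ^ 2 := by
    have h1 : ∑ k, (‖p k Ω‖ ^ 2 ^ 2 - ‖p k Ω‖ ^ 2 / (n : ℝ)) ≤
        ∑ k, ‖(p k * x0 * p k) Ω‖ ^ 2 :=
      Finset.sum_le_sum (fun k _ => hpiece k)
    have h2 : ∑ k, (‖p k Ω‖ ^ 2 ^ 2 - ‖p k Ω‖ ^ 2 / (n : ℝ)) =
        ∑ k, (‖p k Ω‖ ^ 2) ^ 2 - 1 / (n : ℝ) := by
      rw [Finset.sum_sub_distrib, ← Finset.sum_div, ht]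
      congr 1
      apply Finset.sum_congr rfl
      intro k _
      ring
    linarith
  rw [hsplit, hpyth]
  have h0 : 0 ≤ ‖c Ω‖ ^ 2 := by positivity
  linarith

/-! ### The Walsh combination of matrix units -/

omit [CompleteSpace H] in
/-- The square of a combination of matrix units is the combination of the squared matrix. -/
lemma taskL9_sq {n : ℕ} {e : Fin n → Fin n → H →L[ℂ] H}
    (hmul : ∀ i j k l, e i j * e k l = if j = k then e i l else 0) (hsum : ∑ i, e i i = 1)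
    (T : Matrix (Fin n) (Fin n) ℂ) (hTT : T * T = 1) :
    (∑ i, ∑ j, T i j • e i j) * (∑ i, ∑ j, T i j • e i j) = 1 := by
  calc (∑ i, ∑ j, T i j • e i j) * (∑ i, ∑ j, T i j • e i j)
      = ∑ i, ∑ j, ∑ k, ∑ l, (T i j * T k l) • (e i j * e k l) := by
        rw [Finset.sum_mul]
        refine Finset.sum_congr rfl (fun i _ => ?_)
        rw [Finset.sum_mul]
        refine Finset.sum_congr rfl (fun j _ => ?_)
        rw [Finset.mul_sum]
        refine Finset.sum_congr rfl (fun k _ => ?_)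
        rw [Finset.mul_sum]
        refine Finset.sum_congr rfl (fun l _ => ?_)
        rw [smul_mul_smul_comm]
    _ = ∑ i, ∑ j, ∑ l, (T i j * T j l) • e i l := by
        refine Finset.sum_congr rfl (fun i _ => Finset.sum_congr rfl (fun j _ => ?_))
        rw [Finset.sum_eq_single j]
        · refine Finset.sum_congr rfl (fun l _ => ?_)
          rw [hmul, if_pos rfl]
        · intro k _ hk
          refine Finset.sum_eq_zero (fun l _ => ?_)
          rw [hmul, if_neg (Ne.symm hk), smul_zero]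
        · intro h
          exact absurd (Finset.mem_univ j) h
    _ = ∑ i, ∑ l, (∑ j, T i j * T j l) • e i l := by
        refine Finset.sum_congr rfl (fun i _ => ?_)
        rw [Finset.sum_comm]
        refine Finset.sum_congr rfl (fun l _ => ?_)
        rw [Finset.sum_smul]
    _ = ∑ i, ∑ l, ((1 : Matrix (Fin n) (Fin n) ℂ) i l) • e i l := by
        refine Finset.sum_congr rfl (fun i _ => Finset.sum_congr rfl (fun l _ => ?_))
        rw [← Matrix.mul_apply, hTT]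
    _ = ∑ i, e i i := by
        refine Finset.sum_congr rfl (fun i _ => ?_)
        rw [Finset.sum_eq_single i]
        · rw [Matrix.one_apply_eq, one_smul]
        · intro l _ hl
          rw [Matrix.one_apply_ne (Ne.symm hl), zero_smul]
        · intro h
          exact absurd (Finset.mem_univ i) h
    _ = 1 := hsum

/-- A Hermitian combination of matrix units is self-adjoint. -/
lemma taskL9_selfadjoint {n : ℕ} {e : Fin n → Fin n → H →L[ℂ] H}
    (hstar : ∀ i j, star (e i j) = e j i) (T : Matrix (Fin n) (Fin n) ℂ)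
    (hTh : T.IsHermitian) : IsSelfAdjoint (∑ i, ∑ j, T i j • e i j) := by
  unfold IsSelfAdjoint
  rw [star_sum]
  have h1 : ∀ i, star (∑ j, T i j • e i j) = ∑ j, T j i • e j i := by
    intro i
    rw [star_sum]
    refine Finset.sum_congr rfl (fun j _ => ?_)
    rw [star_smul, hstar, hTh.apply j i]
  simp only [h1]
  exact Finset.sum_comm

omit [CompleteSpace H] in
/-- Splitting off the diagonal. -/
lemma taskL9_split {n : ℕ} (e : Fin n → Fin n → H →L[ℂ] H) (T : Matrix (Fin n) (Fin n) ℂ) :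
    (∑ i, ∑ j, T i j • e i j)
      = (∑ i, ∑ j, (if i = j then (0 : ℂ) else T i j) • e i j) + ∑ i, T i i • e i i := by
  rw [← Finset.sum_add_distrib]
  refine Finset.sum_congr rfl (fun i _ => ?_)
  have h1 : ∀ j, T i j • e i j = (if i = j then (0 : ℂ) else T i j) • e i j
      + (if i = j then T i i • e i i else 0) := by
    intro j
    by_cases hij : i = j
    · subst hij
      rw [if_pos rfl, if_pos rfl, zero_smul, zero_add]
    · rw [if_neg hij, if_neg hij, add_zero]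
  rw [Finset.sum_congr rfl (fun j _ => h1 j), Finset.sum_add_distrib, Finset.sum_ite_eq,
    if_pos (Finset.mem_univ i)]

omit [CompleteSpace H] in
/-- The pinching is additive. -/
lemma taskL9_pinching_add {r : ℕ} (p : Fin r → H →L[ℂ] H) (x y : H →L[ℂ] H) :
    pinching p (x + y) = pinching p x + pinching p y := by
  unfold pinching
  simp only [mul_add, add_mul, Finset.sum_add_distrib]

/-- The pinching fixes the elements of an abelian algebra containing the partition. -/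
lemma taskL9_pinching_diag (A : VonNeumannAlgebra H)
    (hAc : ∀ a ∈ A, ∀ b ∈ A, a * b = b * a) {r : ℕ} {p : Fin r → H →L[ℂ] H}
    (hp : IsPartitionIn A p) {d : H →L[ℂ] H} (hd : d ∈ A) : pinching p d = d := by
  unfold pinching
  have h1 : ∀ k, p k * d * p k = d * p k := by
    intro k
    rw [hAc (p k) (hp.1 k).1 d hd, mul_assoc, (hp.1 k).2.isIdempotentElem.eq]
  rw [Finset.sum_congr rfl (fun k _ => h1 k), ← Finset.mul_sum, hp.2.2, mul_one]

theorem trace_walsh_operator (A M : VonNeumannAlgebra H) (hAM : A ≤ M)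
    (hAc : ∀ a ∈ A, ∀ b ∈ A, a * b = b * a) {Ω : H} (hΩ : IsTraceVector M Ω)
    {n : ℕ} {e : Fin n → Fin n → H →L[ℂ] H} (he : IsMatrixUnitsOver A M e)
    (T : Matrix (Fin n) (Fin n) ℂ) (hTh : T.IsHermitian) (hTT : T * T = 1) :
    (∑ i, ∑ j, T i j • e i j) ∈ M ∧ IsSelfAdjoint (∑ i, ∑ j, T i j • e i j) ∧
      ‖∑ i, ∑ j, T i j • e i j‖ = 1 ∧ (∑ i, T i i • e i i) ∈ A ∧
      ∀ {r : ℕ} (p : Fin r → H →L[ℂ] H), IsPartitionIn A p →
        pinching p (∑ i, ∑ j, T i j • e i j) =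
          pinching p (∑ i, ∑ j, (if i = j then (0 : ℂ) else T i j) • e i j) +
            ∑ i, T i i • e i i := by
  obtain ⟨heM, heA, hestar, hemul, hesum⟩ := he
  have _hAM' := hAM
  have hxM : (∑ i, ∑ j, T i j • e i j) ∈ M :=
    sum_mem (fun i _ => sum_mem (fun j _ => M.toStarSubalgebra.smul_mem (heM i j) _))
  have hsa : IsSelfAdjoint (∑ i, ∑ j, T i j • e i j) := taskL9_selfadjoint hestar T hTh
  have hsq := taskL9_sq hemul hesum T hTT
  have hnorm : ‖∑ i, ∑ j, T i j • e i j‖ = 1 := by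
    have hΩne : Ω ≠ 0 := by
      intro h
      have h1 := hΩ.1
      rw [h, norm_zero] at h1
      exact zero_ne_one h1
    have hnt : Nontrivial H := ⟨⟨Ω, 0, hΩne⟩⟩
    have h1 := CStarRing.norm_star_mul_self (x := ∑ i, ∑ j, T i j • e i j)
    rw [hsa.star_eq, hsq, norm_one] at h1
    rcases mul_self_eq_one_iff.mp h1.symm with h2 | h2
    · exact h2
    · have h3 := norm_nonneg (∑ i, ∑ j, T i j • e i j)
      linarith
  have hdA : (∑ i, T i i • e i i) ∈ A :=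
    sum_mem (fun i _ => A.toStarSubalgebra.smul_mem (heA i) _)
  refine ⟨hxM, hsa, hnorm, hdA, ?_⟩
  intro r p hp
  rw [taskL9_split e T, taskL9_pinching_add, taskL9_pinching_diag A hAc hp hdA]

/-! ### Elements that are not so-pavable; the so-paving number -/

theorem not_soPavable_of_matrix_units (A M : VonNeumannAlgebra H) (hAM : A ≤ M)
    (hAc : ∀ a ∈ A, ∀ b ∈ A, a * b = b * a) {Ω : H} (hΩ : IsTraceVector M Ω)
    {k : ℕ} {e : Fin (2 ^ k) → Fin (2 ^ k) → H →L[ℂ] H} (he : IsMatrixUnitsOver A M e)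
    {ε : ℝ} {r : ℕ} (hr : 0 < r) (h : ε ^ 2 < 1 / (r : ℝ) - 1 / (2 ^ k : ℝ)) :
    ∃ x ∈ M, IsSelfAdjoint x ∧ x * x = 1 ∧ ‖x‖ = 1 ∧ ¬ SoPavable A M x ε r := by
  obtain ⟨T, hTh, hTT, -, hTe⟩ := exists_walsh k
  obtain ⟨hxM, hxs, hxn, hdA, hpin⟩ := trace_walsh_operator A M hAM hAc hΩ he T hTh hTT
  refine ⟨_, hxM, hxs, taskL9_sq he.2.2.2.1 he.2.2.2.2 T hTT, hxn, ?_⟩
  intro hpav
  obtain ⟨s, hs⟩ : ∃ s : ℝ, s = Real.sqrt (1 / (r : ℝ) - 1 / (2 ^ k : ℝ)) := ⟨_, rfl⟩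
  have hpos : 0 < 1 / (r : ℝ) - 1 / (2 ^ k : ℝ) := lt_of_le_of_lt (sq_nonneg ε) h
  have hs0 : 0 < s := by rw [hs]; exact Real.sqrt_pos.mpr hpos
  have hss : s ^ 2 = 1 / (r : ℝ) - 1 / (2 ^ k : ℝ) := by rw [hs]; exact Real.sq_sqrt hpos.le
  have hεs : ε < s := by
    by_contra hcon
    rw [not_lt] at hcon
    have h1 : s ^ 2 ≤ ε ^ 2 := pow_le_pow_left₀ hs0.le hcon 2
    linarith
  have hr1 : (0 : ℝ) < (r : ℝ) + 1 := by positivity
  obtain ⟨δ, hδ⟩ : ∃ δ : ℝ, δ = (s - ε) / (4 * ((r : ℝ) + 1)) := ⟨_, rfl⟩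
  have hδ0 : 0 < δ := by
    rw [hδ]
    apply div_pos
    · linarith
    · positivity
  obtain ⟨p, a, q, hp, haA, has, han, hqM, hq, hqF, hb⟩ := hpav {Ω} δ hδ0
  rw [hxn, mul_one] at hb
  rw [hxn] at han
  have hqΩ : ‖(1 - q) Ω‖ ≤ δ := (hqF Ω (Finset.mem_singleton_self Ω)).le
  have hpinM : pinching p (∑ i, ∑ j, T i j • e i j) ∈ M := by
    unfold pinching
    exact sum_mem (fun i _ => M.mul_mem (M.mul_mem (hAM (hp.1 i).1) hxM) (hAM (hp.1 i).1))
  have hyM : pinching p (∑ i, ∑ j, T i j • e i j) - a ∈ M := M.sub_mem hpinM (hAM haA)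
  have hy_norm : ‖pinching p (∑ i, ∑ j, T i j • e i j) - a‖ ≤ (r : ℝ) + 1 := by
    calc ‖pinching p (∑ i, ∑ j, T i j • e i j) - a‖
        ≤ ‖pinching p (∑ i, ∑ j, T i j • e i j)‖ + ‖a‖ := norm_sub_le _ _
      _ ≤ (r : ℝ) * ‖∑ i, ∑ j, T i j • e i j‖ + 1 :=
          add_le_add (taskT2_norm_pinching_le p (fun i => (hp.1 i).2) _) han
      _ = (r : ℝ) + 1 := by rw [hxn, mul_one]
  have hup := trace_norm_le_of_compression M hΩ hyM hqM hq hqΩ hb
  have hTe' : ∀ i j, ‖T i j‖ ^ 2 = 1 / (((2 ^ k : ℕ)) : ℝ) := hTe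
  have hlow := trace_norm_sq_pinching_ge A M hAM hAc hΩ (Nat.two_pow_pos k) he hr hp T hTe'
    (c := (∑ i, T i i • e i i) - a) (A.sub_mem hdA haA)
  have hyeq : pinching p (∑ i, ∑ j, T i j • e i j) - a =
      pinching p (∑ i, ∑ j, (if i = j then (0 : ℂ) else T i j) • e i j) +
        ((∑ i, T i i • e i i) - a) := by
    rw [hpin p hp]
    abel
  rw [← hyeq] at hlow
  have hcast : (((2 ^ k : ℕ)) : ℝ) = (2 ^ k : ℝ) := by push_cast; rfl
  rw [hcast, ← hss] at hlow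
  have h2 : ‖(pinching p (∑ i, ∑ j, T i j • e i j) - a) Ω‖ ≤ ε + 2 * ((r : ℝ) + 1) * δ := by
    refine hup.trans ?_
    have : 2 * ‖pinching p (∑ i, ∑ j, T i j • e i j) - a‖ * δ ≤ 2 * ((r : ℝ) + 1) * δ := by
      gcongr
    linarith
  have h3 : ε + 2 * ((r : ℝ) + 1) * δ = (ε + s) / 2 := by
    rw [hδ]
    field_simp
    ring
  rw [h3] at h2
  have h4 : ‖(pinching p (∑ i, ∑ j, T i j • e i j) - a) Ω‖ < s := by linarith
  have h5 : ‖(pinching p (∑ i, ∑ j, T i j • e i j) - a) Ω‖ ^ 2 < s ^ 2 :=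
    pow_lt_pow_left₀ h4 (norm_nonneg _) (by norm_num)
  linarith

theorem le_soPavingNumber_of_trace (A M : VonNeumannAlgebra H) (hAM : A ≤ M)
    (hAc : ∀ a ∈ A, ∀ b ∈ A, a * b = b * a) {Ω : H} (hΩ : IsTraceVector M Ω)
    (hU : ∀ k : ℕ, ∃ e : Fin (2 ^ k) → Fin (2 ^ k) → H →L[ℂ] H, IsMatrixUnitsOver A M e)
    {ε : ℝ} (hε : 0 < ε) : ((⌈1 / ε ^ 2⌉₊ : ℕ) : ℕ∞) ≤ soPavingNumber A M ε := by
  unfold soPavingNumber
  refine le_iInf (fun r => le_iInf (fun hr => ?_))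
  rw [Nat.cast_le, Nat.ceil_le]
  by_contra hcon
  rw [not_le] at hcon
  have hr0 : 0 < r := hr.1
  have hrpos : (0 : ℝ) < (r : ℝ) := by exact_mod_cast hr0
  have h1 : ε ^ 2 < 1 / (r : ℝ) := by
    rw [lt_div_iff₀ hrpos]
    rw [lt_div_iff₀ (by positivity)] at hcon
    linarith
  obtain ⟨k, hk⟩ := exists_pow_lt_of_lt_one (sub_pos.mpr h1) (by norm_num : (1 / 2 : ℝ) < 1)
  have h2 : (1 / 2 : ℝ) ^ k = 1 / (2 ^ k : ℝ) := by
    rw [one_div, inv_pow, one_div]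
  rw [h2] at hk
  obtain ⟨e, he⟩ := hU k
  obtain ⟨x, hxM, hxs, -, -, hx⟩ :=
    not_soPavable_of_matrix_units A M hAM hAc hΩ he (ε := ε) hr0 (by linarith)
  exact hx (hr.2 x hxM hxs)

end Vale.Agent.Lib.P078
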