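import Vale.Agent.Lib.P078.ApproxDefs
import Vale.Agent.Lib.P078.Summary
import Vale.Agent.Lib.P078.Trace

/-!
# So-paving for inclusions that are approximately of type I

Let `M` have a separating vector `Ω` whose vector state centralizes a MASA `A` of `M` (for
instance a trace vector), and suppose that every self-adjoint element of `M` is approximated in
the seminorm `y ↦ ‖y Ω‖` by elements of type I von Neumann algebras between `A` and `M`.  Then paving of finite matrices transfers to so-paving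
of `A ⊆ M`, with any loss `ε < ε'`.
-/

namespace Vale.Agent.Lib.P078

open scoped InnerProductSpace Matrix.Norms.L2Operator
open ContinuousLinearMap Filter Topology

variable {H : Type*} [NormedAddCommGroup H] [InnerProductSpace ℂ H] [CompleteSpace H]

/-! ### Cyclicity for the commutant; pinchings contract the trace seminorm -/

theorem exists_commutant_approx (M : VonNeumannAlgebra H) {Ω : H} (hsep : IsSeparating M Ω)
    (ξ : H) {δ : ℝ} (hδ : 0 < δ) : ∃ y ∈ M.commutant, ‖ξ - y Ω‖ < δ := by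
  obtain ⟨S, hS⟩ : ∃ S : Submodule ℂ H, S = orbit M.commutant Ω := ⟨_, rfl⟩
  have hzM : S.topologicalClosure.starProjection ∈ M := by
    apply starProjection_closure_mem M S
    intro y hy v hv
    rw [hS] at hv ⊢
    obtain ⟨a, ha, rfl⟩ := hv
    exact ⟨y * a, mul_mem hy ha, rfl⟩
  have hΩS : Ω ∈ S := by
    rw [hS]
    exact ⟨1, one_mem _, rfl⟩
  have hzΩ : S.topologicalClosure.starProjection Ω = Ω :=
    Submodule.starProjection_eq_self_iff.mpr (S.le_topologicalClosure hΩS)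
  have h1 : (1 - S.topologicalClosure.starProjection : H →L[ℂ] H) = 0 := by
    apply hsep _ (sub_mem (one_mem M) hzM)
    rw [_root_.sub_apply, hzΩ]
    simp
  have hz1 : S.topologicalClosure.starProjection = (1 : H →L[ℂ] H) := (sub_eq_zero.mp h1).symm
  have hmem : ξ ∈ closure ((S : Submodule ℂ H) : Set H) := by
    rw [← Submodule.topologicalClosure_coe]
    have h2 : S.topologicalClosure.starProjection ξ ∈ S.topologicalClosure :=
      Submodule.starProjection_apply_mem _ ξ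
    rw [hz1] at h2
    exact h2
  obtain ⟨v, hv, hdist⟩ := Metric.mem_closure_iff.mp hmem δ hδ
  have hv' : v ∈ orbit M.commutant Ω := by
    rw [← hS]
    exact hv
  obtain ⟨y, hy, rfl⟩ := hv'
  exact ⟨y, hy, by rwa [dist_eq_norm] at hdist⟩

/-- Pythagoras for vectors in the ranges of pairwise orthogonal projections. -/
theorem taskB2_norm_sq_sum {r : ℕ} {p : Fin r → H →L[ℂ] H} (hp : ∀ i, IsStarProjection (p i))
    (horth : ∀ i j, i ≠ j → p i * p j = 0) (w : Fin r → H) :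
    ‖∑ k, p k (w k)‖ ^ 2 = ∑ k, ‖p k (w k)‖ ^ 2 := by
  have key : ∀ k l, k ≠ l → ⟪p k (w k), p l (w l)⟫_ℂ = 0 := by
    intro k l hkl
    have h1 := adjoint_inner_right (p k) (w k) (p l (w l))
    rw [(hp k).isSelfAdjoint.adjoint_eq] at h1
    rw [← h1]
    have h2 : p k (p l (w l)) = (p k * p l) (w l) := rfl
    rw [h2, horth k l hkl]
    simp
  have h3 : ⟪∑ k, p k (w k), ∑ l, p l (w l)⟫_ℂ = ∑ k, ⟪p k (w k), p k (w k)⟫_ℂ := by
    rw [sum_inner]
    refine Finset.sum_congr rfl (fun k _ => ?_)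
    rw [inner_sum]
    exact Finset.sum_eq_single k (fun l _ hl => key k l (Ne.symm hl))
      (fun hk => absurd (Finset.mem_univ k) hk)
  rw [@norm_sq_eq_re_inner ℂ, h3, map_sum]
  refine Finset.sum_congr rfl (fun k _ => ?_)
  rw [@norm_sq_eq_re_inner ℂ]

theorem trace_norm_pinching_apply_le (A M : VonNeumannAlgebra H) (hAM : A ≤ M) {Ω : H}
    (hΩ : IsTraceVector M Ω) {r : ℕ} {p : Fin r → H →L[ℂ] H} (hp : IsPartitionIn A p)
    {z : H →L[ℂ] H} (hz : z ∈ M) : ‖(pinching p z) Ω‖ ≤ ‖z Ω‖ := by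
  obtain ⟨hpA, horth, hsum⟩ := hp
  have hpp : ∀ i, IsStarProjection (p i) := fun i => (hpA i).2
  have hpM : ∀ i, p i ∈ M := fun i => hAM (hpA i).1
  -- the pinching applied to the vector
  have e1 : (pinching p z) Ω = ∑ k, p k (z (p k Ω)) := by
    unfold pinching
    rw [_root_.sum_apply]
    rfl
  -- the vector `(star z) Ω` decomposed along the partition
  have e2 : (star z) Ω = ∑ k, p k ((star z) Ω) := by
    have h : (∑ k, p k) ((star z) Ω) = (star z) Ω := by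
      rw [hsum]
      rfl
    rw [_root_.sum_apply] at h
    exact h.symm
  have h1 : ‖(pinching p z) Ω‖ ^ 2 = ∑ k, ‖p k (z (p k Ω))‖ ^ 2 := by
    rw [e1]
    exact taskB2_norm_sq_sum hpp horth (fun k => z (p k Ω))
  have h2 : ‖(star z) Ω‖ ^ 2 = ∑ k, ‖p k ((star z) Ω)‖ ^ 2 := by
    conv_lhs => rw [e2]
    exact taskB2_norm_sq_sum hpp horth (fun _ => (star z) Ω)
  have h3 : ∀ k, ‖p k (z (p k Ω))‖ ^ 2 ≤ ‖p k ((star z) Ω)‖ ^ 2 := by
    intro k
    have h4 : ‖p k (z (p k Ω))‖ ≤ ‖z (p k Ω)‖ := by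
      have := (p k).le_opNorm (z (p k Ω))
      have hn : ‖p k‖ ≤ 1 := (hpp k).norm_le
      calc ‖p k (z (p k Ω))‖ ≤ ‖p k‖ * ‖z (p k Ω)‖ := this
        _ ≤ 1 * ‖z (p k Ω)‖ := mul_le_mul_of_nonneg_right hn (norm_nonneg _)
        _ = ‖z (p k Ω)‖ := one_mul _
    have h5 : ‖z (p k Ω)‖ = ‖p k ((star z) Ω)‖ := by
      have h6 := trace_norm_star M hΩ (M.mul_mem hz (hpM k))
      rw [star_mul, (hpp k).isSelfAdjoint.star_eq] at h6
      have h7 : (p k * star z) Ω = p k ((star z) Ω) := rfl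
      have h8 : (z * p k) Ω = z (p k Ω) := rfl
      rw [h7, h8] at h6
      exact h6.symm
    rw [← h5]
    exact pow_le_pow_left₀ (norm_nonneg _) h4 2
  have h9 : ‖(pinching p z) Ω‖ ^ 2 ≤ ‖z Ω‖ ^ 2 := by
    rw [h1, ← trace_norm_star M hΩ hz, h2]
    exact Finset.sum_le_sum (fun k _ => h3 k)
  exact (pow_le_pow_iff_left₀ (norm_nonneg _) (norm_nonneg _) two_ne_zero).mp h9

/-- A trace vector for `M` centralizes every subalgebra of `M`. -/
theorem isCentralizing_of_isTraceVector (A M : VonNeumannAlgebra H) (hAM : A ≤ M) {Ω : H}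
    (hΩ : IsTraceVector M Ω) : IsCentralizing A M Ω :=
  fun a ha x hx => hΩ.2 a (hAM ha) x hx

/-- If the vector state of `Ω` centralizes `A`, pinchings by partitions in `A` contract the
seminorm `z ↦ ‖z Ω‖` on `M`. -/
theorem norm_pinching_apply_le_of_centralizing (A M : VonNeumannAlgebra H) (hAM : A ≤ M) {Ω : H}
    (hcen : IsCentralizing A M Ω) {r : ℕ} {p : Fin r → H →L[ℂ] H} (hp : IsPartitionIn A p)
    {z : H →L[ℂ] H} (hz : z ∈ M) : ‖(pinching p z) Ω‖ ≤ ‖z Ω‖ := by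
  obtain ⟨hpA, horth, hsum⟩ := hp
  have hpp : ∀ i, IsStarProjection (p i) := fun i => (hpA i).2
  have hpM : ∀ i, p i ∈ M := fun i => hAM (hpA i).1
  have e1 : (pinching p z) Ω = ∑ k, p k (z (p k Ω)) := by
    unfold pinching
    rw [_root_.sum_apply]
    rfl
  have h1 : ‖(pinching p z) Ω‖ ^ 2 = ∑ k, ‖p k (z (p k Ω))‖ ^ 2 := by
    rw [e1]
    exact taskB2_norm_sq_sum hpp horth (fun k => z (p k Ω))
  have h3 : ∀ k, ‖p k (z (p k Ω))‖ ^ 2 ≤ (⟪z Ω, z (p k Ω)⟫_ℂ).re := by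
    intro k
    have h4 : ‖p k (z (p k Ω))‖ ≤ ‖z (p k Ω)‖ := by
      have hn : ‖p k‖ ≤ 1 := (hpp k).norm_le
      calc ‖p k (z (p k Ω))‖ ≤ ‖p k‖ * ‖z (p k Ω)‖ := (p k).le_opNorm _
        _ ≤ 1 * ‖z (p k Ω)‖ := mul_le_mul_of_nonneg_right hn (norm_nonneg _)
        _ = ‖z (p k Ω)‖ := one_mul _
    have h5 : ‖z (p k Ω)‖ ^ 2 = (⟪z Ω, z (p k Ω)⟫_ℂ).re := by
      have h6 : ⟪z (p k Ω), z (p k Ω)⟫_ℂ = ⟪Ω, p k ((star z * z * p k) Ω)⟫_ℂ := by
        have h7 : (star z * z * p k) Ω = (star z) (z (p k Ω)) := rfl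
        rw [h7, ← adjoint_inner_left (p k), (hpp k).isSelfAdjoint.adjoint_eq,
          star_eq_adjoint, adjoint_inner_right]
      have hsz : star z ∈ M := star_mem hz
      have h8 := hcen (p k) (hpA k).1 (star z * z * p k)
        (M.mul_mem (M.mul_mem hsz hz) (hpM k))
      have h9 : (star z * z * p k) (p k Ω) = (star z) (z (p k Ω)) := by
        have h10 : p k (p k Ω) = p k Ω := by
          rw [← mul_apply_eq_comp, (hpp k).isIdempotentElem.eq]
        change (star z) (z (p k (p k Ω))) = _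
        rw [h10]
      rw [h8, h9, star_eq_adjoint, adjoint_inner_right] at h6
      rw [@norm_sq_eq_re_inner ℂ, h6]
      rfl
    rw [← h5]
    exact pow_le_pow_left₀ (norm_nonneg _) h4 2
  have h9 : ‖(pinching p z) Ω‖ ^ 2 ≤ ‖z Ω‖ ^ 2 := by
    rw [h1]
    refine (Finset.sum_le_sum (fun k _ => h3 k)).trans (le_of_eq ?_)
    rw [← Complex.re_sum, ← inner_sum, ← map_sum]
    have h10 : ∑ k, p k Ω = Ω := by
      rw [← _root_.sum_apply, hsum]
      rfl
    rw [h10, @norm_sq_eq_re_inner ℂ]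
    rfl
  exact (pow_le_pow_iff_left₀ (norm_nonneg _) (norm_nonneg _) two_ne_zero).mp h9

/-! ### Level projections -/

lemma taskB3_inner_level {y : H →L[ℂ] H} (hy : IsSelfAdjoint y) (c : ℝ) (z : H) :
    RCLike.re ⟪(y * y - (c : ℂ) • (1 : H →L[ℂ] H)) z, z⟫_ℂ = ‖y z‖ ^ 2 - c * ‖z‖ ^ 2 := by
  have hadj : adjoint y = y := isSelfAdjoint_iff'.mp hy
  have h1 : (y * y - (c : ℂ) • (1 : H →L[ℂ] H)) z = y (y z) - (c : ℂ) • z := by
    rw [sub_apply, mul_apply_eq_comp,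
      smul_apply, one_apply_eq_self]
  have h2 : ⟪y (y z), z⟫_ℂ = ⟪y z, y z⟫_ℂ := by
    have h := adjoint_inner_left y z (y z)
    rw [hadj] at h
    exact h
  have h3 : RCLike.re ⟪(c : ℂ) • z, z⟫_ℂ = c * ‖z‖ ^ 2 := by
    rw [inner_smul_left, Complex.conj_ofReal]
    have h4 : ⟪z, z⟫_ℂ = ((‖z‖ ^ 2 : ℝ) : ℂ) := by
      rw [inner_self_eq_norm_sq_to_K]
      norm_cast
    rw [h4, ← Complex.ofReal_mul]
    exact Complex.ofReal_re _
  rw [h1, inner_sub_left, h2, map_sub, inner_self_eq_norm_sq, h3]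

theorem exists_level_projection_abs (M : VonNeumannAlgebra H) {y : H →L[ℂ] H} (hyM : y ∈ M)
    (hy : IsSelfAdjoint y) {t : ℝ} (ht : 0 < t) :
    ∃ g ∈ M, IsStarProjection g ∧ (∀ u : H →L[ℂ] H, u * y = y * u → u * g = g * u) ∧
      ‖(1 - g) * y * (1 - g)‖ ≤ t ∧ ∀ v : H, t * ‖g v‖ ≤ ‖y v‖ := by
  obtain ⟨W, hW⟩ : ∃ W : VonNeumannAlgebra H, W = (taskG_centralizer {y}).commutant := ⟨_, rfl⟩
  have hstar : star y = y := hy.star_eq
  have hcent : ∀ u : H →L[ℂ] H, u * y = y * u → u ∈ taskG_centralizer {y} := by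
    intro u hu
    rw [taskG_mem_centralizer]
    intro b hb
    rw [Set.mem_singleton_iff] at hb
    rw [hb, hstar]
    exact ⟨hu.symm, hu.symm⟩
  have hyW : y ∈ W := by
    rw [hW, VonNeumannAlgebra.mem_commutant_iff]
    intro a ha
    rw [taskG_mem_centralizer] at ha
    exact ((ha y (Set.mem_singleton y)).1).symm
  obtain ⟨b, hbdef⟩ : ∃ b : H →L[ℂ] H,
      b = y * y - ((t ^ 2 : ℝ) : ℂ) • (1 : H →L[ℂ] H) := ⟨_, rfl⟩
  have hbW : b ∈ W := by
    rw [hbdef]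
    exact sub_mem (mul_mem hyW hyW) (W.toStarSubalgebra.smul_mem W.one_mem _)
  have hbsa : IsSelfAdjoint b := by
    rw [hbdef]
    show star (y * y - ((t ^ 2 : ℝ) : ℂ) • (1 : H →L[ℂ] H))
      = y * y - ((t ^ 2 : ℝ) : ℂ) • (1 : H →L[ℂ] H)
    rw [star_sub, star_mul, hstar, star_smul, star_one, Complex.star_def, Complex.conj_ofReal]
  obtain ⟨g, hgW, hgp, -, hpos, hneg⟩ := exists_level_projection W hbW hbsa
  have hcomm : ∀ u : H →L[ℂ] H, u * y = y * u → u * g = g * u := by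
    intro u hu
    rw [hW, VonNeumannAlgebra.mem_commutant_iff] at hgW
    exact hgW u (hcent u hu)
  have hgy : y * g = g * y := hcomm y rfl
  have hgM : g ∈ M := by
    rw [← VonNeumannAlgebra.commutant_commutant M, VonNeumannAlgebra.mem_commutant_iff]
    intro u hu
    rw [VonNeumannAlgebra.mem_commutant_iff] at hu
    exact hcomm u (hu y hyM).symm
  have hqp : IsStarProjection (1 - g) := hgp.one_sub
  have hkey : ∀ z : H, RCLike.re ⟪b z, z⟫_ℂ = ‖y z‖ ^ 2 - t ^ 2 * ‖z‖ ^ 2 := by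
    intro z
    rw [hbdef]
    exact taskB3_inner_level hy (t ^ 2) z
  have h3 : ∀ w : H, g w = w → t * ‖w‖ ≤ ‖y w‖ := by
    intro w hw
    have hP : (b * g).IsPositive := (nonneg_iff_isPositive _).mp hpos
    have h := hP.re_inner_nonneg_left w
    rw [mul_apply_eq_comp, hw, hkey] at h
    have h' : (t * ‖w‖) ^ 2 ≤ ‖y w‖ ^ 2 := by
      rw [mul_pow]
      linarith
    exact (pow_le_pow_iff_left₀ (by positivity) (norm_nonneg _) two_ne_zero).mp h'
  have h2 : ∀ z : H, (1 - g) z = z → ‖y z‖ ≤ t * ‖z‖ := by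
    intro z hz
    have hP : (0 - b * (1 - g)).IsPositive := (ContinuousLinearMap.le_def _ _).mp hneg
    have h := hP.re_inner_nonneg_left z
    rw [zero_sub, neg_apply, inner_neg_left, map_neg,
      mul_apply_eq_comp, hz, hkey] at h
    have h' : ‖y z‖ ^ 2 ≤ (t * ‖z‖) ^ 2 := by
      rw [mul_pow]
      linarith
    exact (pow_le_pow_iff_left₀ (norm_nonneg _) (by positivity) two_ne_zero).mp h'
  refine ⟨g, hgM, hgp, hcomm, ?_, ?_⟩
  · have hq1 : ‖(1 - g : H →L[ℂ] H)‖ ≤ 1 := IsStarProjection.norm_le _ hqp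
    have hyq : ‖y * (1 - g)‖ ≤ t := by
      refine ContinuousLinearMap.opNorm_le_bound _ ht.le (fun v => ?_)
      have hz : (1 - g) ((1 - g) v) = (1 - g) v := by
        rw [← mul_apply_eq_comp, hqp.isIdempotentElem.eq]
      have h := h2 ((1 - g) v) hz
      have hle : ‖(1 - g) v‖ ≤ ‖v‖ := by
        calc ‖(1 - g) v‖ ≤ ‖(1 - g : H →L[ℂ] H)‖ * ‖v‖ := ContinuousLinearMap.le_opNorm _ _
          _ ≤ 1 * ‖v‖ := mul_le_mul_of_nonneg_right hq1 (norm_nonneg _)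
          _ = ‖v‖ := one_mul _
      rw [mul_apply_eq_comp]
      exact h.trans (mul_le_mul_of_nonneg_left hle ht.le)
    calc ‖(1 - g) * y * (1 - g)‖ = ‖(1 - g) * (y * (1 - g))‖ := by rw [mul_assoc]
      _ ≤ ‖(1 - g : H →L[ℂ] H)‖ * ‖y * (1 - g)‖ := norm_mul_le _ _
      _ ≤ 1 * t := mul_le_mul hq1 hyq (norm_nonneg _) zero_le_one
      _ = t := one_mul _
  · intro v
    have hgg : g (g v) = g v := by
      rw [← mul_apply_eq_comp, hgp.isIdempotentElem.eq]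
    have h := h3 (g v) hgg
    have hyg : y (g v) = g (y v) := by
      rw [← mul_apply_eq_comp, ← mul_apply_eq_comp, hgy]
    have hg1 : ‖g‖ ≤ 1 := IsStarProjection.norm_le _ hgp
    calc t * ‖g v‖ ≤ ‖y (g v)‖ := h
      _ = ‖g (y v)‖ := by rw [hyg]
      _ ≤ ‖g‖ * ‖y v‖ := ContinuousLinearMap.le_opNorm _ _
      _ ≤ 1 * ‖y v‖ := mul_le_mul_of_nonneg_right hg1 (norm_nonneg _)
      _ = ‖y v‖ := one_mul _

/-! ### The transfer -/

omit [CompleteSpace H] in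
/-- The pinching is additive in the pinched operator. -/
lemma taskB4_pinching_add {r : ℕ} (p : Fin r → H →L[ℂ] H) (x z : H →L[ℂ] H) :
    pinching p (x + z) = pinching p x + pinching p z := by
  unfold pinching
  rw [← Finset.sum_add_distrib]
  refine Finset.sum_congr rfl (fun i _ => ?_)
  rw [mul_add, add_mul]

/-- The pinching of an element of `M` along projections of `M` lies in `M`. -/
lemma taskB4_pinching_mem (M : VonNeumannAlgebra H) {r : ℕ} {p : Fin r → H →L[ℂ] H}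
    (hp : ∀ i, p i ∈ M) {z : H →L[ℂ] H} (hz : z ∈ M) : pinching p z ∈ M := by
  unfold pinching
  exact sum_mem (fun i _ => mul_mem (mul_mem (hp i) hz) (hp i))

/-- A star projection does not increase the norm of a vector. -/
lemma taskB4_proj_apply_le {q : H →L[ℂ] H} (hq : IsStarProjection q) (v : H) : ‖q v‖ ≤ ‖v‖ := by
  calc ‖q v‖ ≤ ‖q‖ * ‖v‖ := q.le_opNorm v
    _ ≤ 1 * ‖v‖ := mul_le_mul_of_nonneg_right (IsStarProjection.norm_le _ hq) (norm_nonneg _)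
    _ = ‖v‖ := one_mul _

/-- Compression by a star projection does not increase the operator norm. -/
lemma taskB4_compress_norm_le {G : H →L[ℂ] H} (hG : IsStarProjection G) (W : H →L[ℂ] H) :
    ‖G * W * G‖ ≤ ‖W‖ := by
  have hG1 : ‖G‖ ≤ 1 := IsStarProjection.norm_le _ hG
  calc ‖G * W * G‖ ≤ ‖G * W‖ * ‖G‖ := norm_mul_le _ _
    _ ≤ (‖G‖ * ‖W‖) * ‖G‖ := mul_le_mul_of_nonneg_right (norm_mul_le _ _) (norm_nonneg _)
    _ ≤ (1 * ‖W‖) * 1 :=
        mul_le_mul (mul_le_mul_of_nonneg_right hG1 (norm_nonneg _)) hG1 (norm_nonneg _)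
          (by positivity)
    _ = ‖W‖ := by rw [one_mul, mul_one]

/-- The arithmetic of the constants. -/
lemma taskB4_const {t δ C ρ X η δ' : ℝ} (ht : 0 < t) (hδ : 0 < δ) (hC : 0 < C) (hρ : 0 < ρ)
    (hX : 0 < X) (hη : η = t * δ / (6 * C)) (hδ' : δ' ≤ t * δ / (12 * C * ρ * X)) :
    η + 2 * ρ * X * δ' ≤ t * δ / (3 * C) := by
  have h1 : 2 * ρ * X * δ' ≤ 2 * ρ * X * (t * δ / (12 * C * ρ * X)) :=
    mul_le_mul_of_nonneg_left hδ' (by positivity)
  have h2 : 2 * ρ * X * (t * δ / (12 * C * ρ * X)) = t * δ / (6 * C) := by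
    field_simp
    ring
  have h3 : t * δ / (6 * C) + t * δ / (6 * C) = t * δ / (3 * C) := by
    field_simp
    ring
  rw [hη]
  linarith

theorem soPavable_of_approx_type_one {ε ε' : ℝ} {r : ℕ} (hεε' : ε < ε')
    (hmp : MatrixPavable ε r) (A M : VonNeumannAlgebra H) (hA : IsMASA A M) {Ω : H}
    (hcen : IsCentralizing A M Ω) (hsep : IsSeparating M Ω) (happ : IsApproxTypeOne A M Ω)
    (x : H →L[ℂ] H) (hxM : x ∈ M) (hx : IsSelfAdjoint x) : SoPavable A M x ε' r := by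
  classical
  intro F δ hδ
  obtain ⟨hε, ⟨i₀⟩⟩ := matrixPavable_nonneg hmp
  by_cases hx0 : x = 0
  · subst hx0
    refine ⟨_, 0, 1, isPartitionIn_of_coloring A (fun _ : Unit => (1 : H →L[ℂ] H))
      (fun _ => one_mem A) (fun _ => IsStarProjection.one _)
      (fun j k h => absurd (Subsingleton.elim j k) h) (by simp) (fun _ => i₀), zero_mem A,
      IsSelfAdjoint.zero _, le_refl _, one_mem M, IsStarProjection.one _, ?_, ?_⟩
    · intro ξ _
      simpa using hδ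
    · simp [pinching]
  have hX : 0 < ‖x‖ := norm_pos_iff.mpr hx0
  have hr : 0 < (r : ℝ) := by
    have h0 : 0 < r := Fin.pos i₀
    exact_mod_cast h0
  -- the constants
  obtain ⟨ε1, hε1⟩ : ∃ ε1 : ℝ, ε1 = (ε + ε') / 2 := ⟨_, rfl⟩
  have hεε1 : ε < ε1 := by rw [hε1]; linarith
  have hε1ε' : ε1 < ε' := by rw [hε1]; linarith
  have hε10 : 0 ≤ ε1 := hε.trans hεε1.le
  obtain ⟨t, ht⟩ : ∃ t : ℝ, t = (ε' - ε1) * ‖x‖ := ⟨_, rfl⟩
  have htpos : 0 < t := by rw [ht]; exact mul_pos (by linarith) hX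
  -- (1) approximation of the vectors of F by commutant elements applied to Ω
  have hδ3 : 0 < δ / 3 := by positivity
  choose y hyM hyΩ using fun ξ : H => exists_commutant_approx M hsep ξ hδ3
  obtain ⟨C, hC⟩ : ∃ C : ℝ, C = 1 + ∑ ξ ∈ F, ‖y ξ‖ := ⟨_, rfl⟩
  have hC1 : 1 ≤ C := by
    have h0 : 0 ≤ ∑ ξ ∈ F, ‖y ξ‖ := Finset.sum_nonneg (fun ξ _ => norm_nonneg _)
    rw [hC]
    linarith
  have hCy : ∀ ξ ∈ F, ‖y ξ‖ ≤ C := by
    intro ξ hξ
    have h0 := Finset.single_le_sum (f := fun ξ => ‖y ξ‖) (fun ξ _ => norm_nonneg _) hξ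
    rw [hC]
    linarith
  have hCpos : 0 < C := lt_of_lt_of_le one_pos hC1
  -- (2) the tolerances
  obtain ⟨η, hη⟩ : ∃ η : ℝ, η = t * δ / (6 * C) := ⟨_, rfl⟩
  have hηpos : 0 < η := by rw [hη]; positivity
  obtain ⟨δ', hδ'⟩ : ∃ δ' : ℝ, δ' = min (δ / 3) (t * δ / (12 * C * r * ‖x‖)) := ⟨_, rfl⟩
  have hδ'pos : 0 < δ' := by rw [hδ']; exact lt_min hδ3 (by positivity)
  have hδ'1 : δ' ≤ δ / 3 := by rw [hδ']; exact min_le_left _ _
  have hδ'2 : δ' ≤ t * δ / (12 * C * r * ‖x‖) := by rw [hδ']; exact min_le_right _ _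
  have hkey : η + 2 * r * ‖x‖ * δ' ≤ t * δ / (3 * C) :=
    taskB4_const htpos hδ hCpos hr hX hη hδ'2
  -- (3) the type I approximation
  obtain ⟨N, hAN, hNM, ⟨f, hfN, hfp, hfab, hcs⟩, x', hx'N, hx'sa, hx'norm, hx'Ω⟩ :=
    happ x hxM hx η hηpos
  have hAmasaN : IsMASA A N := ⟨hAN, hA.2.1, fun u huN hc => hA.2.2 u (hNM huN) hc⟩
  -- (4) so-paving in the type I algebra
  obtain ⟨p, a, q1, hp, haA, hasa, hanorm, hq1N, hq1p, hq1F, hq1norm⟩ :=
    soPavable_of_type_one_central hεε1 hmp A N hAmasaN f hfN hfp hfab hcs x' hx'N hx'sa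
      (insert Ω F) δ' hδ'pos
  have hq1M : q1 ∈ M := hNM hq1N
  have hpM : ∀ i, p i ∈ M := fun i => hA.1 (hp.1 i).1
  have hpp : ∀ i, IsStarProjection (p i) := fun i => (hp.1 i).2
  -- (5) the error term
  obtain ⟨z, hz⟩ : ∃ z : H →L[ℂ] H, z = x - x' := ⟨_, rfl⟩
  have hzM : z ∈ M := by rw [hz]; exact sub_mem hxM (hNM hx'N)
  have hzsa : IsSelfAdjoint z := by rw [hz]; exact hx.sub hx'sa
  have hznorm : ‖z‖ ≤ 2 * ‖x‖ := by
    rw [hz]
    calc ‖x - x'‖ ≤ ‖x‖ + ‖x'‖ := norm_sub_le _ _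
      _ ≤ 2 * ‖x‖ := by linarith
  have hxz : x = x' + z := by rw [hz]; abel
  obtain ⟨Pz, hPz⟩ : ∃ Pz : H →L[ℂ] H, Pz = pinching p z := ⟨_, rfl⟩
  have hpin : pinching p x = pinching p x' + Pz := by
    rw [hPz, ← taskB4_pinching_add, ← hxz]
  have hPzM : Pz ∈ M := by rw [hPz]; exact taskB4_pinching_mem M hpM hzM
  have hPzsa : IsSelfAdjoint Pz := by
    rw [hPz]
    exact isSelfAdjoint_pinching p (fun i => (hpp i).isSelfAdjoint) hzsa
  have hPznorm : ‖Pz‖ ≤ r * ‖z‖ := by rw [hPz]; exact taskT2_norm_pinching_le p hpp z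
  obtain ⟨y1, hy1⟩ : ∃ y1 : H →L[ℂ] H, y1 = q1 * Pz * q1 := ⟨_, rfl⟩
  have hy1M : y1 ∈ M := by rw [hy1]; exact mul_mem (mul_mem hq1M hPzM) hq1M
  have hy1sa : IsSelfAdjoint y1 := by
    rw [hy1]
    unfold IsSelfAdjoint
    rw [star_mul, star_mul, hq1p.isSelfAdjoint.star_eq, hPzsa.star_eq, mul_assoc]
  have hq1y1 : q1 * y1 = y1 := by
    rw [hy1, ← mul_assoc, ← mul_assoc, hq1p.isIdempotentElem.eq]
  have hy1q1 : y1 * q1 = y1 := by
    rw [hy1, mul_assoc, hq1p.isIdempotentElem.eq]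
  have hy1Ω : ‖y1 Ω‖ ≤ t * δ / (3 * C) := by
    have h1 : ‖(1 - q1) Ω‖ < δ' := hq1F Ω (Finset.mem_insert_self _ _)
    have h2 : ‖Pz Ω‖ ≤ ‖z Ω‖ := by
      rw [hPz]
      exact norm_pinching_apply_le_of_centralizing A M hA.1 hcen hp hzM
    have h3 : ‖z Ω‖ ≤ η := by rw [hz]; exact hx'Ω
    have h4 : y1 Ω = q1 (Pz Ω - Pz ((1 - q1) Ω)) := by
      rw [hy1]
      simp only [mul_apply_eq_comp, _root_.sub_apply,
        one_apply_eq_self, map_sub]
      rw [sub_sub_cancel]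
    have h6 : ‖Pz ((1 - q1) Ω)‖ ≤ r * ‖z‖ * δ' := by
      calc ‖Pz ((1 - q1) Ω)‖ ≤ ‖Pz‖ * ‖(1 - q1) Ω‖ := Pz.le_opNorm _
        _ ≤ (r * ‖z‖) * δ' := mul_le_mul hPznorm h1.le (norm_nonneg _) (by positivity)
    have h7 : r * ‖z‖ * δ' ≤ 2 * r * ‖x‖ * δ' := by
      have h8 : (r : ℝ) * ‖z‖ ≤ 2 * r * ‖x‖ := by nlinarith
      exact mul_le_mul_of_nonneg_right h8 hδ'pos.le
    rw [h4]
    calc ‖q1 (Pz Ω - Pz ((1 - q1) Ω))‖ ≤ ‖Pz Ω - Pz ((1 - q1) Ω)‖ :=
          taskB4_proj_apply_le hq1p _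
      _ ≤ ‖Pz Ω‖ + ‖Pz ((1 - q1) Ω)‖ := norm_sub_le _ _
      _ ≤ η + 2 * r * ‖x‖ * δ' := by linarith
      _ ≤ t * δ / (3 * C) := hkey
  -- (6) the level projection of the error term
  obtain ⟨g, hgM, hgp, hgcomm, hgnorm, hgv⟩ := exists_level_projection_abs M hy1M hy1sa htpos
  have hq1g : q1 * g = g * q1 := hgcomm q1 (by rw [hq1y1, hy1q1])
  have hyg : ∀ ξ, y ξ * g = g * y ξ := by
    intro ξ
    refine hgcomm (y ξ) ?_
    exact ((VonNeumannAlgebra.mem_commutant_iff).mp (hyM ξ) y1 hy1M).symm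
  -- (7) the final projection
  obtain ⟨G, hG⟩ : ∃ G : H →L[ℂ] H, G = 1 - g := ⟨_, rfl⟩
  have hGp : IsStarProjection G := by rw [hG]; exact hgp.one_sub
  have hGM : G ∈ M := by rw [hG]; exact sub_mem (one_mem M) hgM
  have hq1G : q1 * G = G * q1 := by
    rw [hG, mul_sub, sub_mul, mul_one, one_mul, hq1g]
  have hqp : IsStarProjection (q1 * G) := hq1p.mul hGp hq1G
  have hgΩ : C * ‖g Ω‖ ≤ δ / 3 := by
    have h1 : t * ‖g Ω‖ ≤ t * δ / (3 * C) := (hgv Ω).trans hy1Ω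
    have h2 : t * δ / (3 * C) = t * (δ / (3 * C)) := by ring
    rw [h2] at h1
    have h3 : ‖g Ω‖ ≤ δ / (3 * C) := le_of_mul_le_mul_left h1 htpos
    have h4 : C * (δ / (3 * C)) = δ / 3 := by
      field_simp
    calc C * ‖g Ω‖ ≤ C * (δ / (3 * C)) := mul_le_mul_of_nonneg_left h3 hCpos.le
      _ = δ / 3 := h4
  refine ⟨p, a, q1 * G, hp, haA, hasa, hanorm.trans hx'norm, mul_mem hq1M hGM, hqp, ?_, ?_⟩
  · intro ξ hξ
    have h1 : ‖(1 - q1) ξ‖ < δ' := hq1F ξ (Finset.mem_insert_of_mem hξ)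
    have h2 : (1 - q1 * G) ξ = (1 - q1) ξ + q1 (g ξ) := by
      rw [hG]
      simp only [mul_apply_eq_comp, _root_.sub_apply,
        one_apply_eq_self, map_sub]
      abel
    have h3 : g ξ = g (ξ - y ξ Ω) + y ξ (g Ω) := by
      have h0 : g (y ξ Ω) = y ξ (g Ω) := by
        rw [← mul_apply_eq_comp, ← mul_apply_eq_comp, hyg ξ]
      rw [map_sub, h0]
      abel
    have h4 : ‖g (ξ - y ξ Ω)‖ < δ / 3 :=
      lt_of_le_of_lt (taskB4_proj_apply_le hgp _) (hyΩ ξ)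
    have h5 : ‖y ξ (g Ω)‖ ≤ δ / 3 := by
      calc ‖y ξ (g Ω)‖ ≤ ‖y ξ‖ * ‖g Ω‖ := (y ξ).le_opNorm _
        _ ≤ C * ‖g Ω‖ := mul_le_mul_of_nonneg_right (hCy ξ hξ) (norm_nonneg _)
        _ ≤ δ / 3 := hgΩ
    have h6 : ‖g ξ‖ < δ / 3 + δ / 3 := by
      rw [h3]
      calc ‖g (ξ - y ξ Ω) + y ξ (g Ω)‖ ≤ ‖g (ξ - y ξ Ω)‖ + ‖y ξ (g Ω)‖ := norm_add_le _ _
        _ < δ / 3 + δ / 3 := by linarith
    rw [h2]
    calc ‖(1 - q1) ξ + q1 (g ξ)‖ ≤ ‖(1 - q1) ξ‖ + ‖q1 (g ξ)‖ := norm_add_le _ _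
      _ ≤ ‖(1 - q1) ξ‖ + ‖g ξ‖ := by
          have h7 := taskB4_proj_apply_le hq1p (g ξ)
          linarith
      _ < δ := by linarith
  · have h1 : q1 * G * (pinching p x - a) * (q1 * G)
        = G * (q1 * (pinching p x' - a) * q1) * G + G * y1 * G := by
      have h0 : pinching p x - a = (pinching p x' - a) + Pz := by
        rw [hpin]
        abel
      rw [h0, hy1]
      calc q1 * G * (pinching p x' - a + Pz) * (q1 * G)
          = G * q1 * (pinching p x' - a + Pz) * (q1 * G) := by rw [hq1G]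
        _ = G * (q1 * (pinching p x' - a + Pz) * q1) * G := by simp only [mul_assoc]
        _ = G * (q1 * (pinching p x' - a) * q1) * G + G * (q1 * Pz * q1) * G := by
            rw [mul_add, add_mul, mul_add, add_mul]
    have h2 : ‖G * (q1 * (pinching p x' - a) * q1) * G‖ ≤ ε1 * ‖x‖ := by
      calc ‖G * (q1 * (pinching p x' - a) * q1) * G‖
          ≤ ‖q1 * (pinching p x' - a) * q1‖ := taskB4_compress_norm_le hGp _
        _ ≤ ε1 * ‖x'‖ := hq1norm
        _ ≤ ε1 * ‖x‖ := mul_le_mul_of_nonneg_left hx'norm hε10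
    have h3 : ‖G * y1 * G‖ ≤ t := by rw [hG]; exact hgnorm
    rw [h1]
    calc ‖G * (q1 * (pinching p x' - a) * q1) * G + G * y1 * G‖
        ≤ ‖G * (q1 * (pinching p x' - a) * q1) * G‖ + ‖G * y1 * G‖ := norm_add_le _ _
      _ ≤ ε1 * ‖x‖ + t := by linarith
      _ = ε' * ‖x‖ := by rw [ht]; ring

/-! ### The so-paving number -/

theorem soPavingNumber_le_matrixPavingNumber_of_approx_type_one (A M : VonNeumannAlgebra H)
    (hA : IsMASA A M) {Ω : H} (hcen : IsCentralizing A M Ω) (hsep : IsSeparating M Ω)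
    (happ : IsApproxTypeOne A M Ω) {ε ε' : ℝ} (hεε' : ε < ε') :
    soPavingNumber A M ε' ≤ matrixPavingNumber ε := by
  unfold soPavingNumber matrixPavingNumber
  refine le_iInf (fun r => le_iInf (fun hr => ?_))
  exact iInf₂_le r ⟨hr.1, fun x hxM hx =>
    soPavable_of_approx_type_one hεε' hr.2 A M hA hcen hsep happ x hxM hx⟩

end Vale.Agent.Lib.P078
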