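import Vale.Agent.Lib.P078.NumberDefs

/-!
# The paving number of finite matrices (P078)
-/

namespace Vale.Agent.Lib.P078

/-- The paving number `N(ε)` of finite matrices over their diagonals: the least integer `r ≥ 1`
such that every Hermitian matrix of every size is `(ε, r)`-pavable (see `MatrixPavable`); it is
`⊤` (infinity) if there is no such `r`. -/
noncomputable def matrixPavingNumber (ε : ℝ) : ℕ∞ :=
  ⨅ (r : ℕ) (_ : 1 ≤ r ∧ MatrixPavable ε r), (r : ℕ∞)

end Vale.Agent.Lib.P078
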