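import Vale.Agent.Lib.P078.FactorDefs
import Vale.Agent.Lib.P078.MatrixNumberDefs

/-!
# Inclusions that are approximately of type I (P078)
-/

namespace Vale.Agent.Lib.P078

open scoped InnerProductSpace

variable {H : Type*} [NormedAddCommGroup H] [InnerProductSpace ℂ H] [CompleteSpace H]

/-- `N` is of type I: it has a projection `f` such that `f N f` is commutative (an abelian
projection) and no nonzero central projection `z` of `N` satisfies `z f = 0` (central support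
`1`). -/
def IsTypeOne (N : VonNeumannAlgebra H) : Prop :=
  ∃ f ∈ N, IsStarProjection f ∧
    (∀ a ∈ N, ∀ b ∈ N, (f * a * f) * (f * b * f) = (f * b * f) * (f * a * f)) ∧
    ∀ z ∈ N, z ∈ N.commutant → IsStarProjection z → z * f = 0 → z = 0

/-- The inclusion `A ⊆ M` is approximately of type I with respect to the vector `Ω`: every
self-adjoint `x ∈ M` can be approximated, in the seminorm `y ↦ ‖y Ω‖`, by self-adjoint elements
`x'` with `‖x'‖ ≤ ‖x‖` lying in type I von Neumann algebras `N` with `A ⊆ N ⊆ M`. -/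
def IsApproxTypeOne (A M : VonNeumannAlgebra H) (Ω : H) : Prop :=
  ∀ x ∈ M, IsSelfAdjoint x → ∀ η : ℝ, 0 < η →
    ∃ N : VonNeumannAlgebra H, A ≤ N ∧ N ≤ M ∧ IsTypeOne N ∧
      ∃ x' ∈ N, IsSelfAdjoint x' ∧ ‖x'‖ ≤ ‖x‖ ∧ ‖(x - x') Ω‖ ≤ η

/-- The vector state `x ↦ ⟪Ω, x Ω⟫` of `M` centralizes `A`: `⟪Ω, a x Ω⟫ = ⟪Ω, x a Ω⟫` for all
`a ∈ A` and `x ∈ M` (`A` lies in the centralizer of the state).  This holds for every `A ⊆ M`
when `Ω` is a trace vector for `M`. -/
def IsCentralizing (A M : VonNeumannAlgebra H) (Ω : H) : Prop :=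
  ∀ a ∈ A, ∀ x ∈ M, ⟪Ω, a (x Ω)⟫_ℂ = ⟪Ω, x (a Ω)⟫_ℂ

end Vale.Agent.Lib.P078
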