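import Vale.Agent.Lib.P078.Induce

/-!
# Induction to the range of an abelian projection of the commutant

Let `M` be a von Neumann algebra on `H` and `e` a projection of the commutant `M'` with range `U`
such that `x ↦ x e` is injective on `M`.  Compression to `U` is then an isometric star
isomorphism of `M` onto the von Neumann algebra `induced U M` on `U` (the commutant of the
compressions of `M'`), it carries a MASA `A` of `M` onto a MASA of the induced algebra, and
so-pavability over the induced inclusion transfers back to `A ⊆ M`.  When `e` is abelian in `M'`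
the induced algebra has abelian commutant, which gives the so-paving theorem for every type I
von Neumann algebra in an arbitrary representation.
-/

namespace Vale.Agent.Lib.P078

open scoped InnerProductSpace

variable {H : Type*} [NormedAddCommGroup H] [InnerProductSpace ℂ H] [CompleteSpace H]

/-! ### Compression is isometric on `M` -/

/-- A von Neumann algebra is closed in the norm topology. -/
theorem taskI1_isClosed (M : VonNeumannAlgebra H) :
    IsClosed ((M.toStarSubalgebra : StarSubalgebra ℂ (H →L[ℂ] H)) : Set (H →L[ℂ] H)) := by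
  have hset : ((M.toStarSubalgebra : StarSubalgebra ℂ (H →L[ℂ] H)) : Set (H →L[ℂ] H))
      = ⋂ y ∈ M.commutant, {z : H →L[ℂ] H | y * z = z * y} := by
    ext z
    rw [Set.mem_iInter₂]
    constructor
    · intro hz y hy
      have hz' : z ∈ M := hz
      exact commutant_comm M hz' hy
    · intro hz
      have hz' : z ∈ M.commutant.commutant := by
        rw [VonNeumannAlgebra.mem_commutant_iff]
        exact fun y hy => hz y hy
      rw [VonNeumannAlgebra.commutant_commutant] at hz'
      exact hz'
  rw [hset]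
  exact isClosed_biInter (fun y _ =>
    isClosed_eq (continuous_const.mul continuous_id) (continuous_id.mul continuous_const))

theorem norm_compr_eq (U : Submodule ℂ H) [CompleteSpace U] (M : VonNeumannAlgebra H)
    (he : U.starProjection ∈ M.commutant)
    (hinj : ∀ x ∈ M, x * U.starProjection = 0 → x = 0) {x : H →L[ℂ] H} (hx : x ∈ M) :
    ‖compr U x‖ = ‖x‖ := by
  have hcl : IsClosed ((M.toStarSubalgebra : StarSubalgebra ℂ (H →L[ℂ] H)) : Set (H →L[ℂ] H)) :=
    taskI1_isClosed M
  have hcomm : ∀ m ∈ M, m * U.starProjection = U.starProjection * m :=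
    fun m hm => (commutant_comm M hm he).symm
  let φ : ↥M.toStarSubalgebra →⋆ₙₐ[ℂ] (U →L[ℂ] U) :=
    { toFun := fun m => compr U (m : H →L[ℂ] H)
      map_smul' := fun c m => compr_smul U c (m : H →L[ℂ] H)
      map_zero' := compr_zero U
      map_add' := fun m n => compr_add U (m : H →L[ℂ] H) (n : H →L[ℂ] H)
      map_mul' := fun m n => compr_mul_of_comm_right U (m : H →L[ℂ] H) (hcomm _ n.2)
      map_star' := fun m => compr_star U (m : H →L[ℂ] H) }
  have hφ : Function.Injective φ := by
    rw [injective_iff_map_eq_zero]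
    intro m hm
    have h1 : compr U (m : H →L[ℂ] H) = 0 := hm
    rw [compr_eq_zero_iff U (hcomm _ m.2)] at h1
    exact Subtype.ext (hinj _ m.2 h1)
  exact NonUnitalStarAlgHom.norm_map φ hφ (⟨x, hx⟩ : ↥M.toStarSubalgebra)

/-! ### Lifting projections -/

/-- A projection on `U` commuting with all compressions of the commutant of `M` is the
compression of an element of `M`. -/
theorem exists_lift_projection (U : Submodule ℂ H) [CompleteSpace U] (M : VonNeumannAlgebra H)
    (he : U.starProjection ∈ M.commutant) (f : U →L[ℂ] U) (hf : IsStarProjection f)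
    (hcomm : ∀ y ∈ M.commutant, compr U y * f = f * compr U y) :
    ∃ p ∈ M, compr U p = f := by
  have _he := he
  obtain ⟨S, hS⟩ : ∃ S : Submodule ℂ H, S = Submodule.span ℂ
      {ξ : H | ∃ y ∈ M.commutant, ∃ v : U, ξ = y ((f v : U) : H)} := ⟨_, rfl⟩
  have hinv : ∀ y' ∈ M.commutant, ∀ ξ ∈ S, y' ξ ∈ S := by
    intro y' hy' ξ hξ
    have hle : S ≤ S.comap (y' : H →ₗ[ℂ] H) := by
      conv_lhs => rw [hS]
      apply Submodule.span_le.mpr
      rintro _ ⟨y, hy, v, rfl⟩
      show y' (y ((f v : U) : H)) ∈ S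
      rw [hS]
      exact Submodule.subset_span ⟨y' * y, mul_mem hy' hy, v, rfl⟩
    exact hle hξ
  refine ⟨S.topologicalClosure.starProjection, starProjection_closure_mem M S hinv, ?_⟩
  have hff : f * f = f := hf.isIdempotentElem.eq
  have hfs : star f = f := hf.isSelfAdjoint.star_eq
  have hadj : ContinuousLinearMap.adjoint f = f := by
    rw [← ContinuousLinearMap.star_eq_adjoint]
    exact hfs
  apply ContinuousLinearMap.ext
  intro v
  apply Subtype.ext
  rw [compr_apply_coe]
  have hgen : ((f v : U) : H) ∈ S := by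
    rw [hS]
    exact Submodule.subset_span ⟨1, one_mem _, v, rfl⟩
  have hp1 : S.topologicalClosure.starProjection ((f v : U) : H) = ((f v : U) : H) :=
    Submodule.starProjection_eq_self_iff.mpr (S.le_topologicalClosure hgen)
  have hffv : f (f v) = f v := congrArg (fun g : U →L[ℂ] U => g v) hff
  have hfu : f (v - f v) = 0 := by
    rw [map_sub, hffv, sub_self]
  have horth : ∀ ξ ∈ S, ⟪ξ, ((v - f v : U) : H)⟫_ℂ = 0 := by
    intro ξ hξ
    rw [hS] at hξ
    induction hξ using Submodule.span_induction with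
    | mem ξ hξ =>
      obtain ⟨y, hy, v', rfl⟩ := hξ
      rw [← Submodule.inner_orthogonalProjectionOnto_eq_of_mem_right (v - f v)
        (y ((f v' : U) : H)), ← compr_apply U y (f v')]
      have h1 : compr U y (f v') = f (compr U y v') :=
        congrArg (fun g : U →L[ℂ] U => g v') (hcomm y hy)
      rw [h1, ← ContinuousLinearMap.adjoint_inner_right f, hadj, hfu, inner_zero_right]
    | zero => exact inner_zero_left _
    | add a b _ _ ha hb => rw [inner_add_left, ha, hb, add_zero]
    | smul c a _ ha => rw [inner_smul_left, ha, mul_zero]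
  have hwc : ((v - f v : U) : H) ∈ S.topologicalClosureᗮ := by
    rw [Submodule.orthogonal_closure, Submodule.mem_orthogonal]
    exact horth
  have hp0 : S.topologicalClosure.starProjection ((v - f v : U) : H) = 0 := by
    have h0 : S.topologicalClosure.orthogonalProjectionOnto ((v - f v : U) : H) = 0 :=
      Submodule.orthogonalProjectionOnto_eq_zero_iff.mpr hwc
    show ((S.topologicalClosure.orthogonalProjectionOnto ((v - f v : U) : H) :
      S.topologicalClosure) : H) = 0
    rw [h0]
    rfl
  have hv : (v : H) = ((f v : U) : H) + ((v - f v : U) : H) := by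
    rw [← Submodule.coe_add]
    congr 1
    abel
  have hpv : S.topologicalClosure.starProjection (v : H) = ((f v : U) : H) := by
    calc S.topologicalClosure.starProjection (v : H)
        = S.topologicalClosure.starProjection (((f v : U) : H) + ((v - f v : U) : H)) := by
          rw [← hv]
      _ = ((f v : U) : H) := by rw [map_add, hp1, hp0, add_zero]
  rw [hpv]
  exact Submodule.starProjection_eq_self_iff.mpr (f v).2

/-! ### Step approximation in a von Neumann algebra -/

/-- Norm approximation of a self-adjoint element of a von Neumann algebra by step operators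
built from projections of the algebra. -/
theorem exists_step_approx_vn {K : Type*} [NormedAddCommGroup K] [InnerProductSpace ℂ K]
    [CompleteSpace K] (R : VonNeumannAlgebra K) {T : K →L[ℂ] K} (hT : T ∈ R)
    (hTs : IsSelfAdjoint T) {η : ℝ} (hη : 0 < η) :
    ∃ (ι : Type) (_ : Fintype ι) (f : ι → K →L[ℂ] K) (c : ι → ℂ),
      (∀ j, f j ∈ R ∧ IsStarProjection (f j)) ∧ ‖T - ∑ j, c j • f j‖ ≤ η := by
  have hstar : star T = T := hTs.star_eq
  have hTC : T ∈ taskG_centralizer ({T} : Set (K →L[ℂ] K)) := by
    rw [taskG_mem_centralizer]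
    intro b hb
    rw [Set.mem_singleton_iff] at hb
    rw [hb, hstar]
    exact ⟨rfl, rfl⟩
  have hWcomm : ∀ y ∈ (taskG_centralizer ({T} : Set (K →L[ℂ] K))).commutant,
      T * y = y * T := by
    intro y hy
    rw [VonNeumannAlgebra.mem_commutant_iff] at hy
    exact hy T hTC
  have hWc : ∀ y ∈ (taskG_centralizer ({T} : Set (K →L[ℂ] K))).commutant,
      ∀ y' ∈ (taskG_centralizer ({T} : Set (K →L[ℂ] K))).commutant, y * y' = y' * y := by
    intro y hy y' hy'
    have hy'C : y' ∈ taskG_centralizer ({T} : Set (K →L[ℂ] K)) := by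
      rw [taskG_mem_centralizer]
      intro b hb
      rw [Set.mem_singleton_iff] at hb
      rw [hb, hstar]
      exact ⟨hWcomm y' hy', hWcomm y' hy'⟩
    rw [VonNeumannAlgebra.mem_commutant_iff] at hy
    exact (hy y' hy'C).symm
  have hTW : T ∈ (taskG_centralizer ({T} : Set (K →L[ℂ] K))).commutant := by
    rw [VonNeumannAlgebra.mem_commutant_iff]
    intro g hg
    rw [taskG_mem_centralizer] at hg
    exact ((hg T rfl).1).symm
  have hWR : ∀ y ∈ (taskG_centralizer ({T} : Set (K →L[ℂ] K))).commutant, y ∈ R := by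
    intro y hy
    rw [← VonNeumannAlgebra.commutant_commutant R, VonNeumannAlgebra.mem_commutant_iff]
    intro g hg
    have hgT : g * T = T * g := commutant_comm R hT hg
    have hgC : g ∈ taskG_centralizer ({T} : Set (K →L[ℂ] K)) := by
      rw [taskG_mem_centralizer]
      intro b hb
      rw [Set.mem_singleton_iff] at hb
      rw [hb, hstar]
      exact ⟨hgT.symm, hgT.symm⟩
    rw [VonNeumannAlgebra.mem_commutant_iff] at hy
    exact hy g hgC
  obtain ⟨ι, hι, f, c, ⟨hfA, hfp, -, -⟩, hb⟩ :=
    exists_step_approx_selfAdjoint _ hWc hTW hTs hη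
  exact ⟨ι, hι, f, c, fun j => ⟨hWR (f j) (hfA j), hfp j⟩, hb⟩

/-! ### Lifting operators commuting with the compressed commutant -/

/-- Membership in the centralizer of the compressed commutant. -/
lemma taskI4_mem_iff (U : Submodule ℂ H) [CompleteSpace U] (M : VonNeumannAlgebra H)
    (S : U →L[ℂ] U) :
    S ∈ taskG_centralizer (compr U '' (M.commutant : Set (H →L[ℂ] H))) ↔
      ∀ y ∈ M.commutant, compr U y * S = S * compr U y := by
  rw [taskG_mem_centralizer]
  constructor
  · intro h y hy
    exact (h (compr U y) ⟨y, hy, rfl⟩).1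
  · rintro h b ⟨y, hy, rfl⟩
    refine ⟨h y hy, ?_⟩
    rw [← compr_star]
    exact h (star y) (star_mem hy)

lemma taskI4_smul_mem (M : VonNeumannAlgebra H) {a : H →L[ℂ] H} (ha : a ∈ M) (c : ℂ) :
    c • a ∈ M :=
  M.toStarSubalgebra.smul_mem ha c

/-- Step 1: approximate lift of a self-adjoint operator. -/
lemma taskI4_approx (U : Submodule ℂ H) [CompleteSpace U] (M : VonNeumannAlgebra H)
    (he : U.starProjection ∈ M.commutant) (T : U →L[ℂ] U) (hTs : IsSelfAdjoint T)
    (hcomm : ∀ y ∈ M.commutant, compr U y * T = T * compr U y) {η : ℝ} (hη : 0 < η) :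
    ∃ x ∈ M, ‖compr U x - T‖ ≤ η := by
  have hTR : T ∈ taskG_centralizer (compr U '' (M.commutant : Set (H →L[ℂ] H))) :=
    (taskI4_mem_iff U M T).mpr hcomm
  obtain ⟨ι, hι, f, c, hf, hnorm⟩ := exists_step_approx_vn _ hTR hTs hη
  have hex : ∀ j, ∃ p ∈ M, compr U p = f j := fun j =>
    exists_lift_projection U M he (f j) (hf j).2 ((taskI4_mem_iff U M (f j)).mp (hf j).1)
  choose p hpM hp using hex
  refine ⟨∑ j, c j • p j, sum_mem (fun j _ => taskI4_smul_mem M (hpM j) (c j)), ?_⟩
  have h1 : compr U (∑ j, c j • p j) = ∑ j, c j • f j := by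
    rw [compr_sum]
    refine Finset.sum_congr rfl (fun j _ => ?_)
    rw [compr_smul, hp j]
  rw [h1, norm_sub_rev (∑ j, c j • f j) T]
  exact hnorm

/-- Step 2: exact lift of a self-adjoint operator. -/
lemma taskI4_lift_sa (U : Submodule ℂ H) [CompleteSpace U] (M : VonNeumannAlgebra H)
    (he : U.starProjection ∈ M.commutant)
    (hinj : ∀ x ∈ M, x * U.starProjection = 0 → x = 0) (T : U →L[ℂ] U) (hTs : IsSelfAdjoint T)
    (hcomm : ∀ y ∈ M.commutant, compr U y * T = T * compr U y) :
    ∃ x ∈ M, compr U x = T := by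
  have hex : ∀ n : ℕ, ∃ x ∈ M, ‖compr U x - T‖ ≤ 1 / ((n : ℝ) + 1) := fun n =>
    taskI4_approx U M he T hTs hcomm (by positivity)
  choose x hxM hx using hex
  have hdist : ∀ n m : ℕ, ‖x n - x m‖ ≤ 1 / ((n : ℝ) + 1) + 1 / ((m : ℝ) + 1) := by
    intro n m
    rw [← norm_compr_eq U M he hinj (sub_mem (hxM n) (hxM m)), compr_sub]
    have h1 : compr U (x n) - compr U (x m) = (compr U (x n) - T) - (compr U (x m) - T) := by
      abel
    rw [h1]
    exact (norm_sub_le (compr U (x n) - T) (compr U (x m) - T)).trans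
      (add_le_add (hx n) (hx m))
  have hb : Filter.Tendsto (fun N : ℕ => 2 * (1 / ((N : ℝ) + 1))) Filter.atTop (nhds 0) := by
    have h0 := (tendsto_one_div_add_atTop_nhds_zero_nat (𝕜 := ℝ)).const_mul 2
    simpa using h0
  have hC : CauchySeq x := by
    refine cauchySeq_of_le_tendsto_0 (fun N : ℕ => 2 * (1 / ((N : ℝ) + 1))) ?_ hb
    intro n m N hn hm
    rw [dist_eq_norm]
    refine (hdist n m).trans ?_
    have hN : (0 : ℝ) < (N : ℝ) + 1 := by positivity
    have h1 : 1 / ((n : ℝ) + 1) ≤ 1 / ((N : ℝ) + 1) :=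
      one_div_le_one_div_of_le hN (by exact_mod_cast Nat.succ_le_succ hn)
    have h2 : 1 / ((m : ℝ) + 1) ≤ 1 / ((N : ℝ) + 1) :=
      one_div_le_one_div_of_le hN (by exact_mod_cast Nat.succ_le_succ hm)
    linarith
  obtain ⟨xl, hlim⟩ := cauchySeq_tendsto_of_complete hC
  have hxlM : xl ∈ M := by
    rw [← VonNeumannAlgebra.commutant_commutant M, VonNeumannAlgebra.mem_commutant_iff]
    intro g hg
    have h1 : Filter.Tendsto (fun n => g * x n) Filter.atTop (nhds (g * xl)) :=
      hlim.const_mul g
    have h2 : Filter.Tendsto (fun n => x n * g) Filter.atTop (nhds (xl * g)) :=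
      hlim.mul_const g
    have h3 : (fun n => g * x n) = (fun n => x n * g) := by
      funext n
      exact commutant_comm M (hxM n) hg
    rw [h3] at h1
    exact tendsto_nhds_unique h1 h2
  refine ⟨xl, hxlM, ?_⟩
  have hn0 : Filter.Tendsto (fun n => ‖x n - xl‖) Filter.atTop (nhds 0) :=
    tendsto_iff_norm_sub_tendsto_zero.mp hlim
  have hsum : Filter.Tendsto (fun n : ℕ => ‖x n - xl‖ + 1 / ((n : ℝ) + 1)) Filter.atTop
      (nhds (0 + 0)) :=
    hn0.add (tendsto_one_div_add_atTop_nhds_zero_nat (𝕜 := ℝ))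
  rw [add_zero] at hsum
  have hle : ∀ n : ℕ, ‖compr U xl - T‖ ≤ ‖x n - xl‖ + 1 / ((n : ℝ) + 1) := by
    intro n
    have h1 : compr U xl - T = compr U (xl - x n) + (compr U (x n) - T) := by
      rw [compr_sub]
      abel
    rw [h1]
    refine (norm_add_le (compr U (xl - x n)) (compr U (x n) - T)).trans
      (add_le_add ?_ (hx n))
    rw [norm_sub_rev (x n) xl]
    exact norm_compr_le U _
  have hfin : ‖compr U xl - T‖ ≤ 0 := ge_of_tendsto' hsum hle
  exact sub_eq_zero.mp (norm_le_zero_iff.mp hfin)

theorem exists_lift_of_comm (U : Submodule ℂ H) [CompleteSpace U] (M : VonNeumannAlgebra H)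
    (he : U.starProjection ∈ M.commutant)
    (hinj : ∀ x ∈ M, x * U.starProjection = 0 → x = 0) (T : U →L[ℂ] U)
    (hcomm : ∀ y ∈ M.commutant, compr U y * T = T * compr U y) :
    ∃ x ∈ M, compr U x = T := by
  have hcomm' : ∀ y ∈ M.commutant, compr U y * star T = star T * compr U y := by
    intro y hy
    have h1 := hcomm (star y) (star_mem hy)
    have h2 := congrArg star h1
    rw [star_mul (compr U (star y)) T, star_mul T (compr U (star y)), ← compr_star,
      star_star] at h2
    exact h2.symm
  obtain ⟨T1, hT1⟩ : ∃ T1 : U →L[ℂ] U, T1 = (1 / 2 : ℂ) • (T + star T) := ⟨_, rfl⟩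
  obtain ⟨T2, hT2⟩ : ∃ T2 : U →L[ℂ] U, T2 = (-Complex.I / 2) • (T - star T) := ⟨_, rfl⟩
  have hs1 : IsSelfAdjoint T1 := by
    rw [IsSelfAdjoint, hT1, star_smul, star_add T (star T), star_star T]
    have h0 : star (1 / 2 : ℂ) = 1 / 2 := by simp
    rw [h0, add_comm (star T) T]
  have hs2 : IsSelfAdjoint T2 := by
    rw [IsSelfAdjoint, hT2, star_smul, star_sub T (star T), star_star T]
    have h0 : star (-Complex.I / 2) = Complex.I / 2 := by simp
    rw [h0]
    refine ContinuousLinearMap.ext (fun v => ?_)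
    simp only [smul_apply, sub_apply]
    module
  have e1 : ∀ y ∈ M.commutant, ∀ v, compr U y (T v) = T (compr U y v) := by
    intro y hy v
    have h0 := DFunLike.congr_fun (hcomm y hy) v
    rwa [mul_apply_eq_comp, mul_apply_eq_comp] at h0
  have e2 : ∀ y ∈ M.commutant, ∀ v, compr U y (star T v) = star T (compr U y v) := by
    intro y hy v
    have h0 := DFunLike.congr_fun (hcomm' y hy) v
    rwa [mul_apply_eq_comp, mul_apply_eq_comp] at h0
  have hc1 : ∀ y ∈ M.commutant, compr U y * T1 = T1 * compr U y := by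
    intro y hy
    refine ContinuousLinearMap.ext (fun v => ?_)
    rw [mul_apply_eq_comp, mul_apply_eq_comp, hT1]
    simp only [smul_apply, add_apply, map_smul, map_add,
      e1 y hy, e2 y hy]
  have hc2 : ∀ y ∈ M.commutant, compr U y * T2 = T2 * compr U y := by
    intro y hy
    refine ContinuousLinearMap.ext (fun v => ?_)
    rw [mul_apply_eq_comp, mul_apply_eq_comp, hT2]
    simp only [smul_apply, sub_apply, map_smul, map_sub,
      e1 y hy, e2 y hy]
  obtain ⟨x1, hx1M, hx1⟩ := taskI4_lift_sa U M he hinj T1 hs1 hc1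
  obtain ⟨x2, hx2M, hx2⟩ := taskI4_lift_sa U M he hinj T2 hs2 hc2
  refine ⟨x1 + Complex.I • x2, add_mem hx1M (taskI4_smul_mem M hx2M _), ?_⟩
  rw [compr_add, compr_smul, hx1, hx2, hT1, hT2]
  have h1 : Complex.I * (-Complex.I / 2) = (1 / 2 : ℂ) := by
    have hI : Complex.I * Complex.I = -1 := Complex.I_mul_I
    calc Complex.I * (-Complex.I / 2) = -(Complex.I * Complex.I) / 2 := by ring
      _ = 1 / 2 := by rw [hI]; ring
  refine ContinuousLinearMap.ext (fun v => ?_)
  simp only [add_apply, smul_apply,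
    sub_apply, smul_smul, h1]
  module

/-! ### The induced algebra and the induced MASA -/

/-- The von Neumann algebra induced by `M` on the invariant subspace `U`, defined as the
commutant of the compressions of the commutant of `M`. -/
noncomputable def induced (U : Submodule ℂ H) [CompleteSpace U] (M : VonNeumannAlgebra H) :
    VonNeumannAlgebra U :=
  taskG_centralizer (compr U '' (M.commutant : Set (H →L[ℂ] H)))

/-- The von Neumann algebra induced by a MASA `A` of `M` on the invariant subspace `U`. -/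
noncomputable def inducedMasa (U : Submodule ℂ H) [CompleteSpace U] (A M : VonNeumannAlgebra H) :
    VonNeumannAlgebra U :=
  taskG_centralizer (compr U '' (A : Set (H →L[ℂ] H)) ∪
    compr U '' (M.commutant : Set (H →L[ℂ] H)))

/-! ### Membership in the induced algebra -/

/-- Membership in the induced algebra: commuting with all compressions of the commutant. -/
theorem taskI5a_mem_induced (U : Submodule ℂ H) [CompleteSpace U] (M : VonNeumannAlgebra H)
    (T : U →L[ℂ] U) :
    T ∈ induced U M ↔ ∀ y ∈ M.commutant, compr U y * T = T * compr U y := by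
  unfold induced
  rw [taskG_mem_centralizer]
  constructor
  · intro h y hy
    exact (h (compr U y) ⟨y, hy, rfl⟩).1
  · rintro h b ⟨y, hy, rfl⟩
    refine ⟨h y hy, ?_⟩
    rw [← compr_star]
    exact h (star y) (star_mem hy)

theorem mem_induced_iff (U : Submodule ℂ H) [CompleteSpace U] (M : VonNeumannAlgebra H)
    (he : U.starProjection ∈ M.commutant)
    (hinj : ∀ x ∈ M, x * U.starProjection = 0 → x = 0) (T : U →L[ℂ] U) :
    T ∈ induced U M ↔ ∃ x ∈ M, compr U x = T := by
  rw [taskI5a_mem_induced]
  constructor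
  · intro h
    exact exists_lift_of_comm U M he hinj T h
  · rintro ⟨x, hx, rfl⟩ y hy
    have hxe : x * U.starProjection = U.starProjection * x := (commutant_comm M hx he).symm
    rw [← compr_mul_of_comm_right U y hxe, ← compr_mul_of_comm_left U y hxe,
      commutant_comm M hx hy]

theorem induced_commutant_le (U : Submodule ℂ H) [CompleteSpace U] (M : VonNeumannAlgebra H)
    (habel : ∀ y ∈ M.commutant, ∀ z ∈ M.commutant,
      (U.starProjection * y * U.starProjection) * (U.starProjection * z * U.starProjection)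
        = (U.starProjection * z * U.starProjection) * (U.starProjection * y * U.starProjection)) :
    (induced U M).commutant ≤ induced U M := by
  have hcc : ∀ y ∈ M.commutant, ∀ z ∈ M.commutant,
      compr U y * compr U z = compr U z * compr U y := by
    intro y hy z hz
    have h1 : extz U (compr U y * compr U z) = extz U (compr U z * compr U y) := by
      rw [extz_mul, extz_mul, extz_compr, extz_compr]
      exact habel y hy z hz
    have h2 := congrArg (compr U) h1
    rw [compr_extz, compr_extz] at h2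
    exact h2
  intro T hT
  rw [VonNeumannAlgebra.mem_commutant_iff] at hT
  rw [taskI5a_mem_induced]
  intro y hy
  have hmem : compr U y ∈ induced U M := by
    rw [taskI5a_mem_induced]
    intro z hz
    exact hcc z hz y hy
  exact hT (compr U y) hmem

/-! ### The induced MASA -/

/-- Membership in the induced algebra: commuting with the compressions of the commutant. -/
lemma taskI5b_mem_induced (U : Submodule ℂ H) [CompleteSpace U] (M : VonNeumannAlgebra H)
    (T : U →L[ℂ] U) :
    T ∈ induced U M ↔ ∀ y ∈ M.commutant, compr U y * T = T * compr U y := by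
  unfold induced
  rw [taskG_mem_centralizer]
  constructor
  · intro h y hy
    exact (h (compr U y) ⟨y, hy, rfl⟩).1
  · rintro h b ⟨y, hy, rfl⟩
    refine ⟨h y hy, ?_⟩
    rw [← compr_star]
    exact h (star y) (star_mem hy)

/-- Membership in the induced MASA: commuting with the compressions of `A` and of the
commutant of `M`. -/
lemma taskI5b_mem_inducedMasa (U : Submodule ℂ H) [CompleteSpace U] (A M : VonNeumannAlgebra H)
    (T : U →L[ℂ] U) :
    T ∈ inducedMasa U A M ↔ (∀ a ∈ A, compr U a * T = T * compr U a) ∧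
      ∀ y ∈ M.commutant, compr U y * T = T * compr U y := by
  unfold inducedMasa
  rw [taskG_mem_centralizer]
  constructor
  · intro h
    refine ⟨fun a ha => ?_, fun y hy => ?_⟩
    · exact (h (compr U a) (Or.inl ⟨a, ha, rfl⟩)).1
    · exact (h (compr U y) (Or.inr ⟨y, hy, rfl⟩)).1
  · rintro ⟨h1, h2⟩ b hb
    rcases hb with ⟨a, ha, rfl⟩ | ⟨y, hy, rfl⟩
    · refine ⟨h1 a ha, ?_⟩
      rw [← compr_star]
      exact h1 (star a) (star_mem ha)
    · refine ⟨h2 y hy, ?_⟩
      rw [← compr_star]
      exact h2 (star y) (star_mem hy)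

/-- Elements of `M` commute with the projection onto `U`. -/
lemma taskI5b_comm_proj (U : Submodule ℂ H) [CompleteSpace U] (M : VonNeumannAlgebra H)
    (he : U.starProjection ∈ M.commutant) {x : H →L[ℂ] H} (hx : x ∈ M) :
    x * U.starProjection = U.starProjection * x :=
  (commutant_comm M hx he).symm

/-- Compressions of commuting elements of `M` commute. -/
lemma taskI5b_compr_comm (U : Submodule ℂ H) [CompleteSpace U] (M : VonNeumannAlgebra H)
    (he : U.starProjection ∈ M.commutant) {a b : H →L[ℂ] H} (ha : a ∈ M) (hb : b ∈ M)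
    (hab : a * b = b * a) : compr U a * compr U b = compr U b * compr U a := by
  rw [← compr_mul_of_comm_left U b (taskI5b_comm_proj U M he ha),
    ← compr_mul_of_comm_left U a (taskI5b_comm_proj U M he hb), hab]

/-- The compression of an element of `M` commutes with the compressions of the commutant. -/
lemma taskI5b_compr_comm_commutant (U : Submodule ℂ H) [CompleteSpace U]
    (M : VonNeumannAlgebra H) (he : U.starProjection ∈ M.commutant) {a y : H →L[ℂ] H}
    (ha : a ∈ M) (hy : y ∈ M.commutant) : compr U y * compr U a = compr U a * compr U y := by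
  rw [← compr_mul_of_comm_right U y (taskI5b_comm_proj U M he ha),
    ← compr_mul_of_comm_left U y (taskI5b_comm_proj U M he ha), commutant_comm M ha hy]

theorem mem_inducedMasa_iff (U : Submodule ℂ H) [CompleteSpace U] (A M : VonNeumannAlgebra H)
    (hA : IsMASA A M) (he : U.starProjection ∈ M.commutant)
    (hinj : ∀ x ∈ M, x * U.starProjection = 0 → x = 0) (T : U →L[ℂ] U) :
    T ∈ inducedMasa U A M ↔ ∃ a ∈ A, compr U a = T := by
  rw [taskI5b_mem_inducedMasa]
  constructor
  · rintro ⟨h1, h2⟩
    obtain ⟨x, hxM, hxT⟩ := exists_lift_of_comm U M he hinj T h2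
    refine ⟨x, ?_, hxT⟩
    refine hA.2.2 x hxM (fun a ha => ?_)
    have haM : a ∈ M := hA.1 ha
    have hae := taskI5b_comm_proj U M he haM
    have hxe := taskI5b_comm_proj U M he hxM
    have hd : a * x - x * a ∈ M := sub_mem (mul_mem haM hxM) (mul_mem hxM haM)
    have hde := taskI5b_comm_proj U M he hd
    have hzero : compr U (a * x - x * a) = 0 := by
      rw [compr_sub, compr_mul_of_comm_left U x hae, compr_mul_of_comm_left U a hxe, hxT,
        h1 a ha, sub_self]
    have h3 : (a * x - x * a) * U.starProjection = 0 := (compr_eq_zero_iff U hde).mp hzero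
    exact sub_eq_zero.mp (hinj _ hd h3)
  · rintro ⟨a, ha, rfl⟩
    have haM : a ∈ M := hA.1 ha
    refine ⟨fun a' ha' => ?_, fun y hy => ?_⟩
    · exact taskI5b_compr_comm U M he (hA.1 ha') haM (hA.2.1 a' ha' a ha)
    · exact taskI5b_compr_comm_commutant U M he haM hy

theorem isMASA_induced (U : Submodule ℂ H) [CompleteSpace U] (A M : VonNeumannAlgebra H)
    (hA : IsMASA A M) (he : U.starProjection ∈ M.commutant)
    (hinj : ∀ x ∈ M, x * U.starProjection = 0 → x = 0) :
    IsMASA (inducedMasa U A M) (induced U M) := by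
  refine ⟨?_, ?_, ?_⟩
  · intro T hT
    rw [taskI5b_mem_inducedMasa] at hT
    rw [taskI5b_mem_induced]
    exact hT.2
  · intro S hS T hT
    rw [mem_inducedMasa_iff U A M hA he hinj] at hS hT
    obtain ⟨a, ha, rfl⟩ := hS
    obtain ⟨b, hb, rfl⟩ := hT
    exact taskI5b_compr_comm U M he (hA.1 ha) (hA.1 hb) (hA.2.1 a ha b hb)
  · intro T hT hcomm
    rw [taskI5b_mem_induced] at hT
    rw [taskI5b_mem_inducedMasa]
    refine ⟨fun a ha => ?_, hT⟩
    exact hcomm (compr U a) ((mem_inducedMasa_iff U A M hA he hinj (compr U a)).mpr ⟨a, ha, rfl⟩)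

/-! ### Totality of the vectors `M' U` -/

/-- Elements of the span of the vectors `y v`, `y` in the commutant and `v` in `U`, are finite
sums of such vectors. -/
lemma taskI6_finite_sum (U : Submodule ℂ H) (M : VonNeumannAlgebra H) (ζ : H)
    (hζ : ζ ∈ Submodule.span ℂ {ζ : H | ∃ y ∈ M.commutant, ∃ v : U, ζ = y (v : H)}) :
    ∃ (ι : Type) (_ : Fintype ι) (y : ι → H →L[ℂ] H) (η : ι → U),
      (∀ k, y k ∈ M.commutant) ∧ ζ = ∑ k, y k (η k : H) := by
  induction hζ using Submodule.span_induction with
  | mem z hz =>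
    obtain ⟨y, hy, v, rfl⟩ := hz
    exact ⟨Unit, inferInstance, fun _ => y, fun _ => v, fun _ => hy, by simp⟩
  | zero =>
    exact ⟨Empty, inferInstance, fun k => k.elim, fun k => k.elim, fun k => k.elim, by simp⟩
  | add a b _ _ ha hb =>
    obtain ⟨ι, hι, y, η, hy, rfl⟩ := ha
    obtain ⟨κ, hκ, y', η', hy', rfl⟩ := hb
    refine ⟨ι ⊕ κ, inferInstance, Sum.elim y y', Sum.elim η η', ?_, ?_⟩
    · rintro (k | k)
      · exact hy k
      · exact hy' k
    · rw [Fintype.sum_sum_type]
      simp
  | smul c a _ ha =>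
    obtain ⟨ι, hι, y, η, hy, rfl⟩ := ha
    refine ⟨ι, hι, fun k => c • y k, η, fun k => ?_, ?_⟩
    · rw [VonNeumannAlgebra.mem_commutant_iff]
      intro g hg
      rw [mul_smul_comm, smul_mul_assoc, (VonNeumannAlgebra.mem_commutant_iff.mp (hy k)) g hg]
    · rw [Finset.smul_sum]
      simp

theorem exists_approx_of_faithful (U : Submodule ℂ H) [CompleteSpace U] (M : VonNeumannAlgebra H)
    (he : U.starProjection ∈ M.commutant)
    (hinj : ∀ x ∈ M, x * U.starProjection = 0 → x = 0) (ξ : H) {δ : ℝ} (hδ : 0 < δ) :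
    ∃ (ι : Type) (_ : Fintype ι) (y : ι → H →L[ℂ] H) (η : ι → U),
      (∀ k, y k ∈ M.commutant) ∧ ‖ξ - ∑ k, y k (η k : H)‖ < δ := by
  have _ := he
  obtain ⟨L, hL⟩ : ∃ L : Submodule ℂ H,
      L = Submodule.span ℂ {ζ : H | ∃ y ∈ M.commutant, ∃ v : U, ζ = y (v : H)} := ⟨_, rfl⟩
  have hgen : ∀ y ∈ M.commutant, ∀ v : U, y (v : H) ∈ L := by
    intro y hy v
    rw [hL]
    exact Submodule.subset_span ⟨y, hy, v, rfl⟩
  have hinvt : ∀ y ∈ M.commutant, ∀ v ∈ L, y v ∈ L := by
    intro y hy v hv
    rw [hL] at hv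
    induction hv using Submodule.span_induction with
    | mem z hz =>
      obtain ⟨y', hy', u, rfl⟩ := hz
      have h1 := hgen (y * y') (mul_mem hy hy') u
      rw [mul_apply_eq_comp] at h1
      exact h1
    | zero =>
      rw [map_zero]
      exact L.zero_mem
    | add a b _ _ ha hb =>
      rw [map_add]
      exact L.add_mem ha hb
    | smul c a _ ha =>
      rw [map_smul]
      exact L.smul_mem c ha
  have hc : L.topologicalClosure.starProjection ∈ M := starProjection_closure_mem M L hinvt
  have h1c : (1 - L.topologicalClosure.starProjection) ∈ M := sub_mem (one_mem M) hc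
  have hzero : (1 - L.topologicalClosure.starProjection) * U.starProjection = 0 := by
    ext ζ
    rw [mul_apply_eq_comp, sub_apply, one_apply_eq_self, zero_apply, sub_eq_zero]
    symm
    rw [Submodule.starProjection_eq_self_iff]
    apply L.le_topologicalClosure
    have h1 := hgen 1 (one_mem M.commutant) (U.orthogonalProjectionOnto ζ)
    rw [one_apply_eq_self] at h1
    exact h1
  have hc1 : L.topologicalClosure.starProjection = 1 :=
    (sub_eq_zero.mp (hinj _ h1c hzero)).symm
  have hξ : ξ ∈ L.topologicalClosure := by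
    rw [← Submodule.starProjection_eq_self_iff, hc1, one_apply_eq_self]
  have hξ' : ξ ∈ closure (L : Set H) := by
    rw [← Submodule.topologicalClosure_coe]
    exact hξ
  obtain ⟨ξ', hξ'L, hdist⟩ := Metric.mem_closure_iff.mp hξ' δ hδ
  rw [SetLike.mem_coe, hL] at hξ'L
  obtain ⟨ι, hι, y, η, hy, rfl⟩ := taskI6_finite_sum U M ξ' hξ'L
  refine ⟨ι, hι, y, η, hy, ?_⟩
  rw [dist_eq_norm] at hdist
  exact hdist

/-! ### Transfer of so-pavability -/

/-- Elements of `M` commute with the projection onto `U`. -/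
lemma taskI7_comm (U : Submodule ℂ H) [CompleteSpace U] (M : VonNeumannAlgebra H)
    (he : U.starProjection ∈ M.commutant) {z : H →L[ℂ] H} (hz : z ∈ M) :
    z * U.starProjection = U.starProjection * z :=
  (commutant_comm M hz he).symm

/-- An element of `M` with zero compression is zero. -/
lemma taskI7_eq_zero (U : Submodule ℂ H) [CompleteSpace U] (M : VonNeumannAlgebra H)
    (he : U.starProjection ∈ M.commutant)
    (hinj : ∀ x ∈ M, x * U.starProjection = 0 → x = 0) {z : H →L[ℂ] H} (hz : z ∈ M)
    (h : compr U z = 0) : z = 0 :=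
  hinj z hz ((compr_eq_zero_iff U (taskI7_comm U M he hz)).mp h)

/-- Two elements of `M` with the same compression are equal. -/
lemma taskI7_inj (U : Submodule ℂ H) [CompleteSpace U] (M : VonNeumannAlgebra H)
    (he : U.starProjection ∈ M.commutant)
    (hinj : ∀ x ∈ M, x * U.starProjection = 0 → x = 0) {z w : H →L[ℂ] H} (hz : z ∈ M)
    (hw : w ∈ M) (h : compr U z = compr U w) : z = w := by
  have h1 : compr U (z - w) = 0 := by
    rw [compr_sub, h, sub_self]
  exact sub_eq_zero.mp (taskI7_eq_zero U M he hinj (sub_mem hz hw) h1)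

/-- Simultaneous approximate representations of finitely many vectors, with one finite set of
vectors of `U` and one bound for the coefficients. -/
lemma taskI7_repr (U : Submodule ℂ H) [CompleteSpace U] (M : VonNeumannAlgebra H)
    (he : U.starProjection ∈ M.commutant)
    (hinj : ∀ x ∈ M, x * U.starProjection = 0 → x = 0) (F : Finset H) {δ : ℝ} (hδ : 0 < δ) :
    ∃ (F' : Finset U) (C : ℝ), 0 < C ∧ ∀ ξ ∈ F, ∃ (ι : Type) (_ : Fintype ι)
      (y : ι → H →L[ℂ] H) (η : ι → U), (∀ k, y k ∈ M.commutant) ∧ (∀ k, η k ∈ F') ∧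
        ∑ k, ‖y k‖ ≤ C ∧ ‖ξ - ∑ k, y k (η k : H)‖ < δ := by
  classical
  induction F using Finset.induction_on with
  | empty => exact ⟨∅, 1, one_pos, fun ξ hξ => absurd hξ (Finset.notMem_empty ξ)⟩
  | insert ξ0 F hξ0 ih =>
    obtain ⟨F', C, hC, hrep⟩ := ih
    obtain ⟨ι0, inst0, y0, η0, hy0, happrox0⟩ := exists_approx_of_faithful U M he hinj ξ0 hδ
    have hnn : 0 ≤ ∑ k, ‖y0 k‖ := Finset.sum_nonneg (fun k _ => norm_nonneg _)
    refine ⟨F' ∪ Finset.image η0 Finset.univ, C + ∑ k, ‖y0 k‖, by linarith, ?_⟩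
    intro ξ hξ
    rw [Finset.mem_insert] at hξ
    rcases hξ with hξ | hξ
    · rw [hξ]
      refine ⟨ι0, inst0, y0, η0, hy0, fun k => ?_, ?_, happrox0⟩
      · exact Finset.mem_union_right _ (Finset.mem_image_of_mem _ (Finset.mem_univ k))
      · linarith
    · obtain ⟨ι, inst, y, η, hy, hη, hsum, happrox⟩ := hrep ξ hξ
      refine ⟨ι, inst, y, η, hy, fun k => Finset.mem_union_left _ (hη k), ?_, happrox⟩
      linarith

theorem soPavable_of_induced (U : Submodule ℂ H) [CompleteSpace U] (A M : VonNeumannAlgebra H)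
    (hA : IsMASA A M) (he : U.starProjection ∈ M.commutant)
    (hinj : ∀ x ∈ M, x * U.starProjection = 0 → x = 0)
    (x : H →L[ℂ] H) (hxM : x ∈ M) (ε : ℝ) (r : ℕ)
    (h : SoPavable (inducedMasa U A M) (induced U M) (compr U x) ε r) :
    SoPavable A M x ε r := by
  intro F δ hδ
  obtain ⟨F', C, hC, hrep⟩ := taskI7_repr U M he hinj F (half_pos hδ)
  have hδ' : 0 < δ / (2 * C) := by positivity
  obtain ⟨p', a', q', hp', ha'mem, ha'sa, ha'norm, hq'mem, hq'proj, hq'vec, hpav'⟩ :=
    h F' (δ / (2 * C)) hδ'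
  -- lifts to `A` and `M`
  choose p hpA hpc using fun i =>
    (mem_inducedMasa_iff U A M hA he hinj (p' i)).mp (hp'.1 i).1
  obtain ⟨a, haA, hac⟩ := (mem_inducedMasa_iff U A M hA he hinj a').mp ha'mem
  obtain ⟨q, hqM, hqc⟩ := (mem_induced_iff U M he hinj q').mp hq'mem
  have hpM : ∀ i, p i ∈ M := fun i => hA.1 (hpA i)
  have haM : a ∈ M := hA.1 haA
  have hmul : ∀ {z : H →L[ℂ] H} (w : H →L[ℂ] H), z ∈ M →
      compr U (z * w) = compr U z * compr U w :=
    fun w hz => compr_mul_of_comm_left U w (taskI7_comm U M he hz)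
  have hpfun : (fun i => compr U (p i)) = p' := funext hpc
  -- algebraic relations
  have hp_idem : ∀ i, p i * p i = p i := by
    intro i
    apply taskI7_inj U M he hinj (mul_mem (hpM i) (hpM i)) (hpM i)
    rw [hmul _ (hpM i), hpc i]
    exact (hp'.1 i).2.isIdempotentElem.eq
  have hp_sa : ∀ i, star (p i) = p i := by
    intro i
    apply taskI7_inj U M he hinj (star_mem (hpM i)) (hpM i)
    rw [compr_star, hpc i]
    exact (hp'.1 i).2.isSelfAdjoint.star_eq
  have hp_orth : ∀ i j, i ≠ j → p i * p j = 0 := by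
    intro i j hij
    apply taskI7_eq_zero U M he hinj (mul_mem (hpM i) (hpM j))
    rw [hmul _ (hpM i), hpc i, hpc j]
    exact hp'.2.1 i j hij
  have hp_sum : ∑ i, p i = 1 := by
    apply taskI7_inj U M he hinj (sum_mem (fun i _ => hpM i)) (one_mem M)
    rw [compr_sum, compr_one, hpfun]
    exact hp'.2.2
  have ha_sa : star a = a := by
    apply taskI7_inj U M he hinj (star_mem haM) haM
    rw [compr_star, hac]
    exact ha'sa.star_eq
  have hq_idem : q * q = q := by
    apply taskI7_inj U M he hinj (mul_mem hqM hqM) hqM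
    rw [hmul _ hqM, hqc]
    exact hq'proj.isIdempotentElem.eq
  have hq_sa : star q = q := by
    apply taskI7_inj U M he hinj (star_mem hqM) hqM
    rw [compr_star, hqc]
    exact hq'proj.isSelfAdjoint.star_eq
  have hqproj : IsStarProjection q := ⟨hq_idem, hq_sa⟩
  have hnx : ‖compr U x‖ = ‖x‖ := norm_compr_eq U M he hinj hxM
  have hna : ‖a‖ ≤ ‖x‖ := by
    rw [← norm_compr_eq U M he hinj haM, hac, ← hnx]
    exact ha'norm
  -- the paving estimate
  have hpinM : pinching p x ∈ M := by
    unfold pinching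
    exact sum_mem (fun i _ => mul_mem (mul_mem (hpM i) hxM) (hpM i))
  have hZM : pinching p x - a ∈ M := sub_mem hpinM haM
  have hcpin : compr U (pinching p x) = pinching p' (compr U x) := by
    unfold pinching
    rw [compr_sum]
    apply Finset.sum_congr rfl
    intro i _
    rw [hmul _ (mul_mem (hpM i) hxM), hmul _ (hpM i), hpc i]
  have hcY : compr U (q * (pinching p x - a) * q)
      = q' * (pinching p' (compr U x) - a') * q' := by
    rw [hmul _ (mul_mem hqM hZM), hmul _ hqM, compr_sub, hcpin, hac, hqc]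
  have hYM : q * (pinching p x - a) * q ∈ M := mul_mem (mul_mem hqM hZM) hqM
  have hpav : ‖q * (pinching p x - a) * q‖ ≤ ε * ‖x‖ := by
    rw [← norm_compr_eq U M he hinj hYM, hcY, ← hnx]
    exact hpav'
  -- the vectors
  have h1qM : 1 - q ∈ M := sub_mem (one_mem M) hqM
  have hvec : ∀ v : U, ‖(1 - q) (v : H)‖ = ‖(1 - q') v‖ := by
    intro v
    have h1 := compr_apply_of_comm U (taskI7_comm U M he h1qM) v
    rw [compr_sub, compr_one, hqc] at h1
    rw [← h1]
    exact (Submodule.coe_norm _).symm
  have hnorm1q : ‖1 - q‖ ≤ 1 := IsStarProjection.norm_le _ hqproj.one_sub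
  refine ⟨p, a, q, ⟨fun i => ⟨hpA i, ⟨hp_idem i, hp_sa i⟩⟩, hp_orth, hp_sum⟩, haA, ha_sa, hna,
    hqM, hqproj, ?_, hpav⟩
  intro ξ hξ
  obtain ⟨ι, inst, y, η, hy, hη, hsum, happrox⟩ := hrep ξ hξ
  have hk : ∀ k, (1 - q) (y k (η k : H)) = y k ((1 - q) (η k : H)) := by
    intro k
    have hc := commutant_comm M h1qM (hy k)
    have hc2 := congrArg (fun f : H →L[ℂ] H => f (η k : H)) hc
    simp only [mul_apply_eq_comp] at hc2
    exact hc2.symm
  have hkfun : (fun k => (1 - q) (y k (η k : H))) = fun k => y k ((1 - q) (η k : H)) :=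
    funext hk
  have hsplit : (1 - q) ξ = (1 - q) (ξ - ∑ k, y k (η k : H))
      + ∑ k, y k ((1 - q) (η k : H)) := by
    have e1 : (1 - q) (ξ - ∑ k, y k (η k : H))
        = (1 - q) ξ - ∑ k, (1 - q) (y k (η k : H)) := by
      rw [map_sub, map_sum]
    rw [e1, hkfun]
    abel
  have hb1 : ‖(1 - q) (ξ - ∑ k, y k (η k : H))‖ < δ / 2 := by
    calc ‖(1 - q) (ξ - ∑ k, y k (η k : H))‖
        ≤ ‖1 - q‖ * ‖ξ - ∑ k, y k (η k : H)‖ := (1 - q).le_opNorm _
      _ ≤ 1 * ‖ξ - ∑ k, y k (η k : H)‖ :=
          mul_le_mul_of_nonneg_right hnorm1q (norm_nonneg _)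
      _ = ‖ξ - ∑ k, y k (η k : H)‖ := one_mul _
      _ < δ / 2 := happrox
  have hb2 : ‖∑ k, y k ((1 - q) (η k : H))‖ ≤ δ / 2 := by
    calc ‖∑ k, y k ((1 - q) (η k : H))‖
        ≤ ∑ k, ‖y k ((1 - q) (η k : H))‖ := norm_sum_le _ _
      _ ≤ ∑ k, ‖y k‖ * (δ / (2 * C)) := by
          apply Finset.sum_le_sum
          intro k _
          calc ‖y k ((1 - q) (η k : H))‖
              ≤ ‖y k‖ * ‖(1 - q) (η k : H)‖ := (y k).le_opNorm _
            _ ≤ ‖y k‖ * (δ / (2 * C)) := by
                apply mul_le_mul_of_nonneg_left _ (norm_nonneg _)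
                rw [hvec]
                exact (hq'vec (η k) (hη k)).le
      _ = (∑ k, ‖y k‖) * (δ / (2 * C)) := by rw [Finset.sum_mul]
      _ ≤ C * (δ / (2 * C)) := mul_le_mul_of_nonneg_right hsum hδ'.le
      _ = δ / 2 := by field_simp
  rw [hsplit]
  calc ‖(1 - q) (ξ - ∑ k, y k (η k : H)) + ∑ k, y k ((1 - q) (η k : H))‖
      ≤ ‖(1 - q) (ξ - ∑ k, y k (η k : H))‖ + ‖∑ k, y k ((1 - q) (η k : H))‖ :=
        norm_add_le _ _
    _ < δ / 2 + δ / 2 := add_lt_add_of_lt_of_le hb1 hb2
    _ = δ := add_halves δ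

/-! ### Type I von Neumann algebras in an arbitrary representation -/

/-- A star projection is the orthogonal projection onto a complete subspace. -/
lemma exists_complete_range {e : H →L[ℂ] H} (hep : IsStarProjection e) :
    ∃ (U : Submodule ℂ H) (_ : CompleteSpace U), e = U.starProjection := by
  obtain ⟨hU, heq⟩ := isStarProjection_iff_eq_starProjection_range.mp hep
  have hrange : (LinearMap.range (e : H →ₗ[ℂ] H) : Set H) = {v | e v = v} := by
    ext v
    constructor
    · rintro ⟨w, rfl⟩
      show e (e w) = e w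
      rw [← mul_apply_eq_comp, hep.isIdempotentElem.eq]
    · intro hv
      exact ⟨v, hv⟩
  have hclosed : IsClosed (LinearMap.range (e : H →ₗ[ℂ] H) : Set H) := by
    rw [hrange]
    exact isClosed_eq e.continuous continuous_id
  exact ⟨_, hclosed.completeSpace_coe, heq⟩

/-- Finite-dimensional `(ε, r)` paving implies `(ε', r)` so-paving, for every `ε' > ε`, over every
MASA `A` of every von Neumann algebra `M` whose commutant contains an abelian projection `e`
that is faithful on `M` (so `M` is of type I, in an arbitrary representation). -/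
theorem soPavable_of_abelian_projection {ε ε' : ℝ} {r : ℕ} (hεε' : ε < ε')
    (hmp : MatrixPavable ε r) (A M : VonNeumannAlgebra H) (hA : IsMASA A M)
    (e : H →L[ℂ] H) (he : e ∈ M.commutant) (hep : IsStarProjection e)
    (habel : ∀ y ∈ M.commutant, ∀ z ∈ M.commutant,
      (e * y * e) * (e * z * e) = (e * z * e) * (e * y * e))
    (hfaith : ∀ x ∈ M, x * e = 0 → x = 0)
    (x : H →L[ℂ] H) (hxM : x ∈ M) (hx : IsSelfAdjoint x) : SoPavable A M x ε' r := by
  obtain ⟨U, hUc, rfl⟩ := exists_complete_range hep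
  refine soPavable_of_induced U A M hA he hfaith x hxM ε' r ?_
  refine soPavable_of_commutant_le hεε' hmp (inducedMasa U A M) (induced U M)
    (induced_commutant_le U M habel) (isMASA_induced U A M hA he hfaith) (compr U x)
    ((mem_induced_iff U M he hfaith _).2 ⟨x, hxM, rfl⟩) ?_
  rw [IsSelfAdjoint, ← compr_star, hx.star_eq]

end Vale.Agent.Lib.P078
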