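import Vale.Agent.Lib.P078.Defs

/-!
# The so-paving number (P078)
-/

namespace Vale.Agent.Lib.P078

variable {H : Type*} [NormedAddCommGroup H] [InnerProductSpace ℂ H] [CompleteSpace H]

/-- The so-paving number `n_{A ⊆ M}(ε)`: the least integer `r ≥ 1` such that every self-adjoint
`x ∈ M` is `(ε, r)` so-pavable over `A`; it is `⊤` (infinity) if there is no such `r`. -/
noncomputable def soPavingNumber (A M : VonNeumannAlgebra H) (ε : ℝ) : ℕ∞ :=
  ⨅ (r : ℕ) (_ : 1 ≤ r ∧ ∀ x ∈ M, IsSelfAdjoint x → SoPavable A M x ε r), (r : ℕ∞)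

end Vale.Agent.Lib.P078
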