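import Vale.Agent.Lib.P078.Diffuse
import Vale.Agent.Lib.P078.NumberDefs

/-!
# The boundary case for diffuse MASAs of `B(H)`: an exact Lyapunov-type splitting

In a diffuse abelian von Neumann algebra, every projection has a subprojection carrying exactly a
prescribed fraction of finitely many functionals `g ↦ ⟪ξ, g ω⟫` (iterative rounding of fractional
combinations along finer and finer partitions). Splitting the pieces of a finite diagonalisation
sequentially in this way gives an `r`-piece partition `p` and a diagonal correction `a` with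
`q (S_p(x) - a) q = q x q / r` exactly, hence `(1/r, r)` so-paving, and the exact so-paving number
`⌈1/ε⌉` of a diffuse MASA of `B(H)`.
-/

namespace Vale.Agent.Lib.P078

open scoped ComplexOrder InnerProductSpace Matrix.Norms.L2Operator
open ContinuousLinearMap

variable {H : Type*} [NormedAddCommGroup H] [InnerProductSpace ℂ H] [CompleteSpace H]

/-! ### Rounding a fractional combination -/

/-- One rounding step: if there are more fractional coordinates than the dimension, move along a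
linear dependence until one more coordinate becomes integral. -/
theorem taskW1_step {κ : Type} [Fintype κ] {V : Type*} [AddCommGroup V] [Module ℝ V]
    [FiniteDimensional ℝ V] (m : κ → V) (s : κ → ℝ) (hs : ∀ k, 0 ≤ s k ∧ s k ≤ 1)
    (hbig : Module.finrank ℝ V < (Finset.univ.filter (fun k => 0 < s k ∧ s k < 1)).card) :
    ∃ s1 : κ → ℝ, (∀ k, 0 ≤ s1 k ∧ s1 k ≤ 1) ∧ ∑ k, s1 k • m k = ∑ k, s k • m k ∧
      (Finset.univ.filter (fun k => 0 < s1 k ∧ s1 k < 1)).card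
        < (Finset.univ.filter (fun k => 0 < s k ∧ s k < 1)).card := by
  classical
  set Fr := Finset.univ.filter (fun k => 0 < s k ∧ s k < 1) with hFr
  have hmem : ∀ k, k ∈ Fr ↔ (0 < s k ∧ s k < 1) := by
    intro k
    simp [hFr]
  have hdep : ¬ LinearIndependent ℝ (fun i : Fr => m i.1) := by
    intro hli
    have h1 := hli.fintype_card_le_finrank
    rw [Fintype.card_coe] at h1
    omega
  rw [Fintype.not_linearIndependent_iff] at hdep
  obtain ⟨c', hc'sum, i0, hi0⟩ := hdep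
  set c : κ → ℝ := fun k => if h : k ∈ Fr then c' ⟨k, h⟩ else 0 with hc
  have hc_out : ∀ k, k ∉ Fr → c k = 0 := by
    intro k hk
    simp [hc, hk]
  have hc_in : ∀ i : Fr, c i.1 = c' i := by
    intro i
    simp [hc]
  have hcsum : ∑ k, c k • m k = 0 := by
    have h1 : ∑ k, c k • m k = ∑ k ∈ Fr, c k • m k := by
      symm
      apply Finset.sum_subset (Finset.subset_univ _)
      intro k _ hk
      rw [hc_out k hk, zero_smul]
    rw [h1, ← Finset.sum_coe_sort, ← hc'sum]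
    apply Finset.sum_congr rfl
    intro i _
    rw [hc_in]
  set A := Fr.filter (fun k => c k ≠ 0) with hA
  have hAne : A.Nonempty := by
    refine ⟨i0.1, ?_⟩
    rw [hA, Finset.mem_filter]
    exact ⟨i0.2, by rw [hc_in]; exact hi0⟩
  set b : κ → ℝ := fun k => if 0 < c k then (1 - s k) / c k else s k / (- c k) with hb
  obtain ⟨k0, hk0A, hmin⟩ := Finset.exists_min_image A b hAne
  have hk0Fr : k0 ∈ Fr := (Finset.mem_filter.1 hk0A).1
  have hk0c : c k0 ≠ 0 := (Finset.mem_filter.1 hk0A).2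
  have hk0s := (hmem k0).1 hk0Fr
  have hτpos : 0 < b k0 := by
    simp only [hb]
    split_ifs with h
    · exact div_pos (by linarith [hk0s.2]) h
    · have hneg : c k0 < 0 := lt_of_le_of_ne (not_lt.1 h) hk0c
      exact div_pos hk0s.1 (by linarith)
  have hbound : ∀ k, 0 ≤ s k + b k0 * c k ∧ s k + b k0 * c k ≤ 1 := by
    intro k
    by_cases hck : c k = 0
    · rw [hck, mul_zero, add_zero]
      exact hs k
    · have hkFr : k ∈ Fr := by
        by_contra hk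
        exact hck (hc_out k hk)
      have hkA : k ∈ A := by
        rw [hA, Finset.mem_filter]
        exact ⟨hkFr, hck⟩
      have hle : b k0 ≤ b k := hmin k hkA
      have hks := hs k
      by_cases hpos : 0 < c k
      · have hbk : b k = (1 - s k) / c k := by simp [hb, hpos]
        rw [hbk] at hle
        have h2 : b k0 * c k ≤ 1 - s k := (le_div_iff₀ hpos).1 hle
        have h3 : 0 ≤ b k0 * c k := mul_nonneg hτpos.le hpos.le
        constructor <;> linarith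
      · have hneg : c k < 0 := lt_of_le_of_ne (not_lt.1 hpos) hck
        have hbk : b k = s k / (- c k) := by simp [hb, hpos]
        rw [hbk] at hle
        have hneg' : 0 < - c k := by linarith
        have h2 : b k0 * (- c k) ≤ s k := (le_div_iff₀ hneg').1 hle
        have h3 : b k0 * c k ≤ 0 := mul_nonpos_of_nonneg_of_nonpos hτpos.le hneg.le
        constructor <;> nlinarith
  refine ⟨fun k => s k + b k0 * c k, hbound, ?_, ?_⟩
  · have h1 : ∀ k, (s k + b k0 * c k) • m k = s k • m k + b k0 • (c k • m k) := by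
      intro k
      rw [add_smul, mul_smul]
    simp only [h1, Finset.sum_add_distrib, ← Finset.smul_sum, hcsum, smul_zero, add_zero]
  · apply Finset.card_lt_card
    rw [Finset.ssubset_iff_of_subset]
    · refine ⟨k0, hk0Fr, ?_⟩
      intro hk0new
      have hk0new' : 0 < s k0 + b k0 * c k0 ∧ s k0 + b k0 * c k0 < 1 := by
        simpa using hk0new
      by_cases hpos : 0 < c k0
      · have hbk : b k0 = (1 - s k0) / c k0 := by simp [hb, hpos]
        have : b k0 * c k0 = 1 - s k0 := by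
          rw [hbk, div_mul_cancel₀ _ hk0c]
        linarith [hk0new'.2]
      · have hbk : b k0 = s k0 / (- c k0) := by simp [hb, hpos]
        have hne : - c k0 ≠ 0 := neg_ne_zero.2 hk0c
        have : b k0 * c k0 = - s k0 := by
          rw [hbk]
          field_simp
        linarith [hk0new'.1]
    · intro k hk
      have hk' : 0 < s k + b k0 * c k ∧ s k + b k0 * c k < 1 := by simpa using hk
      by_contra hkFr
      rw [hc_out k hkFr, mul_zero, add_zero] at hk'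
      exact hkFr ((hmem k).2 hk')

theorem exists_few_fractional {κ : Type} [Fintype κ] {V : Type*} [AddCommGroup V] [Module ℝ V]
    [FiniteDimensional ℝ V] (m : κ → V) (s : κ → ℝ) (hs : ∀ k, 0 ≤ s k ∧ s k ≤ 1) :
    ∃ s' : κ → ℝ, (∀ k, 0 ≤ s' k ∧ s' k ≤ 1) ∧ ∑ k, s' k • m k = ∑ k, s k • m k ∧
      (Finset.univ.filter (fun k => 0 < s' k ∧ s' k < 1)).card ≤ Module.finrank ℝ V := by
  have key : ∀ n : ℕ, ∀ s : κ → ℝ, (∀ k, 0 ≤ s k ∧ s k ≤ 1) →
      (Finset.univ.filter (fun k => 0 < s k ∧ s k < 1)).card = n →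
      ∃ s' : κ → ℝ, (∀ k, 0 ≤ s' k ∧ s' k ≤ 1) ∧ ∑ k, s' k • m k = ∑ k, s k • m k ∧
        (Finset.univ.filter (fun k => 0 < s' k ∧ s' k < 1)).card ≤ Module.finrank ℝ V := by
    intro n
    induction n using Nat.strong_induction_on with
    | _ n ih =>
      intro s hs hn
      by_cases hle : (Finset.univ.filter (fun k => 0 < s k ∧ s k < 1)).card
          ≤ Module.finrank ℝ V
      · exact ⟨s, hs, rfl, hle⟩
      · obtain ⟨s1, hs1, hsum1, hcard1⟩ := taskW1_step m s hs (not_le.1 hle)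
        obtain ⟨s', hs', hsum', hcard'⟩ := ih _ (hn ▸ hcard1) s1 hs1 rfl
        exact ⟨s', hs', hsum'.trans hsum1, hcard'⟩
  exact key _ s hs rfl

/-! ### Suprema of increasing sequences of projections -/

/-- The supremum of an increasing sequence of projections of `A`: it lies in `A`, dominates the
sequence, and is fixed by every operator fixing all members of the sequence. -/
theorem exists_seq_sup (A : VonNeumannAlgebra H) (G : ℕ → H →L[ℂ] H) (hGA : ∀ m, G m ∈ A)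
    (hGp : ∀ m, IsStarProjection (G m)) (hmono : ∀ m, G (m + 1) * G m = G m) :
    ∃ Q ∈ A, IsStarProjection Q ∧ (∀ m, Q * G m = G m) ∧
      ∀ U : H →L[ℂ] H, (∀ m, U * G m = G m) → U * Q = Q := by
  have hle : ∀ m n, m ≤ n → G n * G m = G m := by
    intro m n hmn
    induction n, hmn using Nat.le_induction with
    | base => exact (hGp m).isIdempotentElem.eq
    | succ n hmn ih =>
      calc G (n + 1) * G m = G (n + 1) * (G n * G m) := by rw [ih]
        _ = (G (n + 1) * G n) * G m := by rw [mul_assoc]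
        _ = G n * G m := by rw [hmono]
        _ = G m := ih
  have hne : (Set.range G).Nonempty := ⟨G 0, 0, rfl⟩
  have hchain : ∀ q ∈ Set.range G, ∀ q' ∈ Set.range G, q' * q = q ∨ q * q' = q' := by
    rintro _ ⟨m, rfl⟩ _ ⟨n, rfl⟩
    rcases le_total m n with h | h
    · exact Or.inl (hle m n h)
    · exact Or.inr (hle n m h)
  obtain ⟨K, hK⟩ : ∃ K : Submodule ℂ H, K = taskN_union (Set.range G) hne hchain := ⟨_, rfl⟩
  have hKmem : ∀ v, v ∈ K ↔ ∃ q ∈ Set.range G, q v = v := by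
    intro v
    rw [hK]
    rfl
  obtain ⟨Q, hQ⟩ : ∃ Q : H →L[ℂ] H, Q = K.topologicalClosure.starProjection := ⟨_, rfl⟩
  have hQproj : IsStarProjection Q := by
    rw [hQ]
    exact isStarProjection_starProjection
  have hQA : Q ∈ A := by
    rw [hQ]
    apply starProjection_closure_mem A K
    intro y hy v hv
    obtain ⟨q, hq, hv⟩ := (hKmem v).1 hv
    refine (hKmem _).2 ⟨q, hq, ?_⟩
    obtain ⟨m, rfl⟩ := hq
    rw [VonNeumannAlgebra.mem_commutant_iff] at hy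
    have h1 := hy (G m) (hGA m)
    have h2 := congrArg (fun f : H →L[ℂ] H => f v) h1
    simp only [mul_apply_eq_comp] at h2
    rw [h2, hv]
  have hQq : ∀ m, Q * G m = G m := by
    intro m
    ext v
    rw [mul_apply_eq_comp, hQ]
    apply Submodule.starProjection_eq_self_iff.mpr
    apply K.le_topologicalClosure
    refine (hKmem _).2 ⟨G m, ⟨m, rfl⟩, ?_⟩
    rw [← mul_apply_eq_comp, (hGp m).isIdempotentElem.eq]
  refine ⟨Q, hQA, hQproj, hQq, ?_⟩
  intro U hU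
  have hker : K.topologicalClosure
      ≤ LinearMap.ker (((1 : H →L[ℂ] H) - U : H →L[ℂ] H) : H →ₗ[ℂ] H) := by
    refine Submodule.topologicalClosure_minimal _ ?_ ((1 : H →L[ℂ] H) - U).isClosed_ker
    intro v hv
    obtain ⟨q, ⟨m, rfl⟩, hv⟩ := (hKmem v).1 hv
    rw [LinearMap.mem_ker]
    show ((1 : H →L[ℂ] H) - U) v = 0
    rw [sub_apply, one_apply_eq_self, ← hv, ← mul_apply_eq_comp, hU m, sub_self]
  ext v
  rw [mul_apply_eq_comp]
  have h1 : Q v ∈ K.topologicalClosure := by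
    rw [hQ]
    exact Submodule.starProjection_apply_mem _ v
  have h2 := hker h1
  rw [LinearMap.mem_ker] at h2
  have h3 : ((1 : H →L[ℂ] H) - U) (Q v) = 0 := h2
  rw [sub_apply, one_apply_eq_self, sub_eq_zero] at h3
  exact h3.symm

/-! ### One rounding step -/

/-- The fractional range of the functionals `g ↦ ⟪ξ j, g (ω j)⟫` below the projection `R`. -/
def FracRange (A : VonNeumannAlgebra H) {J : Type} (ξ ω : J → H) (R : H →L[ℂ] H)
    (b : J → ℂ) : Prop :=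
  ∃ (κ : Type) (_ : Fintype κ) (f : κ → H →L[ℂ] H) (s : κ → ℝ),
    (∀ k, f k ∈ A ∧ IsStarProjection (f k)) ∧ (∀ k l, k ≠ l → f k * f l = 0) ∧ ∑ k, f k = R ∧
    (∀ k, 0 ≤ s k ∧ s k ≤ 1) ∧ ∀ j, b j = ∑ k, (s k : ℂ) * ⟪ξ j, f k (ω j)⟫_ℂ

/-- A small radius whose square times `d` is below both `η` and `η ^ 2`. -/
lemma taskW3_eta (d : ℕ) {η : ℝ} (hη : 0 < η) :
    ∃ η' : ℝ, 0 < η' ∧ (d : ℝ) * η' ^ 2 ≤ η ∧ (d : ℝ) * η' ^ 2 ≤ η ^ 2 := by
  have hμ : 0 < min η 1 := lt_min hη one_pos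
  have hμ1 : min η 1 ≤ 1 := min_le_right _ _
  have hμη : min η 1 ≤ η := min_le_left _ _
  have hd : (0 : ℝ) ≤ d := Nat.cast_nonneg d
  have hd1 : (0 : ℝ) < (d : ℝ) + 1 := by positivity
  obtain ⟨q, hq⟩ : ∃ q : ℝ, q = min η 1 / ((d : ℝ) + 1) := ⟨_, rfl⟩
  have hq0 : 0 < q := by rw [hq]; positivity
  have hqm : ((d : ℝ) + 1) * q = min η 1 := by rw [hq]; field_simp
  have hqμ : q ≤ min η 1 := by nlinarith
  have h1 : (d : ℝ) * q ^ 2 ≤ min η 1 * min η 1 := by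
    calc (d : ℝ) * q ^ 2 ≤ ((d : ℝ) + 1) * q * q := by nlinarith [sq_nonneg q]
      _ = min η 1 * q := by rw [hqm]
      _ ≤ min η 1 * min η 1 := mul_le_mul_of_nonneg_left hqμ hμ.le
  refine ⟨q, hq0, ?_, ?_⟩
  · nlinarith
  · nlinarith

/-- For a projection `p`: `⟪x, p y⟫ = ⟪p x, p y⟫`. -/
lemma taskW3_proj_inner {p : H →L[ℂ] H} (hp : IsStarProjection p) (x y : H) :
    ⟪x, p y⟫_ℂ = ⟪p x, p y⟫_ℂ := by
  have h1 : p y = p (p y) := by rw [← mul_apply_eq_comp, hp.isIdempotentElem.eq]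
  have h2 := adjoint_inner_left p (p y) x
  rw [hp.isSelfAdjoint.adjoint_eq] at h2
  rw [h2, ← h1]

/-- The rounding step once the weights have few fractional values. -/
lemma taskW3_core (A : VonNeumannAlgebra H) (hAc : ∀ a ∈ A, ∀ b ∈ A, a * b = b * a)
    {J : Type} (ξ ω : J → H) (c : J → ℂ)
    {G R : H →L[ℂ] H} (hGA : G ∈ A) (hG : IsStarProjection G) (hRA : R ∈ A) (hGR : G * R = 0)
    {B : Type} [Fintype B] (F : B → H →L[ℂ] H) (S : B → ℝ)
    (hFA : ∀ β, F β ∈ A) (hFp : ∀ β, IsStarProjection (F β))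
    (hFo : ∀ β β', β ≠ β' → F β * F β' = 0) (hFs : ∑ β, F β = R)
    (hS : ∀ β, 0 ≤ S β ∧ S β ≤ 1)
    (hcomb : ∀ j, c j - ⟪ξ j, G (ω j)⟫_ℂ = ∑ β, (S β : ℂ) * ⟪ξ j, F β (ω j)⟫_ℂ)
    {η η' : ℝ} (hη : 0 < η) (hη' : 0 < η') {d : ℕ} (hd1 : (d : ℝ) * η' ^ 2 ≤ η)
    (hd2 : (d : ℝ) * η' ^ 2 ≤ η ^ 2)
    (hξ : ∀ β j, ‖F β (ξ j)‖ ≤ η') (hω : ∀ β j, ‖F β (ω j)‖ ≤ η')
    (hcard : (Finset.univ.filter (fun β => 0 < S β ∧ S β < 1)).card ≤ d) :
    ∃ G' R' : H →L[ℂ] H, G' ∈ A ∧ IsStarProjection G' ∧ R' ∈ A ∧ IsStarProjection R' ∧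
      G' * R' = 0 ∧ G' * G = G ∧ R * R' = R' ∧ (G + R) * G' = G' ∧
      FracRange A ξ ω R' (fun j => c j - ⟪ξ j, G' (ω j)⟫_ℂ) ∧
      ∀ j, ‖R' (ξ j)‖ ≤ η ∧ ‖R' (ω j)‖ ≤ η ∧ ‖c j - ⟪ξ j, G' (ω j)⟫_ℂ‖ ≤ η := by
  classical
  obtain ⟨Pf, hPf⟩ : ∃ Pf : Finset B, Pf = Finset.univ.filter (fun β => 0 < S β ∧ S β < 1) :=
    ⟨_, rfl⟩
  obtain ⟨P1, hP1⟩ : ∃ P1 : Finset B, P1 = Finset.univ.filter (fun β => S β = 1) := ⟨_, rfl⟩
  have hmemf : ∀ β, β ∈ Pf ↔ (0 < S β ∧ S β < 1) := by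
    intro β
    rw [hPf]
    simp
  have hmem1 : ∀ β, β ∈ P1 ↔ S β = 1 := by
    intro β
    rw [hP1]
    simp
  have hcardf : Pf.card ≤ d := by
    rw [hPf]
    exact hcard
  obtain ⟨R', hR'⟩ : ∃ R' : H →L[ℂ] H, R' = ∑ β ∈ Pf, F β := ⟨_, rfl⟩
  obtain ⟨Q, hQ⟩ : ∃ Q : H →L[ℂ] H, Q = ∑ β ∈ P1, F β := ⟨_, rfl⟩
  have hRG : R * G = 0 := by
    rw [hAc R hRA G hGA]
    exact hGR
  have hRF : ∀ β, R * F β = F β := by
    intro β
    rw [← hFs, Finset.sum_mul, Finset.sum_eq_single β]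
    · exact (hFp β).isIdempotentElem.eq
    · intro b _ hb
      exact hFo b β hb
    · intro h
      exact absurd (Finset.mem_univ β) h
  have hFR : ∀ β, F β * R = F β := by
    intro β
    rw [hAc (F β) (hFA β) R hRA]
    exact hRF β
  have hGF : ∀ β, G * F β = 0 := by
    intro β
    rw [← hRF β, ← mul_assoc, hGR, zero_mul]
  have hFG : ∀ β, F β * G = 0 := by
    intro β
    rw [← hFR β, mul_assoc, hRG, mul_zero]
  have hQA : Q ∈ A := by
    rw [hQ]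
    exact sum_mem (fun β _ => hFA β)
  have hR'A : R' ∈ A := by
    rw [hR']
    exact sum_mem (fun β _ => hFA β)
  have hQp : IsStarProjection Q := by
    rw [hQ]
    exact isStarProjection_sum _ F (fun β _ => hFp β) (fun β _ β' _ h => hFo β β' h)
  have hR'p : IsStarProjection R' := by
    rw [hR']
    exact isStarProjection_sum _ F (fun β _ => hFp β) (fun β _ β' _ h => hFo β β' h)
  have hGQ : G * Q = 0 := by
    rw [hQ, Finset.mul_sum]
    exact Finset.sum_eq_zero (fun β _ => hGF β)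
  have hQG : Q * G = 0 := by
    rw [hQ, Finset.sum_mul]
    exact Finset.sum_eq_zero (fun β _ => hFG β)
  have hQR' : Q * R' = 0 := by
    rw [hQ, hR', Finset.sum_mul_sum]
    refine Finset.sum_eq_zero (fun β hβ => Finset.sum_eq_zero (fun β' hβ' => hFo β β' ?_))
    intro h
    subst h
    have h1 := (hmem1 β).1 hβ
    have h2 := (hmemf β).1 hβ'
    linarith [h2.2]
  have hGR' : G * R' = 0 := by
    rw [hR', Finset.mul_sum]
    exact Finset.sum_eq_zero (fun β _ => hGF β)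
  have hRR' : R * R' = R' := by
    rw [hR', Finset.mul_sum]
    exact Finset.sum_congr rfl (fun β _ => hRF β)
  have hRQ : R * Q = Q := by
    rw [hQ, Finset.mul_sum]
    exact Finset.sum_congr rfl (fun β _ => hRF β)
  have hsplit : ∀ x : B → ℂ,
      ∑ β, (S β : ℂ) * x β = ∑ β ∈ Pf, (S β : ℂ) * x β + ∑ β ∈ P1, x β := by
    intro x
    rw [hPf, hP1, Finset.sum_filter, Finset.sum_filter, ← Finset.sum_add_distrib]
    refine Finset.sum_congr rfl (fun β _ => ?_)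
    by_cases h1 : S β = 1
    · have h2 : ¬ (0 < S β ∧ S β < 1) := by
        rintro ⟨_, h⟩
        linarith
      rw [if_neg h2, if_pos h1, h1]
      simp
    · by_cases h0 : S β = 0
      · have h2 : ¬ (0 < S β ∧ S β < 1) := by
          rintro ⟨h, _⟩
          linarith
        rw [if_neg h2, if_neg h1, h0]
        simp
      · have h2 : 0 < S β ∧ S β < 1 :=
          ⟨lt_of_le_of_ne (hS β).1 (Ne.symm h0), lt_of_le_of_ne (hS β).2 h1⟩
        rw [if_pos h2, if_neg h1, add_zero]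
  have hval : ∀ j, c j - ⟪ξ j, (G + Q) (ω j)⟫_ℂ
      = ∑ β ∈ Pf, (S β : ℂ) * ⟪ξ j, F β (ω j)⟫_ℂ := by
    intro j
    have h1 := hcomb j
    rw [hsplit] at h1
    have h2 : ⟪ξ j, (G + Q) (ω j)⟫_ℂ
        = ⟪ξ j, G (ω j)⟫_ℂ + ∑ β ∈ P1, ⟪ξ j, F β (ω j)⟫_ℂ := by
      rw [add_apply, inner_add_right, hQ, sum_apply, inner_sum]
    rw [h2]
    linear_combination h1
  have hnorm : ∀ v : H, (∀ β, ‖F β v‖ ≤ η') → ‖R' v‖ ≤ η := by
    intro v hv
    have h1 : ‖R' v‖ ^ 2 = ∑ β ∈ Pf, ‖F β v‖ ^ 2 := by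
      rw [hR', sum_apply]
      refine norm_sq_sum_of_orthogonal Pf (fun β => F β v) (fun β _ β' _ hne => ?_)
      have h2 := adjoint_inner_left (F β) (F β' v) v
      rw [(hFp β).isSelfAdjoint.adjoint_eq] at h2
      rw [h2, ← mul_apply_eq_comp, hFo β β' hne, zero_apply, inner_zero_right]
    have h3 : ∑ β ∈ Pf, ‖F β v‖ ^ 2 ≤ ∑ _β ∈ Pf, η' ^ 2 :=
      Finset.sum_le_sum (fun β _ => pow_le_pow_left₀ (norm_nonneg _) (hv β) 2)
    have h4 : ∑ _β ∈ Pf, η' ^ 2 = (Pf.card : ℝ) * η' ^ 2 := by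
      rw [Finset.sum_const, nsmul_eq_mul]
    have h5 : (Pf.card : ℝ) * η' ^ 2 ≤ (d : ℝ) * η' ^ 2 :=
      mul_le_mul_of_nonneg_right (by exact_mod_cast hcardf) (sq_nonneg _)
    have h6 : ‖R' v‖ ^ 2 ≤ η ^ 2 := by linarith
    exact (sq_le_sq₀ (norm_nonneg _) hη.le).1 h6
  refine ⟨G + Q, R', add_mem hGA hQA, hG.add hQp hGQ, hR'A, hR'p, ?_, ?_, hRR', ?_, ?_, ?_⟩
  · rw [add_mul, hGR', hQR', add_zero]
  · rw [add_mul, hG.isIdempotentElem.eq, hQG, add_zero]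
  · rw [add_mul, mul_add, mul_add, hG.isIdempotentElem.eq, hGQ, hRG, hRQ, add_zero, zero_add]
  · refine ⟨↥Pf, inferInstance, fun β => F β.1, fun β => S β.1, fun β => ⟨hFA _, hFp _⟩,
      fun β β' h => hFo _ _ (fun h' => h (Subtype.ext h')), ?_, fun β => hS _, ?_⟩
    · rw [hR']
      exact Finset.sum_coe_sort Pf F
    · intro j
      show c j - ⟪ξ j, (G + Q) (ω j)⟫_ℂ = ∑ k : ↥Pf, (S k.1 : ℂ) * ⟪ξ j, F k.1 (ω j)⟫_ℂ
      rw [hval j]
      exact (Finset.sum_coe_sort Pf (fun β => (S β : ℂ) * ⟪ξ j, F β (ω j)⟫_ℂ)).symm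
  · intro j
    refine ⟨hnorm _ (fun β => hξ β j), hnorm _ (fun β => hω β j), ?_⟩
    rw [hval j]
    have hterm : ∀ β ∈ Pf, ‖(S β : ℂ) * ⟪ξ j, F β (ω j)⟫_ℂ‖ ≤ η' ^ 2 := by
      intro β _
      rw [norm_mul, Complex.norm_real, Real.norm_of_nonneg (hS β).1,
        taskW3_proj_inner (hFp β)]
      have h1 : ‖⟪F β (ξ j), F β (ω j)⟫_ℂ‖ ≤ ‖F β (ξ j)‖ * ‖F β (ω j)‖ :=
        norm_inner_le_norm _ _
      have h2 : ‖F β (ξ j)‖ * ‖F β (ω j)‖ ≤ η' * η' :=
        mul_le_mul (hξ β j) (hω β j) (norm_nonneg _) hη'.le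
      have h3 : S β * ‖⟪F β (ξ j), F β (ω j)⟫_ℂ‖ ≤ 1 * (η' * η') :=
        mul_le_mul (hS β).2 (h1.trans h2) (norm_nonneg _) zero_le_one
      rw [sq]
      linarith
    calc ‖∑ β ∈ Pf, (S β : ℂ) * ⟪ξ j, F β (ω j)⟫_ℂ‖
        ≤ ∑ β ∈ Pf, ‖(S β : ℂ) * ⟪ξ j, F β (ω j)⟫_ℂ‖ := norm_sum_le _ _
      _ ≤ ∑ _β ∈ Pf, η' ^ 2 := Finset.sum_le_sum hterm
      _ = (Pf.card : ℝ) * η' ^ 2 := by rw [Finset.sum_const, nsmul_eq_mul]
      _ ≤ (d : ℝ) * η' ^ 2 :=
        mul_le_mul_of_nonneg_right (by exact_mod_cast hcardf) (sq_nonneg _)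
      _ ≤ η := hd1

theorem lyapunov_step (A : VonNeumannAlgebra H) (hAc : ∀ a ∈ A, ∀ b ∈ A, a * b = b * a)
    (hdiff : IsDiffuse A) {J : Type} [Fintype J] (ξ ω : J → H) (c : J → ℂ)
    {G R : H →L[ℂ] H} (hGA : G ∈ A) (hG : IsStarProjection G) (hRA : R ∈ A)
    (hR : IsStarProjection R) (hGR : G * R = 0)
    (hb : FracRange A ξ ω R (fun j => c j - ⟪ξ j, G (ω j)⟫_ℂ)) {η : ℝ} (hη : 0 < η) :
    ∃ G' R' : H →L[ℂ] H, G' ∈ A ∧ IsStarProjection G' ∧ R' ∈ A ∧ IsStarProjection R' ∧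
      G' * R' = 0 ∧ G' * G = G ∧ R * R' = R' ∧ (G + R) * G' = G' ∧
      FracRange A ξ ω R' (fun j => c j - ⟪ξ j, G' (ω j)⟫_ℂ) ∧
      ∀ j, ‖R' (ξ j)‖ ≤ η ∧ ‖R' (ω j)‖ ≤ η ∧ ‖c j - ⟪ξ j, G' (ω j)⟫_ℂ‖ ≤ η := by
  classical
  have _hR := hR
  obtain ⟨κ, hκ, f, s, hf, hfo, hfs, hs, hbc⟩ := hb
  obtain ⟨η', hη', hd1, hd2⟩ := taskW3_eta (Module.finrank ℝ (J → ℂ)) hη
  obtain ⟨κ₂, hκ₂, f₂, hf₂, hf₂b⟩ :=
    exists_fine_partition_family A hAc hdiff (Sum.elim ξ ω) hη'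
  obtain ⟨hf₂A, hf₂p, hf₂o, hf₂s⟩ := hf₂
  obtain ⟨F, hF⟩ : ∃ F : κ × κ₂ → H →L[ℂ] H, F = fun β => f β.1 * f₂ β.2 := ⟨_, rfl⟩
  have hFA : ∀ β, F β ∈ A := by
    intro β
    rw [hF]
    exact mul_mem (hf β.1).1 (hf₂A β.2)
  have hFp : ∀ β, IsStarProjection (F β) := by
    intro β
    rw [hF]
    exact (hf β.1).2.mul (hf₂p β.2) (hAc _ (hf β.1).1 _ (hf₂A β.2))
  have hFo : ∀ β β', β ≠ β' → F β * F β' = 0 := by
    rintro ⟨k, l⟩ ⟨k', l'⟩ hne
    rw [hF]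
    have hcomm : f₂ l * f k' = f k' * f₂ l := hAc _ (hf₂A l) _ (hf k').1
    have hre : (f k * f₂ l) * (f k' * f₂ l') = (f k * f k') * (f₂ l * f₂ l') := by
      calc (f k * f₂ l) * (f k' * f₂ l') = f k * (f₂ l * f k') * f₂ l' := by
            simp only [mul_assoc]
        _ = f k * (f k' * f₂ l) * f₂ l' := by rw [hcomm]
        _ = (f k * f k') * (f₂ l * f₂ l') := by simp only [mul_assoc]
    show (f k * f₂ l) * (f k' * f₂ l') = 0
    rw [hre]
    by_cases hk : k = k'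
    · have hl : l ≠ l' := fun hl => hne (by rw [hk, hl])
      rw [hf₂o l l' hl, mul_zero]
    · rw [hfo k k' hk, zero_mul]
  have hFs : ∑ β, F β = R := by
    rw [hF, Fintype.sum_prod_type]
    simp only [← Finset.mul_sum, hf₂s, mul_one, hfs]
  have hFξ : ∀ β j, ‖F β (ξ j)‖ ≤ η' := by
    intro β j
    rw [hF]
    exact (taskP_norm_le A hAc (hf β.1).1 (hf₂A β.2) (hf β.1).2 (hf₂p β.2) (ξ j)).2.trans
      (hf₂b β.2 (Sum.inl j))
  have hFω : ∀ β j, ‖F β (ω j)‖ ≤ η' := by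
    intro β j
    rw [hF]
    exact (taskP_norm_le A hAc (hf β.1).1 (hf₂A β.2) (hf β.1).2 (hf₂p β.2) (ω j)).2.trans
      (hf₂b β.2 (Sum.inr j))
  have hcomb : ∀ j, c j - ⟪ξ j, G (ω j)⟫_ℂ
      = ∑ β : κ × κ₂, (s β.1 : ℂ) * ⟪ξ j, F β (ω j)⟫_ℂ := by
    intro j
    have hbc' : c j - ⟪ξ j, G (ω j)⟫_ℂ = ∑ k, (s k : ℂ) * ⟪ξ j, f k (ω j)⟫_ℂ := hbc j
    rw [hbc', Fintype.sum_prod_type]
    refine Finset.sum_congr rfl (fun k _ => ?_)
    have h1 : ∀ y : κ₂, ⟪ξ j, F (k, y) (ω j)⟫_ℂ = ⟪ξ j, f k (f₂ y (ω j))⟫_ℂ := by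
      intro y
      rw [hF]
      rfl
    show (s k : ℂ) * ⟪ξ j, f k (ω j)⟫_ℂ = ∑ y : κ₂, (s k : ℂ) * ⟪ξ j, F (k, y) (ω j)⟫_ℂ
    simp only [h1]
    rw [← Finset.mul_sum, ← inner_sum, ← map_sum, ← sum_apply, hf₂s, one_apply_eq_self]
  obtain ⟨S', hS', hcomb', hcard⟩ := exists_few_fractional (V := J → ℂ)
    (fun β : κ × κ₂ => fun j => ⟪ξ j, F β (ω j)⟫_ℂ) (fun β => s β.1) (fun β => hs β.1)
  have hcomb'' : ∀ j, c j - ⟪ξ j, G (ω j)⟫_ℂ = ∑ β, (S' β : ℂ) * ⟪ξ j, F β (ω j)⟫_ℂ := by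
    intro j
    rw [hcomb j]
    have h1 := congrFun hcomb' j
    simp only [Finset.sum_apply, Pi.smul_apply, Complex.real_smul] at h1
    exact h1.symm
  exact taskW3_core A hAc ξ ω c hGA hG hRA hGR F S' hFA hFp hFo hFs hS' hcomb'' hη hη' hd1 hd2
    hFξ hFω hcard

/-! ### The exact fraction lemma -/

/-- A sequence built by dependent choice. -/
theorem exists_seq_of_step {α : Type*} (P : ℕ → α → Prop) (R : α → α → Prop) (a0 : α)
    (h0 : P 0 a0) (hstep : ∀ n a, P n a → ∃ b, P (n + 1) b ∧ R a b) :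
    ∃ f : ℕ → α, (∀ n, P n (f n)) ∧ ∀ n, R (f n) (f (n + 1)) := by
  classical
  have : Nonempty α := ⟨a0⟩
  choose! F hF using hstep
  obtain ⟨f, hf⟩ : ∃ f : ℕ → α, f = fun n => Nat.rec a0 (fun n a => F n a) n := ⟨_, rfl⟩
  have hf0 : f 0 = a0 := by
    subst hf
    rfl
  have hfs : ∀ n, f (n + 1) = F n (f n) := fun n => by
    subst hf
    rfl
  have hP : ∀ n, P n (f n) := by
    intro n
    induction n with
    | zero => rw [hf0]; exact h0
    | succ n ih => rw [hfs]; exact (hF n (f n) ih).1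
  refine ⟨f, hP, fun n => ?_⟩
  rw [hfs]
  exact (hF n (f n) (hP n)).2

lemma eq_zero_of_nat_mul_le {a C : ℝ} (ha : 0 ≤ a) (h : ∀ m : ℕ, (m : ℝ) * a ≤ C) : a = 0 := by
  by_contra hne
  have hpos : 0 < a := lt_of_le_of_ne ha (Ne.symm hne)
  obtain ⟨m, hm⟩ := exists_nat_gt (C / a)
  rw [div_lt_iff₀ hpos] at hm
  exact absurd (h m) (not_le.mpr hm)

/-- Exact Lyapunov: below a projection `E` of a diffuse abelian von Neumann algebra there is a
subprojection carrying exactly the fraction `t` of finitely many functionals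
`g ↦ ⟪ξ j, g (ω j)⟫`. -/
theorem exists_subprojection_fraction (A : VonNeumannAlgebra H)
    (hAc : ∀ a ∈ A, ∀ b ∈ A, a * b = b * a) (hdiff : IsDiffuse A) {J : Type} [Fintype J]
    (ξ ω : J → H) {E : H →L[ℂ] H} (hEA : E ∈ A) (hE : IsStarProjection E) {t : ℝ}
    (ht0 : 0 ≤ t) (ht1 : t ≤ 1) :
    ∃ g ∈ A, IsStarProjection g ∧ E * g = g ∧
      ∀ j, ⟪ξ j, g (ω j)⟫_ℂ = (t : ℂ) * ⟪ξ j, E (ω j)⟫_ℂ := by
  classical
  obtain ⟨c, hc⟩ : ∃ c : J → ℂ, c = fun j => (t : ℂ) * ⟪ξ j, E (ω j)⟫_ℂ := ⟨_, rfl⟩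
  obtain ⟨P, hP⟩ : ∃ P : ℕ → (H →L[ℂ] H) × (H →L[ℂ] H) → Prop, P =
      fun (m : ℕ) (s : (H →L[ℂ] H) × (H →L[ℂ] H)) =>
      s.1 ∈ A ∧ IsStarProjection s.1 ∧ s.2 ∈ A ∧ IsStarProjection s.2 ∧ s.1 * s.2 = 0 ∧
      E * s.1 = s.1 ∧ E * s.2 = s.2 ∧
      FracRange A ξ ω s.2 (fun j => c j - ⟪ξ j, s.1 (ω j)⟫_ℂ) ∧
      ∀ j, (m : ℝ) * ‖s.2 (ξ j)‖ ≤ 1 ∧ (m : ℝ) * ‖c j - ⟪ξ j, s.1 (ω j)⟫_ℂ‖ ≤ 1 := ⟨_, rfl⟩
  obtain ⟨Rel, hRel⟩ : ∃ Rel : (H →L[ℂ] H) × (H →L[ℂ] H) → (H →L[ℂ] H) × (H →L[ℂ] H) → Prop,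
      Rel = fun (s s' : (H →L[ℂ] H) × (H →L[ℂ] H)) => s'.1 * s.1 = s.1 ∧ s.2 * s'.2 = s'.2 ∧ (s.1 + s.2) * s'.1 = s'.1 :=
    ⟨_, rfl⟩
  have h0 : P 0 (0, E) := by
    rw [hP]
    refine ⟨zero_mem A, IsStarProjection.zero _, hEA, hE, zero_mul _, mul_zero _,
      hE.isIdempotentElem.eq, ?_, ?_⟩
    · refine ⟨Unit, inferInstance, fun _ => E, fun _ => t, fun _ => ⟨hEA, hE⟩,
        fun k l h => absurd (Subsingleton.elim k l) h, by simp, fun _ => ⟨ht0, ht1⟩, fun j => ?_⟩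
      simp [hc]
    · intro j
      simp
  have hstep : ∀ m s, P m s → ∃ s', P (m + 1) s' ∧ Rel s s' := by
    intro m s hs
    rw [hP] at hs
    obtain ⟨G, R⟩ := s
    obtain ⟨hGA, hG, hRA, hR, hGR, hEG, hER, hb, -⟩ := hs
    have hm : (0 : ℝ) < (m : ℝ) + 1 := by positivity
    have hη : (0 : ℝ) < 1 / ((m : ℝ) + 1) := by positivity
    obtain ⟨G', R', hG'A, hG', hR'A, hR', hG'R', hGG', hRR', hGRG', hb', hbd⟩ :=
      lyapunov_step A hAc hdiff ξ ω c hGA hG hRA hR hGR hb hη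
    refine ⟨(G', R'), ?_, ?_⟩
    · rw [hP]
      refine ⟨hG'A, hG', hR'A, hR', hG'R', ?_, ?_, hb', ?_⟩
      · calc E * G' = E * ((G + R) * G') := by rw [hGRG']
          _ = (E * G + E * R) * G' := by rw [← mul_assoc, mul_add]
          _ = G' := by rw [hEG, hER, hGRG']
      · calc E * R' = E * (R * R') := by rw [hRR']
          _ = (E * R) * R' := by rw [mul_assoc]
          _ = R' := by rw [hER, hRR']
      · intro j
        obtain ⟨h1, -, h3⟩ := hbd j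
        constructor
        · push_cast
          calc ((m : ℝ) + 1) * ‖R' (ξ j)‖ ≤ ((m : ℝ) + 1) * (1 / ((m : ℝ) + 1)) := by gcongr
            _ = 1 := by field_simp
        · push_cast
          calc ((m : ℝ) + 1) * ‖c j - ⟪ξ j, G' (ω j)⟫_ℂ‖
              ≤ ((m : ℝ) + 1) * (1 / ((m : ℝ) + 1)) := by gcongr
            _ = 1 := by field_simp
    · rw [hRel]
      exact ⟨hGG', hRR', hGRG'⟩
  obtain ⟨f, hfP, hfR⟩ := exists_seq_of_step P Rel (0, E) h0 hstep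
  simp only [hP] at hfP
  simp only [hRel] at hfR
  obtain ⟨G, hGdef⟩ : ∃ G : ℕ → H →L[ℂ] H, G = fun m => (f m).1 := ⟨_, rfl⟩
  obtain ⟨R, hRdef⟩ : ∃ R : ℕ → H →L[ℂ] H, R = fun m => (f m).2 := ⟨_, rfl⟩
  have hGA : ∀ m, G m ∈ A := fun m => by rw [hGdef]; exact (hfP m).1
  have hGp : ∀ m, IsStarProjection (G m) := fun m => by rw [hGdef]; exact (hfP m).2.1
  have hRA : ∀ m, R m ∈ A := fun m => by rw [hRdef]; exact (hfP m).2.2.1
  have hRp : ∀ m, IsStarProjection (R m) := fun m => by rw [hRdef]; exact (hfP m).2.2.2.1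
  have hGR : ∀ m, G m * R m = 0 := fun m => by rw [hGdef, hRdef]; exact (hfP m).2.2.2.2.1
  have hEG : ∀ m, E * G m = G m := fun m => by rw [hGdef]; exact (hfP m).2.2.2.2.2.1
  have hbd : ∀ (m : ℕ) (j : J), (m : ℝ) * ‖R m (ξ j)‖ ≤ 1 ∧ (m : ℝ) * ‖c j - ⟪ξ j, G m (ω j)⟫_ℂ‖ ≤ 1 :=
    fun m j => by rw [hGdef, hRdef]; exact (hfP m).2.2.2.2.2.2.2.2 j
  have hmono : ∀ m, G (m + 1) * G m = G m := fun m => by rw [hGdef]; exact (hfR m).1
  have hRR : ∀ m, R m * R (m + 1) = R (m + 1) := fun m => by rw [hRdef]; exact (hfR m).2.1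
  have hVG : ∀ m, (G m + R m) * G (m + 1) = G (m + 1) := fun m => by
    rw [hGdef, hRdef]; exact (hfR m).2.2
  have hRG : ∀ m, R m * G m = 0 := fun m => by
    rw [hAc _ (hRA m) _ (hGA m)]; exact hGR m
  obtain ⟨Q, hQA, hQp, hQG, hQlub⟩ := exists_seq_sup A G hGA hGp hmono
  have hle : ∀ m n, m ≤ n → G n * G m = G m := by
    intro m n hmn
    induction n, hmn using Nat.le_induction with
    | base => exact (hGp m).isIdempotentElem.eq
    | succ n hmn ih =>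
      calc G (n + 1) * G m = G (n + 1) * (G n * G m) := by rw [ih]
        _ = (G (n + 1) * G n) * G m := by rw [mul_assoc]
        _ = G n * G m := by rw [hmono]
        _ = G m := ih
  -- the decreasing upper bounds `V m = G m + R m`
  have hVV : ∀ m, (G m + R m) * (G (m + 1) + R (m + 1)) = G (m + 1) + R (m + 1) := by
    intro m
    rw [mul_add, hVG]
    congr 1
    calc (G m + R m) * R (m + 1) = (G m + R m) * (R m * R (m + 1)) := by rw [hRR]
      _ = (G m * R m + R m * R m) * R (m + 1) := by rw [← mul_assoc, add_mul]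
      _ = R (m + 1) := by rw [hGR, (hRp m).isIdempotentElem.eq, zero_add, hRR]
  have hVidem : ∀ m, (G m + R m) * (G m + R m) = G m + R m := by
    intro m
    rw [mul_add, add_mul, add_mul, (hGp m).isIdempotentElem.eq, (hRp m).isIdempotentElem.eq,
      hGR, hRG, add_zero, zero_add]
  have hVle : ∀ m n, m ≤ n → (G m + R m) * (G n + R n) = G n + R n := by
    intro m n hmn
    induction n, hmn using Nat.le_induction with
    | base => exact hVidem m
    | succ n hmn ih =>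
      calc (G m + R m) * (G (n + 1) + R (n + 1))
          = (G m + R m) * ((G n + R n) * (G (n + 1) + R (n + 1))) := by rw [hVV]
        _ = ((G m + R m) * (G n + R n)) * (G (n + 1) + R (n + 1)) := by rw [mul_assoc]
        _ = G (n + 1) + R (n + 1) := by rw [ih, hVV]
  have hVGn : ∀ n, (G n + R n) * G n = G n := by
    intro n
    rw [add_mul, (hGp n).isIdempotentElem.eq, hRG, add_zero]
  have hVfix : ∀ m n, (G m + R m) * G n = G n := by
    intro m n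
    rcases le_total m n with h | h
    · calc (G m + R m) * G n = (G m + R m) * ((G n + R n) * G n) := by rw [hVGn]
        _ = ((G m + R m) * (G n + R n)) * G n := by rw [mul_assoc]
        _ = G n := by rw [hVle m n h, hVGn]
    · calc (G m + R m) * G n = (G m + R m) * (G m * G n) := by rw [hle n m h]
        _ = ((G m + R m) * G m) * G n := by rw [mul_assoc]
        _ = G n := by rw [hVGn, hle n m h]
  have hQdec : ∀ m, Q = G m + R m * Q := by
    intro m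
    have h1 : (G m + R m) * Q = Q := hQlub _ (hVfix m)
    have h2 : G m * Q = G m := taskS_mul_comm_of_le hQp (hGp m) (hQG m)
    rw [add_mul, h2] at h1
    exact h1.symm
  have hEQ : E * Q = Q := hQlub E hEG
  refine ⟨Q, hQA, hQp, hEQ, fun j => ?_⟩
  have hcj : c j = (t : ℂ) * ⟪ξ j, E (ω j)⟫_ℂ := by rw [hc]
  rw [← hcj]
  have hzero : ‖c j - ⟪ξ j, Q (ω j)⟫_ℂ‖ = 0 := by
    refine eq_zero_of_nat_mul_le (C := 1 + ‖ω j‖) (norm_nonneg _) (fun m => ?_)
    obtain ⟨h1, h2⟩ := hbd m j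
    have h3 : ⟪ξ j, Q (ω j)⟫_ℂ = ⟪ξ j, G m (ω j)⟫_ℂ + ⟪R m (ξ j), Q (ω j)⟫_ℂ := by
      conv_lhs => rw [hQdec m]
      rw [add_apply, inner_add_right, mul_apply_eq_comp, ← adjoint_inner_left (R m),
        (hRp m).isSelfAdjoint.adjoint_eq]
    have h4 : ‖⟪R m (ξ j), Q (ω j)⟫_ℂ‖ ≤ ‖R m (ξ j)‖ * ‖ω j‖ := by
      calc ‖⟪R m (ξ j), Q (ω j)⟫_ℂ‖ ≤ ‖R m (ξ j)‖ * ‖Q (ω j)‖ := norm_inner_le_norm _ _
        _ ≤ ‖R m (ξ j)‖ * (‖Q‖ * ‖ω j‖) := by
            gcongr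
            exact le_opNorm _ _
        _ ≤ ‖R m (ξ j)‖ * (1 * ‖ω j‖) := by
            gcongr
            exact IsStarProjection.norm_le _ hQp
        _ = ‖R m (ξ j)‖ * ‖ω j‖ := by rw [one_mul]
    have h5 : ‖c j - ⟪ξ j, Q (ω j)⟫_ℂ‖
        ≤ ‖c j - ⟪ξ j, G m (ω j)⟫_ℂ‖ + ‖R m (ξ j)‖ * ‖ω j‖ := by
      have h6 : c j - ⟪ξ j, Q (ω j)⟫_ℂ
          = (c j - ⟪ξ j, G m (ω j)⟫_ℂ) - ⟪R m (ξ j), Q (ω j)⟫_ℂ := by
        rw [h3]
        ring
      rw [h6]
      exact (norm_sub_le _ _).trans (add_le_add le_rfl h4)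
    have hm0 : (0 : ℝ) ≤ m := Nat.cast_nonneg m
    calc (m : ℝ) * ‖c j - ⟪ξ j, Q (ω j)⟫_ℂ‖
        ≤ (m : ℝ) * (‖c j - ⟪ξ j, G m (ω j)⟫_ℂ‖ + ‖R m (ξ j)‖ * ‖ω j‖) := by gcongr
      _ = (m : ℝ) * ‖c j - ⟪ξ j, G m (ω j)⟫_ℂ‖ + ((m : ℝ) * ‖R m (ξ j)‖) * ‖ω j‖ := by ring
      _ ≤ 1 + 1 * ‖ω j‖ := add_le_add h2 (mul_le_mul_of_nonneg_right h1 (norm_nonneg _))
      _ = 1 + ‖ω j‖ := by rw [one_mul]
  rw [norm_eq_zero, sub_eq_zero] at hzero
  exact hzero.symm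

/-! ### Equal splitting -/

/-- Equal splitting of a projection into `n + 1` pieces, by induction on `n`. -/
lemma taskW5_aux (A : VonNeumannAlgebra H)
    (hAc : ∀ a ∈ A, ∀ b ∈ A, a * b = b * a) (hdiff : IsDiffuse A) {J : Type} [Fintype J]
    (ξ ω : J → H) (n : ℕ) :
    ∀ E : H →L[ℂ] H, E ∈ A → IsStarProjection E →
      ∃ g : Fin (n + 1) → H →L[ℂ] H, (∀ c, g c ∈ A ∧ IsStarProjection (g c)) ∧
        (∀ c c', c ≠ c' → g c * g c' = 0) ∧ ∑ c, g c = E ∧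
        ∀ c j, ⟪ξ j, g c (ω j)⟫_ℂ = (1 / ((n + 1 : ℕ) : ℂ)) * ⟪ξ j, E (ω j)⟫_ℂ := by
  induction n with
  | zero =>
    intro E hEA hE
    refine ⟨fun _ => E, fun _ => ⟨hEA, hE⟩, ?_, ?_, ?_⟩
    · intro c c' hcc'
      have h1 := c.isLt
      have h2 := c'.isLt
      exact absurd (Fin.ext (by omega)) hcc'
    · simp
    · intro c j
      simp
  | succ n ih =>
    intro E hEA hE
    have hn0 : (0 : ℝ) ≤ (n : ℝ) := Nat.cast_nonneg n
    have ht0 : (0 : ℝ) ≤ 1 / ((n : ℝ) + 2) := by positivity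
    have ht1 : 1 / ((n : ℝ) + 2) ≤ 1 := by
      rw [div_le_one (by positivity)]
      linarith
    obtain ⟨g₀, hg₀A, hg₀, hEg₀, hfrac⟩ :=
      exists_subprojection_fraction A hAc hdiff ξ ω hEA hE ht0 ht1
    have hE' : IsStarProjection (E - g₀) := taskS_isStarProjection_sub hE hg₀ hEg₀
    have hE'A : E - g₀ ∈ A := sub_mem hEA hg₀A
    obtain ⟨g', hg'1, hg'orth, hg'sum, hg'frac⟩ := ih (E - g₀) hE'A hE'
    have hg₀E : g₀ * E = g₀ := taskS_mul_comm_of_le hE hg₀ hEg₀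
    have h0 : g₀ * (E - g₀) = 0 := by
      rw [mul_sub, hg₀E, hg₀.isIdempotentElem.eq, sub_self]
    have hsub : ∀ c, (E - g₀) * g' c = g' c := by
      intro c
      rw [← hg'sum, Finset.sum_mul, Finset.sum_eq_single c]
      · exact (hg'1 c).2.isIdempotentElem.eq
      · intro b _ hb
        exact hg'orth b c hb
      · intro h
        exact absurd (Finset.mem_univ c) h
    have hg₀g' : ∀ c, g₀ * g' c = 0 := by
      intro c
      rw [← hsub c, ← mul_assoc, h0, zero_mul]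
    have hg'g₀ : ∀ c, g' c * g₀ = 0 := by
      intro c
      rw [hAc _ (hg'1 c).1 _ hg₀A]
      exact hg₀g' c
    have hn1 : ((n : ℂ) + 1) ≠ 0 := by exact_mod_cast Nat.succ_ne_zero n
    have hn2 : ((n : ℂ) + 2) ≠ 0 := by exact_mod_cast (by omega : n + 2 ≠ 0)
    refine ⟨Fin.cons g₀ g', ?_, ?_, ?_, ?_⟩
    · intro c
      refine Fin.cases ?_ ?_ c
      · simp only [Fin.cons_zero]
        exact ⟨hg₀A, hg₀⟩
      · intro i
        simp only [Fin.cons_succ]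
        exact hg'1 i
    · intro c c'
      refine Fin.cases ?_ ?_ c
      · refine Fin.cases ?_ ?_ c'
        · intro hcc
          exact absurd rfl hcc
        · intro i _
          simp only [Fin.cons_zero, Fin.cons_succ]
          exact hg₀g' i
      · intro i
        refine Fin.cases ?_ ?_ c'
        · intro _
          simp only [Fin.cons_zero, Fin.cons_succ]
          exact hg'g₀ i
        · intro i' hii'
          simp only [Fin.cons_succ]
          exact hg'orth i i' (fun h => hii' (by rw [h]))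
    · rw [Fin.sum_univ_succ]
      simp only [Fin.cons_zero, Fin.cons_succ]
      rw [hg'sum]
      abel
    · intro c j
      refine Fin.cases ?_ ?_ c
      · simp only [Fin.cons_zero]
        rw [hfrac j]
        congr 1
        push_cast
        ring
      · intro i
        simp only [Fin.cons_succ]
        rw [hg'frac i j, sub_apply, inner_sub_right, hfrac j]
        push_cast
        field_simp
        ring

theorem exists_equal_partition (A : VonNeumannAlgebra H)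
    (hAc : ∀ a ∈ A, ∀ b ∈ A, a * b = b * a) (hdiff : IsDiffuse A) {J : Type} [Fintype J]
    (ξ ω : J → H) {E : H →L[ℂ] H} (hEA : E ∈ A) (hE : IsStarProjection E) {r : ℕ} (hr : 0 < r) :
    ∃ g : Fin r → H →L[ℂ] H, (∀ c, g c ∈ A ∧ IsStarProjection (g c)) ∧
      (∀ c c', c ≠ c' → g c * g c' = 0) ∧ ∑ c, g c = E ∧
      ∀ c j, ⟪ξ j, g c (ω j)⟫_ℂ = (1 / (r : ℂ)) * ⟪ξ j, E (ω j)⟫_ℂ := by
  obtain ⟨n, rfl⟩ : ∃ n, r = n + 1 := ⟨r - 1, by omega⟩
  exact taskW5_aux A hAc hdiff ξ ω n E hEA hE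

/-! ### Sequential splitting -/

/-- Cross terms between a split family `gi` of `ei` and a new family `g'` that splits every
pairing with the vectors `x (gi c zi)` exactly. -/
lemma taskV6a_cross {r : ℕ} (x : H →L[ℂ] H) (hx : IsSelfAdjoint x)
    (gi g' : Fin r → H →L[ℂ] H) (ei : H →L[ℂ] H) (zi z0 : H)
    (hsum : ∑ c, gi c = ei) (hzi : ei zi = zi)
    (hg' : ∀ c c', ⟪x (gi c' zi), g' c z0⟫_ℂ = (1 / (r : ℂ)) * ⟪x (gi c' zi), z0⟫_ℂ) :
    (∑ c, ⟪gi c zi, x (g' c z0)⟫_ℂ = (1 / (r : ℂ)) * ⟪zi, x z0⟫_ℂ) ∧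
      (∑ c, ⟪g' c z0, x (gi c zi)⟫_ℂ = (1 / (r : ℂ)) * ⟪z0, x zi⟫_ℂ) := by
  have h1 : ∑ c, ⟪x (gi c zi), g' c z0⟫_ℂ = (1 / (r : ℂ)) * ⟪x zi, z0⟫_ℂ := by
    have h0 : ∀ c, ⟪x (gi c zi), g' c z0⟫_ℂ = (1 / (r : ℂ)) * ⟪x (gi c zi), z0⟫_ℂ :=
      fun c => hg' c c
    simp only [h0]
    rw [← Finset.mul_sum, ← sum_inner, ← map_sum, ← sum_apply, hsum, hzi]
  constructor
  · have h0 : ∀ c, ⟪gi c zi, x (g' c z0)⟫_ℂ = ⟪x (gi c zi), g' c z0⟫_ℂ := by
      intro c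
      rw [← adjoint_inner_left x (g' c z0) (gi c zi), hx.adjoint_eq]
    simp only [h0]
    rw [h1, ← adjoint_inner_left x z0 zi, hx.adjoint_eq]
  · have h0 : ∀ c, ⟪g' c z0, x (gi c zi)⟫_ℂ =
        (starRingEnd ℂ) ⟪x (gi c zi), g' c z0⟫_ℂ := fun c => (inner_conj_symm _ _).symm
    simp only [h0]
    rw [← map_sum, h1, map_mul, inner_conj_symm]
    congr 1
    simp

theorem exists_exact_splitting {ι : Type} [Fintype ι] [DecidableEq ι] (A : VonNeumannAlgebra H)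
    (hAc : ∀ a ∈ A, ∀ b ∈ A, a * b = b * a) (hdiff : IsDiffuse A)
    (e : ι → H →L[ℂ] H) (heA : ∀ j, e j ∈ A) (hep : ∀ j, IsStarProjection (e j))
    (ζ : ι → H) (hζ : ∀ j, e j (ζ j) = ζ j) (x : H →L[ℂ] H) (hx : IsSelfAdjoint x)
    {r : ℕ} (hr : 0 < r) :
    ∃ g : Fin r → ι → H →L[ℂ] H, (∀ c j, g c j ∈ A ∧ IsStarProjection (g c j)) ∧
      (∀ j c c', c ≠ c' → g c j * g c' j = 0) ∧ (∀ j, ∑ c, g c j = e j) ∧
      ∀ i j, i ≠ j →
        ∑ c, ⟪g c i (ζ i), x (g c j (ζ j))⟫_ℂ = (1 / (r : ℂ)) * ⟪ζ i, x (ζ j)⟫_ℂ := by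
  have key : ∀ S : Finset ι, ∃ g : Fin r → ι → H →L[ℂ] H,
      (∀ c j, g c j ∈ A ∧ IsStarProjection (g c j)) ∧
      (∀ j c c', c ≠ c' → g c j * g c' j = 0) ∧ (∀ j, ∑ c, g c j = e j) ∧
      ∀ i ∈ S, ∀ j ∈ S, i ≠ j →
        ∑ c, ⟪g c i (ζ i), x (g c j (ζ j))⟫_ℂ = (1 / (r : ℂ)) * ⟪ζ i, x (ζ j)⟫_ℂ := by
    intro S
    induction S using Finset.induction_on with
    | empty =>
      refine ⟨fun c j => if c = ⟨0, hr⟩ then e j else 0, ?_, ?_, ?_, ?_⟩
      · intro c j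
        by_cases hc : c = ⟨0, hr⟩
        · simp only [hc, if_true]
          exact ⟨heA j, hep j⟩
        · simp only [hc, if_false]
          exact ⟨zero_mem _, IsStarProjection.zero _⟩
      · intro j c c' hcc
        by_cases hc : c = ⟨0, hr⟩
        · have hc' : c' ≠ ⟨0, hr⟩ := fun h => hcc (hc.trans h.symm)
          simp only [hc', if_false, mul_zero]
        · simp only [hc, if_false, zero_mul]
      · intro j
        rw [Finset.sum_ite_eq' Finset.univ (⟨0, hr⟩ : Fin r) (fun _ => e j)]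
        simp
      · intro i hi
        exact absurd hi (Finset.notMem_empty i)
    | insert j₀ S hj₀ ih =>
      obtain ⟨g, hg1, hg2, hg3, hg4⟩ := ih
      obtain ⟨g', hg'1, hg'2, hg'3, hg'4⟩ := exists_equal_partition A hAc hdiff
        (J := Fin r × ι) (fun p => x (g p.1 p.2 (ζ p.2))) (fun _ => ζ j₀) (heA j₀) (hep j₀) hr
      have hcross : ∀ i,
          (∑ c, ⟪g c i (ζ i), x (g' c (ζ j₀))⟫_ℂ = (1 / (r : ℂ)) * ⟪ζ i, x (ζ j₀)⟫_ℂ) ∧
          (∑ c, ⟪g' c (ζ j₀), x (g c i (ζ i))⟫_ℂ = (1 / (r : ℂ)) * ⟪ζ j₀, x (ζ i)⟫_ℂ) := by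
        intro i
        refine taskV6a_cross x hx (fun c => g c i) g' (e i) (ζ i) (ζ j₀) (hg3 i) (hζ i) ?_
        intro c c'
        have h := hg'4 c (c', i)
        simp only [hζ j₀] at h
        exact h
      refine ⟨fun c j => if j = j₀ then g' c else g c j, ?_, ?_, ?_, ?_⟩
      · intro c j
        by_cases hj : j = j₀
        · simp only [hj, if_true]
          exact hg'1 c
        · simp only [hj, if_false]
          exact hg1 c j
      · intro j c c' hcc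
        by_cases hj : j = j₀
        · simp only [hj, if_true]
          exact hg'2 c c' hcc
        · simp only [hj, if_false]
          exact hg2 j c c' hcc
      · intro j
        by_cases hj : j = j₀
        · simp only [hj, if_true]
          exact hg'3
        · simp only [hj, if_false]
          exact hg3 j
      · intro i hi j hj hij
        rcases Finset.mem_insert.mp hi with hi0 | hiS
        · rcases Finset.mem_insert.mp hj with hj0 | hjS
          · exact absurd (hi0.trans hj0.symm) hij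
          · have hjne : j ≠ j₀ := fun h => hj₀ (h ▸ hjS)
            rw [hi0]
            simp only [if_true, hjne, if_false]
            exact (hcross j).2
        · have hine : i ≠ j₀ := fun h => hj₀ (h ▸ hiS)
          rcases Finset.mem_insert.mp hj with hj0 | hjS
          · rw [hj0]
            simp only [if_true, hine, if_false]
            exact (hcross i).1
          · have hjne : j ≠ j₀ := fun h => hj₀ (h ▸ hjS)
            simp only [hine, hjne, if_false]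
            exact hg4 i hiS j hjS hij
  obtain ⟨g, h1, h2, h3, h4⟩ := key Finset.univ
  exact ⟨g, h1, h2, h3, fun i j hij => h4 i (Finset.mem_univ i) j (Finset.mem_univ j) hij⟩

/-! ### A quadratic bound -/

lemma taskV6b1_re_inner_le (x : H →L[ℂ] H) (v : H) :
    |(⟪v, x v⟫_ℂ).re| ≤ ‖x‖ * ‖v‖ ^ 2 := by
  calc |(⟪v, x v⟫_ℂ).re| ≤ ‖⟪v, x v⟫_ℂ‖ := Complex.abs_re_le_norm _
    _ ≤ ‖v‖ * ‖x v‖ := norm_inner_le_norm _ _
    _ ≤ ‖v‖ * (‖x‖ * ‖v‖) := by
        gcongr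
        exact x.le_opNorm v
    _ = ‖x‖ * ‖v‖ ^ 2 := by ring

lemma taskV6b1_expand (x : H →L[ℂ] H) (a : ℝ) (u w : H) :
    (⟪u - (a : ℂ) • w, x (u - (a : ℂ) • w)⟫_ℂ).re
      = (⟪u, x u⟫_ℂ).re - a * (⟪u, x w⟫_ℂ).re - a * (⟪w, x u⟫_ℂ).re
        + a ^ 2 * (⟪w, x w⟫_ℂ).re := by
  simp only [map_sub, map_smul, inner_sub_left, inner_sub_right, inner_smul_left,
    inner_smul_right, Complex.conj_ofReal, Complex.sub_re, Complex.mul_re, Complex.ofReal_re,
    Complex.ofReal_im]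
  ring

lemma taskV6b1_norm_expand (a : ℝ) (u w : H) :
    ‖u - (a : ℂ) • w‖ ^ 2 = ‖u‖ ^ 2 - 2 * a * (⟪u, w⟫_ℂ).re + a ^ 2 * ‖w‖ ^ 2 := by
  rw [@norm_sub_sq ℂ, inner_smul_right, norm_smul, mul_pow]
  simp only [RCLike.re_to_complex, Complex.mul_re, Complex.ofReal_re, Complex.ofReal_im,
    Complex.norm_real, Real.norm_eq_abs, sq_abs]
  ring

theorem quad_split_bound (x : H →L[ℂ] H) (hx : IsSelfAdjoint x) {r : ℕ} (hr : 0 < r)
    (z : Fin r → H) (horth : ∀ c c', c ≠ c' → ⟪z c, z c'⟫_ℂ = 0) :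
    |∑ c, (⟪z c, x (z c)⟫_ℂ).re - (1 / (r : ℝ)) * (⟪∑ c, z c, x (∑ c, z c)⟫_ℂ).re|
      ≤ ‖x‖ * ‖∑ c, z c‖ ^ 2 := by
  have hr0 : (0 : ℝ) < (r : ℝ) := by exact_mod_cast hr
  obtain ⟨ζ, hζ⟩ : ∃ ζ : H, ζ = ∑ c, z c := ⟨_, rfl⟩
  obtain ⟨a, ha⟩ : ∃ a : ℝ, a = 1 / (r : ℝ) := ⟨_, rfl⟩
  have ha0 : 0 ≤ a := by rw [ha]; positivity
  have ha1 : a ≤ 1 := by
    rw [ha, div_le_one hr0]
    exact_mod_cast hr
  have hra : (r : ℝ) * a = 1 := by rw [ha]; field_simp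
  rw [← hζ, ← ha]
  -- sums of cross terms
  have h1 : ∑ c, (⟪z c, x ζ⟫_ℂ).re = (⟪ζ, x ζ⟫_ℂ).re := by
    rw [← Complex.re_sum, ← sum_inner, ← hζ]
  have h2 : ∑ c, (⟪ζ, x (z c)⟫_ℂ).re = (⟪ζ, x ζ⟫_ℂ).re := by
    rw [← Complex.re_sum, ← inner_sum, ← map_sum, ← hζ]
  have h3 : ∑ c, (⟪z c, ζ⟫_ℂ).re = ‖ζ‖ ^ 2 := by
    rw [← Complex.re_sum, ← sum_inner, ← hζ, inner_self_eq_norm_sq_to_K]
    norm_cast
  have h4 : ‖ζ‖ ^ 2 = ∑ c, ‖z c‖ ^ 2 := by
    rw [hζ]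
    exact norm_sq_sum_of_orthogonal Finset.univ z (fun i _ j _ hij => horth i j hij)
  -- the identity
  have hid : ∑ c, (⟪z c - (a : ℂ) • ζ, x (z c - (a : ℂ) • ζ)⟫_ℂ).re
      = ∑ c, (⟪z c, x (z c)⟫_ℂ).re - a * (⟪ζ, x ζ⟫_ℂ).re := by
    simp only [taskV6b1_expand]
    rw [Finset.sum_add_distrib, Finset.sum_sub_distrib, Finset.sum_sub_distrib,
      ← Finset.mul_sum, ← Finset.mul_sum, h1, h2, Finset.sum_const, Finset.card_univ,
      Fintype.card_fin, nsmul_eq_mul]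
    have : (r : ℝ) * (a ^ 2 * (⟪ζ, x ζ⟫_ℂ).re) = a * (⟪ζ, x ζ⟫_ℂ).re := by
      rw [← mul_assoc, pow_two, ← mul_assoc, hra, one_mul]
    rw [this]
    ring
  have hnorm : ∑ c, ‖z c - (a : ℂ) • ζ‖ ^ 2 = (1 - a) * ‖ζ‖ ^ 2 := by
    simp only [taskV6b1_norm_expand]
    rw [Finset.sum_add_distrib, Finset.sum_sub_distrib, ← Finset.mul_sum, h3, ← h4,
      Finset.sum_const, Finset.card_univ, Fintype.card_fin, nsmul_eq_mul]
    have : (r : ℝ) * (a ^ 2 * ‖ζ‖ ^ 2) = a * ‖ζ‖ ^ 2 := by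
      rw [← mul_assoc, pow_two, ← mul_assoc, hra, one_mul]
    rw [this]
    ring
  rw [← hid]
  calc |∑ c, (⟪z c - (a : ℂ) • ζ, x (z c - (a : ℂ) • ζ)⟫_ℂ).re|
      ≤ ∑ c, |(⟪z c - (a : ℂ) • ζ, x (z c - (a : ℂ) • ζ)⟫_ℂ).re| :=
        Finset.abs_sum_le_sum_abs _ _
    _ ≤ ∑ c, ‖x‖ * ‖z c - (a : ℂ) • ζ‖ ^ 2 :=
        Finset.sum_le_sum (fun c _ => taskV6b1_re_inner_le x _)
    _ = ‖x‖ * ((1 - a) * ‖ζ‖ ^ 2) := by rw [← Finset.mul_sum, hnorm]
    _ ≤ ‖x‖ * ‖ζ‖ ^ 2 := by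
        apply mul_le_mul_of_nonneg_left _ (norm_nonneg x)
        have : 0 ≤ ‖ζ‖ ^ 2 := by positivity
        nlinarith

/-! ### The exact paving step -/

/-- Exact analogue of `diffuse_aux`: an `r`-piece partition and a diagonal correction for which
all matrix coefficients of `S_p(x) - a - x / r` against the vectors `ζ i` vanish. -/
theorem diffuse_exact_aux {ι : Type} [Fintype ι] [DecidableEq ι]
    (A : VonNeumannAlgebra H) (hAc : ∀ a ∈ A, ∀ b ∈ A, a * b = b * a) (hdiff : IsDiffuse A)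
    (e : ι → H →L[ℂ] H) (heA : ∀ j, e j ∈ A) (hep : ∀ j, IsStarProjection (e j))
    (horth : ∀ j k, j ≠ k → e j * e k = 0) (hsum : ∑ j, e j = 1)
    (ζ : ι → H) (hζ : ∀ j, e j (ζ j) = ζ j)
    (x : H →L[ℂ] H) (hx : IsSelfAdjoint x) {r : ℕ} (hr : 0 < r) :
    ∃ (p : Fin r → H →L[ℂ] H) (a : H →L[ℂ] H),
      IsPartitionIn A p ∧ a ∈ A ∧ IsSelfAdjoint a ∧ ‖a‖ ≤ ‖x‖ ∧
      ∀ i j, ⟪ζ i, (pinching p x - a - (1 / (r : ℂ)) • x) (ζ j)⟫_ℂ = 0 := by
  obtain ⟨g, hg, hgorth, hgsum, hcross⟩ :=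
    exists_exact_splitting A hAc hdiff e heA hep ζ hζ x hx hr
  have hr0 : (0 : ℝ) < r := Nat.cast_pos.mpr hr
  have hrc : (r : ℂ) ≠ 0 := by exact_mod_cast hr.ne'
  have hge : ∀ c j, g c j * e j = g c j := by
    intro c j
    rw [← hgsum j, Finset.mul_sum, Finset.sum_eq_single c]
    · exact (hg c j).2.isIdempotentElem.eq
    · intro c' _ hc'
      exact hgorth j c c' (Ne.symm hc')
    · intro h
      exact absurd (Finset.mem_univ c) h
  have heg : ∀ c j, e j * g c j = g c j := by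
    intro c j
    rw [hAc _ (heA j) _ (hg c j).1]
    exact hge c j
  -- the refined partition of unity
  obtain ⟨E, hE⟩ : ∃ E : Fin r × ι → H →L[ℂ] H, E = fun β => g β.1 β.2 := ⟨_, rfl⟩
  have hEA : ∀ β, E β ∈ A := fun β => by
    rw [hE]
    exact (hg β.1 β.2).1
  have hEp : ∀ β, IsStarProjection (E β) := fun β => by
    rw [hE]
    exact (hg β.1 β.2).2
  have hEorth : ∀ β γ, β ≠ γ → E β * E γ = 0 := by
    intro β γ hβγ
    simp only [hE]
    by_cases h2 : β.2 = γ.2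
    · have h1 : β.1 ≠ γ.1 := fun h1 => hβγ (Prod.ext h1 h2)
      rw [h2]
      exact hgorth γ.2 β.1 γ.1 h1
    · rw [← hge β.1 β.2, ← heg γ.1 γ.2, mul_assoc, ← mul_assoc (e β.2), horth _ _ h2, zero_mul,
        mul_zero]
  have hEsum : ∑ β, E β = 1 := by
    simp only [hE]
    rw [Fintype.sum_prod_type, Finset.sum_comm]
    simp_rw [hgsum]
    exact hsum
  have hpart := isPartitionIn_of_coloring A E hEA hEp hEorth hEsum (fun β : Fin r × ι => β.1)
  obtain ⟨p, hp⟩ : ∃ p : Fin r → H →L[ℂ] H,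
      p = fun c => ∑ β : Fin r × ι, if β.1 = c then E β else 0 := ⟨_, rfl⟩
  rw [← hp] at hpart
  have hpp : ∀ c, IsStarProjection (p c) := fun c => (hpart.1 c).2
  have hpsum : ∀ c, p c = ∑ j, g c j := by
    intro c
    rw [hp]
    simp only [hE]
    rw [Fintype.sum_prod_type, Finset.sum_eq_single c]
    · simp
    · intro c' _ hc'
      simp [hc']
    · intro h
      exact absurd (Finset.mem_univ c) h
  -- the action on the vectors
  have heζ : ∀ j j', e j (ζ j') = if j = j' then ζ j' else 0 := by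
    intro j j'
    by_cases h : j = j'
    · rw [if_pos h, h, hζ]
    · rw [if_neg h, ← hζ j', ← mul_apply_eq_comp, horth j j' h, zero_apply]
  have hζorth : ∀ j j', j ≠ j' → ⟪ζ j, ζ j'⟫_ℂ = 0 := by
    intro j j' h
    rw [← hζ j, ← adjoint_inner_right, (hep j).isSelfAdjoint.adjoint_eq, heζ, if_neg h,
      inner_zero_right]
  have hgζ : ∀ c j j', j ≠ j' → g c j (ζ j') = 0 := by
    intro c j j' h
    rw [← hge c j, mul_apply_eq_comp, heζ, if_neg h, map_zero]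
  have hpζ : ∀ c j, p c (ζ j) = g c j (ζ j) := by
    intro c j
    rw [hpsum, sum_apply, Finset.sum_eq_single j]
    · intro j' _ hj'
      exact hgζ c j' j hj'
    · intro h
      exact absurd (Finset.mem_univ j) h
  -- the pieces of the vectors
  obtain ⟨z, hz⟩ : ∃ z : ι → Fin r → H, z = fun j c => g c j (ζ j) := ⟨_, rfl⟩
  have hzsum : ∀ j, ∑ c, z j c = ζ j := by
    intro j
    simp only [hz]
    rw [← sum_apply, hgsum, hζ]
  have hzorth : ∀ j c c', c ≠ c' → ⟪z j c, z j c'⟫_ℂ = 0 := by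
    intro j c c' h
    simp only [hz]
    rw [← adjoint_inner_right (g c j), (hg c j).2.isSelfAdjoint.adjoint_eq, ← mul_apply_eq_comp,
      hgorth j c c' h, zero_apply, inner_zero_right]
  -- the diagonal coefficients
  obtain ⟨d, hd⟩ : ∃ d : ι → ℝ, d = fun j =>
      (∑ c, (⟪z j c, x (z j c)⟫_ℂ).re - (1 / (r : ℝ)) * (⟪ζ j, x (ζ j)⟫_ℂ).re) / ‖ζ j‖ ^ 2 :=
    ⟨_, rfl⟩
  have hdle : ∀ j, |d j| ≤ ‖x‖ := by
    intro j
    simp only [hd]
    by_cases h0 : ζ j = 0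
    · rw [h0]
      simp
    · have hpos : 0 < ‖ζ j‖ ^ 2 := by positivity
      rw [abs_div, abs_of_pos hpos, div_le_iff₀ hpos]
      have h1 := quad_split_bound x hx hr (z j) (hzorth j)
      rw [hzsum j] at h1
      exact h1
  obtain ⟨haA, hasa, hanorm⟩ := diag_op_props A e heA hep hsum d (norm_nonneg x) hdle
  refine ⟨p, ∑ j, (d j : ℂ) • e j, hpart, haA, hasa, hanorm, ?_⟩
  intro i j
  have h1 : ⟪ζ i, pinching p x (ζ j)⟫_ℂ = ∑ c, ⟪z i c, x (z j c)⟫_ℂ := by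
    unfold pinching
    rw [sum_apply, inner_sum]
    refine Finset.sum_congr rfl (fun c _ => ?_)
    have h2 : ⟪ζ i, p c (x (p c (ζ j)))⟫_ℂ = ⟪p c (ζ i), x (p c (ζ j))⟫_ℂ := by
      rw [← adjoint_inner_right (p c), (hpp c).isSelfAdjoint.adjoint_eq]
    rw [mul_apply_eq_comp, mul_apply_eq_comp, h2, hpζ, hpζ]
    simp only [hz]
  have h2 : ⟪ζ i, (∑ k, (d k : ℂ) • e k) (ζ j)⟫_ℂ = (d j : ℂ) * ⟪ζ i, ζ j⟫_ℂ := by
    rw [sum_apply, inner_sum, Finset.sum_eq_single j]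
    · rw [smul_apply, inner_smul_right, hζ]
    · intro k _ hk
      rw [smul_apply, heζ, if_neg hk, smul_zero, inner_zero_right]
    · intro h
      exact absurd (Finset.mem_univ j) h
  rw [sub_apply, sub_apply, smul_apply, inner_sub_right, inner_sub_right, inner_smul_right, h1, h2]
  by_cases hij : i = j
  · subst hij
    have hre1 : ∀ c, ⟪z i c, x (z i c)⟫_ℂ = ((⟪z i c, x (z i c)⟫_ℂ).re : ℂ) :=
      fun c => (inner_self_real_of_isSelfAdjoint hx _).symm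
    have hre2 : ⟪ζ i, x (ζ i)⟫_ℂ = ((⟪ζ i, x (ζ i)⟫_ℂ).re : ℂ) :=
      (inner_self_real_of_isSelfAdjoint hx _).symm
    have hnn : ⟪ζ i, ζ i⟫_ℂ = ((‖ζ i‖ ^ 2 : ℝ) : ℂ) := by
      rw [inner_self_eq_norm_sq_to_K]
      push_cast
      rfl
    by_cases h0 : ζ i = 0
    · have hz0 : ∀ c, z i c = 0 := by
        intro c
        simp only [hz]
        rw [h0, map_zero]
      simp [hz0, h0]
    · have hpos : ‖ζ i‖ ^ 2 ≠ 0 := by positivity
      have hdi : d i * ‖ζ i‖ ^ 2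
          = ∑ c, (⟪z i c, x (z i c)⟫_ℂ).re - (1 / (r : ℝ)) * (⟪ζ i, x (ζ i)⟫_ℂ).re := by
        simp only [hd]
        field_simp
      rw [hnn, hre2, Finset.sum_congr rfl (fun c _ => hre1 c), ← Complex.ofReal_mul, hdi]
      push_cast
      ring
  · rw [hζorth i j hij, mul_zero, sub_zero]
    have h3 := hcross i j hij
    simp only [hz]
    rw [h3, sub_self]

/-! ### The sharp threshold -/

/-- **Upper bound including the boundary.** Over a diffuse MASA `A` of `B(H)`, every self-adjoint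
operator is `(ε, r)` so-pavable as soon as `ε * r ≥ 1`. -/
theorem soPavable_of_diffuse_of_le (A M : VonNeumannAlgebra H) (hM : ∀ y : H →L[ℂ] H, y ∈ M)
    (hA : IsMASA A M) (hdiff : IsDiffuse A) {ε : ℝ} {r : ℕ} (hεr : 1 ≤ ε * r)
    (x : H →L[ℂ] H) (hx : IsSelfAdjoint x) : SoPavable A M x ε r := by
  intro F δ hδ
  classical
  have hr : 0 < r := by
    rcases Nat.eq_zero_or_pos r with h | h
    · rw [h, Nat.cast_zero, mul_zero] at hεr
      exact absurd hεr (by norm_num)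
    · exact h
  have hr0 : (0 : ℝ) < r := Nat.cast_pos.mpr hr
  have hrc : (r : ℂ) ≠ 0 := by exact_mod_cast hr.ne'
  have hgap : 1 / (r : ℝ) ≤ ε := by
    rw [div_le_iff₀ hr0]
    exact hεr
  have hAc := hA.2.1
  obtain ⟨ι, hι, e, ζ₀, heA, hep, horth, hsum, hζ₀, hF⟩ :=
    exists_diag_approx A hAc (fun y hy => hA.2.2 y (hM y) hy) F δ hδ
  obtain ⟨n, u, τ, hτ, hu, heu, hspan⟩ := exists_orthonormal_of_diag e hep horth ζ₀ hζ₀
  -- the normalised family, indexed by `ι`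
  obtain ⟨ζ, hζdef⟩ : ∃ ζ : ι → H, ζ = fun j => if h : ∃ k, τ k = j then u h.choose else 0 :=
    ⟨_, rfl⟩
  have hζτ : ∀ k, ζ (τ k) = u k := by
    intro k
    have h : ∃ k', τ k' = τ k := ⟨k, rfl⟩
    rw [hζdef]
    simp only [dif_pos h]
    rw [hτ h.choose_spec]
  have hζ : ∀ j, e j (ζ j) = ζ j := by
    intro j
    by_cases h : ∃ k, τ k = j
    · obtain ⟨k, rfl⟩ := h
      rw [hζτ, heu]
    · rw [hζdef]
      simp only [dif_neg h, map_zero]
  obtain ⟨p, a, hp, haA, hasa, hanorm, hzero⟩ :=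
    diffuse_exact_aux A hAc hdiff e heA hep horth hsum ζ hζ x hx hr
  obtain ⟨q, hq⟩ : ∃ q : H →L[ℂ] H, q = synth u ∘L adjoint (synth u) := ⟨_, rfl⟩
  have hqp : IsStarProjection q := by
    rw [hq]
    exact isStarProjection_synth hu
  refine ⟨p, a, q, hp, haA, hasa, hanorm, hM q, hqp, ?_, ?_⟩
  · intro ξ hξ
    obtain ⟨w, hw, hwδ⟩ := hF ξ hξ
    have hqw : q w = w := by
      rw [hq]
      exact hspan w hw
    have h1 : (1 - q) ξ = (1 - q) (ξ - w) := by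
      rw [map_sub, sub_apply, sub_apply, one_apply_eq_self, one_apply_eq_self, hqw]
      abel
    rw [h1]
    calc ‖(1 - q) (ξ - w)‖ ≤ ‖1 - q‖ * ‖ξ - w‖ := le_opNorm _ _
      _ ≤ 1 * ‖ξ - w‖ := by
          gcongr
          exact IsStarProjection.norm_le _ hqp.one_sub
      _ = ‖ξ - w‖ := one_mul _
      _ < δ := hwδ
  · obtain ⟨B, hB⟩ : ∃ B : H →L[ℂ] H, B = pinching p x - a - (1 / (r : ℂ)) • x := ⟨_, rfl⟩
    rw [← hB] at hzero
    have hsplit : q * (pinching p x - a) * q = q * B * q + (1 / (r : ℂ)) • (q * x * q) := by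
      rw [hB, mul_sub (a := q) (c := (1 / (r : ℂ)) • x), sub_mul, mul_smul_comm, smul_mul_assoc]
      abel
    have hqn : ‖q‖ ≤ 1 := IsStarProjection.norm_le _ hqp
    have hB1 : q * B * q = 0 := by
      have h1 : ‖q * B * q‖ ≤ Real.sqrt (∑ k, ∑ l, ‖⟪u k, B (u l)⟫_ℂ‖ ^ 2) := by
        rw [hq]
        exact norm_compress_le_frobenius u hu B
      have h2 : ∑ k, ∑ l, ‖⟪u k, B (u l)⟫_ℂ‖ ^ 2 = 0 := by
        refine Finset.sum_eq_zero (fun k _ => Finset.sum_eq_zero (fun l _ => ?_))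
        rw [← hζτ k, ← hζτ l, hzero, norm_zero]
        norm_num
      rw [h2, Real.sqrt_zero] at h1
      exact norm_le_zero_iff.mp h1
    have hB2 : ‖(1 / (r : ℂ)) • (q * x * q)‖ ≤ 1 / r * ‖x‖ := by
      rw [norm_smul]
      have h1 : ‖(1 / (r : ℂ))‖ = 1 / r := by
        rw [norm_div, norm_one, Complex.norm_natCast]
      rw [h1]
      have h2 : ‖q * x * q‖ ≤ 1 * ‖x‖ * 1 := by
        calc ‖q * x * q‖ ≤ ‖q * x‖ * ‖q‖ := norm_mul_le _ _
          _ ≤ ‖q‖ * ‖x‖ * ‖q‖ := by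
              gcongr
              exact norm_mul_le _ _
          _ ≤ 1 * ‖x‖ * 1 := by gcongr
      have h3 : (0 : ℝ) ≤ 1 / r := by positivity
      nlinarith
    calc ‖q * (pinching p x - a) * q‖ = ‖(1 / (r : ℂ)) • (q * x * q)‖ := by
          rw [hsplit, hB1, zero_add]
      _ ≤ 1 / r * ‖x‖ := hB2
      _ ≤ ε * ‖x‖ := mul_le_mul_of_nonneg_right hgap (norm_nonneg x)

/-- **The sharp threshold over diffuse MASAs of `B(H)`.** -/
theorem diffuse_sharp (A M : VonNeumannAlgebra H) (hM : ∀ y : H →L[ℂ] H, y ∈ M)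
    (hA : IsMASA A M) (hdiff : IsDiffuse A) (hH : Nontrivial H) (ε : ℝ) (r : ℕ) :
    (∀ x : H →L[ℂ] H, IsSelfAdjoint x → SoPavable A M x ε r) ↔ 1 ≤ ε * r := by
  constructor
  · intro h
    by_contra hlt
    rw [not_le] at hlt
    obtain ⟨ω, -, hω⟩ := not_soPavable_symmetry A M hA.2.1 hdiff one_ne_zero hlt
    exact hω (h _ (isSelfAdjoint_symmetry ω))
  · intro h x hx
    exact soPavable_of_diffuse_of_le A M hM hA hdiff h x hx

/-- **The so-paving number of a diffuse MASA of `B(H)`** is `⌈1/ε⌉`. -/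
theorem soPavingNumber_diffuse (A M : VonNeumannAlgebra H) (hM : ∀ y : H →L[ℂ] H, y ∈ M)
    (hA : IsMASA A M) (hdiff : IsDiffuse A) (hH : Nontrivial H) {ε : ℝ} (hε : 0 < ε) :
    soPavingNumber A M ε = ((⌈1 / ε⌉₊ : ℕ) : ℕ∞) := by
  have hsharp := diffuse_sharp A M hM hA hdiff hH ε
  have hpos : 0 < 1 / ε := by positivity
  refine le_antisymm ?_ ?_
  · unfold soPavingNumber
    refine iInf₂_le ⌈1 / ε⌉₊ ⟨Nat.one_le_iff_ne_zero.mpr (Nat.ceil_pos.mpr hpos).ne',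
      fun x _ hx => ?_⟩
    refine (hsharp ⌈1 / ε⌉₊).2 ?_ x hx
    have h1 : 1 / ε ≤ (⌈1 / ε⌉₊ : ℝ) := Nat.le_ceil _
    rw [div_le_iff₀ hε] at h1
    rw [mul_comm]
    exact h1
  · unfold soPavingNumber
    refine le_iInf (fun r => le_iInf (fun hr => ?_))
    rw [Nat.cast_le, Nat.ceil_le]
    have h1 : 1 ≤ ε * r := (hsharp r).1 (fun x hx => hr.2 x (hM x) hx)
    rw [div_le_iff₀ hε, mul_comm]
    exact h1

end Vale.Agent.Lib.P078
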