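import Vale.Agent.Lib.P078.Universal
import Vale.Agent.Lib.P078.Lyapunov
import Vale.Agent.Lib.P078.InduceMain

/-!
# Atoms of a MASA and the reduction of a MASA to the range of one of its projections (P078)
-/

namespace Vale.Agent.Lib.P078

variable {H : Type*} [NormedAddCommGroup H] [InnerProductSpace ℂ H] [CompleteSpace H]

/-- `e` is an atom of `A`: a nonzero projection of `A` that is minimal, i.e. every projection
`p'` of `A` lying under `e` (`e * p' = p'`) is `0` or `e`. -/
def IsAtomOf (A : VonNeumannAlgebra H) (e : H →L[ℂ] H) : Prop :=
  e ∈ A ∧ IsStarProjection e ∧ e ≠ 0 ∧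
    ∀ p' ∈ A, IsStarProjection p' → e * p' = p' → p' = 0 ∨ p' = e

/-- The reduction of `A` to a closed subspace `U`: the von Neumann algebra on `U` of all operators
commuting with the compressions to `U` of the members of `A` (and with their adjoints). -/
noncomputable def reducedAlg (U : Submodule ℂ H) [CompleteSpace U] (A : VonNeumannAlgebra H) :
    VonNeumannAlgebra U :=
  taskG_centralizer (compr U '' (A : Set (H →L[ℂ] H)))

end Vale.Agent.Lib.P078
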