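import Vale.Agent.Lib.P078.Core

namespace Vale.Agent.Lib.P078

open scoped ComplexOrder InnerProductSpace Matrix.Norms.L2Operator
open ContinuousLinearMap

/-- All bounded operators, as a von Neumann algebra. -/
theorem topAlgebra_aux (H : Type*) [NormedAddCommGroup H] [InnerProductSpace ℂ H]
    [CompleteSpace H] :
    Set.centralizer (Set.centralizer (⊤ : StarSubalgebra ℂ (H →L[ℂ] H)).carrier)
      = (⊤ : StarSubalgebra ℂ (H →L[ℂ] H)).carrier := by
  ext x
  simp only [Set.mem_centralizer_iff]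
  constructor
  · intro _
    trivial
  · intro _ g hg
    exact (hg x trivial).symm

/-- The algebra `B(H)` of all bounded operators on `H`, as a von Neumann algebra. -/
noncomputable def topAlgebra (H : Type*) [NormedAddCommGroup H] [InnerProductSpace ℂ H]
    [CompleteSpace H] : VonNeumannAlgebra H where
  toStarSubalgebra := ⊤
  centralizer_centralizer' := topAlgebra_aux H

lemma mem_topAlgebra {H : Type*} [NormedAddCommGroup H] [InnerProductSpace ℂ H]
    [CompleteSpace H] (y : H →L[ℂ] H) : y ∈ topAlgebra H := trivial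

/-- The diagonal matrix units as operators on Euclidean space. -/
noncomputable def diagUnit (n : ℕ) (j : Fin n) :
    EuclideanSpace ℂ (Fin n) →L[ℂ] EuclideanSpace ℂ (Fin n) :=
  Matrix.toEuclideanCLM (n := Fin n) (𝕜 := ℂ) (Matrix.single j j 1)

/-- The diagonal operators on Euclidean space, as the commutant of the diagonal matrix units. -/
noncomputable def diagAlgebra (n : ℕ) : VonNeumannAlgebra (EuclideanSpace ℂ (Fin n)) where
  toStarSubalgebra := StarSubalgebra.centralizer ℂ (Set.range (diagUnit n))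
  centralizer_centralizer' := by simp

lemma single_comm_iff {n : ℕ} (M : Matrix (Fin n) (Fin n) ℂ) :
    (∀ k : Fin n, Matrix.single k k (1 : ℂ) * M = M * Matrix.single k k (1 : ℂ)) ↔
      M = Matrix.diagonal (fun j => M j j) := by
  constructor
  · intro h
    ext j k
    by_cases hjk : j = k
    · rw [hjk, Matrix.diagonal_apply_eq]
    · rw [Matrix.diagonal_apply_ne _ hjk]
      have := congrFun (congrFun (h k) j) k
      simp [Matrix.mul_apply, Matrix.single_apply] at this
      rw [← this]
      refine Finset.sum_eq_zero (fun l _ => ?_)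
      rw [if_neg]
      rintro ⟨h1, _⟩
      exact hjk h1.symm
  · intro h k
    rw [h, ← Matrix.diagonal_single, Matrix.diagonal_mul_diagonal, Matrix.diagonal_mul_diagonal]
    congr 1
    funext l
    rw [mul_comm]

lemma star_diagUnit (n : ℕ) (j : Fin n) : star (diagUnit n j) = diagUnit n j := by
  unfold diagUnit
  rw [← map_star]
  congr 1
  rw [← Matrix.diagonal_single, Matrix.star_eq_conjTranspose, Matrix.diagonal_conjTranspose]
  congr 1
  funext l
  by_cases h : l = j
  · rw [h]
    simp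
  · simp [h]

lemma mem_diagAlgebra_iff {n : ℕ} (M : Matrix (Fin n) (Fin n) ℂ) :
    Matrix.toEuclideanCLM (n := Fin n) (𝕜 := ℂ) M ∈ diagAlgebra n ↔
      M = Matrix.diagonal (fun j => M j j) := by
  rw [← single_comm_iff]
  show _ ∈ StarSubalgebra.centralizer ℂ (Set.range (diagUnit n)) ↔ _
  rw [StarSubalgebra.mem_centralizer_iff]
  constructor
  · intro h k
    have := (h (diagUnit n k) ⟨k, rfl⟩).1
    unfold diagUnit at this
    rw [← map_mul, ← map_mul] at this
    exact (Matrix.toEuclideanCLM (n := Fin n) (𝕜 := ℂ)).injective this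
  · rintro h _ ⟨k, rfl⟩
    have h1 : diagUnit n k * Matrix.toEuclideanCLM (n := Fin n) (𝕜 := ℂ) M
        = Matrix.toEuclideanCLM (n := Fin n) (𝕜 := ℂ) M * diagUnit n k := by
      unfold diagUnit
      rw [← map_mul, ← map_mul, h k]
    rw [star_diagUnit]
    exact ⟨h1, h1⟩

lemma mem_diagAlgebra_iff' {n : ℕ}
    (T : EuclideanSpace ℂ (Fin n) →L[ℂ] EuclideanSpace ℂ (Fin n)) :
    T ∈ diagAlgebra n ↔ ∃ v : Fin n → ℂ,
      T = Matrix.toEuclideanCLM (n := Fin n) (𝕜 := ℂ) (Matrix.diagonal v) := by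
  have hT : Matrix.toEuclideanCLM (n := Fin n) (𝕜 := ℂ)
      ((Matrix.toEuclideanCLM (n := Fin n) (𝕜 := ℂ)).symm T) = T :=
    StarAlgEquiv.apply_symm_apply _ T
  rw [← hT]
  generalize (Matrix.toEuclideanCLM (n := Fin n) (𝕜 := ℂ)).symm T = M
  rw [mem_diagAlgebra_iff]
  constructor
  · intro h
    exact ⟨_, congrArg _ h⟩
  · rintro ⟨v, hv⟩
    have := (Matrix.toEuclideanCLM (n := Fin n) (𝕜 := ℂ)).injective hv
    rw [this]
    ext j k
    by_cases hjk : j = k
    · rw [hjk, Matrix.diagonal_apply_eq, Matrix.diagonal_apply_eq, Matrix.diagonal_apply_eq]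
    · rw [Matrix.diagonal_apply_ne _ hjk, Matrix.diagonal_apply_ne _ hjk]

lemma diagUnit_mem (n : ℕ) (k : Fin n) : diagUnit n k ∈ diagAlgebra n :=
  (mem_diagAlgebra_iff' _).mpr ⟨Pi.single k 1, by unfold diagUnit; rw [Matrix.diagonal_single]⟩

lemma isMASA_diagAlgebra (n : ℕ) : IsMASA (diagAlgebra n) (topAlgebra _) := by
  refine ⟨fun _ _ => mem_topAlgebra _, ?_, ?_⟩
  · intro a ha b hb
    obtain ⟨v, rfl⟩ := (mem_diagAlgebra_iff' a).mp ha
    obtain ⟨w, rfl⟩ := (mem_diagAlgebra_iff' b).mp hb
    rw [← map_mul, ← map_mul, Matrix.diagonal_mul_diagonal, Matrix.diagonal_mul_diagonal]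
    congr 2
    funext l
    rw [mul_comm]
  · intro x _ hx
    show x ∈ StarSubalgebra.centralizer ℂ (Set.range (diagUnit n))
    rw [StarSubalgebra.mem_centralizer_iff]
    rintro _ ⟨k, rfl⟩
    rw [star_diagUnit]
    exact ⟨hx _ (diagUnit_mem n k), hx _ (diagUnit_mem n k)⟩

/-- So-paving over the diagonal of `M_n(ℂ)` for all `n` gives matrix paving. -/
theorem matrixPavable_of_soPavable {ε : ℝ} {r : ℕ}
    (h : ∀ (n : ℕ) (x : EuclideanSpace ℂ (Fin n) →L[ℂ] EuclideanSpace ℂ (Fin n)),
      IsSelfAdjoint x → SoPavable (diagAlgebra n) (topAlgebra _) x ε r) :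
    MatrixPavable ε r := by
  intro n T hT
  set x := Matrix.toEuclideanCLM (n := Fin n) (𝕜 := ℂ) T with hx
  have hxsa : IsSelfAdjoint x := by
    rw [IsSelfAdjoint, hx, ← map_star]
    congr 1
  classical
  obtain ⟨p, a, q, ⟨hp1, hp2, hp3⟩, haA, hasa, hanorm, -, hq, hqF, hbound⟩ :=
    h n x hxsa (Finset.univ.image
      (fun j : Fin n => (EuclideanSpace.single j (1 : ℂ) : EuclideanSpace ℂ (Fin n))))
      (1 / ((n : ℝ) + 1)) (by positivity)
  -- the projection `q` is the identity
  have hq1 : q = 1 := by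
    have hδ : ∀ j : Fin n, ‖(1 - q) (EuclideanSpace.single j (1 : ℂ))‖ < 1 / ((n : ℝ) + 1) :=
      fun j => hqF _ (Finset.mem_image_of_mem _ (Finset.mem_univ j))
    have hbd : ∀ ξ : EuclideanSpace ℂ (Fin n), ‖(1 - q) ξ‖ ≤ (n : ℝ) / (n + 1) * ‖ξ‖ := by
      intro ξ
      have hξ : ξ = ∑ j, ξ j • (EuclideanSpace.single j (1 : ℂ) : EuclideanSpace ℂ (Fin n)) := by
        have := (EuclideanSpace.basisFun (Fin n) ℂ).sum_repr ξ
        simpa using this.symm
      calc ‖(1 - q) ξ‖ = ‖∑ j, ξ j • (1 - q) (EuclideanSpace.single j (1 : ℂ))‖ := by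
            conv_lhs => rw [hξ, map_sum]
            simp only [map_smul]
        _ ≤ ∑ j, ‖ξ j • (1 - q) (EuclideanSpace.single j (1 : ℂ))‖ := norm_sum_le _ _
        _ ≤ ∑ j : Fin n, ‖ξ‖ * (1 / ((n : ℝ) + 1)) := by
            refine Finset.sum_le_sum (fun j _ => ?_)
            rw [norm_smul]
            exact mul_le_mul (PiLp.norm_apply_le ξ j) (hδ j).le (norm_nonneg _) (norm_nonneg _)
        _ = (n : ℝ) / (n + 1) * ‖ξ‖ := by
            rw [Finset.sum_const, Finset.card_univ, Fintype.card_fin, nsmul_eq_mul]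
            ring
    have h1q : IsStarProjection (1 - q) := hq.one_sub
    have h0 : 1 - q = 0 := by
      refine ContinuousLinearMap.ext (fun ξ => ?_)
      rw [zero_apply]
      by_contra hne
      have h2 : (1 - q) ((1 - q) ξ) = (1 - q) ξ := by
        rw [← mul_apply_eq_comp, h1q.isIdempotentElem.eq]
      have h3 := hbd ((1 - q) ξ)
      rw [h2] at h3
      have hpos : 0 < ‖(1 - q) ξ‖ := norm_pos_iff.mpr hne
      have h4 : (n : ℝ) / (n + 1) < 1 := by
        rw [div_lt_one (by positivity)]
        linarith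
      nlinarith
    exact (sub_eq_zero.mp h0).symm
  rw [hq1, one_mul, mul_one] at hbound
  -- diagonal forms of the pieces and of `a`
  have hpdiag : ∀ i, ∃ v : Fin n → ℂ,
      p i = Matrix.toEuclideanCLM (n := Fin n) (𝕜 := ℂ) (Matrix.diagonal v) :=
    fun i => (mem_diagAlgebra_iff' _).mp (hp1 i).1
  choose π hπ using hpdiag
  obtain ⟨α, hα⟩ := (mem_diagAlgebra_iff' a).mp haA
  have hinj := (Matrix.toEuclideanCLM (n := Fin n) (𝕜 := ℂ)).injective
  have hπsq : ∀ i j, π i j * π i j = π i j := by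
    intro i j
    have h1 := (hp1 i).2.isIdempotentElem.eq
    rw [hπ i, ← map_mul, Matrix.diagonal_mul_diagonal] at h1
    exact congrFun (Matrix.diagonal_injective (hinj h1)) j
  have hπorth : ∀ i i' j, i ≠ i' → π i j * π i' j = 0 := by
    intro i i' j hii'
    have h1 := hp2 i i' hii'
    rw [hπ i, hπ i', ← map_mul, Matrix.diagonal_mul_diagonal, ← map_zero
      (Matrix.toEuclideanCLM (n := Fin n) (𝕜 := ℂ)), ← Matrix.diagonal_zero] at h1
    exact congrFun (Matrix.diagonal_injective (hinj h1)) j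
  have hπsum : ∀ j, ∑ i, π i j = 1 := by
    intro j
    have h1 := hp3
    simp only [hπ] at h1
    rw [← map_sum, ← map_one (Matrix.toEuclideanCLM (n := Fin n) (𝕜 := ℂ))] at h1
    have h2 := congrFun (congrFun (hinj h1) j) j
    rw [Matrix.sum_apply, Matrix.one_apply_eq] at h2
    simpa using h2
  have hex : ∀ j, ∃ i, π i j = 1 := by
    intro j
    by_contra hne
    rw [not_exists] at hne
    have h0 : ∀ i, π i j = 0 := by
      intro i
      have h3 : π i j * (π i j - 1) = 0 := by rw [mul_sub, mul_one, hπsq i j, sub_self]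
      rcases mul_eq_zero.mp h3 with h4 | h4
      · exact h4
      · exact absurd (sub_eq_zero.mp h4) (hne i)
    have h5 := hπsum j
    rw [Finset.sum_eq_zero (fun i _ => h0 i)] at h5
    exact zero_ne_one h5
  choose c hc using hex
  have hπc : ∀ i j, π i j = if c j = i then 1 else 0 := by
    intro i j
    by_cases hi : c j = i
    · rw [if_pos hi, ← hi, hc]
    · rw [if_neg hi]
      have h1 := hπorth (c j) i j hi
      rw [hc, one_mul] at h1
      exact h1
  have hαreal : ∀ j, ((α j).re : ℂ) = α j := by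
    intro j
    have h1 := hasa
    rw [IsSelfAdjoint, hα, ← map_star, Matrix.star_eq_conjTranspose,
      Matrix.diagonal_conjTranspose] at h1
    have h2 := congrFun (Matrix.diagonal_injective (hinj h1)) j
    exact Complex.conj_eq_iff_re.mp h2
  refine ⟨c, fun j => (α j).re, ?_, ?_⟩
  · intro j
    calc |(α j).re| ≤ ‖α j‖ := Complex.abs_re_le_norm _
      _ ≤ ‖α‖ := norm_le_pi_norm α j
      _ = ‖(Matrix.diagonal α : Matrix (Fin n) (Fin n) ℂ)‖ := (Matrix.l2_opNorm_diagonal α).symm
      _ = ‖a‖ := by rw [hα]; rfl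
      _ ≤ ‖x‖ := hanorm
      _ = ‖T‖ := rfl
  · have hmat : pinching p x - a = Matrix.toEuclideanCLM (n := Fin n) (𝕜 := ℂ)
        (pavedMatrix T c (fun j => (α j).re)) := by
      unfold pinching
      rw [hα, hx]
      simp only [hπ]
      simp only [← map_mul]
      rw [← map_sum, ← map_sub]
      congr 1
      ext j k
      rw [Matrix.sub_apply, Matrix.sum_apply]
      simp only [Matrix.diagonal_mul, Matrix.mul_diagonal, pavedMatrix, Matrix.of_apply, hπc]
      congr 1
      · by_cases hjk : c j = c k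
        · rw [if_pos hjk, Finset.sum_eq_single (c j)]
          · rw [if_pos rfl, if_pos hjk.symm, one_mul, mul_one]
          · intro i _ hi
            rw [if_neg (fun h => hi h.symm), zero_mul, zero_mul]
          · intro h
            exact absurd (Finset.mem_univ _) h
        · rw [if_neg hjk]
          refine Finset.sum_eq_zero (fun i _ => ?_)
          by_cases hi : c j = i
          · rw [if_pos hi, if_neg (fun h => hjk (hi.trans h.symm)), mul_zero]
          · rw [if_neg hi, zero_mul, zero_mul]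
      · by_cases hjk : j = k
        · rw [if_pos hjk, hjk, Matrix.diagonal_apply_eq, hαreal]
        · rw [if_neg hjk, Matrix.diagonal_apply_ne _ hjk]
    calc ‖pavedMatrix T c (fun j => (α j).re)‖ = ‖pinching p x - a‖ := by rw [hmat]; rfl
      _ ≤ ε * ‖x‖ := hbound
      _ = ε * ‖T‖ := rfl

end Vale.Agent.Lib.P078
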