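import Mathlib

/-!
# Definitions for the so-paving problem (P078)

All operators act on a complex Hilbert space `H`; `H →L[ℂ] H` is the algebra of bounded operators.
-/

namespace Vale.Agent.Lib.P078

open scoped Matrix.Norms.L2Operator

variable {H : Type*} [NormedAddCommGroup H] [InnerProductSpace ℂ H] [CompleteSpace H]

/-- `A` is a maximal abelian self-adjoint subalgebra (MASA) of the von Neumann algebra `M`:
`A` is a von Neumann subalgebra of `M`, it is commutative, and every element of `M`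
commuting with all of `A` already lies in `A`. -/
def IsMASA (A M : VonNeumannAlgebra H) : Prop :=
  A ≤ M ∧ (∀ a ∈ A, ∀ b ∈ A, a * b = b * a) ∧
    ∀ x ∈ M, (∀ a ∈ A, a * x = x * a) → x ∈ A

/-- A partition in `A` with `r` pieces: mutually orthogonal projections of `A` with sum `1`
(zeros allowed). -/
def IsPartitionIn (A : VonNeumannAlgebra H) {r : ℕ} (p : Fin r → H →L[ℂ] H) : Prop :=
  (∀ i, p i ∈ A ∧ IsStarProjection (p i)) ∧ (∀ i j, i ≠ j → p i * p j = 0) ∧ ∑ i, p i = 1

/-- The pinching `S_P(x) = ∑ i, p i * x * p i`. -/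
noncomputable def pinching {r : ℕ} (p : Fin r → H →L[ℂ] H) (x : H →L[ℂ] H) : H →L[ℂ] H :=
  ∑ i, p i * x * p i

/-- `x` is `(ε, r)` so-pavable over `A` inside `M`: for every finite set `F` of vectors and every
`δ > 0` there are a partition `p` in `A` with `r` pieces, a self-adjoint `a ∈ A` with
`‖a‖ ≤ ‖x‖` and a projection `q ∈ M` with `‖(1 - q) ξ‖ < δ` for `ξ ∈ F` and
`‖q (S_p(x) - a) q‖ ≤ ε ‖x‖`. -/
def SoPavable (A M : VonNeumannAlgebra H) (x : H →L[ℂ] H) (ε : ℝ) (r : ℕ) : Prop :=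
  ∀ (F : Finset H) (δ : ℝ), 0 < δ →
    ∃ (p : Fin r → H →L[ℂ] H) (a q : H →L[ℂ] H),
      IsPartitionIn A p ∧ a ∈ A ∧ IsSelfAdjoint a ∧ ‖a‖ ≤ ‖x‖ ∧
      q ∈ M ∧ IsStarProjection q ∧ (∀ ξ ∈ F, ‖(1 - q) ξ‖ < δ) ∧
      ‖q * (pinching p x - a) * q‖ ≤ ε * ‖x‖

/-- The block-diagonal part of `T` along the colouring `c`, minus the diagonal matrix `diag d`. -/
def pavedMatrix {n r : ℕ} (T : Matrix (Fin n) (Fin n) ℂ) (c : Fin n → Fin r) (d : Fin n → ℝ) :
    Matrix (Fin n) (Fin n) ℂ :=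
  Matrix.of fun j k => (if c j = c k then T j k else 0) - (if j = k then (d j : ℂ) else 0)

/-- Finite-dimensional `(ε, r)` paving over the diagonal: every Hermitian matrix `T` of every size
`n` admits a colouring `c` of the index set with `r` colours and a real diagonal `d` with
`|d j| ≤ ‖T‖` such that the block-diagonal part of `T` along `c`, minus `diag d`, has norm at
most `ε ‖T‖`. Here `‖·‖` is the operator norm of a matrix acting on Euclidean space. -/
def MatrixPavable (ε : ℝ) (r : ℕ) : Prop :=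
  ∀ (n : ℕ) (T : Matrix (Fin n) (Fin n) ℂ), T.IsHermitian →
    ∃ (c : Fin n → Fin r) (d : Fin n → ℝ),
      (∀ j, |d j| ≤ ‖T‖) ∧ ‖pavedMatrix T c d‖ ≤ ε * ‖T‖

end Vale.Agent.Lib.P078
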