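import Mathlib
import Vale.Agent.Lib.P078.Defs

/-!
# So-paving over every MASA of `B(H)` from finite-dimensional paving (P078)

Proof outline. A MASA `A` of `B(H)` can be finitely diagonalised near any finite set of vectors:
there are finitely many mutually orthogonal projections of `A` with sum `1` and one vector in the
range of each, whose span almost contains the given vectors (cyclic projections and step
approximation via positive parts). Compressing to that span turns the so-paving problem into a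
paving problem for a finite matrix over its diagonal.
-/

namespace Vale.Agent.Lib.P078

open scoped ComplexOrder InnerProductSpace
open ContinuousLinearMap

variable {H : Type*} [NormedAddCommGroup H] [InnerProductSpace ℂ H] [CompleteSpace H]

/-! ### A norm bound from order bounds -/

lemma norm_le_of_neg_le_of_le {a : H →L[ℂ] H} (ha : IsSelfAdjoint a) {C : ℝ} (hC : 0 ≤ C)
    (h1 : algebraMap ℝ (H →L[ℂ] H) (-C) ≤ a) (h2 : a ≤ algebraMap ℝ (H →L[ℂ] H) C) :
    ‖a‖ ≤ C := by
  rcases subsingleton_or_nontrivial (H →L[ℂ] H) with hs | hn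
  · rw [Subsingleton.elim a 0, norm_zero]; exact hC
  · rw [algebraMap_le_iff_le_spectrum] at h1
    rw [le_algebraMap_iff_spectrum_le] at h2
    rcases CStarAlgebra.norm_or_neg_norm_mem_spectrum ha with h | h
    · exact h2 _ h
    · have := h1 _ h
      linarith

/-! ### Sums of orthogonal projections -/

lemma isStarProjection_sum {ι : Type*} [DecidableEq ι] (s : Finset ι) (e : ι → H →L[ℂ] H)
    (hep : ∀ j ∈ s, IsStarProjection (e j))
    (horth : ∀ j ∈ s, ∀ k ∈ s, j ≠ k → e j * e k = 0) :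
    IsStarProjection (∑ j ∈ s, e j) := by
  induction s using Finset.induction_on with
  | empty => simp
  | insert j s hj ih =>
    rw [Finset.sum_insert hj]
    refine IsStarProjection.add (hep j (Finset.mem_insert_self j s))
      (ih (fun k hk => hep k (Finset.mem_insert_of_mem hk))
        (fun k hk l hl hkl => horth k (Finset.mem_insert_of_mem hk) l
          (Finset.mem_insert_of_mem hl) hkl)) ?_
    rw [Finset.mul_sum]
    refine Finset.sum_eq_zero (fun k hk => ?_)
    exact horth j (Finset.mem_insert_self j s) k (Finset.mem_insert_of_mem hk)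
      (fun h => hj (h ▸ hk))

lemma isPartitionIn_of_coloring {ι : Type*} [Fintype ι] [DecidableEq ι] (A : VonNeumannAlgebra H)
    (e : ι → H →L[ℂ] H) (heA : ∀ j, e j ∈ A) (hep : ∀ j, IsStarProjection (e j))
    (horth : ∀ j k, j ≠ k → e j * e k = 0) (hsum : ∑ j, e j = 1) {r : ℕ} (col : ι → Fin r) :
    IsPartitionIn A (fun i => ∑ j, if col j = i then e j else 0) := by
  refine ⟨fun i => ⟨?_, ?_⟩, ?_, ?_⟩
  · refine sum_mem (fun j _ => ?_)
    split_ifs
    · exact heA j
    · exact zero_mem A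
  · beta_reduce
    rw [← Finset.sum_filter]
    exact isStarProjection_sum _ e (fun j _ => hep j) (fun j _ k _ hjk => horth j k hjk)
  · intro i i' hii'
    beta_reduce
    rw [Finset.sum_mul_sum]
    refine Finset.sum_eq_zero (fun j _ => Finset.sum_eq_zero (fun k _ => ?_))
    by_cases h1 : col j = i
    · by_cases h2 : col k = i'
      · rw [if_pos h1, if_pos h2]
        refine horth j k (fun hjk => hii' ?_)
        rw [← h1, ← h2, hjk]
      · rw [if_neg h2, mul_zero]
    · rw [if_neg h1, zero_mul]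
  · beta_reduce
    rw [Finset.sum_comm]
    rw [← hsum]
    refine Finset.sum_congr rfl (fun j _ => ?_)
    rw [Finset.sum_ite_eq]
    simp

/-! ### The synthesis operator of a finite orthonormal family -/

/-- The synthesis operator `w ↦ ∑ k, w k • u k` of a finite family of vectors. -/
noncomputable def synth {n : ℕ} (u : Fin n → H) : EuclideanSpace ℂ (Fin n) →L[ℂ] H :=
  ∑ k, (EuclideanSpace.proj k : EuclideanSpace ℂ (Fin n) →L[ℂ] ℂ).smulRight (u k)

omit [CompleteSpace H] in
lemma synth_apply {n : ℕ} (u : Fin n → H) (w : EuclideanSpace ℂ (Fin n)) :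
    synth u w = ∑ k, w k • u k := by
  simp [synth]

lemma synth_adjoint_apply {n : ℕ} (u : Fin n → H) (ξ : H) (j : Fin n) :
    (adjoint (synth u) ξ) j = ⟪u j, ξ⟫_ℂ := by
  have h := adjoint_inner_right (synth u) (EuclideanSpace.single j (1 : ℂ)) ξ
  rw [EuclideanSpace.inner_single_left] at h
  simp [synth_apply] at h
  exact h

lemma synth_adjoint_comp_self {n : ℕ} {u : Fin n → H} (hu : Orthonormal ℂ u) :
    adjoint (synth u) ∘L synth u = 1 := by
  ext w j
  rw [coe_comp, Function.comp_apply, synth_adjoint_apply, synth_apply, hu.inner_right_fintype]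
  rfl

lemma synth_conj_eq_matrix {n : ℕ} (u : Fin n → H) (B : H →L[ℂ] H) :
    adjoint (synth u) ∘L B ∘L synth u =
      Matrix.toEuclideanCLM (n := Fin n) (𝕜 := ℂ) (Matrix.of fun j k => ⟪u j, B (u k)⟫_ℂ) := by
  ext w j
  rw [coe_comp, Function.comp_apply, coe_comp, Function.comp_apply, synth_adjoint_apply,
    synth_apply, map_sum, inner_sum, Matrix.ofLp_toEuclideanCLM]
  simp only [map_smul, inner_smul_right, Matrix.mulVec, dotProduct, Matrix.of_apply]
  refine Finset.sum_congr rfl (fun k _ => ?_)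
  ring

lemma norm_synth_le {n : ℕ} {u : Fin n → H} (hu : Orthonormal ℂ u) : ‖synth u‖ ≤ 1 := by
  refine opNorm_le_bound _ zero_le_one (fun w => ?_)
  rw [one_mul, (norm_map_iff_adjoint_comp_self (synth u)).mpr (synth_adjoint_comp_self hu) w]

lemma norm_adjoint_synth_le {n : ℕ} {u : Fin n → H} (hu : Orthonormal ℂ u) :
    ‖adjoint (synth u)‖ ≤ 1 := by
  rw [LinearIsometryEquiv.norm_map]
  exact norm_synth_le hu

lemma isStarProjection_synth {n : ℕ} {u : Fin n → H} (hu : Orthonormal ℂ u) :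
    IsStarProjection (synth u ∘L adjoint (synth u)) := by
  refine ⟨?_, ?_⟩
  · show (synth u ∘L adjoint (synth u)) ∘L (synth u ∘L adjoint (synth u)) = _
    rw [comp_assoc, ← comp_assoc (adjoint (synth u)), synth_adjoint_comp_self hu]
    rfl
  · rw [isSelfAdjoint_iff', adjoint_comp, adjoint_adjoint]

lemma synth_proj_apply_of_mem_span {n : ℕ} {u : Fin n → H} (hu : Orthonormal ℂ u) {v : H}
    (hv : v ∈ Submodule.span ℂ (Set.range u)) : (synth u ∘L adjoint (synth u)) v = v := by
  have hle : Submodule.span ℂ (Set.range u) ≤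
      LinearMap.eqLocus ((synth u ∘L adjoint (synth u) : H →L[ℂ] H) : H →ₗ[ℂ] H) LinearMap.id := by
    rw [Submodule.span_le]
    rintro _ ⟨k, rfl⟩
    have hk : u k = synth u (EuclideanSpace.single k (1 : ℂ)) := by
      rw [synth_apply]
      simp
    have h1 : adjoint (synth u) (synth u (EuclideanSpace.single k (1 : ℂ)))
        = EuclideanSpace.single k (1 : ℂ) := by
      have := congrArg (fun f => f (EuclideanSpace.single k (1 : ℂ))) (synth_adjoint_comp_self hu)
      simpa using this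
    show (synth u ∘L adjoint (synth u)) (u k) = u k
    rw [coe_comp, Function.comp_apply]
    rw [hk, h1]
  exact hle hv

/-! ### Matrix entries of a pinching in an adapted orthonormal family -/

section Adapted

variable {ι : Type*} [Fintype ι] [DecidableEq ι] (e : ι → H →L[ℂ] H)
  {n : ℕ} (u : Fin n → H) (τ : Fin n → ι)

omit [CompleteSpace H] in
lemma coloring_apply (heu : ∀ j k, e j (u k) = if j = τ k then u k else 0) {r : ℕ}
    (col : ι → Fin r) (i : Fin r) (k : Fin n) :
    (∑ j, if col j = i then e j else 0) (u k) = if col (τ k) = i then u k else 0 := by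
  rw [sum_apply, Finset.sum_eq_single (τ k)]
  · by_cases h : col (τ k) = i
    · rw [if_pos h, if_pos h, heu, if_pos rfl]
    · rw [if_neg h, if_neg h, zero_apply]
  · intro j _ hj
    by_cases h : col j = i
    · rw [if_pos h, heu, if_neg hj]
    · rw [if_neg h, zero_apply]
  · intro h
    exact absurd (Finset.mem_univ _) h

omit [CompleteSpace H] in
lemma diag_apply (heu : ∀ j k, e j (u k) = if j = τ k then u k else 0)
    (dd : ι → ℝ) (k : Fin n) :
    (∑ j, (dd j : ℂ) • e j) (u k) = (dd (τ k) : ℂ) • u k := by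
  rw [sum_apply, Finset.sum_eq_single (τ k)]
  · rw [smul_apply, heu, if_pos rfl]
  · intro j _ hj
    rw [smul_apply, heu, if_neg hj, smul_zero]
  · intro h
    exact absurd (Finset.mem_univ _) h

lemma entry_pinching_sub (hep : ∀ j, IsStarProjection (e j))
    (horth : ∀ j k, j ≠ k → e j * e k = 0)
    (hu : Orthonormal ℂ u)
    (heu : ∀ j k, e j (u k) = if j = τ k then u k else 0) {r : ℕ}
    (col : ι → Fin r) (dd : ι → ℝ) (x : H →L[ℂ] H) (j k : Fin n) :
    ⟪u j, (pinching (fun i => ∑ j, if col j = i then e j else 0) x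
        - ∑ j, (dd j : ℂ) • e j) (u k)⟫_ℂ
      = (if col (τ j) = col (τ k) then ⟪u j, x (u k)⟫_ℂ else 0)
        - (if j = k then (dd (τ j) : ℂ) else 0) := by
  have hsa : ∀ i, IsSelfAdjoint (∑ j, if col j = i then e j else 0) := by
    intro i
    rw [← Finset.sum_filter]
    exact (isStarProjection_sum _ e (fun j _ => hep j)
      (fun j _ k _ hjk => horth j k hjk)).isSelfAdjoint
  rw [sub_apply, inner_sub_right, diag_apply e u τ heu, inner_smul_right]
  congr 1
  · unfold pinching
    rw [sum_apply, inner_sum]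
    have hterm : ∀ i : Fin r,
        ⟪u j, ((∑ j, if col j = i then e j else 0) * x * (∑ j, if col j = i then e j else 0)) (u k)⟫_ℂ
          = if col (τ j) = i then (if col (τ k) = i then ⟪u j, x (u k)⟫_ℂ else 0) else 0 := by
      intro i
      rw [mul_apply_eq_comp, mul_apply_eq_comp, ← adjoint_inner_left, (hsa i).adjoint_eq,
        coloring_apply e u τ heu, coloring_apply e u τ heu]
      by_cases h1 : col (τ j) = i
      · by_cases h2 : col (τ k) = i
        · rw [if_pos h1, if_pos h2, if_pos h1, if_pos h2]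
        · rw [if_pos h1, if_neg h2, if_pos h1, if_neg h2, map_zero, inner_zero_right]
      · rw [if_neg h1, if_neg h1, inner_zero_left]
    rw [Finset.sum_congr rfl (fun i _ => hterm i), Finset.sum_ite_eq]
    simp only [Finset.mem_univ, if_true]
    by_cases h : col (τ j) = col (τ k)
    · rw [if_pos h, if_pos h.symm]
    · rw [if_neg h, if_neg (fun h' => h h'.symm)]
  · rw [orthonormal_iff_ite.mp hu j k]
    by_cases h : j = k
    · rw [if_pos h, if_pos h, mul_one, h]
    · rw [if_neg h, if_neg h, mul_zero]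

end Adapted

/-! ### The transfer step -/

theorem transfer_aux {ι : Type*} [Fintype ι] [DecidableEq ι] (A : VonNeumannAlgebra H)
    (e : ι → H →L[ℂ] H) (heA : ∀ j, e j ∈ A) (hep : ∀ j, IsStarProjection (e j))
    (horth : ∀ j k, j ≠ k → e j * e k = 0) (hsum : ∑ j, e j = 1)
    {n : ℕ} (u : Fin n → H) (hu : Orthonormal ℂ u) (τ : Fin n → ι) (hτ : Function.Injective τ)
    (heu : ∀ j k, e j (u k) = if j = τ k then u k else 0)
    {ε : ℝ} {r : ℕ} (hmp : MatrixPavable ε r) (x : H →L[ℂ] H) (hx : IsSelfAdjoint x) :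
    ∃ (p : Fin r → H →L[ℂ] H) (a : H →L[ℂ] H),
      IsPartitionIn A p ∧ a ∈ A ∧ IsSelfAdjoint a ∧ ‖a‖ ≤ ‖x‖ ∧
      ‖(synth u ∘L adjoint (synth u)) * (pinching p x - a) * (synth u ∘L adjoint (synth u))‖
        ≤ ε * ‖x‖ := by
  classical
  -- basic consequences of the paving hypothesis
  obtain ⟨c₁, d₁, -, h₁⟩ := hmp 1 1 Matrix.isHermitian_one
  rw [← Matrix.l2_opNorm_toEuclideanCLM, ← Matrix.l2_opNorm_toEuclideanCLM] at h₁
  have hε : 0 ≤ ε := by
    by_contra hneg
    rw [not_le] at hneg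
    have hpos : 0 < ‖Matrix.toEuclideanCLM (n := Fin 1) (𝕜 := ℂ) 1‖ := by
      rw [norm_pos_iff]
      intro h0
      have := (Matrix.toEuclideanCLM (n := Fin 1) (𝕜 := ℂ)).injective (h0.trans (map_zero _).symm)
      exact one_ne_zero this
    have h2 := (norm_nonneg _).trans h₁
    nlinarith
  let i₀ : Fin r := c₁ 0
  -- the compression of x
  set T : Matrix (Fin n) (Fin n) ℂ := Matrix.of fun j k => ⟪u j, x (u k)⟫_ℂ with hT
  have hTherm : T.IsHermitian := by
    ext j k
    rw [Matrix.conjTranspose_apply, hT, Matrix.of_apply, Matrix.of_apply, RCLike.star_def,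
      inner_conj_symm, ← adjoint_inner_right, hx.adjoint_eq]
  have hTnorm : ‖Matrix.toEuclideanCLM (n := Fin n) (𝕜 := ℂ) T‖ ≤ ‖x‖ := by
    rw [hT, ← synth_conj_eq_matrix]
    calc ‖adjoint (synth u) ∘L x ∘L synth u‖
        ≤ ‖adjoint (synth u)‖ * ‖x ∘L synth u‖ := opNorm_comp_le _ _
      _ ≤ ‖adjoint (synth u)‖ * (‖x‖ * ‖synth u‖) := by
          gcongr; exact opNorm_comp_le _ _
      _ ≤ 1 * (‖x‖ * 1) := by
          gcongr
          · exact norm_adjoint_synth_le hu
          · exact norm_synth_le hu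
      _ = ‖x‖ := by ring
  obtain ⟨c, d, hd, hcd⟩ := hmp n T hTherm
  rw [← Matrix.l2_opNorm_toEuclideanCLM] at hd
  rw [← Matrix.l2_opNorm_toEuclideanCLM, ← Matrix.l2_opNorm_toEuclideanCLM] at hcd
  unfold pavedMatrix at hcd
  -- extend colouring and diagonal to the whole index set
  let col : ι → Fin r := fun j => if h : ∃ k, τ k = j then c h.choose else i₀
  let dd : ι → ℝ := fun j => if h : ∃ k, τ k = j then d h.choose else 0
  have hcol : ∀ k, col (τ k) = c k := by
    intro k
    have h : ∃ k', τ k' = τ k := ⟨k, rfl⟩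
    simp only [col, dif_pos h]
    rw [hτ h.choose_spec]
  have hdd : ∀ k, dd (τ k) = d k := by
    intro k
    have h : ∃ k', τ k' = τ k := ⟨k, rfl⟩
    simp only [dd, dif_pos h]
    rw [hτ h.choose_spec]
  have hddle : ∀ j, |dd j| ≤ ‖x‖ := by
    intro j
    by_cases h : ∃ k, τ k = j
    · simp only [dd, dif_pos h]
      exact (hd _).trans hTnorm
    · simp only [dd, dif_neg h, abs_zero]
      exact norm_nonneg x
  have he0 : ∀ j, 0 ≤ e j := fun j => (hep j).nonneg
  have hone : ∀ C : ℝ, algebraMap ℝ (H →L[ℂ] H) C = ∑ j, C • e j := by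
    intro C
    rw [Algebra.algebraMap_eq_smul_one, ← hsum, Finset.smul_sum]
  refine ⟨fun i => ∑ j, if col j = i then e j else 0, ∑ j, (dd j : ℂ) • e j,
    isPartitionIn_of_coloring A e heA hep horth hsum col, ?_, ?_, ?_, ?_⟩
  · exact sum_mem (fun j _ => A.toStarSubalgebra.smul_mem (heA j) _)
  · refine isSelfAdjoint_sum _ (fun j _ => ?_)
    exact IsSelfAdjoint.smul (Complex.conj_ofReal _) (hep j).isSelfAdjoint
  · have hsa : IsSelfAdjoint (∑ j, (dd j : ℂ) • e j) := by
      refine isSelfAdjoint_sum _ (fun j _ => ?_)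
      exact IsSelfAdjoint.smul (Complex.conj_ofReal _) (hep j).isSelfAdjoint
    refine norm_le_of_neg_le_of_le hsa (norm_nonneg x) ?_ ?_
    · rw [hone]
      refine Finset.sum_le_sum (fun j _ => ?_)
      rw [Complex.coe_smul]
      exact smul_le_smul_of_nonneg_right (neg_le_of_abs_le (hddle j)) (he0 j)
    · rw [hone]
      refine Finset.sum_le_sum (fun j _ => ?_)
      rw [Complex.coe_smul]
      exact smul_le_smul_of_nonneg_right (le_of_abs_le (hddle j)) (he0 j)
  · set B := pinching (fun i => ∑ j, if col j = i then e j else 0) x - ∑ j, (dd j : ℂ) • e j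
      with hB
    have hmat : adjoint (synth u) ∘L B ∘L synth u =
        Matrix.toEuclideanCLM (n := Fin n) (𝕜 := ℂ)
          (Matrix.of fun j k => (if c j = c k then T j k else 0)
            - (if j = k then (d j : ℂ) else 0)) := by
      rw [synth_conj_eq_matrix]
      congr 1
      ext j k
      rw [Matrix.of_apply, Matrix.of_apply, hB,
        entry_pinching_sub e u τ hep horth hu heu col dd x j k, hcol, hcol, hdd]
      rfl
    have hqBq : (synth u ∘L adjoint (synth u)) * B * (synth u ∘L adjoint (synth u))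
        = synth u ∘L (adjoint (synth u) ∘L B ∘L synth u) ∘L adjoint (synth u) := by
      ext v
      simp
    rw [hqBq, hmat]
    calc ‖synth u ∘L _ ∘L adjoint (synth u)‖
        ≤ ‖synth u‖ * ‖(Matrix.toEuclideanCLM (n := Fin n) (𝕜 := ℂ)
            (Matrix.of fun j k => (if c j = c k then T j k else 0)
              - (if j = k then (d j : ℂ) else 0))) ∘L adjoint (synth u)‖ := opNorm_comp_le _ _
      _ ≤ ‖synth u‖ * (‖Matrix.toEuclideanCLM (n := Fin n) (𝕜 := ℂ)
            (Matrix.of fun j k => (if c j = c k then T j k else 0)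
              - (if j = k then (d j : ℂ) else 0))‖ * ‖adjoint (synth u)‖) := by
          gcongr; exact opNorm_comp_le _ _
      _ ≤ 1 * (‖Matrix.toEuclideanCLM (n := Fin n) (𝕜 := ℂ)
            (Matrix.of fun j k => (if c j = c k then T j k else 0)
              - (if j = k then (d j : ℂ) else 0))‖ * 1) := by
          gcongr
          · exact norm_synth_le hu
          · exact norm_adjoint_synth_le hu
      _ = ‖Matrix.toEuclideanCLM (n := Fin n) (𝕜 := ℂ)
            (Matrix.of fun j k => (if c j = c k then T j k else 0)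
              - (if j = k then (d j : ℂ) else 0))‖ := by ring
      _ ≤ ε * ‖Matrix.toEuclideanCLM (n := Fin n) (𝕜 := ℂ) T‖ := hcd
      _ ≤ ε * ‖x‖ := by gcongr

theorem transfer_core {ι : Type*} [Fintype ι] [DecidableEq ι] (A : VonNeumannAlgebra H)
    (e : ι → H →L[ℂ] H) (heA : ∀ j, e j ∈ A) (hep : ∀ j, IsStarProjection (e j))
    (horth : ∀ j k, j ≠ k → e j * e k = 0) (hsum : ∑ j, e j = 1)
    (ζ : ι → H) (hζ : ∀ j, e j (ζ j) = ζ j)
    {ε : ℝ} {r : ℕ} (hmp : MatrixPavable ε r) (x : H →L[ℂ] H) (hx : IsSelfAdjoint x) :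
    ∃ (p : Fin r → H →L[ℂ] H) (a q : H →L[ℂ] H),
      IsPartitionIn A p ∧ a ∈ A ∧ IsSelfAdjoint a ∧ ‖a‖ ≤ ‖x‖ ∧ IsStarProjection q ∧
      (∀ v ∈ Submodule.span ℂ (Set.range ζ), q v = v) ∧
      ‖q * (pinching p x - a) * q‖ ≤ ε * ‖x‖ := by
  classical
  let J : Finset ι := Finset.univ.filter (fun j => ζ j ≠ 0)
  let σ : Fin J.card ≃ J := J.equivFin.symm
  let τ : Fin J.card → ι := fun k => (σ k : ι)
  have hτ : Function.Injective τ := Subtype.val_injective.comp σ.injective
  have hτne : ∀ k, ζ (τ k) ≠ 0 := by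
    intro k
    have := (σ k).2
    exact (Finset.mem_filter.mp this).2
  let u : Fin J.card → H := fun k => ((‖ζ (τ k)‖ : ℂ)⁻¹) • ζ (τ k)
  have heζ : ∀ j j', e j (ζ j') = if j = j' then ζ j' else 0 := by
    intro j j'
    by_cases h : j = j'
    · rw [if_pos h, h, hζ]
    · rw [if_neg h, ← hζ j', ← mul_apply_eq_comp, horth j j' h, zero_apply]
  have heu : ∀ j k, e j (u k) = if j = τ k then u k else 0 := by
    intro j k
    simp only [u]
    rw [map_smul, heζ]
    by_cases h : j = τ k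
    · rw [if_pos h, if_pos h]
    · rw [if_neg h, if_neg h, smul_zero]
  have hζorth : ∀ j j', j ≠ j' → ⟪ζ j, ζ j'⟫_ℂ = 0 := by
    intro j j' h
    rw [← hζ j, ← adjoint_inner_right, (hep j).isSelfAdjoint.adjoint_eq, heζ, if_neg h,
      inner_zero_right]
  have hu : Orthonormal ℂ u := by
    refine ⟨fun k => norm_smul_inv_norm (hτne k), fun k l hkl => ?_⟩
    simp only [u]
    rw [inner_smul_left, inner_smul_right, hζorth _ _ (fun h => hkl (hτ h)), mul_zero, mul_zero]
  obtain ⟨p, a, hp, haA, hasa, hanorm, hbound⟩ :=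
    transfer_aux A e heA hep horth hsum u hu τ hτ heu hmp x hx
  refine ⟨p, a, synth u ∘L adjoint (synth u), hp, haA, hasa, hanorm, isStarProjection_synth hu,
    ?_, hbound⟩
  intro v hv
  refine synth_proj_apply_of_mem_span hu ?_
  refine (Submodule.span_le.mpr ?_) hv
  rintro _ ⟨j, rfl⟩
  by_cases hj : ζ j = 0
  · rw [hj]
    exact zero_mem _
  · have hjJ : j ∈ J := Finset.mem_filter.mpr ⟨Finset.mem_univ _, hj⟩
    have hk : τ (σ.symm ⟨j, hjJ⟩) = j := by
      simp only [τ, Equiv.apply_symm_apply]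
    have hnorm : (‖ζ j‖ : ℂ) ≠ 0 := by
      rw [Ne, Complex.ofReal_eq_zero, norm_eq_zero]
      exact hj
    have : ζ j = (‖ζ j‖ : ℂ) • u (σ.symm ⟨j, hjJ⟩) := by
      simp only [u]
      rw [hk, smul_smul, mul_inv_cancel₀ hnorm, one_smul]
    rw [SetLike.mem_coe, this]
    exact Submodule.smul_mem _ _ (Submodule.subset_span ⟨_, rfl⟩)

/-- If, near every finite set of vectors, `A` can be finitely diagonalised (in the sense of the
hypothesis `happrox`), then finite-dimensional paving transfers to so-paving over `A` in `B(H)`. -/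
theorem soPavable_of_approx (A M : VonNeumannAlgebra H) (hM : ∀ y : H →L[ℂ] H, y ∈ M)
    {ε : ℝ} {r : ℕ} (hmp : MatrixPavable ε r) (x : H →L[ℂ] H) (hx : IsSelfAdjoint x)
    (happrox : ∀ (F : Finset H) (δ : ℝ), 0 < δ →
      ∃ (ι : Type) (_ : Fintype ι) (e : ι → H →L[ℂ] H) (ζ : ι → H),
        (∀ j, e j ∈ A) ∧ (∀ j, IsStarProjection (e j)) ∧ (∀ j k, j ≠ k → e j * e k = 0) ∧
        ∑ j, e j = 1 ∧ (∀ j, e j (ζ j) = ζ j) ∧
        ∀ ξ ∈ F, ∃ v ∈ Submodule.span ℂ (Set.range ζ), ‖ξ - v‖ < δ) :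
    SoPavable A M x ε r := by
  intro F δ hδ
  obtain ⟨ι, hι, e, ζ, heA, hep, horth, hsum, hζ, hF⟩ := happrox F δ hδ
  classical
  obtain ⟨p, a, q, hp, haA, hasa, hanorm, hq, hqv, hbound⟩ :=
    transfer_core A e heA hep horth hsum ζ hζ hmp x hx
  refine ⟨p, a, q, hp, haA, hasa, hanorm, hM q, hq, ?_, hbound⟩
  intro ξ hξ
  obtain ⟨v, hv, hvδ⟩ := hF ξ hξ
  have h1 : (1 - q) ξ = (1 - q) (ξ - v) := by
    rw [map_sub, sub_apply, sub_apply, one_apply_eq_self, one_apply_eq_self, hqv v hv]
    abel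
  rw [h1]
  calc ‖(1 - q) (ξ - v)‖ ≤ ‖1 - q‖ * ‖ξ - v‖ := le_opNorm _ _
    _ ≤ 1 * ‖ξ - v‖ := by
        gcongr
        exact IsStarProjection.norm_le _ hq.one_sub
    _ = ‖ξ - v‖ := one_mul _
    _ < δ := hvδ

/-- The projection onto the closure of a subspace invariant under the commutant of `A`
belongs to `A`. -/
lemma starProjection_closure_mem (A : VonNeumannAlgebra H) (S : Submodule ℂ H)
    (hS : ∀ y ∈ A.commutant, ∀ v ∈ S, y v ∈ S) :
    S.topologicalClosure.starProjection ∈ A := by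
  rw [VonNeumannAlgebra.IsStarProjection.mem_iff isStarProjection_starProjection A]
  intro y hy
  rw [Submodule.range_starProjection, Module.End.mem_invtSubmodule]
  refine Submodule.topologicalClosure_minimal _ ?_ ?_
  · intro v hv
    exact S.le_topologicalClosure (hS y hy v hv)
  · exact (S.isClosed_topologicalClosure).preimage y.continuous

/-- Level projection: for a self-adjoint `b` in a von Neumann algebra `A` there is a projection
`e ∈ A` commuting with `b` such that `b * e ≥ 0` and `b * (1 - e) ≤ 0`. -/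
lemma exists_level_projection (A : VonNeumannAlgebra H) {b : H →L[ℂ] H} (hbA : b ∈ A)
    (hb : IsSelfAdjoint b) :
    ∃ e ∈ A, IsStarProjection e ∧ e * b = b * e ∧ 0 ≤ b * e ∧ b * (1 - e) ≤ 0 := by
  have hpn : b⁺ * b⁻ = 0 := CFC.posPart_mul_negPart b
  have hnp : b⁻ * b⁺ = 0 := CFC.negPart_mul_posPart b
  have hsub : b⁺ - b⁻ = b := CFC.posPart_sub_negPart b hb
  have hp0 : 0 ≤ b⁺ := CFC.posPart_nonneg b
  have hn0 : 0 ≤ b⁻ := CFC.negPart_nonneg b
  let S : Submodule ℂ H := LinearMap.range ((b⁺ : H →L[ℂ] H) : H →ₗ[ℂ] H)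
  have hcomm : ∀ y ∈ A.commutant, y * b⁺ = b⁺ * y := by
    intro y hy
    have h1 : Commute b y := by
      rw [VonNeumannAlgebra.mem_commutant_iff] at hy
      exact hy b hbA
    exact ((h1.cfcₙ_real (·⁺)).eq).symm
  have hP : IsStarProjection S.topologicalClosure.starProjection := isStarProjection_starProjection
  have he1 : S.topologicalClosure.starProjection * b⁺ = b⁺ := by
    ext v
    rw [mul_apply_eq_comp]
    exact Submodule.starProjection_eq_self_iff.mpr (S.le_topologicalClosure ⟨v, rfl⟩)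
  have hker : S.topologicalClosure ≤ LinearMap.ker ((b⁻ : H →L[ℂ] H) : H →ₗ[ℂ] H) := by
    refine Submodule.topologicalClosure_minimal _ ?_ (b⁻ : H →L[ℂ] H).isClosed_ker
    rintro _ ⟨v, rfl⟩
    rw [LinearMap.mem_ker]
    show b⁻ (b⁺ v) = 0
    rw [← mul_apply_eq_comp, hnp, zero_apply]
  have he2 : b⁻ * S.topologicalClosure.starProjection = 0 := by
    ext v
    rw [mul_apply_eq_comp, zero_apply]
    exact LinearMap.mem_ker.mp (hker (Submodule.starProjection_apply_mem _ v))
  have he3 : b⁺ * S.topologicalClosure.starProjection = b⁺ := by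
    have := congrArg star he1
    rwa [star_mul, hp0.isSelfAdjoint.star_eq, hP.isSelfAdjoint.star_eq] at this
  have he4 : S.topologicalClosure.starProjection * b⁻ = 0 := by
    have := congrArg star he2
    rwa [star_mul, hn0.isSelfAdjoint.star_eq, hP.isSelfAdjoint.star_eq, star_zero] at this
  have hbe : b * S.topologicalClosure.starProjection = b⁺ := by
    calc b * S.topologicalClosure.starProjection
        = (b⁺ - b⁻) * S.topologicalClosure.starProjection := by rw [hsub]
      _ = b⁺ := by rw [sub_mul, he3, he2, sub_zero]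
  have heb : S.topologicalClosure.starProjection * b = b⁺ := by
    calc S.topologicalClosure.starProjection * b
        = S.topologicalClosure.starProjection * (b⁺ - b⁻) := by rw [hsub]
      _ = b⁺ := by rw [mul_sub, he1, he4, sub_zero]
  refine ⟨S.topologicalClosure.starProjection, starProjection_closure_mem A S ?_, hP, ?_, ?_, ?_⟩
  · rintro y hy _ ⟨v, rfl⟩
    refine ⟨y v, ?_⟩
    have := congrArg (fun f : H →L[ℂ] H => f v) (hcomm y hy)
    simpa using this.symm
  · rw [heb, hbe]
  · rw [hbe]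
    exact hp0
  · rw [mul_sub, mul_one, hbe]
    have : b - b⁺ = -b⁻ := by
      calc b - b⁺ = (b⁺ - b⁻) - b⁺ := by rw [hsub]
        _ = -b⁻ := by abel
    rw [this]
    exact neg_nonpos.mpr hn0

/-! ### Algebraic identities used for the halving step -/

section Algebra

variable {R : Type*} [Ring R] [Algebra ℝ R]

lemma halve_alg1 (a f e : R) (l : ℝ) (hfa : f * a = a * f) :
    a * (f * e) - l • (f * e) = f * ((a - l • 1) * e) := by
  simp only [sub_mul, mul_sub, smul_mul_assoc, one_mul, mul_smul_comm, ← mul_assoc, hfa]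

lemma halve_alg2 (a f e : R) (l : ℝ) :
    l • (f * e) - a * (f * e) = (l • f - a * f) * e := by
  simp only [sub_mul, smul_mul_assoc, mul_assoc]

lemma halve_alg3 (a f e : R) (l : ℝ) :
    a * (f * e) - l • (f * e) = (a * f - l • f) * e := by
  simp only [sub_mul, smul_mul_assoc, mul_assoc]

lemma halve_alg4 (a f e : R) (l : ℝ) (hfa : f * a = a * f) :
    l • (f * e) - a * (f * e) = f * (-((a - l • 1) * e)) := by
  simp only [sub_mul, mul_sub, smul_mul_assoc, one_mul, mul_smul_comm, ← mul_assoc, hfa, neg_sub]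

end Algebra

/-- A finite partition of unity by projections of `A`. -/
def IsPOU (A : VonNeumannAlgebra H) {ι : Type} [Fintype ι] (f : ι → H →L[ℂ] H) : Prop :=
  (∀ j, f j ∈ A) ∧ (∀ j, IsStarProjection (f j)) ∧ (∀ j k, j ≠ k → f j * f k = 0) ∧
    ∑ j, f j = 1

lemma real_smul_mem (A : VonNeumannAlgebra H) {a : H →L[ℂ] H} (ha : a ∈ A) (t : ℝ) :
    t • a ∈ A := by
  rw [← Complex.coe_smul]
  exact A.toStarSubalgebra.smul_mem ha _

/-- Halving step: a piece on which `a` lies between `c` and `c + 2 w` splits into two pieces on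
which `a` lies between `c + w` and `c + 2 w`, respectively between `c` and `c + w`. -/
lemma exists_halving (A : VonNeumannAlgebra H) (hAc : ∀ a ∈ A, ∀ b ∈ A, a * b = b * a)
    {a : H →L[ℂ] H} (haA : a ∈ A) (ha : IsSelfAdjoint a) {f : H →L[ℂ] H} (hfA : f ∈ A)
    (hf : IsStarProjection f) (c w : ℝ) (h1 : c • f ≤ a * f) (h2 : a * f ≤ (c + 2 * w) • f) :
    ∃ e ∈ A, IsStarProjection e ∧
      ((c + w) • (f * e) ≤ a * (f * e) ∧ a * (f * e) ≤ (c + w + w) • (f * e)) ∧
      (c • (f * (1 - e)) ≤ a * (f * (1 - e)) ∧ a * (f * (1 - e)) ≤ (c + w) • (f * (1 - e))) := by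
  have hbA : a - (c + w) • (1 : H →L[ℂ] H) ∈ A := sub_mem haA (real_smul_mem A (one_mem A) _)
  have hb : IsSelfAdjoint (a - (c + w) • (1 : H →L[ℂ] H)) :=
    ha.sub ((IsSelfAdjoint.all (c + w)).smul (IsSelfAdjoint.one _))
  obtain ⟨e, heA, he, -, hpos, hneg⟩ := exists_level_projection A hbA hb
  have hfa : f * a = a * f := hAc f hfA a haA
  have hf0 : 0 ≤ f := hf.nonneg
  have he0 : 0 ≤ e := he.nonneg
  have he1 : 0 ≤ 1 - e := he.one_sub.nonneg
  have h1eA : 1 - e ∈ A := sub_mem (one_mem A) heA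
  refine ⟨e, heA, he, ⟨?_, ?_⟩, ⟨?_, ?_⟩⟩
  · rw [← sub_nonneg, halve_alg1 a f e (c + w) hfa]
    exact Commute.mul_nonneg hf0 hpos (hAc f hfA _ (mul_mem hbA heA))
  · rw [← sub_nonneg, halve_alg2]
    have hD : 0 ≤ (c + w + w) • f - a * f := by
      rw [sub_nonneg]
      have : c + w + w = c + 2 * w := by ring
      rw [this]
      exact h2
    exact Commute.mul_nonneg hD he0
      (hAc _ (sub_mem (real_smul_mem A hfA _) (mul_mem haA hfA)) e heA)
  · rw [← sub_nonneg, halve_alg3]
    have hD : 0 ≤ a * f - c • f := sub_nonneg.mpr h1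
    exact Commute.mul_nonneg hD he1
      (hAc _ (sub_mem (mul_mem haA hfA) (real_smul_mem A hfA _)) _ h1eA)
  · rw [← sub_nonneg, halve_alg4 a f (1 - e) (c + w) hfa]
    have hD : 0 ≤ -((a - (c + w) • (1 : H →L[ℂ] H)) * (1 - e)) := neg_nonneg.mpr hneg
    exact Commute.mul_nonneg hf0 hD (hAc f hfA _ (neg_mem (mul_mem hbA h1eA)))

lemma exists_step_bounds (A : VonNeumannAlgebra H) (hAc : ∀ a ∈ A, ∀ b ∈ A, a * b = b * a)
    {a : H →L[ℂ] H} (haA : a ∈ A) (ha : IsSelfAdjoint a) (k : ℕ) :
    ∃ (ι : Type) (_ : Fintype ι) (f : ι → H →L[ℂ] H) (c : ι → ℝ), IsPOU A f ∧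
      ∀ j, c j • f j ≤ a * f j ∧ a * f j ≤ (c j + 2 * (‖a‖ / 2 ^ k)) • f j := by
  induction k with
  | zero =>
    refine ⟨Unit, inferInstance, fun _ => 1, fun _ => -‖a‖, ⟨fun _ => one_mem A,
      fun _ => IsStarProjection.one _, fun j k hjk => absurd (Subsingleton.elim j k) hjk, ?_⟩, ?_⟩
    · simp
    · intro _
      rw [mul_one, pow_zero, div_one, ← Algebra.algebraMap_eq_smul_one,
        ← Algebra.algebraMap_eq_smul_one, map_neg]
      refine ⟨ha.neg_algebraMap_norm_le_self, ?_⟩
      have : -‖a‖ + 2 * ‖a‖ = ‖a‖ := by ring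
      rw [this]
      exact ha.le_algebraMap_norm_self
  | succ k ih =>
    obtain ⟨ι, hι, f, c, ⟨hfA, hfp, hforth, hfsum⟩, hb⟩ := ih
    have hw : 2 * (‖a‖ / 2 ^ k) = 2 * (2 * (‖a‖ / 2 ^ (k + 1))) := by
      rw [pow_succ]
      field_simp
    have key : ∀ j, ∃ e ∈ A, IsStarProjection e ∧
        ((c j + 2 * (‖a‖ / 2 ^ (k + 1))) • (f j * e) ≤ a * (f j * e) ∧
          a * (f j * e) ≤ (c j + 2 * (‖a‖ / 2 ^ (k + 1)) + 2 * (‖a‖ / 2 ^ (k + 1))) • (f j * e)) ∧
        (c j • (f j * (1 - e)) ≤ a * (f j * (1 - e)) ∧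
          a * (f j * (1 - e)) ≤ (c j + 2 * (‖a‖ / 2 ^ (k + 1))) • (f j * (1 - e))) := by
      intro j
      refine exists_halving A hAc haA ha (hfA j) (hfp j) (c j) (2 * (‖a‖ / 2 ^ (k + 1)))
        (hb j).1 ?_
      rw [← hw]
      exact (hb j).2
    choose e heA hep hbt hbf using key
    refine ⟨ι × Bool, inferInstance, fun p => if p.2 then f p.1 * e p.1 else f p.1 * (1 - e p.1),
      fun p => if p.2 then c p.1 + 2 * (‖a‖ / 2 ^ (k + 1)) else c p.1, ⟨?_, ?_, ?_, ?_⟩, ?_⟩
    · rintro ⟨j, s⟩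
      cases s
      · exact mul_mem (hfA j) (sub_mem (one_mem A) (heA j))
      · exact mul_mem (hfA j) (heA j)
    · rintro ⟨j, s⟩
      cases s
      · exact (hfp j).mul (hep j).one_sub (hAc _ (hfA j) _ (sub_mem (one_mem A) (heA j)))
      · exact (hfp j).mul (hep j) (hAc _ (hfA j) _ (heA j))
    · rintro ⟨j, s⟩ ⟨j', s'⟩ hne
      have hgen : ∀ X ∈ A, ∀ X' ∈ A, (j ≠ j' ∨ X * X' = 0) → (f j * X) * (f j' * X') = 0 := by
        intro X hX X' hX' h
        have : (f j * X) * (f j' * X') = (f j * f j') * (X * X') := by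
          rw [mul_assoc, ← mul_assoc X, hAc X hX _ (hfA j'), mul_assoc, ← mul_assoc]
        rw [this]
        rcases h with h | h
        · rw [hforth j j' h, zero_mul]
        · rw [h, mul_zero]
      have h1e : ∀ j, 1 - e j ∈ A := fun j => sub_mem (one_mem A) (heA j)
      cases s <;> cases s'
      · refine hgen _ (h1e j) _ (h1e j') (Or.inl ?_)
        intro h
        exact hne (by rw [h])
      · refine hgen _ (h1e j) _ (heA j') ?_
        by_cases h : j = j'
        · right
          rw [h]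
          exact (hep j').one_sub_mul_self
        · exact Or.inl h
      · refine hgen _ (heA j) _ (h1e j') ?_
        by_cases h : j = j'
        · right
          rw [h]
          exact (hep j').mul_one_sub_self
        · exact Or.inl h
      · refine hgen _ (heA j) _ (heA j') (Or.inl ?_)
        intro h
        exact hne (by rw [h])
    · rw [Fintype.sum_prod_type]
      conv_rhs => rw [← hfsum]
      refine Finset.sum_congr rfl (fun j _ => ?_)
      rw [Fintype.sum_bool]
      simp only [if_true, Bool.false_eq_true, if_false]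
      rw [← mul_add, add_sub_cancel, mul_one]
    · rintro ⟨j, s⟩
      cases s
      · simp only [Bool.false_eq_true, if_false]
        exact hbf j
      · simp only [if_true]
        refine ⟨(hbt j).1, ?_⟩
        exact (hbt j).2

lemma norm_sub_step_le (A : VonNeumannAlgebra H)
    {a : H →L[ℂ] H} (ha : IsSelfAdjoint a) {ι : Type} [Fintype ι] (f : ι → H →L[ℂ] H)
    (c : ι → ℝ) (w : ℝ) (hw : 0 ≤ w) (hf : IsPOU A f)
    (hb : ∀ j, c j • f j ≤ a * f j ∧ a * f j ≤ (c j + 2 * w) • f j) :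
    ‖a - ∑ j, ((c j + w : ℝ) : ℂ) • f j‖ ≤ w := by
  obtain ⟨hfA, hfp, hforth, hfsum⟩ := hf
  have hsa : IsSelfAdjoint (a - ∑ j, ((c j + w : ℝ) : ℂ) • f j) := by
    refine ha.sub (isSelfAdjoint_sum _ (fun j _ => ?_))
    exact IsSelfAdjoint.smul (Complex.conj_ofReal _) (hfp j).isSelfAdjoint
  have hone : ∀ C : ℝ, algebraMap ℝ (H →L[ℂ] H) C = ∑ j, C • f j := by
    intro C
    rw [Algebra.algebraMap_eq_smul_one, ← hfsum, Finset.smul_sum]
  have hdiff : a - ∑ j, ((c j + w : ℝ) : ℂ) • f j = ∑ j, (a * f j - (c j + w) • f j) := by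
    rw [Finset.sum_sub_distrib, ← Finset.mul_sum, hfsum, mul_one]
    rfl
  refine norm_le_of_neg_le_of_le hsa hw ?_ ?_
  · rw [hone, hdiff]
    refine Finset.sum_le_sum (fun j _ => ?_)
    rw [← sub_nonneg]
    have : a * f j - (c j + w) • f j - -w • f j = a * f j - c j • f j := by
      rw [add_smul, neg_smul]
      abel
    rw [this, sub_nonneg]
    exact (hb j).1
  · rw [hone, hdiff]
    refine Finset.sum_le_sum (fun j _ => ?_)
    rw [← sub_nonneg]
    have : w • f j - (a * f j - (c j + w) • f j) = (c j + 2 * w) • f j - a * f j := by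
      rw [add_smul, add_smul, two_mul, add_smul]
      abel
    rw [this, sub_nonneg]
    exact (hb j).2

lemma exists_step_approx_selfAdjoint (A : VonNeumannAlgebra H)
    (hAc : ∀ a ∈ A, ∀ b ∈ A, a * b = b * a)
    {a : H →L[ℂ] H} (haA : a ∈ A) (ha : IsSelfAdjoint a) {η : ℝ} (hη : 0 < η) :
    ∃ (ι : Type) (_ : Fintype ι) (f : ι → H →L[ℂ] H) (c : ι → ℂ), IsPOU A f ∧
      ‖a - ∑ j, c j • f j‖ ≤ η := by
  have hpos : 0 < η / (‖a‖ + 1) := div_pos hη (by positivity)
  obtain ⟨k, hk⟩ := exists_pow_lt_of_lt_one hpos (by norm_num : (1 / 2 : ℝ) < 1)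
  obtain ⟨ι, hι, f, c, hf, hb⟩ := exists_step_bounds A hAc haA ha k
  refine ⟨ι, hι, f, fun j => ((c j + ‖a‖ / 2 ^ k : ℝ) : ℂ), hf, ?_⟩
  have h1 : ‖a‖ / 2 ^ k ≤ η := by
    have h2 : ‖a‖ / 2 ^ k = ‖a‖ * (1 / 2) ^ k := by
      rw [one_div, inv_pow, div_eq_mul_inv]
    rw [h2]
    have h3 : (1 / 2 : ℝ) ^ k * (‖a‖ + 1) < η := (lt_div_iff₀ (by positivity)).mp hk
    have h4 : (0 : ℝ) ≤ (1 / 2) ^ k := by positivity
    nlinarith [norm_nonneg a]
  exact (norm_sub_step_le A ha f c (‖a‖ / 2 ^ k) (by positivity) hf hb).trans h1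

open ComplexStarModule in
lemma exists_step_approx (A : VonNeumannAlgebra H)
    (hAc : ∀ a ∈ A, ∀ b ∈ A, a * b = b * a)
    {a : H →L[ℂ] H} (haA : a ∈ A) {η : ℝ} (hη : 0 < η) :
    ∃ (ι : Type) (_ : Fintype ι) (f : ι → H →L[ℂ] H) (c : ι → ℂ), IsPOU A f ∧
      ‖a - ∑ j, c j • f j‖ ≤ η := by
  have hreA : (ℜ a : H →L[ℂ] H) ∈ A := by
    rw [realPart_apply_coe]
    exact real_smul_mem A (add_mem haA (star_mem haA)) _
  have himA : (ℑ a : H →L[ℂ] H) ∈ A := by
    rw [imaginaryPart_apply_coe]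
    exact A.toStarSubalgebra.smul_mem (real_smul_mem A (sub_mem haA (star_mem haA)) _) _
  obtain ⟨ι, hι, f, c, ⟨hfA, hfp, hforth, hfsum⟩, hfb⟩ :=
    exists_step_approx_selfAdjoint A hAc hreA (ℜ a).2 (half_pos hη)
  obtain ⟨κ, hκ, g, d, ⟨hgA, hgp, hgorth, hgsum⟩, hgb⟩ :=
    exists_step_approx_selfAdjoint A hAc himA (ℑ a).2 (half_pos hη)
  refine ⟨ι × κ, inferInstance, fun p => f p.1 * g p.2, fun p => c p.1 + Complex.I * d p.2,
    ⟨?_, ?_, ?_, ?_⟩, ?_⟩
  · rintro ⟨j, k⟩
    exact mul_mem (hfA j) (hgA k)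
  · rintro ⟨j, k⟩
    exact (hfp j).mul (hgp k) (hAc _ (hfA j) _ (hgA k))
  · rintro ⟨j, k⟩ ⟨j', k'⟩ hne
    have : (f j * g k) * (f j' * g k') = (f j * f j') * (g k * g k') := by
      rw [mul_assoc, ← mul_assoc (g k), hAc (g k) (hgA k) _ (hfA j'), mul_assoc, ← mul_assoc]
    show (f j * g k) * (f j' * g k') = 0
    rw [this]
    by_cases h : j = j'
    · have hk : k ≠ k' := by
        intro hk
        exact hne (by rw [h, hk])
      rw [hgorth k k' hk, mul_zero]
    · rw [hforth j j' h, zero_mul]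
  · rw [Fintype.sum_prod_type]
    simp only [← Finset.mul_sum, hgsum, mul_one, hfsum]
  · have h1 : ∑ p : ι × κ, (c p.1 + Complex.I * d p.2) • (f p.1 * g p.2)
        = ∑ j, c j • f j + Complex.I • ∑ k, d k • g k := by
      rw [Fintype.sum_prod_type]
      simp only [add_smul, Finset.sum_add_distrib]
      congr 1
      · refine Finset.sum_congr rfl (fun j _ => ?_)
        rw [← Finset.smul_sum, ← Finset.mul_sum, hgsum, mul_one]
      · rw [Finset.sum_comm, Finset.smul_sum]
        refine Finset.sum_congr rfl (fun k _ => ?_)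
        rw [← Finset.smul_sum, ← Finset.sum_mul, hfsum, one_mul, mul_smul]
    have h2 : a - ∑ p : ι × κ, (c p.1 + Complex.I * d p.2) • (f p.1 * g p.2)
        = ((ℜ a : H →L[ℂ] H) - ∑ j, c j • f j)
          + Complex.I • ((ℑ a : H →L[ℂ] H) - ∑ k, d k • g k) := by
      rw [h1]
      conv_lhs => rw [← realPart_add_I_smul_imaginaryPart a]
      rw [smul_sub]
      abel
    rw [h2]
    calc ‖((ℜ a : H →L[ℂ] H) - ∑ j, c j • f j)
          + Complex.I • ((ℑ a : H →L[ℂ] H) - ∑ k, d k • g k)‖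
        ≤ ‖(ℜ a : H →L[ℂ] H) - ∑ j, c j • f j‖
          + ‖Complex.I • ((ℑ a : H →L[ℂ] H) - ∑ k, d k • g k)‖ := norm_add_le _ _
      _ ≤ η / 2 + η / 2 := by
          refine add_le_add hfb ?_
          rw [norm_smul, Complex.norm_I, one_mul]
          exact hgb
      _ = η := add_halves η

/-- The orbit `A ζ` of a vector under a von Neumann algebra, as a subspace. -/
def orbit (A : VonNeumannAlgebra H) (ζ : H) : Submodule ℂ H where
  carrier := {v | ∃ a ∈ A, a ζ = v}
  add_mem' := by
    rintro _ _ ⟨a, ha, rfl⟩ ⟨b, hb, rfl⟩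
    exact ⟨a + b, add_mem ha hb, rfl⟩
  zero_mem' := ⟨0, zero_mem A, rfl⟩
  smul_mem' := by
    rintro c _ ⟨a, ha, rfl⟩
    exact ⟨c • a, A.toStarSubalgebra.smul_mem ha c, rfl⟩

/-- The cyclic projection of a vector for a maximal abelian algebra of `B(H)`. -/
lemma exists_cyclic_projection (A : VonNeumannAlgebra H)
    (hAm : ∀ y : H →L[ℂ] H, (∀ a ∈ A, a * y = y * a) → y ∈ A) (ζ : H) :
    ∃ z ∈ A, IsStarProjection z ∧ z ζ = ζ ∧ ∀ ξ : H, ∀ δ > 0, ∃ a ∈ A, ‖z ξ - a ζ‖ < δ := by
  refine ⟨(orbit A ζ).topologicalClosure.starProjection, starProjection_closure_mem A _ ?_,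
    isStarProjection_starProjection, ?_, ?_⟩
  · rintro y hy _ ⟨a, ha, rfl⟩
    have hyA : y ∈ A := hAm y (fun a ha => by
      rw [VonNeumannAlgebra.mem_commutant_iff] at hy
      exact hy a ha)
    exact ⟨y * a, mul_mem hyA ha, rfl⟩
  · exact Submodule.starProjection_eq_self_iff.mpr
      ((orbit A ζ).le_topologicalClosure ⟨1, one_mem A, rfl⟩)
  · intro ξ δ hδ
    have hmem : (orbit A ζ).topologicalClosure.starProjection ξ
        ∈ closure ((orbit A ζ : Submodule ℂ H) : Set H) := by
      rw [← Submodule.topologicalClosure_coe]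
      exact Submodule.starProjection_apply_mem _ ξ
    obtain ⟨v, ⟨a, ha, rfl⟩, hv⟩ := Metric.mem_closure_iff.mp hmem δ hδ
    exact ⟨a, ha, by rwa [dist_eq_norm] at hv⟩

lemma mul_mul_mul_comm_mem (A : VonNeumannAlgebra H) (hAc : ∀ a ∈ A, ∀ b ∈ A, a * b = b * a)
    {x y u v : H →L[ℂ] H} (hy : y ∈ A) (hu : u ∈ A) : (x * y) * (u * v) = (x * u) * (y * v) := by
  rw [mul_assoc, ← mul_assoc y, hAc y hy u hu, mul_assoc, ← mul_assoc]

theorem exists_diag_approx (A : VonNeumannAlgebra H) (hAc : ∀ a ∈ A, ∀ b ∈ A, a * b = b * a)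
    (hAm : ∀ y : H →L[ℂ] H, (∀ a ∈ A, a * y = y * a) → y ∈ A) (F : Finset H) (δ : ℝ)
    (hδ : 0 < δ) :
    ∃ (ι : Type) (_ : Fintype ι) (e : ι → H →L[ℂ] H) (ζ : ι → H),
        (∀ j, e j ∈ A) ∧ (∀ j, IsStarProjection (e j)) ∧ (∀ j k, j ≠ k → e j * e k = 0) ∧
        ∑ j, e j = 1 ∧ (∀ j, e j (ζ j) = ζ j) ∧
        ∀ ξ ∈ F, ∃ v ∈ Submodule.span ℂ (Set.range ζ), ‖ξ - v‖ < δ := by
  classical
  induction F using Finset.induction_on with
  | empty =>
    exact ⟨Unit, inferInstance, fun _ => 1, fun _ => 0, fun _ => one_mem A,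
      fun _ => IsStarProjection.one _, fun j k h => absurd (Subsingleton.elim j k) h,
      by simp, by simp, by simp⟩
  | insert ξ F hξ ih =>
    obtain ⟨ι, hι, e, ζ, heA, hep, horth, hsum, hζ, hF⟩ := ih
    have hz : ∀ j, ∃ z ∈ A, IsStarProjection z ∧ z (ζ j) = ζ j ∧
        ∀ ξ : H, ∀ δ > 0, ∃ a ∈ A, ‖z ξ - a (ζ j)‖ < δ :=
      fun j => exists_cyclic_projection A hAm (ζ j)
    choose z hzA hzp hzζ hzapprox using hz
    set N : ℝ := (Fintype.card ι : ℝ) with hN
    have hN0 : 0 ≤ N := Nat.cast_nonneg _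
    set δ₁ : ℝ := δ / (2 * (N + 1)) with hδ₁
    have hδ₁pos : 0 < δ₁ := by positivity
    have ha : ∀ j, ∃ a ∈ A, ‖z j (e j ξ) - a (ζ j)‖ < δ₁ :=
      fun j => hzapprox j (e j ξ) δ₁ hδ₁pos
    choose a haA haapprox using ha
    have hstep : ∀ j, ∃ (κ : Type) (_ : Fintype κ) (g : κ → H →L[ℂ] H) (c : κ → ℂ),
        IsPOU A g ∧ ‖a j - ∑ k, c k • g k‖ ≤ δ₁ / (‖ζ j‖ + 1) :=
      fun j => exists_step_approx A hAc (haA j) (by positivity)
    choose κ hκ g c hg hgapprox using hstep
    let _ : ∀ j, Fintype (κ j) := hκ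
    have h1zA : ∀ j, 1 - z j ∈ A := fun j => sub_mem (one_mem A) (hzA j)
    have hgA : ∀ j k, g j k ∈ A := fun j => (hg j).1
    have hgp : ∀ j k, IsStarProjection (g j k) := fun j => (hg j).2.1
    have hgorth : ∀ j k k', k ≠ k' → g j k * g j k' = 0 := fun j => (hg j).2.2.1
    have hgsum : ∀ j, ∑ k, g j k = 1 := fun j => (hg j).2.2.2
    refine ⟨(Σ j, κ j) ⊕ ι, inferInstance,
      Sum.elim (fun p => e p.1 * (z p.1 * g p.1 p.2)) (fun j => e j * (1 - z j)),
      Sum.elim (fun p => g p.1 p.2 (ζ p.1)) (fun j => (1 - z j) (e j ξ)), ?_, ?_, ?_, ?_, ?_, ?_⟩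
    · rintro (⟨j, k⟩ | j)
      · exact mul_mem (heA j) (mul_mem (hzA j) (hgA j k))
      · exact mul_mem (heA j) (h1zA j)
    · rintro (⟨j, k⟩ | j)
      · exact (hep j).mul ((hzp j).mul (hgp j k) (hAc _ (hzA j) _ (hgA j k)))
          (hAc _ (heA j) _ (mul_mem (hzA j) (hgA j k)))
      · exact (hep j).mul (hzp j).one_sub (hAc _ (heA j) _ (h1zA j))
    · have hgen : ∀ j j' (X X' : H →L[ℂ] H), X ∈ A → X' ∈ A → (j ≠ j' ∨ X * X' = 0) →
          (e j * X) * (e j' * X') = 0 := by
        intro j j' X X' hX hX' h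
        rw [mul_mul_mul_comm_mem A hAc hX (heA j')]
        rcases h with h | h
        · rw [horth j j' h, zero_mul]
        · rw [h, mul_zero]
      rintro (⟨j, k⟩ | j) (⟨j', k'⟩ | j') hne
      · refine hgen j j' _ _ (mul_mem (hzA j) (hgA j k)) (mul_mem (hzA j') (hgA j' k')) ?_
        by_cases h : j = j'
        · subst h
          right
          have hk : k ≠ k' := fun hk => hne (by rw [hk])
          rw [mul_mul_mul_comm_mem A hAc (hgA j k) (hzA j), hgorth j k k' hk, mul_zero]
        · exact Or.inl h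
      · refine hgen j j' _ _ (mul_mem (hzA j) (hgA j k)) (h1zA j') ?_
        by_cases h : j = j'
        · subst h
          right
          rw [hAc _ (hzA j) _ (hgA j k), mul_assoc, (hzp j).mul_one_sub_self, mul_zero]
        · exact Or.inl h
      · refine hgen j j' _ _ (h1zA j) (mul_mem (hzA j') (hgA j' k')) ?_
        by_cases h : j = j'
        · subst h
          right
          rw [← mul_assoc, (hzp j).one_sub_mul_self, zero_mul]
        · exact Or.inl h
      · refine hgen j j' _ _ (h1zA j) (h1zA j') (Or.inl ?_)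
        intro h
        exact hne (by rw [h])
    · rw [Fintype.sum_sum_type, Fintype.sum_sigma]
      simp only [Sum.elim_inl, Sum.elim_inr]
      rw [← Finset.sum_add_distrib]
      conv_rhs => rw [← hsum]
      refine Finset.sum_congr rfl (fun j _ => ?_)
      rw [← Finset.mul_sum, ← Finset.mul_sum, hgsum, mul_one, ← mul_add, add_sub_cancel, mul_one]
    · rintro (⟨j, k⟩ | j)
      · show (e j * (z j * g j k)) (g j k (ζ j)) = g j k (ζ j)
        have h1 : e j * (z j * g j k) * g j k = g j k * (e j * z j) := by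
          rw [mul_assoc, mul_assoc, (hgp j k).isIdempotentElem.eq, ← mul_assoc,
            hAc _ (mul_mem (heA j) (hzA j)) _ (hgA j k)]
        rw [← mul_apply_eq_comp, h1, mul_apply_eq_comp, mul_apply_eq_comp, hzζ, hζ]
      · show (e j * (1 - z j)) ((1 - z j) (e j ξ)) = (1 - z j) (e j ξ)
        have h1 : e j * (1 - z j) * ((1 - z j) * e j) = (1 - z j) * e j := by
          rw [hAc _ (heA j) _ (h1zA j)]
          exact ((hzp j).one_sub.mul (hep j) (hAc _ (h1zA j) _ (heA j))).isIdempotentElem.eq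
        have h2 : (1 - z j) (e j ξ) = ((1 - z j) * e j) ξ := rfl
        rw [h2, ← mul_apply_eq_comp, h1]
    · intro ξ' hξ'
      rw [Finset.mem_insert] at hξ'
      have hspan : Submodule.span ℂ (Set.range ζ) ≤ Submodule.span ℂ (Set.range
          (Sum.elim (fun p : Σ j, κ j => g p.1 p.2 (ζ p.1)) (fun j => (1 - z j) (e j ξ)))) := by
        rw [Submodule.span_le]
        rintro _ ⟨j, rfl⟩
        have : ζ j = ∑ k, g j k (ζ j) := by
          rw [← sum_apply, hgsum, one_apply_eq_self]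
        rw [SetLike.mem_coe, this]
        exact sum_mem (fun k _ => Submodule.subset_span ⟨Sum.inl ⟨j, k⟩, rfl⟩)
      rcases hξ' with h | hmem
      · rw [h]
        refine ⟨∑ j, (∑ k, c j k • g j k (ζ j) + (1 - z j) (e j ξ)), ?_, ?_⟩
        · refine sum_mem (fun j _ => add_mem (sum_mem (fun k _ => ?_)) ?_)
          · exact Submodule.smul_mem _ _ (Submodule.subset_span ⟨Sum.inl ⟨j, k⟩, rfl⟩)
          · exact Submodule.subset_span ⟨Sum.inr j, rfl⟩
        · have hξsum : ξ = ∑ j, e j ξ := by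
            rw [← sum_apply, hsum, one_apply_eq_self]
          have hterm : ∀ j, e j ξ - (∑ k, c j k • g j k (ζ j) + (1 - z j) (e j ξ))
              = (z j (e j ξ) - a j (ζ j)) + (a j - ∑ k, c j k • g j k) (ζ j) := by
            intro j
            simp only [sub_apply, sum_apply, smul_apply, one_apply_eq_self]
            abel
          have hbound : ∀ j,
              ‖e j ξ - (∑ k, c j k • g j k (ζ j) + (1 - z j) (e j ξ))‖ ≤ 2 * δ₁ := by
            intro j
            rw [hterm]
            calc ‖(z j (e j ξ) - a j (ζ j)) + (a j - ∑ k, c j k • g j k) (ζ j)‖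
                ≤ ‖z j (e j ξ) - a j (ζ j)‖ + ‖(a j - ∑ k, c j k • g j k) (ζ j)‖ :=
                  norm_add_le _ _
              _ ≤ δ₁ + δ₁ / (‖ζ j‖ + 1) * ‖ζ j‖ :=
                  add_le_add (haapprox j).le ((le_opNorm _ _).trans (by
                    gcongr
                    exact hgapprox j))
              _ ≤ δ₁ + δ₁ := by
                  gcongr
                  rw [div_mul_eq_mul_div, div_le_iff₀ (by positivity)]
                  nlinarith [norm_nonneg (ζ j)]
              _ = 2 * δ₁ := by ring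
          calc ‖ξ - ∑ j, (∑ k, c j k • g j k (ζ j) + (1 - z j) (e j ξ))‖
              = ‖∑ j, (e j ξ - (∑ k, c j k • g j k (ζ j) + (1 - z j) (e j ξ)))‖ := by
                rw [Finset.sum_sub_distrib, ← hξsum]
            _ ≤ ∑ j, ‖e j ξ - (∑ k, c j k • g j k (ζ j) + (1 - z j) (e j ξ))‖ :=
                norm_sum_le _ _
            _ ≤ ∑ j : ι, 2 * δ₁ := Finset.sum_le_sum (fun j _ => hbound j)
            _ = N * (2 * δ₁) := by
                rw [Finset.sum_const, Finset.card_univ, nsmul_eq_mul]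
            _ < δ := by
                rw [hδ₁]
                have h3 : N * (2 * (δ / (2 * (N + 1)))) = δ * (N / (N + 1)) := by
                  field_simp
                rw [h3]
                have h4 : N / (N + 1) < 1 := by
                  rw [div_lt_one (by positivity)]
                  linarith
                nlinarith
      · obtain ⟨v, hv, hvδ⟩ := hF ξ' hmem
        exact ⟨v, hspan hv, hvδ⟩

/-- Finite-dimensional `(ε, r)` paving implies `(ε, r)` so-paving over every MASA of `B(H)`. -/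
theorem soPavable_of_isMASA {ε : ℝ} {r : ℕ} (hmp : MatrixPavable ε r)
    (A M : VonNeumannAlgebra H) (hM : ∀ y : H →L[ℂ] H, y ∈ M) (hA : IsMASA A M)
    (x : H →L[ℂ] H) (hx : IsSelfAdjoint x) : SoPavable A M x ε r :=
  soPavable_of_approx A M hM hmp x hx
    (fun F δ hδ => exists_diag_approx A hA.2.1 (fun y hy => hA.2.2 y (hM y) hy) F δ hδ)

end Vale.Agent.Lib.P078
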