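import Vale.Agent.Lib.P078.Defs

/-!
# Diffuse von Neumann algebras and rank-one operators (P078)
-/

namespace Vale.Agent.Lib.P078

variable {H : Type*} [NormedAddCommGroup H] [InnerProductSpace ℂ H] [CompleteSpace H]

/-- `A` is diffuse: it has no minimal projections, i.e. every nonzero projection `p` of `A` has a
nonzero subprojection `p' ≠ p` in `A` (here `p * p' = p'` says that `p'` lies under `p`). -/
def IsDiffuse (A : VonNeumannAlgebra H) : Prop :=
  ∀ p ∈ A, IsStarProjection p → p ≠ 0 →
    ∃ p' ∈ A, IsStarProjection p' ∧ p' ≠ 0 ∧ p' ≠ p ∧ p * p' = p'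

/-- The rank-one operator `ξ ↦ ⟪ω, ξ⟫ ω`; for a unit vector `ω` it is the orthogonal projection
onto the line `ℂ ω`. -/
noncomputable def rankOneProj (ω : H) : H →L[ℂ] H :=
  (innerSL ℂ ω).smulRight ω

end Vale.Agent.Lib.P078
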