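import Vale.Agent.Lib.P078.Core
import Vale.Agent.Lib.P078.DiffuseDefs

/-!
# Auxiliary lemmas for so-paving over diffuse MASAs of `B(H)`

Fine partitions of unity in a diffuse abelian von Neumann algebra, the second moment of a random
colouring, a Frobenius bound for compressions, cube partitions and Rademacher symmetries.
-/

namespace Vale.Agent.Lib.P078

open scoped ComplexOrder InnerProductSpace Matrix.Norms.L2Operator
open ContinuousLinearMap

variable {H : Type*} [NormedAddCommGroup H] [InnerProductSpace ℂ H] [CompleteSpace H]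

/-! ### Part M -/

/-- The cyclic projection of `ζ` for the commutant of `A` lies in `A` and fixes `ζ`. -/
lemma taskM_cyclic (A : VonNeumannAlgebra H) (ζ : H) :
    (orbit A.commutant ζ).topologicalClosure.starProjection ∈ A ∧
      (orbit A.commutant ζ).topologicalClosure.starProjection ζ = ζ := by
  refine ⟨starProjection_closure_mem A _ ?_, ?_⟩
  · rintro y hy _ ⟨a, ha, rfl⟩
    exact ⟨y * a, mul_mem hy ha, rfl⟩
  · exact Submodule.starProjection_eq_self_iff.mpr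
      ((orbit A.commutant ζ).le_topologicalClosure ⟨1, one_mem _, rfl⟩)

/-- An element of `A` killing `ζ` kills the cyclic projection of `ζ`. -/
lemma taskM_kill (A : VonNeumannAlgebra H) (ζ : H) {e : H →L[ℂ] H} (heA : e ∈ A)
    (heζ : e ζ = 0) : e * (orbit A.commutant ζ).topologicalClosure.starProjection = 0 := by
  have hker : (orbit A.commutant ζ).topologicalClosure
      ≤ LinearMap.ker ((e : H →L[ℂ] H) : H →ₗ[ℂ] H) := by
    refine Submodule.topologicalClosure_minimal _ ?_ e.isClosed_ker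
    rintro _ ⟨y, hy, rfl⟩
    rw [LinearMap.mem_ker]
    show e (y ζ) = 0
    rw [VonNeumannAlgebra.mem_commutant_iff] at hy
    rw [← mul_apply_eq_comp, hy e heA, mul_apply_eq_comp, heζ, map_zero]
  ext v
  rw [mul_apply_eq_comp, zero_apply]
  exact LinearMap.mem_ker.mp (hker (Submodule.starProjection_apply_mem _ v))

/-- Pythagoras for a projection split into a subprojection and its complement. -/
lemma taskM_split {e e' : H →L[ℂ] H} (he' : IsStarProjection e')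
    (he'e : e' * e = e') (ζ : H) :
    ‖e ζ‖ ^ 2 = ‖e' ζ‖ ^ 2 + ‖(e - e') ζ‖ ^ 2 := by
  have h0 : e' * (e - e') = 0 := by
    rw [mul_sub, he'e, he'.isIdempotentElem.eq, sub_self]
  have horth : ⟪e' ζ, (e - e') ζ⟫_ℂ = 0 := by
    rw [← adjoint_inner_right e', he'.isSelfAdjoint.adjoint_eq, ← mul_apply_eq_comp, h0,
      zero_apply, inner_zero_right]
  have hsum : e ζ = e' ζ + (e - e') ζ := by
    rw [sub_apply]
    abel
  have h := norm_add_sq_eq_norm_sq_add_norm_sq_of_inner_eq_zero (e' ζ) ((e - e') ζ) horth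
  rw [hsum, sq, sq, sq]
  exact h

/-- Halving: below a nonzero projection `q` of a diffuse abelian algebra there are nonzero
subprojections with arbitrarily small mass at `ζ`. -/
lemma taskM_halving (A : VonNeumannAlgebra H)
    (hAc : ∀ a ∈ A, ∀ b ∈ A, a * b = b * a) (hdiff : IsDiffuse A) (ζ : H)
    {q : H →L[ℂ] H} (hqA : q ∈ A) (hq : IsStarProjection q) (hq0 : q ≠ 0) (n : ℕ) :
    ∃ e ∈ A, IsStarProjection e ∧ e ≠ 0 ∧ q * e = e ∧ ‖e ζ‖ ^ 2 ≤ ‖q ζ‖ ^ 2 / 2 ^ n := by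
  induction n with
  | zero =>
    exact ⟨q, hqA, hq, hq0, hq.isIdempotentElem.eq, by rw [pow_zero, div_one]⟩
  | succ n ih =>
    obtain ⟨e, heA, he, he0, hqe, hle⟩ := ih
    obtain ⟨e', he'A, he', he'0, he'ne, hee'⟩ := hdiff e heA he he0
    have he'e : e' * e = e' := by rw [hAc e' he'A e heA, hee']
    have hsplit := taskM_split he' he'e ζ
    have hqe' : q * e' = e' := by
      calc q * e' = q * (e * e') := by rw [hee']
        _ = (q * e) * e' := by rw [mul_assoc]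
        _ = e' := by rw [hqe, hee']
    have hhalf : ‖q ζ‖ ^ 2 / 2 ^ (n + 1) = (‖q ζ‖ ^ 2 / 2 ^ n) / 2 := by
      rw [pow_succ (2 : ℝ) n, div_div]
    by_cases hcase : ‖e' ζ‖ ^ 2 ≤ ‖(e - e') ζ‖ ^ 2
    · refine ⟨e', he'A, he', he'0, hqe', ?_⟩
      rw [hhalf]
      linarith
    · rw [not_le] at hcase
      refine ⟨e - e', sub_mem heA he'A, he'.sub_of_mul_eq_right he hee', ?_, ?_, ?_⟩
      · intro h
        exact he'ne (sub_eq_zero.mp h).symm
      · rw [mul_sub, hqe, hqe']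
      · rw [hhalf]
        linarith

theorem exists_small_subprojection (A : VonNeumannAlgebra H)
    (hAc : ∀ a ∈ A, ∀ b ∈ A, a * b = b * a) (hdiff : IsDiffuse A) (ζ : H)
    {p : H →L[ℂ] H} (hpA : p ∈ A) (hp : IsStarProjection p) (hpζ : p ζ ≠ 0) {t : ℝ} (ht : 0 < t) :
    ∃ p' ∈ A, IsStarProjection p' ∧ p * p' = p' ∧ p' ζ ≠ 0 ∧ ‖p' ζ‖ ^ 2 ≤ t := by
  set c : H →L[ℂ] H := (orbit A.commutant ζ).topologicalClosure.starProjection with hc
  obtain ⟨hcA, hcζ⟩ := taskM_cyclic A ζ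
  rw [← hc] at hcA hcζ
  have hcp : IsStarProjection c := isStarProjection_starProjection
  have hqA : p * c ∈ A := mul_mem hpA hcA
  have hq : IsStarProjection (p * c) := hp.mul hcp (hAc p hpA c hcA)
  have hqζ : (p * c) ζ = p ζ := by rw [mul_apply_eq_comp, hcζ]
  have hq0 : p * c ≠ 0 := by
    intro h
    rw [h, zero_apply] at hqζ
    exact hpζ hqζ.symm
  obtain ⟨n, hn⟩ := pow_unbounded_of_one_lt (‖p ζ‖ ^ 2 / t) (one_lt_two : (1 : ℝ) < 2)
  obtain ⟨e, heA, he, he0, hqe, hle⟩ := taskM_halving A hAc hdiff ζ hqA hq hq0 n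
  have hpe : p * e = e := by
    calc p * e = p * ((p * c) * e) := by rw [hqe]
      _ = ((p * p) * c) * e := by simp only [mul_assoc]
      _ = e := by rw [hp.isIdempotentElem.eq, hqe]
  refine ⟨e, heA, he, hpe, ?_, ?_⟩
  · intro heζ
    have hec : e * c = 0 := by
      rw [hc]
      exact taskM_kill A ζ heA heζ
    apply he0
    calc e = (p * c) * e := hqe.symm
      _ = p * (c * e) := by rw [mul_assoc]
      _ = p * (e * c) := by rw [hAc c hcA e heA]
      _ = 0 := by rw [hec, mul_zero]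
  · rw [hqζ] at hle
    refine hle.trans ?_
    have h2 : (0 : ℝ) < 2 ^ n := by positivity
    rw [div_le_iff₀ h2]
    rw [div_lt_iff₀ ht] at hn
    linarith

/-! ### Part N -/

/-- the union of the ranges of a nonempty chain of projections, as a subspace -/
def taskN_union (C : Set (H →L[ℂ] H)) (hne : C.Nonempty)
    (hchain : ∀ q ∈ C, ∀ q' ∈ C, q' * q = q ∨ q * q' = q') : Submodule ℂ H where
  carrier := {v | ∃ q ∈ C, q v = v}
  add_mem' := by
    rintro v w ⟨q, hq, hv⟩ ⟨q', hq', hw⟩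
    rcases hchain q hq q' hq' with h | h
    · refine ⟨q', hq', ?_⟩
      have hv' : q' v = v := by
        rw [← hv, ← mul_apply_eq_comp, h]
      rw [map_add, hv', hw]
    · refine ⟨q, hq, ?_⟩
      have hw' : q w = w := by
        rw [← hw, ← mul_apply_eq_comp, h]
      rw [map_add, hv, hw']
  zero_mem' := by
    obtain ⟨q, hq⟩ := hne
    exact ⟨q, hq, map_zero q⟩
  smul_mem' := by
    rintro a v ⟨q, hq, hv⟩
    exact ⟨q, hq, by rw [map_smul, hv]⟩

/-- the supremum of a nonempty chain of projections of `A` below `p` with `‖q ζ‖ ^ 2 ≤ c` -/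
lemma taskN_chain_bound (A : VonNeumannAlgebra H) (ζ : H)
    {p : H →L[ℂ] H} {c : ℝ} (hc : 0 ≤ c)
    (C : Set (H →L[ℂ] H)) (hne : C.Nonempty)
    (hCA : ∀ q ∈ C, q ∈ A) (hproj : ∀ q ∈ C, IsStarProjection q)
    (hCp : ∀ q ∈ C, p * q = q) (hCc : ∀ q ∈ C, ‖q ζ‖ ^ 2 ≤ c)
    (hchain : ∀ q ∈ C, ∀ q' ∈ C, q' * q = q ∨ q * q' = q') :
    ∃ Q ∈ A, IsStarProjection Q ∧ p * Q = Q ∧ ‖Q ζ‖ ^ 2 ≤ c ∧ ∀ q ∈ C, Q * q = q := by
  set K : Submodule ℂ H := taskN_union C hne hchain with hK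
  set Q : H →L[ℂ] H := K.topologicalClosure.starProjection with hQ
  have hQproj : IsStarProjection Q := isStarProjection_starProjection
  have hQA : Q ∈ A := by
    apply starProjection_closure_mem A K
    rintro y hy v ⟨q, hq, hv⟩
    refine ⟨q, hq, ?_⟩
    rw [VonNeumannAlgebra.mem_commutant_iff] at hy
    have h1 := hy q (hCA q hq)
    have h2 := congrArg (fun f : H →L[ℂ] H => f v) h1
    simp only [mul_apply_eq_comp] at h2
    rw [h2, hv]
  have hQq : ∀ q ∈ C, Q * q = q := by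
    intro q hq
    ext v
    rw [mul_apply_eq_comp]
    apply Submodule.starProjection_eq_self_iff.mpr
    apply K.le_topologicalClosure
    refine ⟨q, hq, ?_⟩
    rw [← mul_apply_eq_comp, (hproj q hq).isIdempotentElem.eq]
  have hqQ : ∀ q ∈ C, q * Q = q := by
    intro q hq
    have h1 := congrArg star (hQq q hq)
    rw [star_mul, (hproj q hq).isSelfAdjoint.star_eq, hQproj.isSelfAdjoint.star_eq] at h1
    exact h1
  have hker : K.topologicalClosure ≤ LinearMap.ker (((1 : H →L[ℂ] H) - p : H →L[ℂ] H) : H →ₗ[ℂ] H) := by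
    refine Submodule.topologicalClosure_minimal _ ?_ ((1 : H →L[ℂ] H) - p).isClosed_ker
    rintro v ⟨q, hq, hv⟩
    rw [LinearMap.mem_ker]
    show ((1 : H →L[ℂ] H) - p) v = 0
    rw [sub_apply, one_apply_eq_self, ← hv, ← mul_apply_eq_comp, hCp q hq, sub_self]
  have hpQ : p * Q = Q := by
    ext v
    rw [mul_apply_eq_comp]
    have h1 : Q v ∈ K.topologicalClosure := Submodule.starProjection_apply_mem _ v
    have h2 := hker h1
    rw [LinearMap.mem_ker] at h2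
    have h3 : ((1 : H →L[ℂ] H) - p) (Q v) = 0 := h2
    rw [sub_apply, one_apply_eq_self, sub_eq_zero] at h3
    exact h3.symm
  have hnorm : ‖Q ζ‖ ≤ Real.sqrt c := by
    apply le_of_forall_pos_le_add
    intro δ hδ
    have hmem : Q ζ ∈ closure ((K : Submodule ℂ H) : Set H) := by
      rw [← Submodule.topologicalClosure_coe]
      exact Submodule.starProjection_apply_mem _ ζ
    obtain ⟨v, ⟨q, hq, hv⟩, hdist⟩ := Metric.mem_closure_iff.mp hmem δ hδ
    rw [dist_eq_norm] at hdist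
    have hqu : q (Q ζ) = q ζ := by
      rw [← mul_apply_eq_comp, hqQ q hq]
    have h1 : Q ζ - q ζ = ((1 : H →L[ℂ] H) - q) (Q ζ - v) := by
      rw [sub_apply, one_apply_eq_self, map_sub, hqu, hv]
      abel
    have h2 : ‖((1 : H →L[ℂ] H) - q)‖ ≤ 1 := (hproj q hq).one_sub.norm_le
    have h3 : ‖Q ζ - q ζ‖ ≤ ‖Q ζ - v‖ := by
      rw [h1]
      calc ‖((1 : H →L[ℂ] H) - q) (Q ζ - v)‖ ≤ ‖((1 : H →L[ℂ] H) - q)‖ * ‖Q ζ - v‖ :=
            ContinuousLinearMap.le_opNorm _ _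
        _ ≤ 1 * ‖Q ζ - v‖ := mul_le_mul_of_nonneg_right h2 (norm_nonneg _)
        _ = ‖Q ζ - v‖ := one_mul _
    have h4 : ‖q ζ‖ ≤ Real.sqrt c := by
      have := Real.sqrt_le_sqrt (hCc q hq)
      rwa [Real.sqrt_sq (norm_nonneg _)] at this
    have h5 : ‖Q ζ‖ ≤ ‖Q ζ - q ζ‖ + ‖q ζ‖ := by
      have := norm_add_le (Q ζ - q ζ) (q ζ)
      rwa [sub_add_cancel] at this
    linarith
  refine ⟨Q, hQA, hQproj, hpQ, ?_, hQq⟩
  have h6 := pow_le_pow_left₀ (norm_nonneg (Q ζ)) hnorm 2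
  rwa [Real.sq_sqrt hc] at h6

theorem exists_maximal_subprojection (A : VonNeumannAlgebra H)
    (hAc : ∀ a ∈ A, ∀ b ∈ A, a * b = b * a) (ζ : H)
    {p : H →L[ℂ] H} (hpA : p ∈ A) (hp : IsStarProjection p) {c : ℝ} (hc : 0 ≤ c) :
    ∃ q ∈ A, IsStarProjection q ∧ p * q = q ∧ ‖q ζ‖ ^ 2 ≤ c ∧
      ∀ q' ∈ A, IsStarProjection q' → p * q' = q' → q' * q = q → ‖q' ζ‖ ^ 2 ≤ c → q' = q := by
  classical
  let S : Type _ := {q : H →L[ℂ] H // q ∈ A ∧ IsStarProjection q ∧ p * q = q ∧ ‖q ζ‖ ^ 2 ≤ c}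
  let r : S → S → Prop := fun a b => b.1 * a.1 = a.1
  have hzero : (0 : H →L[ℂ] H) ∈ A ∧ IsStarProjection (0 : H →L[ℂ] H) ∧ p * 0 = 0 ∧
      ‖(0 : H →L[ℂ] H) ζ‖ ^ 2 ≤ c := by
    refine ⟨zero_mem A, IsStarProjection.zero _, mul_zero p, ?_⟩
    rw [zero_apply, norm_zero]
    simpa using hc
  have hbound : ∀ C : Set S, IsChain r C → ∃ ub : S, ∀ a ∈ C, r a ub := by
    intro C hC
    by_cases hne : C.Nonempty
    · have hne' : (Subtype.val '' C).Nonempty := hne.image _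
      have h := taskN_chain_bound A ζ hc (Subtype.val '' C) hne'
        (by rintro _ ⟨a, _, rfl⟩; exact a.2.1)
        (by rintro _ ⟨a, _, rfl⟩; exact a.2.2.1)
        (by rintro _ ⟨a, _, rfl⟩; exact a.2.2.2.1)
        (by rintro _ ⟨a, _, rfl⟩; exact a.2.2.2.2)
        (by
          rintro _ ⟨a, ha, rfl⟩ _ ⟨b, hb, rfl⟩
          by_cases hab : a = b
          · subst hab
            exact Or.inl a.2.2.1.isIdempotentElem.eq
          · rcases hC ha hb hab with h | h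
            · exact Or.inl h
            · exact Or.inr h)
      obtain ⟨Q, hQA, hQproj, hpQ, hQc, hQq⟩ := h
      exact ⟨⟨Q, hQA, hQproj, hpQ, hQc⟩, fun a ha => hQq a.1 ⟨a, ha, rfl⟩⟩
    · refine ⟨⟨0, hzero⟩, fun a ha => ?_⟩
      exact absurd ⟨a, ha⟩ hne
  have htrans : ∀ {a b d : S}, r a b → r b d → r a d := by
    intro a b d hab hbd
    show d.1 * a.1 = a.1
    have h1 : b.1 * a.1 = a.1 := hab
    have h2 : d.1 * b.1 = b.1 := hbd
    calc d.1 * a.1 = d.1 * (b.1 * a.1) := by rw [h1]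
      _ = (d.1 * b.1) * a.1 := by rw [mul_assoc]
      _ = a.1 := by rw [h2, h1]
  obtain ⟨m, hm⟩ := exists_maximal_of_chains_bounded hbound htrans
  refine ⟨m.1, m.2.1, m.2.2.1, m.2.2.2.1, m.2.2.2.2, ?_⟩
  intro q' hq'A hq'proj hpq' hq'm hq'c
  have h1 : m.1 * q' = q' := hm ⟨q', hq'A, hq'proj, hpq', hq'c⟩ hq'm
  have h2 := congrArg star hq'm
  rw [star_mul, hq'proj.isSelfAdjoint.star_eq, m.2.2.1.isSelfAdjoint.star_eq] at h2
  rw [← h1, h2]

/-! ### Part O -/

/-- Pythagoras for two projections with product zero. -/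
lemma taskO_pyth {q q' : H →L[ℂ] H} (hq : IsStarProjection q) (hqq : q * q' = 0) (ζ : H) :
    ‖(q + q') ζ‖ ^ 2 = ‖q ζ‖ ^ 2 + ‖q' ζ‖ ^ 2 := by
  have h0 : ⟪q ζ, q' ζ⟫_ℂ = 0 := by
    rw [← adjoint_inner_right q, hq.isSelfAdjoint.adjoint_eq, ← mul_apply_eq_comp, hqq,
      zero_apply, inner_zero_right]
  rw [add_apply, @norm_add_sq ℂ, h0]
  simp

/-- Key step: below a projection `R` of `A` there is a piece `q` of mass at most `c` which
either exhausts the mass of `R` or has mass more than `c / 2`. -/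
lemma taskO_key (A : VonNeumannAlgebra H)
    (hAc : ∀ a ∈ A, ∀ b ∈ A, a * b = b * a) (hdiff : IsDiffuse A) (ζ : H)
    {R : H →L[ℂ] H} (hRA : R ∈ A) (hR : IsStarProjection R) {c : ℝ} (hc : 0 < c) :
    ∃ q ∈ A, IsStarProjection q ∧ R * q = q ∧ ‖q ζ‖ ^ 2 ≤ c ∧
      ((R - q) ζ = 0 ∨ c / 2 < ‖q ζ‖ ^ 2) := by
  obtain ⟨q, hqA, hq, hRq, hqc, hmax⟩ :=
    exists_maximal_subprojection A hAc ζ hRA hR hc.le
  refine ⟨q, hqA, hq, hRq, hqc, ?_⟩
  by_cases h0 : (R - q) ζ = 0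
  · exact Or.inl h0
  right
  by_contra hlt
  have hlt' : ‖q ζ‖ ^ 2 ≤ c / 2 := not_lt.mp hlt
  have hqR : q * R = q := by rw [hAc q hqA R hRA, hRq]
  have hRqA : R - q ∈ A := sub_mem hRA hqA
  have hRqP : IsStarProjection (R - q) := hq.sub_of_mul_eq_left hR hqR
  obtain ⟨p', hp'A, hp', hle, hp'ζ, hp'c⟩ :=
    exists_small_subprojection A hAc hdiff ζ hRqA hRqP h0 (half_pos hc)
  have hqp' : q * p' = 0 := by
    rw [← hle, ← mul_assoc, mul_sub, hqR, hq.isIdempotentElem.eq, sub_self, zero_mul]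
  have hp'q : p' * q = 0 := by rw [hAc p' hp'A q hqA, hqp']
  have hsum : IsStarProjection (q + p') := hq.add hp' hqp'
  have hRsum : R * (q + p') = q + p' := by
    rw [mul_add, hRq]
    congr 1
    rw [← hle, ← mul_assoc, mul_sub, hR.isIdempotentElem.eq, hRq]
  have hsumq : (q + p') * q = q := by
    rw [add_mul, hq.isIdempotentElem.eq, hp'q, add_zero]
  have hmass : ‖(q + p') ζ‖ ^ 2 ≤ c := by
    rw [taskO_pyth hq hqp' ζ]
    linarith
  have heq := hmax (q + p') (add_mem hqA hp'A) hsum hRsum hsumq hmass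
  have hp'0 : p' = 0 := by
    have : q + p' = q + 0 := by rw [heq, add_zero]
    exact add_left_cancel this
  exact hp'ζ (by rw [hp'0, zero_apply])

/-- Induction on the mass: a projection of mass at most `n * (c / 2)` splits into finitely many
mutually orthogonal pieces of mass at most `c`. -/
lemma taskO_ind (A : VonNeumannAlgebra H)
    (hAc : ∀ a ∈ A, ∀ b ∈ A, a * b = b * a) (hdiff : IsDiffuse A) (ζ : H) {c : ℝ} (hc : 0 < c)
    (n : ℕ) : ∀ R ∈ A, IsStarProjection R → ‖R ζ‖ ^ 2 ≤ n * (c / 2) →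
      ∃ (κ : Type) (_ : Fintype κ) (g : κ → H →L[ℂ] H),
        (∀ k, g k ∈ A) ∧ (∀ k, IsStarProjection (g k)) ∧ (∀ j k, j ≠ k → g j * g k = 0) ∧
          ∑ k, g k = R ∧ ∀ k, ‖g k ζ‖ ^ 2 ≤ c := by
  induction n with
  | zero =>
    intro R hRA hR hm
    refine ⟨Unit, inferInstance, fun _ => R, fun _ => hRA, fun _ => hR, ?_, ?_, ?_⟩
    · intro j k hjk
      exact absurd (Subsingleton.elim j k) hjk
    · simp
    · intro _
      have : ‖R ζ‖ ^ 2 ≤ 0 := by simpa using hm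
      linarith
  | succ n ih =>
    intro R hRA hR hm
    obtain ⟨q, hqA, hq, hRq, hqc, hcase⟩ := taskO_key A hAc hdiff ζ hRA hR hc
    have hqR : q * R = q := by rw [hAc q hqA R hRA, hRq]
    have hRqA : R - q ∈ A := sub_mem hRA hqA
    have hRqP : IsStarProjection (R - q) := hq.sub_of_mul_eq_left hR hqR
    have hq0 : q * (R - q) = 0 := by rw [mul_sub, hqR, hq.isIdempotentElem.eq, sub_self]
    have hpy : ‖R ζ‖ ^ 2 = ‖q ζ‖ ^ 2 + ‖(R - q) ζ‖ ^ 2 := by
      rw [← taskO_pyth hq hq0 ζ, add_sub_cancel]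
    rcases hcase with h0 | hbig
    · refine ⟨Bool, inferInstance, fun b => if b then q else R - q, ?_, ?_, ?_, ?_, ?_⟩
      · intro b
        cases b
        · simpa using hRqA
        · simpa using hqA
      · intro b
        cases b
        · simpa using hRqP
        · simpa using hq
      · intro j k hjk
        cases j <;> cases k
        · exact absurd rfl hjk
        · simp only [Bool.false_eq_true, if_false, if_true]
          rw [hAc (R - q) hRqA q hqA, hq0]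
        · simp only [Bool.false_eq_true, if_false, if_true]
          exact hq0
        · exact absurd rfl hjk
      · simp
      · intro b
        cases b
        · simp only [Bool.false_eq_true, if_false]
          rw [h0]
          simp [hc.le]
        · simpa using hqc
    · have hrest : ‖(R - q) ζ‖ ^ 2 ≤ n * (c / 2) := by
        have : ((n + 1 : ℕ) : ℝ) * (c / 2) = n * (c / 2) + c / 2 := by push_cast; ring
        linarith
      obtain ⟨κ, hκ, g, hgA, hgP, hgo, hgs, hgc⟩ := ih (R - q) hRqA hRqP hrest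
      have hgk : ∀ k, (R - q) * g k = g k := by
        intro k
        classical
        rw [← hgs, Finset.sum_mul, Finset.sum_eq_single k]
        · exact (hgP k).isIdempotentElem.eq
        · intro j _ hjk
          exact hgo j k hjk
        · intro hk
          exact absurd (Finset.mem_univ k) hk
      have hqg : ∀ k, q * g k = 0 := by
        intro k
        rw [← hgk k, ← mul_assoc, hq0, zero_mul]
      refine ⟨Option κ, inferInstance, fun o => o.elim q g, ?_, ?_, ?_, ?_, ?_⟩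
      · intro o
        cases o
        · exact hqA
        · exact hgA _
      · intro o
        cases o
        · exact hq
        · exact hgP _
      · intro j k hjk
        cases j <;> cases k
        · exact absurd rfl hjk
        · exact hqg _
        · simp only [Option.elim]
          rw [hAc _ (hgA _) q hqA]
          exact hqg _
        · simp only [Option.elim]
          exact hgo _ _ (fun h => hjk (by rw [h]))
      · rw [Fintype.sum_option]
        simp only [Option.elim]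
        rw [hgs, add_sub_cancel]
      · intro o
        cases o
        · exact hqc
        · exact hgc _

theorem exists_fine_partition (A : VonNeumannAlgebra H)
    (hAc : ∀ a ∈ A, ∀ b ∈ A, a * b = b * a) (hdiff : IsDiffuse A) (ζ : H) {η : ℝ} (hη : 0 < η) :
    ∃ (κ : Type) (_ : Fintype κ) (f : κ → H →L[ℂ] H), IsPOU A f ∧ ∀ k, ‖f k ζ‖ ≤ η := by
  have hc : 0 < η ^ 2 := by positivity
  obtain ⟨n, hn⟩ := exists_nat_ge (2 * ‖ζ‖ ^ 2 / η ^ 2)
  have hm : ‖(1 : H →L[ℂ] H) ζ‖ ^ 2 ≤ n * (η ^ 2 / 2) := by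
    rw [one_apply_eq_self]
    rw [div_le_iff₀ hc] at hn
    linarith
  obtain ⟨κ, hκ, g, hgA, hgP, hgo, hgs, hgc⟩ :=
    taskO_ind A hAc hdiff ζ hc n 1 (one_mem A) (IsStarProjection.one _) hm
  refine ⟨κ, hκ, g, ⟨hgA, hgP, hgo, hgs⟩, fun k => ?_⟩
  exact (sq_le_sq₀ (norm_nonneg _) hη.le).1 (hgc k)

/-! ### Part P -/

/-- Common refinement of two partitions of unity of an abelian von Neumann algebra. -/
lemma taskP_refine (A : VonNeumannAlgebra H)
    (hAc : ∀ a ∈ A, ∀ b ∈ A, a * b = b * a) {κ κ' : Type} [Fintype κ] [Fintype κ']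
    {f : κ → H →L[ℂ] H} {g : κ' → H →L[ℂ] H} (hf : IsPOU A f) (hg : IsPOU A g) :
    IsPOU A (fun kl : κ × κ' => f kl.1 * g kl.2) := by
  obtain ⟨hfA, hfp, hfo, hfs⟩ := hf
  obtain ⟨hgA, hgp, hgo, hgs⟩ := hg
  refine ⟨fun kl => mul_mem (hfA kl.1) (hgA kl.2),
    fun kl => (hfp kl.1).mul (hgp kl.2) (hAc _ (hfA kl.1) _ (hgA kl.2)), ?_, ?_⟩
  · rintro ⟨k, l⟩ ⟨k', l'⟩ hne
    have hcomm : g l * f k' = f k' * g l := hAc _ (hgA l) _ (hfA k')
    have hre : (f k * g l) * (f k' * g l') = (f k * f k') * (g l * g l') := by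
      calc (f k * g l) * (f k' * g l') = f k * (g l * f k') * g l' := by simp only [mul_assoc]
        _ = f k * (f k' * g l) * g l' := by rw [hcomm]
        _ = (f k * f k') * (g l * g l') := by simp only [mul_assoc]
    show (f k * g l) * (f k' * g l') = 0
    rw [hre]
    by_cases hk : k = k'
    · have hl : l ≠ l' := fun hl => hne (by rw [hk, hl])
      rw [hgo l l' hl, mul_zero]
    · rw [hfo k k' hk, zero_mul]
  · rw [Fintype.sum_prod_type]
    simp only [← Finset.mul_sum, hgs, mul_one, hfs]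

/-- A refined piece is at most as large as either factor on every vector. -/
lemma taskP_norm_le (A : VonNeumannAlgebra H)
    (hAc : ∀ a ∈ A, ∀ b ∈ A, a * b = b * a) {p q : H →L[ℂ] H} (hpA : p ∈ A) (hqA : q ∈ A)
    (hp : IsStarProjection p) (hq : IsStarProjection q) (ξ : H) :
    ‖(p * q) ξ‖ ≤ ‖p ξ‖ ∧ ‖(p * q) ξ‖ ≤ ‖q ξ‖ := by
  have hcomm : p * q = q * p := hAc _ hpA _ hqA
  constructor
  · rw [hcomm, mul_apply_eq_comp]
    calc ‖q (p ξ)‖ ≤ ‖q‖ * ‖p ξ‖ := q.le_opNorm _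
      _ ≤ 1 * ‖p ξ‖ := mul_le_mul_of_nonneg_right hq.norm_le (norm_nonneg _)
      _ = ‖p ξ‖ := one_mul _
  · rw [mul_apply_eq_comp]
    calc ‖p (q ξ)‖ ≤ ‖p‖ * ‖q ξ‖ := p.le_opNorm _
      _ ≤ 1 * ‖q ξ‖ := mul_le_mul_of_nonneg_right hp.norm_le (norm_nonneg _)
      _ = ‖q ξ‖ := one_mul _

/-- Finset version of the fine partition for finitely many vectors. -/
lemma taskP_finset {ι : Type} (A : VonNeumannAlgebra H)
    (hAc : ∀ a ∈ A, ∀ b ∈ A, a * b = b * a) (hdiff : IsDiffuse A) (ζ : ι → H) {η : ℝ}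
    (hη : 0 < η) (s : Finset ι) :
    ∃ (κ : Type) (_ : Fintype κ) (f : κ → H →L[ℂ] H), IsPOU A f ∧
      ∀ k, ∀ j ∈ s, ‖f k (ζ j)‖ ≤ η := by
  classical
  induction s using Finset.induction_on with
  | empty =>
    refine ⟨Unit, inferInstance, fun _ => 1, ⟨fun _ => one_mem A,
      fun _ => IsStarProjection.one _, fun j k hjk => absurd (Subsingleton.elim j k) hjk, ?_⟩, ?_⟩
    · simp
    · intro k j hj
      simp at hj
  | insert j₀ s _ ih =>
    obtain ⟨κ, hκ, f, hf, hfb⟩ := ih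
    obtain ⟨κ', hκ', g, hg, hgb⟩ := exists_fine_partition A hAc hdiff (ζ j₀) hη
    refine ⟨κ × κ', inferInstance, fun kl => f kl.1 * g kl.2, taskP_refine A hAc hf hg, ?_⟩
    rintro ⟨k, l⟩ j hj
    have hle := taskP_norm_le A hAc (hf.1 k) (hg.1 l) (hf.2.1 k) (hg.2.1 l) (ζ j)
    rcases Finset.mem_insert.mp hj with rfl | hjs
    · exact hle.2.trans (hgb l)
    · exact hle.1.trans (hfb k j hjs)

theorem exists_fine_partition_family {ι : Type} [Fintype ι] (A : VonNeumannAlgebra H)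
    (hAc : ∀ a ∈ A, ∀ b ∈ A, a * b = b * a) (hdiff : IsDiffuse A) (ζ : ι → H) {η : ℝ}
    (hη : 0 < η) :
    ∃ (κ : Type) (_ : Fintype κ) (f : κ → H →L[ℂ] H), IsPOU A f ∧ ∀ k j, ‖f k (ζ j)‖ ≤ η := by
  obtain ⟨κ, hκ, f, hf, hfb⟩ := taskP_finset A hAc hdiff ζ hη Finset.univ
  exact ⟨κ, hκ, f, hf, fun k j => hfb k j (Finset.mem_univ j)⟩

/-! ### Part Q -/

/-- The centred indicator of the event that `k` and `l` get the same colour. -/
noncomputable def taskQ_w {κ : Type} {r : ℕ} (col : κ → Fin r) (k l : κ) : ℝ :=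
  (if col k = col l then 1 else 0) - 1 / (r : ℝ)

theorem taskQ_w_symm {κ : Type} {r : ℕ} (col : κ → Fin r) (k l : κ) :
    taskQ_w col k l = taskQ_w col l k := by
  unfold taskQ_w
  by_cases h : col k = col l
  · rw [if_pos h, if_pos h.symm]
  · rw [if_neg h, if_neg (fun h' => h h'.symm)]

theorem taskQ_w_update {κ : Type} [DecidableEq κ] {r : ℕ} (col : κ → Fin r) {a k l : κ}
    (hk : k ≠ a) (hl : l ≠ a) (c : Fin r) :
    taskQ_w (Function.update col a c) k l = taskQ_w col k l := by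
  unfold taskQ_w
  rw [Function.update_of_ne hk, Function.update_of_ne hl]

/-- Averaging over the colour of `a` kills the centred indicator `w a b` against any function
that does not depend on the colour of `a`. -/
theorem taskQ_sum_w_mul {κ : Type} [Fintype κ] [DecidableEq κ] {r : ℕ} (hr : 0 < r)
    {a b : κ} (hab : a ≠ b) (g : (κ → Fin r) → ℝ)
    (hg : ∀ (col : κ → Fin r) (c : Fin r), g (Function.update col a c) = g col) :
    ∑ col : κ → Fin r, taskQ_w col a b * g col = 0 := by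
  classical
  rw [← Equiv.sum_comp (Equiv.funSplitAt a (Fin r)).symm, Fintype.sum_prod_type_right]
  refine Finset.sum_eq_zero fun rest _ => ?_
  have h1 : ∀ c : Fin r, ((Equiv.funSplitAt a (Fin r)).symm (c, rest)) a = c := by
    intro c
    simp [Equiv.funSplitAt, Equiv.piSplitAt]
  have h2 : ∀ c : Fin r, ((Equiv.funSplitAt a (Fin r)).symm (c, rest)) b =
      rest ⟨b, hab.symm⟩ := by
    intro c
    simp [Equiv.funSplitAt, Equiv.piSplitAt, hab.symm]
  have h3 : ∀ c : Fin r, g ((Equiv.funSplitAt a (Fin r)).symm (c, rest)) =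
      g ((Equiv.funSplitAt a (Fin r)).symm (⟨0, hr⟩, rest)) := by
    intro c
    have e : (Equiv.funSplitAt a (Fin r)).symm (c, rest) =
        Function.update ((Equiv.funSplitAt a (Fin r)).symm (⟨0, hr⟩, rest)) a c := by
      funext j
      by_cases hj : j = a
      · subst hj
        simp [Equiv.funSplitAt, Equiv.piSplitAt]
      · simp [Equiv.funSplitAt, Equiv.piSplitAt, hj]
    rw [e, hg]
  have h4 : ∑ c : Fin r, ((if c = rest ⟨b, hab.symm⟩ then (1 : ℝ) else 0) - 1 / (r : ℝ)) = 0 := by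
    rw [Finset.sum_sub_distrib, Finset.sum_ite_eq' Finset.univ (rest ⟨b, hab.symm⟩),
      if_pos (Finset.mem_univ _), Finset.sum_const, Finset.card_univ, Fintype.card_fin,
      nsmul_eq_mul]
    have : (r : ℝ) ≠ 0 := by exact_mod_cast hr.ne'
    field_simp
    ring
  unfold taskQ_w
  simp_rw [h1, h2, h3]
  rw [← Finset.sum_mul, h4, zero_mul]

/-- Two centred indicators belonging to different unordered pairs are uncorrelated. -/
theorem taskQ_sum_w_mul_w {κ : Type} [Fintype κ] [DecidableEq κ] {r : ℕ} (hr : 0 < r)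
    {k l k' l' : κ} (hkl' : k' ≠ l') (h1 : ¬ (k' = k ∧ l' = l)) (h2 : ¬ (k' = l ∧ l' = k)) :
    ∑ col : κ → Fin r, taskQ_w col k l * taskQ_w col k' l' = 0 := by
  by_cases hk : k' = k ∨ k' = l
  · by_cases hl : l' = k ∨ l' = l
    · exfalso
      rcases hk with hk | hk <;> rcases hl with hl | hl
      · exact hkl' (hk.trans hl.symm)
      · exact h1 ⟨hk, hl⟩
      · exact h2 ⟨hk, hl⟩
      · exact hkl' (hk.trans hl.symm)
    · have hl1 : k ≠ l' := fun h => hl (Or.inl h.symm)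
      have hl2 : l ≠ l' := fun h => hl (Or.inr h.symm)
      have := taskQ_sum_w_mul hr (a := l') (b := k') (fun h => hkl' h.symm)
        (fun col => taskQ_w col k l) (fun col c => taskQ_w_update col hl1 hl2 c)
      rw [← this]
      refine Finset.sum_congr rfl fun col _ => ?_
      rw [taskQ_w_symm col k' l', mul_comm]
  · have hk1 : k ≠ k' := fun h => hk (Or.inl h.symm)
    have hk2 : l ≠ k' := fun h => hk (Or.inr h.symm)
    have := taskQ_sum_w_mul hr (a := k') (b := l') hkl'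
      (fun col => taskQ_w col k l) (fun col c => taskQ_w_update col hk1 hk2 c)
    rw [← this]
    exact Finset.sum_congr rfl fun col _ => mul_comm _ _

/-- The variance of a centred indicator. -/
theorem taskQ_sum_w_sq {κ : Type} [Fintype κ] [DecidableEq κ] {r : ℕ} (hr : 0 < r)
    {k l : κ} (hkl : k ≠ l) :
    ∑ col : κ → Fin r, taskQ_w col k l ^ 2 ≤ (r : ℝ) ^ Fintype.card κ / r := by
  have hr0 : (0 : ℝ) < r := by exact_mod_cast hr
  have hr1 : (1 : ℝ) ≤ r := by exact_mod_cast hr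
  have h0 : ∑ col : κ → Fin r, taskQ_w col k l = 0 := by
    have := taskQ_sum_w_mul hr hkl (fun _ => (1 : ℝ)) (fun _ _ => rfl)
    simpa using this
  have hpt : ∀ col : κ → Fin r, taskQ_w col k l ^ 2 =
      taskQ_w col k l * (1 - 2 / (r : ℝ)) + 1 / (r : ℝ) * (1 - 1 / (r : ℝ)) := by
    intro col
    unfold taskQ_w
    by_cases h : col k = col l
    · rw [if_pos h]; field_simp; ring
    · rw [if_neg h]; field_simp; ring
  have hcard : ((Finset.univ : Finset (κ → Fin r)).card : ℝ) = (r : ℝ) ^ Fintype.card κ := by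
    rw [Finset.card_univ, Fintype.card_fun, Fintype.card_fin]
    push_cast
    rfl
  simp_rw [hpt]
  rw [Finset.sum_add_distrib, ← Finset.sum_mul, h0, zero_mul, zero_add, Finset.sum_const,
    nsmul_eq_mul, hcard]
  have hN : (0 : ℝ) ≤ (r : ℝ) ^ Fintype.card κ := by positivity
  have h1 : 1 / (r : ℝ) * (1 - 1 / (r : ℝ)) ≤ 1 / (r : ℝ) := by
    have : (0 : ℝ) ≤ 1 / (r : ℝ) := by positivity
    nlinarith
  calc (r : ℝ) ^ Fintype.card κ * (1 / (r : ℝ) * (1 - 1 / (r : ℝ)))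
      ≤ (r : ℝ) ^ Fintype.card κ * (1 / (r : ℝ)) := mul_le_mul_of_nonneg_left h1 hN
    _ = (r : ℝ) ^ Fintype.card κ / r := by ring

/-- The coefficient of the ordered pair `p`, set to zero on the diagonal. -/
noncomputable def taskQ_W {κ : Type} [DecidableEq κ] {r : ℕ} (col : κ → Fin r) (p : κ × κ) : ℝ :=
  if p.1 = p.2 then 0 else taskQ_w col p.1 p.2

theorem taskQ_W_swap {κ : Type} [DecidableEq κ] {r : ℕ} (col : κ → Fin r) (p : κ × κ) :
    taskQ_W col p.swap = taskQ_W col p := by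
  unfold taskQ_W
  by_cases h : p.1 = p.2
  · rw [if_pos h, if_pos (by simpa using h.symm)]
  · rw [if_neg h, if_neg (by simpa using fun h' : p.2 = p.1 => h h'.symm)]
    exact taskQ_w_symm col _ _

theorem taskQ_corr {κ : Type} [Fintype κ] [DecidableEq κ] {r : ℕ} (hr : 0 < r)
    {p q : κ × κ} (hp : p.1 ≠ p.2) (hq1 : q ≠ p) (hq2 : q ≠ p.swap) :
    ∑ col : κ → Fin r, taskQ_W col p * taskQ_W col q = 0 := by
  by_cases hq : q.1 = q.2
  · refine Finset.sum_eq_zero fun col _ => ?_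
    unfold taskQ_W
    rw [if_pos hq, mul_zero]
  · have h1 : ¬ (q.1 = p.1 ∧ q.2 = p.2) := fun h => hq1 (Prod.ext h.1 h.2)
    have h2 : ¬ (q.1 = p.2 ∧ q.2 = p.1) := fun h => hq2 (Prod.ext h.1 h.2)
    have := taskQ_sum_w_mul_w hr (k := p.1) (l := p.2) (k' := q.1) (l' := q.2) hq h1 h2
    rw [← this]
    refine Finset.sum_congr rfl fun col _ => ?_
    unfold taskQ_W
    rw [if_neg hp, if_neg hq]

theorem taskQ_re_mul_conj_le (z w : ℂ) :
    (z * (starRingEnd ℂ) w).re ≤ (‖z‖ ^ 2 + ‖w‖ ^ 2) / 2 := by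
  have h1 : (z * (starRingEnd ℂ) w).re ≤ ‖z * (starRingEnd ℂ) w‖ := Complex.re_le_norm _
  rw [norm_mul, RCLike.norm_conj] at h1
  nlinarith [sq_nonneg (‖z‖ - ‖w‖)]

theorem taskQ_norm_sq_sum {ι : Type} [Fintype ι] (a : ι → ℝ) (x : ι → ℂ) :
    ‖∑ p, ((a p : ℝ) : ℂ) * x p‖ ^ 2 =
      ∑ p, ∑ q, a p * a q * (x p * (starRingEnd ℂ) (x q)).re := by
  have h : ∀ z : ℂ, ‖z‖ ^ 2 = (z * (starRingEnd ℂ) z).re := by
    intro z
    rw [Complex.mul_conj, Complex.ofReal_re, Complex.normSq_eq_norm_sq]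
  rw [h, map_sum, Finset.sum_mul_sum, Complex.re_sum]
  refine Finset.sum_congr rfl fun p _ => ?_
  rw [Complex.re_sum]
  refine Finset.sum_congr rfl fun q _ => ?_
  have e : ((a p : ℝ) : ℂ) * x p * (starRingEnd ℂ) (((a q : ℝ) : ℂ) * x q) =
      ((a p * a q : ℝ) : ℂ) * (x p * (starRingEnd ℂ) (x q)) := by
    rw [map_mul, Complex.conj_ofReal]
    push_cast
    ring
  rw [e, Complex.re_ofReal_mul]

theorem coloring_second_moment {κ : Type} [Fintype κ] [DecidableEq κ] {r : ℕ} (hr : 0 < r)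
    (X : κ → κ → ℂ) :
    ∑ col : κ → Fin r, ‖∑ k, ∑ l, (if k = l then 0 else
        ((if col k = col l then (1 : ℂ) else 0) - 1 / (r : ℂ)) * X k l)‖ ^ 2
      ≤ (r : ℝ) ^ Fintype.card κ * (2 / r) * ∑ k, ∑ l, ‖X k l‖ ^ 2 := by
  classical
  have hr0 : (0 : ℝ) < r := by exact_mod_cast hr
  have hN0 : (0 : ℝ) ≤ (r : ℝ) ^ Fintype.card κ / r := by positivity
  -- rewrite the inner sum as a sum over ordered pairs with real coefficients
  have hS : ∀ col : κ → Fin r, (∑ k, ∑ l, (if k = l then 0 else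
        ((if col k = col l then (1 : ℂ) else 0) - 1 / (r : ℂ)) * X k l)) =
      ∑ p : κ × κ, ((taskQ_W col p : ℝ) : ℂ) * X p.1 p.2 := by
    intro col
    rw [Fintype.sum_prod_type]
    refine Finset.sum_congr rfl fun k _ => Finset.sum_congr rfl fun l _ => ?_
    unfold taskQ_W taskQ_w
    by_cases hkl : k = l
    · simp [hkl]
    · by_cases hc : col k = col l
      · simp [hkl, hc]
      · simp [hkl, hc]
  -- the bound for a fixed ordered pair
  have hp : ∀ p : κ × κ,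
      ∑ q : κ × κ, (∑ col : κ → Fin r, taskQ_W col p * taskQ_W col q) *
          (X p.1 p.2 * (starRingEnd ℂ) (X q.1 q.2)).re ≤
        (r : ℝ) ^ Fintype.card κ / r *
          (3 / 2 * ‖X p.1 p.2‖ ^ 2 + 1 / 2 * ‖X p.2 p.1‖ ^ 2) := by
    intro p
    have hrhs : (0 : ℝ) ≤ 3 / 2 * ‖X p.1 p.2‖ ^ 2 + 1 / 2 * ‖X p.2 p.1‖ ^ 2 := by positivity
    by_cases hd : p.1 = p.2
    · have hz : ∑ q : κ × κ, (∑ col : κ → Fin r, taskQ_W col p * taskQ_W col q) *
          (X p.1 p.2 * (starRingEnd ℂ) (X q.1 q.2)).re = 0 := by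
        refine Finset.sum_eq_zero fun q _ => ?_
        have : ∑ col : κ → Fin r, taskQ_W col p * taskQ_W col q = 0 := by
          refine Finset.sum_eq_zero fun col _ => ?_
          unfold taskQ_W
          rw [if_pos hd, zero_mul]
        rw [this, zero_mul]
      rw [hz]
      exact mul_nonneg hN0 hrhs
    · have hne : p ≠ p.swap := by
        intro h
        have h' := congrArg Prod.fst h
        exact hd (by simpa using h')
      rw [Finset.sum_eq_add p p.swap hne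
        (fun q _ hq => by rw [taskQ_corr hr hd hq.1 hq.2, zero_mul])
        (fun h => absurd (Finset.mem_univ _) h) (fun h => absurd (Finset.mem_univ _) h)]
      have hc1 : ∑ col : κ → Fin r, taskQ_W col p * taskQ_W col p =
          ∑ col : κ → Fin r, taskQ_w col p.1 p.2 ^ 2 := by
        refine Finset.sum_congr rfl fun col _ => ?_
        unfold taskQ_W
        rw [if_neg hd, sq]
      have hc2 : ∑ col : κ → Fin r, taskQ_W col p * taskQ_W col p.swap =
          ∑ col : κ → Fin r, taskQ_w col p.1 p.2 ^ 2 := by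
        rw [← hc1]
        refine Finset.sum_congr rfl fun col _ => ?_
        rw [taskQ_W_swap]
      have hcN := taskQ_sum_w_sq hr (k := p.1) (l := p.2) hd
      have hc0 : (0 : ℝ) ≤ ∑ col : κ → Fin r, taskQ_w col p.1 p.2 ^ 2 :=
        Finset.sum_nonneg fun col _ => sq_nonneg _
      have hR1 : (X p.1 p.2 * (starRingEnd ℂ) (X p.1 p.2)).re = ‖X p.1 p.2‖ ^ 2 := by
        rw [Complex.mul_conj, Complex.ofReal_re, Complex.normSq_eq_norm_sq]
      have hR2 : (X p.1 p.2 * (starRingEnd ℂ) (X p.swap.1 p.swap.2)).re ≤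
          (‖X p.1 p.2‖ ^ 2 + ‖X p.2 p.1‖ ^ 2) / 2 := taskQ_re_mul_conj_le _ _
      rw [hc1, hc2, hR1]
      calc (∑ col : κ → Fin r, taskQ_w col p.1 p.2 ^ 2) * ‖X p.1 p.2‖ ^ 2 +
            (∑ col : κ → Fin r, taskQ_w col p.1 p.2 ^ 2) *
              (X p.1 p.2 * (starRingEnd ℂ) (X p.swap.1 p.swap.2)).re
          ≤ (∑ col : κ → Fin r, taskQ_w col p.1 p.2 ^ 2) * ‖X p.1 p.2‖ ^ 2 +
            (∑ col : κ → Fin r, taskQ_w col p.1 p.2 ^ 2) *
              ((‖X p.1 p.2‖ ^ 2 + ‖X p.2 p.1‖ ^ 2) / 2) :=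
            add_le_add le_rfl (mul_le_mul_of_nonneg_left hR2 hc0)
        _ = (∑ col : κ → Fin r, taskQ_w col p.1 p.2 ^ 2) *
              (3 / 2 * ‖X p.1 p.2‖ ^ 2 + 1 / 2 * ‖X p.2 p.1‖ ^ 2) := by ring
        _ ≤ (r : ℝ) ^ Fintype.card κ / r *
              (3 / 2 * ‖X p.1 p.2‖ ^ 2 + 1 / 2 * ‖X p.2 p.1‖ ^ 2) :=
            mul_le_mul_of_nonneg_right hcN hrhs
  have hT : ∑ p : κ × κ, ‖X p.1 p.2‖ ^ 2 = ∑ k, ∑ l, ‖X k l‖ ^ 2 := by
    rw [Fintype.sum_prod_type]
  have hT' : ∑ p : κ × κ, ‖X p.2 p.1‖ ^ 2 = ∑ k, ∑ l, ‖X k l‖ ^ 2 := by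
    rw [Fintype.sum_prod_type, Finset.sum_comm]
  calc ∑ col : κ → Fin r, ‖∑ k, ∑ l, (if k = l then 0 else
        ((if col k = col l then (1 : ℂ) else 0) - 1 / (r : ℂ)) * X k l)‖ ^ 2
      = ∑ col : κ → Fin r, ∑ p : κ × κ, ∑ q : κ × κ, taskQ_W col p * taskQ_W col q *
          (X p.1 p.2 * (starRingEnd ℂ) (X q.1 q.2)).re := by
        refine Finset.sum_congr rfl fun col _ => ?_
        rw [hS col, taskQ_norm_sq_sum]
    _ = ∑ p : κ × κ, ∑ q : κ × κ, (∑ col : κ → Fin r, taskQ_W col p * taskQ_W col q) *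
          (X p.1 p.2 * (starRingEnd ℂ) (X q.1 q.2)).re := by
        rw [Finset.sum_comm]
        refine Finset.sum_congr rfl fun p _ => ?_
        rw [Finset.sum_comm]
        refine Finset.sum_congr rfl fun q _ => ?_
        rw [Finset.sum_mul]
    _ ≤ ∑ p : κ × κ, (r : ℝ) ^ Fintype.card κ / r *
          (3 / 2 * ‖X p.1 p.2‖ ^ 2 + 1 / 2 * ‖X p.2 p.1‖ ^ 2) :=
        Finset.sum_le_sum fun p _ => hp p
    _ = (r : ℝ) ^ Fintype.card κ * (2 / r) * ∑ k, ∑ l, ‖X k l‖ ^ 2 := by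
        rw [← Finset.mul_sum, Finset.sum_add_distrib, ← Finset.mul_sum, ← Finset.mul_sum,
          hT, hT']
        ring

/-! ### Part R -/

/-- pointwise bound for the conjugated operator on the Euclidean space -/
lemma taskR_conj_norm_le {n : ℕ} (u : Fin n → H) (B : H →L[ℂ] H)
    (w : EuclideanSpace ℂ (Fin n)) :
    ‖(adjoint (synth u) ∘L B ∘L synth u) w‖
      ≤ Real.sqrt (∑ i, ∑ j, ‖⟪u i, B (u j)⟫_ℂ‖ ^ 2) * ‖w‖ := by
  have hcoord : ∀ i, ((adjoint (synth u) ∘L B ∘L synth u) w) i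
      = ∑ j, w j * ⟪u i, B (u j)⟫_ℂ := by
    intro i
    rw [coe_comp, Function.comp_apply, coe_comp, Function.comp_apply, synth_adjoint_apply,
      synth_apply, map_sum, inner_sum]
    refine Finset.sum_congr rfl (fun j _ => ?_)
    rw [map_smul, inner_smul_right]
  have hcs : ∀ i, ‖((adjoint (synth u) ∘L B ∘L synth u) w) i‖ ^ 2
      ≤ (∑ j, ‖⟪u i, B (u j)⟫_ℂ‖ ^ 2) * ∑ j, ‖w j‖ ^ 2 := by
    intro i
    rw [hcoord i]
    have h1 : ‖∑ j, w j * ⟪u i, B (u j)⟫_ℂ‖ ≤ ∑ j, ‖w j‖ * ‖⟪u i, B (u j)⟫_ℂ‖ := by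
      refine (norm_sum_le _ _).trans (le_of_eq ?_)
      exact Finset.sum_congr rfl (fun j _ => norm_mul _ _)
    have h2 : (∑ j, ‖w j‖ * ‖⟪u i, B (u j)⟫_ℂ‖) ^ 2
        ≤ (∑ j, ‖w j‖ ^ 2) * ∑ j, ‖⟪u i, B (u j)⟫_ℂ‖ ^ 2 :=
      Finset.sum_mul_sq_le_sq_mul_sq Finset.univ (fun j => ‖w j‖) (fun j => ‖⟪u i, B (u j)⟫_ℂ‖)
    calc ‖∑ j, w j * ⟪u i, B (u j)⟫_ℂ‖ ^ 2
        ≤ (∑ j, ‖w j‖ * ‖⟪u i, B (u j)⟫_ℂ‖) ^ 2 :=
          pow_le_pow_left₀ (norm_nonneg _) h1 2
      _ ≤ (∑ j, ‖w j‖ ^ 2) * ∑ j, ‖⟪u i, B (u j)⟫_ℂ‖ ^ 2 := h2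
      _ = (∑ j, ‖⟪u i, B (u j)⟫_ℂ‖ ^ 2) * ∑ j, ‖w j‖ ^ 2 := mul_comm _ _
  have hw : ‖w‖ ^ 2 = ∑ j, ‖w j‖ ^ 2 := EuclideanSpace.norm_sq_eq w
  have hsq : ‖(adjoint (synth u) ∘L B ∘L synth u) w‖ ^ 2
      ≤ (∑ i, ∑ j, ‖⟪u i, B (u j)⟫_ℂ‖ ^ 2) * ‖w‖ ^ 2 := by
    rw [EuclideanSpace.norm_sq_eq, hw, Finset.sum_mul]
    exact Finset.sum_le_sum (fun i _ => hcs i)
  have hS : 0 ≤ ∑ i, ∑ j, ‖⟪u i, B (u j)⟫_ℂ‖ ^ 2 :=
    Finset.sum_nonneg (fun i _ => Finset.sum_nonneg (fun j _ => sq_nonneg _))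
  have hrhs : 0 ≤ Real.sqrt (∑ i, ∑ j, ‖⟪u i, B (u j)⟫_ℂ‖ ^ 2) * ‖w‖ :=
    mul_nonneg (Real.sqrt_nonneg _) (norm_nonneg _)
  refine le_of_sq_le_sq ?_ hrhs
  rw [mul_pow, Real.sq_sqrt hS]
  exact hsq

theorem norm_compress_le_frobenius {n : ℕ} (u : Fin n → H) (hu : Orthonormal ℂ u)
    (B : H →L[ℂ] H) :
    ‖(synth u ∘L adjoint (synth u)) * B * (synth u ∘L adjoint (synth u))‖
      ≤ Real.sqrt (∑ i, ∑ j, ‖⟪u i, B (u j)⟫_ℂ‖ ^ 2) := by
  have hqBq : (synth u ∘L adjoint (synth u)) * B * (synth u ∘L adjoint (synth u))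
      = synth u ∘L (adjoint (synth u) ∘L B ∘L synth u) ∘L adjoint (synth u) := by
    ext v
    simp
  have hmid : ‖adjoint (synth u) ∘L B ∘L synth u‖
      ≤ Real.sqrt (∑ i, ∑ j, ‖⟪u i, B (u j)⟫_ℂ‖ ^ 2) :=
    opNorm_le_bound _ (Real.sqrt_nonneg _) (fun w => taskR_conj_norm_le u B w)
  rw [hqBq]
  calc ‖synth u ∘L (adjoint (synth u) ∘L B ∘L synth u) ∘L adjoint (synth u)‖
      ≤ ‖synth u‖ * ‖(adjoint (synth u) ∘L B ∘L synth u) ∘L adjoint (synth u)‖ :=
        opNorm_comp_le _ _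
    _ ≤ ‖synth u‖ * (‖adjoint (synth u) ∘L B ∘L synth u‖ * ‖adjoint (synth u)‖) := by
        gcongr
        exact opNorm_comp_le _ _
    _ ≤ 1 * (Real.sqrt (∑ i, ∑ j, ‖⟪u i, B (u j)⟫_ℂ‖ ^ 2) * 1) := by
        gcongr
        · exact norm_synth_le hu
        · exact norm_adjoint_synth_le hu
    _ = Real.sqrt (∑ i, ∑ j, ‖⟪u i, B (u j)⟫_ℂ‖ ^ 2) := by ring

/-! ### Part S -/

/-- A subprojection: from `F * G = G` for projections also `G * F = G`. -/
lemma taskS_mul_comm_of_le {F G : H →L[ℂ] H} (hF : IsStarProjection F) (hG : IsStarProjection G)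
    (h : F * G = G) : G * F = G := by
  have h1 : star (F * G) = star G := by rw [h]
  rw [star_mul, hF.isSelfAdjoint.star_eq, hG.isSelfAdjoint.star_eq] at h1
  exact h1

/-- The complement of a subprojection inside a projection is a projection. -/
lemma taskS_isStarProjection_sub {F G : H →L[ℂ] H} (hF : IsStarProjection F)
    (hG : IsStarProjection G) (h : F * G = G) : IsStarProjection (F - G) := by
  have h' := taskS_mul_comm_of_le hF hG h
  refine ⟨?_, ?_⟩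
  · unfold IsIdempotentElem
    rw [sub_mul, mul_sub, mul_sub, hF.isIdempotentElem.eq, hG.isIdempotentElem.eq, h, h']
    abel
  · exact hF.isSelfAdjoint.sub hG.isSelfAdjoint

theorem exists_cube_partition (A : VonNeumannAlgebra H) (hdiff : IsDiffuse A)
    (hne : (1 : H →L[ℂ] H) ≠ 0) (t : ℕ) :
    ∃ f : (Fin t → Bool) → H →L[ℂ] H, IsPOU A f ∧ ∀ k, f k ≠ 0 := by
  induction t with
  | zero =>
    refine ⟨fun _ => 1, ⟨fun _ => one_mem A, fun _ => IsStarProjection.one _,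
      fun j k hjk => absurd (Subsingleton.elim j k) hjk, ?_⟩, fun _ => hne⟩
    simp
  | succ t ih =>
    obtain ⟨f, ⟨hfA, hfp, hforth, hfsum⟩, hfne⟩ := ih
    have hex : ∀ a : Fin t → Bool, ∃ p' ∈ A, IsStarProjection p' ∧ p' ≠ 0 ∧ p' ≠ f a ∧
        f a * p' = p' := fun a => hdiff (f a) (hfA a) (hfp a) (hfne a)
    choose g hgA hgp hgne hgf hfg using hex
    have hgf' : ∀ a, g a * f a = g a := fun a => taskS_mul_comm_of_le (hfp a) (hgp a) (hfg a)
    -- the two pieces under `f a`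
    let piece : Bool → (Fin t → Bool) → H →L[ℂ] H := fun b a => if b then g a else f a - g a
    have hpiece_left : ∀ b a, f a * piece b a = piece b a := by
      intro b a
      cases b
      · show f a * (f a - g a) = f a - g a
        rw [mul_sub, (hfp a).isIdempotentElem.eq, hfg a]
      · exact hfg a
    have hpiece_right : ∀ b a, piece b a * f a = piece b a := by
      intro b a
      cases b
      · show (f a - g a) * f a = f a - g a
        rw [sub_mul, (hfp a).isIdempotentElem.eq, hgf' a]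
      · exact hgf' a
    refine ⟨fun k => piece (k 0) (Fin.tail k), ⟨?_, ?_, ?_, ?_⟩, ?_⟩
    · intro k
      show piece (k 0) (Fin.tail k) ∈ A
      cases k 0
      · exact sub_mem (hfA _) (hgA _)
      · exact hgA _
    · intro k
      show IsStarProjection (piece (k 0) (Fin.tail k))
      cases k 0
      · exact taskS_isStarProjection_sub (hfp _) (hgp _) (hfg _)
      · exact hgp _
    · intro k k' hkk'
      show piece (k 0) (Fin.tail k) * piece (k' 0) (Fin.tail k') = 0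
      by_cases htail : Fin.tail k = Fin.tail k'
      · have h0 : k 0 ≠ k' 0 := by
          intro h0
          apply hkk'
          funext i
          refine Fin.cases h0 (fun j => ?_) i
          exact congrFun htail j
        rw [← htail]
        generalize Fin.tail k = a
        rcases hb : k 0 with _ | _ <;> rcases hb' : k' 0 with _ | _
        · exact absurd (hb.trans hb'.symm) h0
        · show (f a - g a) * g a = 0
          rw [sub_mul, hfg a, (hgp a).isIdempotentElem.eq, sub_self]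
        · show g a * (f a - g a) = 0
          rw [mul_sub, hgf' a, (hgp a).isIdempotentElem.eq, sub_self]
        · exact absurd (hb.trans hb'.symm) h0
      · rw [← hpiece_right (k 0) (Fin.tail k), ← hpiece_left (k' 0) (Fin.tail k'),
          mul_assoc, ← mul_assoc (f (Fin.tail k)), hforth _ _ htail, zero_mul, mul_zero]
    · have hsum : ∑ k : Fin (t + 1) → Bool, piece (k 0) (Fin.tail k) =
          ∑ p : Bool × (Fin t → Bool), piece p.1 p.2 := by
        apply Fintype.sum_equiv (Fin.consEquiv (fun _ : Fin (t + 1) => Bool)).symm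
        intro k
        rfl
      show ∑ k : Fin (t + 1) → Bool, piece (k 0) (Fin.tail k) = 1
      rw [hsum, Fintype.sum_prod_type, Fintype.sum_bool, ← Finset.sum_add_distrib, ← hfsum]
      apply Finset.sum_congr rfl
      intro a _
      show g a + (f a - g a) = f a
      abel
    · intro k
      show piece (k 0) (Fin.tail k) ≠ 0
      cases k 0
      · exact sub_ne_zero.mpr (Ne.symm (hgf _))
      · exact hgne _

/-! ### Part T1 -/

/-- The sign `±1` of the `b`-th coordinate of a point `k` of the cube. -/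
noncomputable def taskT1_sgn {t : ℕ} (b : Fin t) (k : Fin t → Bool) : ℝ := if k b then 1 else -1

lemma taskT1_sgn_sq {t : ℕ} (b : Fin t) (k : Fin t → Bool) :
    taskT1_sgn b k * taskT1_sgn b k = 1 := by
  unfold taskT1_sgn; split_ifs <;> norm_num

lemma taskT1_sum_sgn {t : ℕ} (b b' : Fin t) (hbb : b ≠ b') :
    ∑ k : Fin t → Bool, taskT1_sgn b k * taskT1_sgn b' k = 0 := by
  classical
  have hinvol : Function.Involutive (fun k : Fin t → Bool => Function.update k b (!k b)) := by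
    intro k
    funext i
    by_cases hi : i = b
    · subst hi; simp
    · simp [Function.update, hi]
  have hinv : ∑ k : Fin t → Bool, taskT1_sgn b k * taskT1_sgn b' k
      = ∑ k : Fin t → Bool, -(taskT1_sgn b k * taskT1_sgn b' k) := by
    refine Fintype.sum_equiv (Function.Involutive.toPerm _ hinvol) _ _ ?_
    intro k
    simp only [Function.Involutive.coe_toPerm]
    unfold taskT1_sgn
    have h1 : Function.update k b (!k b) b = !k b := Function.update_self ..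
    have h2 : Function.update k b (!k b) b' = k b' := Function.update_of_ne (Ne.symm hbb) ..
    rw [h1, h2]
    by_cases hb : k b = true <;> by_cases hb' : k b' = true <;> simp [hb, hb']
  rw [Finset.sum_neg_distrib] at hinv
  linarith

omit [CompleteSpace H] in
lemma taskT1_inner_sum {ι : Type*} [Fintype ι] {u : ι → H} (hon : Orthonormal ℂ u)
    (a b : ι → ℝ) :
    ⟪∑ k, ((a k : ℝ) : ℂ) • u k, ∑ k, ((b k : ℝ) : ℂ) • u k⟫_ℂ = ((∑ k, a k * b k : ℝ) : ℂ) := by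
  rw [hon.inner_sum]
  push_cast
  refine Finset.sum_congr rfl fun k _ => ?_
  rw [Complex.conj_ofReal]

theorem exists_rademacher (A : VonNeumannAlgebra H) {t : ℕ}
    (f : (Fin t → Bool) → H →L[ℂ] H) (hf : IsPOU A f) (hne : ∀ k, f k ≠ 0) :
    ∃ ω : H, ‖ω‖ = 1 ∧ ∃ s : Fin t → H →L[ℂ] H, (∀ b, s b ∈ A) ∧ (∀ b, IsSelfAdjoint (s b)) ∧
      (∀ b, s b * s b = 1) ∧ Orthonormal ℂ (fun b => s b ω) := by
  classical
  obtain ⟨hfA, hfp, hforth, hfsum⟩ := hf
  -- unit vectors in the ranges of the pieces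
  have hex : ∀ k, ∃ u : H, ‖u‖ = 1 ∧ f k u = u := by
    intro k
    have hw : ∃ w, f k w ≠ 0 := by
      by_contra hcon
      push Not at hcon
      exact hne k (ContinuousLinearMap.ext hcon)
    obtain ⟨w, hw⟩ := hw
    refine ⟨((‖f k w‖⁻¹ : ℝ) : ℂ) • f k w, ?_, ?_⟩
    · rw [norm_smul, Complex.norm_real, norm_inv, norm_norm,
        inv_mul_cancel₀ (norm_ne_zero_iff.mpr hw)]
    · rw [map_smul]
      congr 1
      have hidem := (hfp k).isIdempotentElem.eq
      calc f k (f k w) = (f k * f k) w := rfl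
        _ = f k w := by rw [hidem]
  choose u hu1 hfu using hex
  have hfu' : ∀ j k, f j (u k) = if j = k then u k else 0 := by
    intro j k
    split_ifs with h
    · subst h; exact hfu j
    · calc f j (u k) = f j (f k (u k)) := by rw [hfu k]
        _ = (f j * f k) (u k) := rfl
        _ = 0 := by rw [hforth j k h]; rfl
  have hon : Orthonormal ℂ u := by
    rw [orthonormal_iff_ite]
    intro j k
    split_ifs with h
    · subst h
      rw [inner_self_eq_norm_sq_to_K, hu1 j]; simp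
    · calc ⟪u j, u k⟫_ℂ = ⟪f j (u j), u k⟫_ℂ := by rw [hfu j]
        _ = ⟪u j, (adjoint (f j)) (u k)⟫_ℂ := (adjoint_inner_right (f j) (u j) (u k)).symm
        _ = ⟪u j, f j (u k)⟫_ℂ := by rw [(hfp j).isSelfAdjoint.adjoint_eq]
        _ = 0 := by rw [hfu' j k, if_neg h, inner_zero_right]
  -- the normalisation
  set N : ℝ := (Fintype.card (Fin t → Bool) : ℝ) with hN
  have hNpos : 0 < N := by
    rw [hN]
    exact_mod_cast Fintype.card_pos
  set c : ℝ := (Real.sqrt N)⁻¹ with hc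
  have hcc : N * (c * c) = 1 := by
    rw [hc, ← mul_inv, Real.mul_self_sqrt hNpos.le, mul_inv_cancel₀ hNpos.ne']
  set ω : H := ∑ k, ((c : ℝ) : ℂ) • u k with hω
  set s : Fin t → H →L[ℂ] H := fun b => ∑ k, ((taskT1_sgn b k : ℝ) : ℂ) • f k with hs
  have hsu : ∀ b k, s b (u k) = ((taskT1_sgn b k : ℝ) : ℂ) • u k := by
    intro b k
    simp only [hs, sum_apply, smul_apply, hfu', smul_ite,
      smul_zero, Finset.sum_ite_eq', Finset.mem_univ, if_true]
  have hsω : ∀ b, s b ω = ∑ k, ((taskT1_sgn b k * c : ℝ) : ℂ) • u k := by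
    intro b
    rw [hω, map_sum]
    refine Finset.sum_congr rfl fun k _ => ?_
    rw [map_smul, hsu, smul_smul]
    congr 1
    push_cast
    ring
  refine ⟨ω, ?_, s, ?_, ?_, ?_, ?_⟩
  · have h1 : ⟪ω, ω⟫_ℂ = ((∑ _k : Fin t → Bool, c * c : ℝ) : ℂ) := taskT1_inner_sum hon _ _
    have h2 : ‖ω‖ ^ 2 = 1 := by
      have h3 := inner_self_eq_norm_sq_to_K (𝕜 := ℂ) ω
      rw [h1] at h3
      have h4 : (∑ _k : Fin t → Bool, c * c : ℝ) = 1 := by
        rw [Finset.sum_const, Finset.card_univ, nsmul_eq_mul]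
        exact hcc
      rw [h4] at h3
      have h5 : ((‖ω‖ ^ 2 : ℝ) : ℂ) = ((1 : ℝ) : ℂ) := by
        push_cast
        exact h3.symm
      exact_mod_cast h5
    have h6 := Real.sqrt_sq (norm_nonneg ω)
    rw [h2, Real.sqrt_one] at h6
    exact h6.symm
  · intro b
    simp only [hs]
    refine sum_mem fun k _ => ?_
    exact real_smul_mem A (hfA k) _
  · intro b
    simp only [hs]
    refine isSelfAdjoint_sum _ fun k _ => ?_
    exact IsSelfAdjoint.smul (Complex.conj_ofReal _) (hfp k).isSelfAdjoint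
  · intro b
    simp only [hs]
    rw [Finset.sum_mul_sum, ← hfsum]
    refine Finset.sum_congr rfl fun j _ => ?_
    rw [Finset.sum_eq_single j]
    · rw [smul_mul_smul_comm, (hfp j).isIdempotentElem.eq, ← Complex.ofReal_mul, taskT1_sgn_sq]
      simp
    · intro k _ hkj
      rw [smul_mul_smul_comm, hforth j k (Ne.symm hkj), smul_zero]
    · intro hj
      exact absurd (Finset.mem_univ j) hj
  · rw [orthonormal_iff_ite]
    intro b b'
    show ⟪s b ω, s b' ω⟫_ℂ = _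
    rw [hsω b, hsω b', taskT1_inner_sum hon]
    have hsum : ∑ k : Fin t → Bool, taskT1_sgn b k * c * (taskT1_sgn b' k * c)
        = (c * c) * ∑ k : Fin t → Bool, taskT1_sgn b k * taskT1_sgn b' k := by
      rw [Finset.mul_sum]
      refine Finset.sum_congr rfl fun k _ => ?_
      ring
    rw [hsum]
    split_ifs with hbb
    · subst hbb
      have : ∑ k : Fin t → Bool, taskT1_sgn b k * taskT1_sgn b k = N := by
        simp only [taskT1_sgn_sq, Finset.sum_const, Finset.card_univ, nsmul_eq_mul, mul_one, hN]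
      rw [this, mul_comm, hcc]
      simp
    · rw [taskT1_sum_sgn b b' hbb, mul_zero]
      simp

/-! ### Part T2 -/

/-- A self-adjoint operator can be moved across the inner product. -/
lemma taskT2_inner_sa {T : H →L[ℂ] H} (hT : IsSelfAdjoint T) (x y : H) :
    ⟪T x, y⟫_ℂ = ⟪x, T y⟫_ℂ := by
  have h := adjoint_inner_left T y x
  rw [hT.adjoint_eq] at h
  exact h

omit [CompleteSpace H] in
lemma taskT2_rankOne_apply (ω ξ : H) : rankOneProj ω ξ = ⟪ω, ξ⟫_ℂ • ω := rfl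

/-- The quadratic form of the pinching of a rank-one operator. -/
lemma taskT2_inner_pinching_rankOne {r : ℕ} (p : Fin r → H →L[ℂ] H)
    (hp : ∀ i, IsStarProjection (p i)) (ω ξ : H) :
    ⟪ξ, pinching p (rankOneProj ω) ξ⟫_ℂ = ∑ c, ((‖⟪ω, p c ξ⟫_ℂ‖ ^ 2 : ℝ) : ℂ) := by
  unfold pinching
  rw [sum_apply, inner_sum]
  refine Finset.sum_congr rfl fun c _ => ?_
  rw [mul_apply_eq_comp, mul_apply_eq_comp, taskT2_rankOne_apply, map_smul, inner_smul_right]
  have e : ⟪ξ, p c ω⟫_ℂ = (starRingEnd ℂ) ⟪ω, p c ξ⟫_ℂ := by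
    rw [inner_conj_symm, taskT2_inner_sa (hp c).isSelfAdjoint]
  rw [e, RCLike.mul_conj]
  push_cast
  rfl

/-- The pinching of `2 P - 1`. -/
lemma taskT2_pinching_sym {r : ℕ} (p : Fin r → H →L[ℂ] H)
    (hp : ∀ i, IsStarProjection (p i)) (hsum : ∑ i, p i = 1) (P : H →L[ℂ] H) :
    pinching p ((2 : ℂ) • P - 1) = (2 : ℂ) • pinching p P - 1 := by
  unfold pinching
  have h : ∀ c, p c * ((2 : ℂ) • P - 1) * p c = (2 : ℂ) • (p c * P * p c) - p c := by
    intro c
    rw [mul_sub, sub_mul, mul_one, (hp c).isIdempotentElem.eq, mul_smul_comm, smul_mul_assoc]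
  rw [Finset.sum_congr rfl fun c _ => h c, Finset.sum_sub_distrib, ← Finset.smul_sum, hsum]

/-- Norm bound for a pinching. -/
lemma taskT2_norm_pinching_le {r : ℕ} (p : Fin r → H →L[ℂ] H)
    (hp : ∀ i, IsStarProjection (p i)) (x : H →L[ℂ] H) :
    ‖pinching p x‖ ≤ r * ‖x‖ := by
  unfold pinching
  refine (norm_sum_le _ _).trans ?_
  have h1 : ∀ c ∈ (Finset.univ : Finset (Fin r)), ‖p c * x * p c‖ ≤ ‖x‖ := by
    intro c _
    have hc : ‖p c‖ ≤ 1 := IsStarProjection.norm_le _ (hp c)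
    calc ‖p c * x * p c‖ ≤ ‖p c * x‖ * ‖p c‖ := norm_mul_le _ _
      _ ≤ (‖p c‖ * ‖x‖) * ‖p c‖ := by gcongr; exact norm_mul_le _ _
      _ ≤ (1 * ‖x‖) * 1 := by gcongr
      _ = ‖x‖ := by ring
  refine (Finset.sum_le_sum h1).trans ?_
  simp

/-- Quadratic form bound from a compression bound. -/
lemma taskT2_quad_bound {q y : H →L[ℂ] H} (hq : IsStarProjection q) {ξ : H} (hξ : ‖ξ‖ = 1)
    {δ E C : ℝ} (hδ : ‖(1 - q) ξ‖ ≤ δ) (hE : ‖q * y * q‖ ≤ E) (hC : ‖y‖ ≤ C) :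
    |(⟪ξ, y ξ⟫_ℂ).re| ≤ E + 2 * (C * δ) := by
  have hδ0 : 0 ≤ δ := (norm_nonneg _).trans hδ
  have hC0 : 0 ≤ C := (norm_nonneg _).trans hC
  have hq1 : ‖q‖ ≤ 1 := IsStarProjection.norm_le _ hq
  have hqξ : ‖q ξ‖ ≤ 1 := by
    calc ‖q ξ‖ ≤ ‖q‖ * ‖ξ‖ := le_opNorm _ _
      _ ≤ 1 * 1 := by rw [hξ]; gcongr
      _ = 1 := by ring
  have hsplit : ξ = q ξ + (1 - q) ξ := by
    rw [sub_apply, one_apply_eq_self]; abel
  have h1 : ⟪ξ, y ξ⟫_ℂ = ⟪ξ, (q * y * q) ξ⟫_ℂ + ⟪q ξ, y ((1 - q) ξ)⟫_ℂ + ⟪(1 - q) ξ, y ξ⟫_ℂ := by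
    have e1 : ⟪ξ, (q * y * q) ξ⟫_ℂ = ⟪q ξ, y (q ξ)⟫_ℂ := by
      rw [mul_apply_eq_comp, mul_apply_eq_comp, taskT2_inner_sa hq.isSelfAdjoint]
    rw [e1, ← inner_add_right, ← map_add, ← hsplit, ← inner_add_left, ← hsplit]
  have h2 : ‖⟪ξ, (q * y * q) ξ⟫_ℂ‖ ≤ E := by
    calc ‖⟪ξ, (q * y * q) ξ⟫_ℂ‖ ≤ ‖ξ‖ * ‖(q * y * q) ξ‖ := norm_inner_le_norm _ _
      _ ≤ ‖ξ‖ * (‖q * y * q‖ * ‖ξ‖) := by gcongr; exact le_opNorm _ _
      _ = ‖q * y * q‖ := by rw [hξ]; ring
      _ ≤ E := hE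
  have h3 : ‖⟪q ξ, y ((1 - q) ξ)⟫_ℂ‖ ≤ C * δ := by
    calc ‖⟪q ξ, y ((1 - q) ξ)⟫_ℂ‖ ≤ ‖q ξ‖ * ‖y ((1 - q) ξ)‖ := norm_inner_le_norm _ _
      _ ≤ 1 * (‖y‖ * ‖(1 - q) ξ‖) := by gcongr; exact le_opNorm _ _
      _ ≤ 1 * (C * δ) := by gcongr
      _ = C * δ := by ring
  have h4 : ‖⟪(1 - q) ξ, y ξ⟫_ℂ‖ ≤ C * δ := by
    calc ‖⟪(1 - q) ξ, y ξ⟫_ℂ‖ ≤ ‖(1 - q) ξ‖ * ‖y ξ‖ := norm_inner_le_norm _ _
      _ ≤ δ * (‖y‖ * ‖ξ‖) := by gcongr; exact le_opNorm _ _
      _ ≤ δ * (C * 1) := by rw [hξ]; gcongr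
      _ = C * δ := by ring
  calc |(⟪ξ, y ξ⟫_ℂ).re| ≤ ‖⟪ξ, y ξ⟫_ℂ‖ := Complex.abs_re_le_norm _
    _ ≤ ‖⟪ξ, (q * y * q) ξ⟫_ℂ‖ + ‖⟪q ξ, y ((1 - q) ξ)⟫_ℂ‖ + ‖⟪(1 - q) ξ, y ξ⟫_ℂ‖ := by
        rw [h1]; exact norm_add₃_le
    _ ≤ E + C * δ + C * δ := by gcongr
    _ = E + 2 * (C * δ) := by ring

omit [CompleteSpace H] in
/-- The symmetry `2 P - 1` of a unit vector has norm one. -/
lemma taskT2_norm_sym {ω : H} (hω : ‖ω‖ = 1) : ‖(2 : ℂ) • rankOneProj ω - 1‖ = 1 := by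
  have hωω : ⟪ω, ω⟫_ℂ = 1 := by
    rw [inner_self_eq_norm_sq_to_K, hω]; simp
  refine le_antisymm ?_ ?_
  · refine opNorm_le_bound _ zero_le_one fun ξ => ?_
    rw [one_mul, sub_apply, smul_apply, one_apply_eq_self, taskT2_rankOne_apply]
    have h1 : ‖(2 : ℂ) • ⟪ω, ξ⟫_ℂ • ω - ξ‖ ^ 2 = ‖ξ‖ ^ 2 := by
      rw [@norm_sub_sq ℂ, smul_smul, norm_smul, hω, inner_smul_left]
      have h2 : ((starRingEnd ℂ) (2 * ⟪ω, ξ⟫_ℂ) * ⟪ω, ξ⟫_ℂ) = ((2 * ‖⟪ω, ξ⟫_ℂ‖ ^ 2 : ℝ) : ℂ) := by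
        rw [map_mul, map_ofNat, mul_assoc, RCLike.conj_mul]
        push_cast
        rfl
      rw [h2]
      simp only [RCLike.re_to_complex, Complex.ofReal_re, norm_mul, mul_one]
      rw [Complex.norm_ofNat]
      ring
    exact le_of_eq ((sq_eq_sq₀ (norm_nonneg _) (norm_nonneg _)).mp h1)
  · have h1 : ((2 : ℂ) • rankOneProj ω - 1) ω = ω := by
      rw [sub_apply, smul_apply, one_apply_eq_self, taskT2_rankOne_apply, hωω, one_smul, two_smul]
      abel
    have h2 := le_opNorm ((2 : ℂ) • rankOneProj ω - 1) ω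
    rw [h1, hω, mul_one] at h2
    exact h2

lemma taskT2_inner_proj {e : H →L[ℂ] H} (he : IsStarProjection e) (ω : H) :
    ⟪ω, e ω⟫_ℂ = ((‖e ω‖ ^ 2 : ℝ) : ℂ) := by
  have h1 : e (e ω) = e ω := by
    rw [← mul_apply_eq_comp, he.isIdempotentElem.eq]
  rw [← h1, ← taskT2_inner_sa he.isSelfAdjoint, h1, inner_self_eq_norm_sq_to_K]
  push_cast
  rfl

lemma taskT2_sum_norm_sq {r : ℕ} (p : Fin r → H →L[ℂ] H)
    (hp : ∀ i, IsStarProjection (p i)) (hsum : ∑ i, p i = 1) (ω : H) :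
    ∑ c, ‖p c ω‖ ^ 2 = ‖ω‖ ^ 2 := by
  have h1 : ((∑ c, ‖p c ω‖ ^ 2 : ℝ) : ℂ) = ((‖ω‖ ^ 2 : ℝ) : ℂ) := by
    rw [Complex.ofReal_sum]
    rw [Finset.sum_congr rfl fun c _ => (taskT2_inner_proj (hp c) ω).symm, ← inner_sum,
      ← sum_apply, hsum, one_apply_eq_self, inner_self_eq_norm_sq_to_K]
    push_cast
    rfl
  exact_mod_cast h1

/-- The quadratic form of `S_p(2 P - 1) - a`. -/
lemma taskT2_quad_formula {r : ℕ} (p : Fin r → H →L[ℂ] H)
    (hp : ∀ i, IsStarProjection (p i)) (hsum : ∑ i, p i = 1) (ω ξ : H) (a : H →L[ℂ] H) :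
    (⟪ξ, (pinching p ((2 : ℂ) • rankOneProj ω - 1) - a) ξ⟫_ℂ).re
      = 2 * ∑ c, ‖⟪ω, p c ξ⟫_ℂ‖ ^ 2 - ‖ξ‖ ^ 2 - (⟪ξ, a ξ⟫_ℂ).re := by
  rw [taskT2_pinching_sym p hp hsum, sub_apply, sub_apply, smul_apply, one_apply_eq_self,
    inner_sub_right, inner_sub_right, inner_smul_right, taskT2_inner_pinching_rankOne p hp,
    inner_self_eq_norm_sq_to_K, ← Complex.ofReal_sum]
  simp only [Complex.sub_re, Complex.mul_re, Complex.ofReal_re, Complex.ofReal_im,
    Complex.re_ofNat, Complex.im_ofNat, mul_zero, sub_zero]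
  congr 2
  norm_cast

theorem not_soPavable_of_rademacher (A M : VonNeumannAlgebra H)
    (hAc : ∀ a ∈ A, ∀ b ∈ A, a * b = b * a) {ω : H} (hω : ‖ω‖ = 1) {t : ℕ}
    (s : Fin t → H →L[ℂ] H) (hsA : ∀ b, s b ∈ A) (hsa : ∀ b, IsSelfAdjoint (s b))
    (hsq : ∀ b, s b * s b = 1) (hon : Orthonormal ℂ (fun b => s b ω))
    {ε : ℝ} {r : ℕ} (hr : 0 < r) (ht : 2 < (t : ℝ) * (1 / r - ε)) :
    ¬ SoPavable A M ((2 : ℂ) • rankOneProj ω - 1) ε r := by
  classical
  intro h
  have hr' : (0 : ℝ) < r := by exact_mod_cast hr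
  set γ : ℝ := 1 / r - ε with hγdef
  have ht0 : (0 : ℝ) ≤ t := Nat.cast_nonneg t
  have hγ : 0 < γ := by
    by_contra hneg
    have h1 := mul_nonpos_of_nonneg_of_nonpos ht0 (not_lt.mp hneg)
    linarith
  set δ : ℝ := γ / (4 * (r + 1)) with hδdef
  have hδ : 0 < δ := by positivity
  obtain ⟨p, a, q, hp, haA, hasa, hanorm, hqM, hq, hF, hnorm⟩ :=
    h (insert ω (Finset.univ.image fun b => s b ω)) δ hδ
  rw [taskT2_norm_sym hω] at hanorm hnorm
  rw [mul_one] at hnorm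
  have hpP : ∀ i, IsStarProjection (p i) := fun i => (hp.1 i).2
  have hsum : ∑ i, p i = 1 := hp.2.2
  have hynorm : ‖pinching p ((2 : ℂ) • rankOneProj ω - 1) - a‖ ≤ r + 1 := by
    refine (norm_sub_le _ _).trans ?_
    have h1 := taskT2_norm_pinching_le p hpP ((2 : ℂ) • rankOneProj ω - 1)
    rw [taskT2_norm_sym hω, mul_one] at h1
    linarith
  have hCδ : 2 * ((r + 1 : ℝ) * δ) = γ / 2 := by
    rw [hδdef]
    field_simp
    ring
  have hquad : ∀ ξ ∈ insert ω (Finset.univ.image fun b => s b ω), ‖ξ‖ = 1 →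
      |(⟪ξ, (pinching p ((2 : ℂ) • rankOneProj ω - 1) - a) ξ⟫_ℂ).re| ≤ ε + γ / 2 := by
    intro ξ hξF hξ1
    have h1 := taskT2_quad_bound hq hξ1 (hF ξ hξF).le hnorm hynorm
    rw [hCδ] at h1
    exact h1
  set α : ℝ := (⟪ω, a ω⟫_ℂ).re with hα
  have hI : 2 * ∑ c, (‖p c ω‖ ^ 2) ^ 2 - 1 - α ≤ ε + γ / 2 := by
    have h1 := hquad ω (Finset.mem_insert_self _ _) hω
    rw [taskT2_quad_formula p hpP hsum, hω] at h1
    have h2 : ∀ c, ‖⟪ω, p c ω⟫_ℂ‖ ^ 2 = (‖p c ω‖ ^ 2) ^ 2 := by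
      intro c
      rw [taskT2_inner_proj (hpP c), Complex.norm_real, Real.norm_of_nonneg (by positivity)]
    simp only [h2] at h1
    have h3 := (abs_le.mp h1).2
    linarith
  have hCS : 1 / (r : ℝ) ≤ ∑ c, (‖p c ω‖ ^ 2) ^ 2 := by
    have h1 := @sq_sum_le_card_mul_sum_sq (Fin r) ℝ _ _ _ _ Finset.univ (fun c => ‖p c ω‖ ^ 2)
    beta_reduce at h1
    rw [taskT2_sum_norm_sq p hpP hsum, hω, Finset.card_univ, Fintype.card_fin] at h1
    rw [div_le_iff₀' hr']
    simpa using h1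
  have hII : ∀ b, -(ε + γ / 2) ≤ 2 * ∑ c, ‖⟪ω, p c (s b ω)⟫_ℂ‖ ^ 2 - 1 - α := by
    intro b
    have hb1 : ‖s b ω‖ = 1 := hon.1 b
    have h1 := hquad (s b ω)
      (Finset.mem_insert_of_mem (Finset.mem_image_of_mem _ (Finset.mem_univ b))) hb1
    rw [taskT2_quad_formula p hpP hsum, hb1] at h1
    have h2 : (⟪s b ω, a (s b ω)⟫_ℂ).re = α := by
      have e1 : s b (a (s b ω)) = (s b * a * s b) ω := rfl
      have e2 : s b * a * s b = a := by
        rw [hAc _ (hsA b) _ haA, mul_assoc, hsq b, mul_one]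
      rw [taskT2_inner_sa (hsa b), e1, e2]
    rw [h2] at h1
    have h3 := (abs_le.mp h1).1
    linarith
  have hB : ∑ b, ∑ c, ‖⟪ω, p c (s b ω)⟫_ℂ‖ ^ 2 ≤ 1 := by
    rw [Finset.sum_comm]
    calc ∑ c, ∑ b, ‖⟪ω, p c (s b ω)⟫_ℂ‖ ^ 2 = ∑ c, ∑ b, ‖⟪s b ω, p c ω⟫_ℂ‖ ^ 2 := by
          refine Finset.sum_congr rfl fun c _ => Finset.sum_congr rfl fun b _ => ?_
          rw [← taskT2_inner_sa (hpP c).isSelfAdjoint, norm_inner_symm]
      _ ≤ ∑ c, ‖p c ω‖ ^ 2 :=
          Finset.sum_le_sum fun c _ => hon.sum_inner_products_le (p c ω)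
      _ = 1 := by rw [taskT2_sum_norm_sq p hpP hsum, hω]; norm_num
  have hper : ∀ b, γ ≤ 2 * ∑ c, ‖⟪ω, p c (s b ω)⟫_ℂ‖ ^ 2 := by
    intro b
    have h1 := hII b
    linarith
  have hfin : (t : ℝ) * γ ≤ 2 := by
    calc (t : ℝ) * γ = ∑ _b : Fin t, γ := by simp
      _ ≤ ∑ b, 2 * ∑ c, ‖⟪ω, p c (s b ω)⟫_ℂ‖ ^ 2 := Finset.sum_le_sum fun b _ => hper b
      _ = 2 * ∑ b, ∑ c, ‖⟪ω, p c (s b ω)⟫_ℂ‖ ^ 2 := by rw [Finset.mul_sum]
      _ ≤ 2 * 1 := by gcongr
      _ = 2 := by ring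
  linarith

end Vale.Agent.Lib.P078
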