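import Vale.Agent.Lib.P078.TypeI
import Vale.Agent.Lib.P078.DiffuseAux

/-!
# So-paving over diffuse MASAs of `B(H)`

A random colouring of a fine partition of unity shows that over a diffuse MASA of `B(H)` every
self-adjoint operator is `(ε, r)` so-pavable as soon as `ε * r > 1`; a Bessel argument with
Rademacher symmetries shows that some symmetry is not `(ε, r)` so-pavable when `ε * r < 1`.
-/

namespace Vale.Agent.Lib.P078

open scoped ComplexOrder InnerProductSpace Matrix.Norms.L2Operator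
open ContinuousLinearMap

variable {H : Type*} [NormedAddCommGroup H] [InnerProductSpace ℂ H] [CompleteSpace H]

/-! ### Auxiliary facts -/

/-- Pythagoras for a finite family of mutually orthogonal projections with sum `1`. -/
lemma sum_norm_sq_of_pou {K : Type*} [Fintype K] (E : K → H →L[ℂ] H)
    (hEp : ∀ β, IsStarProjection (E β)) (hEorth : ∀ β γ, β ≠ γ → E β * E γ = 0)
    (hEsum : ∑ β, E β = 1) (w : H) : ∑ β, ‖E β w‖ ^ 2 = ‖w‖ ^ 2 := by
  have h1 : ‖∑ β, E β w‖ ^ 2 = ∑ β, ‖E β w‖ ^ 2 := by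
    refine norm_sq_sum_of_orthogonal Finset.univ (fun β => E β w) (fun β _ γ _ hβγ => ?_)
    rw [← adjoint_inner_right (E β), (hEp β).isSelfAdjoint.adjoint_eq, ← mul_apply_eq_comp,
      hEorth β γ hβγ, zero_apply, inner_zero_right]
  rw [← h1, ← sum_apply, hEsum, one_apply_eq_self]

omit [CompleteSpace H] in
lemma sum_comp_injective_le {ι : Type*} [Fintype ι] {n : ℕ} (τ : Fin n → ι)
    (hτ : Function.Injective τ) (g : ι → ℝ) (hg : ∀ i, 0 ≤ g i) :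
    ∑ k, g (τ k) ≤ ∑ i, g i := by
  classical
  rw [← Finset.sum_image (s := Finset.univ) (f := g) (g := τ) (fun a _ b _ h => hτ h)]
  exact Finset.sum_le_sum_of_subset_of_nonneg (Finset.subset_univ _) (fun i _ _ => hg i)

/-- For a self-adjoint operator the quadratic form is real. -/
lemma inner_self_real_of_isSelfAdjoint {x : H →L[ℂ] H} (hx : IsSelfAdjoint x) (v : H) :
    ((⟪v, x v⟫_ℂ).re : ℂ) = ⟪v, x v⟫_ℂ := by
  refine Complex.conj_eq_iff_re.mp ?_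
  rw [inner_conj_symm, ← adjoint_inner_right x, hx.adjoint_eq]

/-- An orthonormal family adapted to a finite diagonalisation. -/
lemma exists_orthonormal_of_diag {ι : Type} [Fintype ι] [DecidableEq ι]
    (e : ι → H →L[ℂ] H) (hep : ∀ j, IsStarProjection (e j))
    (horth : ∀ j k, j ≠ k → e j * e k = 0) (ζ : ι → H) (hζ : ∀ j, e j (ζ j) = ζ j) :
    ∃ (n : ℕ) (u : Fin n → H) (τ : Fin n → ι), Function.Injective τ ∧ Orthonormal ℂ u ∧
      (∀ k, e (τ k) (u k) = u k) ∧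
      ∀ v ∈ Submodule.span ℂ (Set.range ζ), (synth u ∘L adjoint (synth u)) v = v := by
  classical
  let J : Finset ι := Finset.univ.filter (fun j => ζ j ≠ 0)
  let σ : Fin J.card ≃ J := J.equivFin.symm
  let τ : Fin J.card → ι := fun k => (σ k : ι)
  have hτ : Function.Injective τ := Subtype.val_injective.comp σ.injective
  have hτne : ∀ k, ζ (τ k) ≠ 0 := by
    intro k
    have := (σ k).2
    exact (Finset.mem_filter.mp this).2
  let u : Fin J.card → H := fun k => ((‖ζ (τ k)‖ : ℂ)⁻¹) • ζ (τ k)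
  have heζ : ∀ j j', e j (ζ j') = if j = j' then ζ j' else 0 := by
    intro j j'
    by_cases h : j = j'
    · rw [if_pos h, h, hζ]
    · rw [if_neg h, ← hζ j', ← mul_apply_eq_comp, horth j j' h, zero_apply]
  have hζorth : ∀ j j', j ≠ j' → ⟪ζ j, ζ j'⟫_ℂ = 0 := by
    intro j j' h
    rw [← hζ j, ← adjoint_inner_right, (hep j).isSelfAdjoint.adjoint_eq, heζ, if_neg h,
      inner_zero_right]
  have hu : Orthonormal ℂ u := by
    refine ⟨fun k => norm_smul_inv_norm (hτne k), fun k l hkl => ?_⟩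
    simp only [u]
    rw [inner_smul_left, inner_smul_right, hζorth _ _ (fun h => hkl (hτ h)), mul_zero, mul_zero]
  refine ⟨J.card, u, τ, hτ, hu, ?_, ?_⟩
  · intro k
    simp only [u]
    rw [map_smul, hζ]
  · intro v hv
    refine synth_proj_apply_of_mem_span hu ?_
    refine (Submodule.span_le.mpr ?_) hv
    rintro _ ⟨j, rfl⟩
    by_cases hj : ζ j = 0
    · rw [hj]
      exact zero_mem _
    · have hjJ : j ∈ J := Finset.mem_filter.mpr ⟨Finset.mem_univ _, hj⟩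
      have hk : τ (σ.symm ⟨j, hjJ⟩) = j := by
        simp only [τ, Equiv.apply_symm_apply]
      have hnorm : (‖ζ j‖ : ℂ) ≠ 0 := by
        rw [Ne, Complex.ofReal_eq_zero, norm_eq_zero]
        exact hj
      have : ζ j = (‖ζ j‖ : ℂ) • u (σ.symm ⟨j, hjJ⟩) := by
        simp only [u]
        rw [hk, smul_smul, mul_inv_cancel₀ hnorm, one_smul]
      rw [SetLike.mem_coe, this]
      exact Submodule.smul_mem _ _ (Submodule.subset_span ⟨_, rfl⟩)

/-! ### The random colouring step -/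

theorem diffuse_aux {ι κ : Type} [Fintype ι] [Fintype κ] [DecidableEq ι] [DecidableEq κ]
    (A : VonNeumannAlgebra H) (hAc : ∀ a ∈ A, ∀ b ∈ A, a * b = b * a)
    (e : ι → H →L[ℂ] H) (heA : ∀ j, e j ∈ A) (hep : ∀ j, IsStarProjection (e j))
    (horth : ∀ j k, j ≠ k → e j * e k = 0) (hsum : ∑ j, e j = 1)
    (ζ : ι → H) (hζ : ∀ j, e j (ζ j) = ζ j) (hζ1 : ∀ j, ‖ζ j‖ ≤ 1)
    (f : κ → H →L[ℂ] H) (hf : IsPOU A f) {η : ℝ} (hη : ∀ k j, ‖f k (ζ j)‖ ≤ η)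
    (x : H →L[ℂ] H) (hx : IsSelfAdjoint x) {r : ℕ} (hr : 0 < r) :
    ∃ (p : Fin r → H →L[ℂ] H) (a : H →L[ℂ] H),
      IsPartitionIn A p ∧ a ∈ A ∧ IsSelfAdjoint a ∧ ‖a‖ ≤ ‖x‖ ∧
      ∑ i, ∑ j, ‖⟪ζ i, (pinching p x - a - (1 / (r : ℂ)) • x) (ζ j)⟫_ℂ‖ ^ 2
        ≤ 2 / r * (Fintype.card ι : ℝ) ^ 2 * η ^ 2 * ‖x‖ ^ 2 := by
  obtain ⟨hfA, hfp, hforth, hfsum⟩ := hf
  have hr0 : (0 : ℝ) < r := Nat.cast_pos.mpr hr
  have hr1 : (1 : ℝ) ≤ r := by exact_mod_cast hr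
  have hrc : (r : ℂ) ≠ 0 := by exact_mod_cast hr.ne'
  -- the refined partition of unity
  obtain ⟨E, hE⟩ : ∃ E : κ × ι → H →L[ℂ] H, E = fun β => f β.1 * e β.2 := ⟨_, rfl⟩
  have hEA : ∀ β, E β ∈ A := fun β => by
    rw [hE]
    exact mul_mem (hfA β.1) (heA β.2)
  have hfe : ∀ k j, f k * e j = e j * f k := fun k j => hAc _ (hfA k) _ (heA j)
  have hEp : ∀ β, IsStarProjection (E β) := fun β => by
    rw [hE]
    exact (hfp β.1).mul (hep β.2) (hfe β.1 β.2)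
  have hEorth : ∀ β γ, β ≠ γ → E β * E γ = 0 := by
    intro β γ hβγ
    simp only [hE]
    rw [mul_mul_mul_comm_mem A hAc (heA β.2) (hfA γ.1)]
    by_cases h1 : β.1 = γ.1
    · have h2 : β.2 ≠ γ.2 := fun h2 => hβγ (Prod.ext h1 h2)
      rw [horth _ _ h2, mul_zero]
    · rw [hforth _ _ h1, zero_mul]
  have hEsum : ∑ β, E β = 1 := by
    simp only [hE]
    rw [Fintype.sum_prod_type]
    simp_rw [← Finset.mul_sum]
    rw [hsum]
    simp_rw [mul_one]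
    exact hfsum
  have hEsa : ∀ β, adjoint (E β) = E β := fun β => (hEp β).isSelfAdjoint.adjoint_eq
  have hEE : ∀ β w, E β (E β w) = E β w := fun β w => by
    rw [← mul_apply_eq_comp, (hEp β).isIdempotentElem.eq]
  -- the pieces of the vectors
  have heζ : ∀ j j', e j (ζ j') = if j = j' then ζ j' else 0 := by
    intro j j'
    by_cases h : j = j'
    · rw [if_pos h, h, hζ]
    · rw [if_neg h, ← hζ j', ← mul_apply_eq_comp, horth j j' h, zero_apply]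
  obtain ⟨v, hv⟩ : ∃ v : κ × ι → H, v = fun β => f β.1 (ζ β.2) := ⟨_, rfl⟩
  have hEζ : ∀ β i, E β (ζ i) = if β.2 = i then v β else 0 := by
    intro β i
    simp only [hE, hv]
    rw [mul_apply_eq_comp, heζ]
    by_cases h : β.2 = i
    · rw [if_pos h, if_pos h, h]
    · rw [if_neg h, if_neg h, map_zero]
  have hEζnorm : ∀ β i, ‖E β (ζ i)‖ ≤ η := by
    intro β i
    simp only [hE]
    rw [hfe, mul_apply_eq_comp]
    calc ‖e β.2 (f β.1 (ζ i))‖ ≤ ‖e β.2‖ * ‖f β.1 (ζ i)‖ := le_opNorm _ _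
      _ ≤ 1 * η := by
          gcongr
          · exact IsStarProjection.norm_le _ (hep β.2)
          · exact hη _ _
      _ = η := one_mul η
  -- the diagonal coefficients
  obtain ⟨α, hα⟩ : ∃ α : κ × ι → ℝ, α = fun β => (⟪v β, x (v β)⟫_ℂ).re / ‖v β‖ ^ 2 := ⟨_, rfl⟩
  obtain ⟨d, hd⟩ : ∃ d : κ × ι → ℝ, d = fun β => (1 - 1 / (r : ℝ)) * α β := ⟨_, rfl⟩
  have hαle : ∀ β, |α β| ≤ ‖x‖ := by
    intro β
    simp only [hα]
    by_cases h0 : v β = 0
    · rw [h0]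
      simp
    · have hpos : 0 < ‖v β‖ ^ 2 := by positivity
      rw [abs_div, abs_of_pos hpos, div_le_iff₀ hpos]
      calc |(⟪v β, x (v β)⟫_ℂ).re| ≤ ‖⟪v β, x (v β)⟫_ℂ‖ := Complex.abs_re_le_norm _
        _ ≤ ‖v β‖ * ‖x (v β)‖ := norm_inner_le_norm _ _
        _ ≤ ‖v β‖ * (‖x‖ * ‖v β‖) := by
            gcongr
            exact le_opNorm _ _
        _ = ‖x‖ * ‖v β‖ ^ 2 := by ring
  have hdle : ∀ β, |d β| ≤ ‖x‖ := by
    intro β
    simp only [hd]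
    rw [abs_mul]
    have h1 : |1 - 1 / (r : ℝ)| ≤ 1 := by
      have h2 : 1 / (r : ℝ) ≤ 1 := by
        rw [div_le_one hr0]
        exact hr1
      have h3 : 0 < 1 / (r : ℝ) := by positivity
      rw [abs_le]
      constructor <;> linarith
    calc |1 - 1 / (r : ℝ)| * |α β| ≤ 1 * ‖x‖ :=
          mul_le_mul h1 (hαle β) (abs_nonneg _) zero_le_one
      _ = ‖x‖ := one_mul _
  have hdv : ∀ β, (d β : ℂ) * ⟪v β, v β⟫_ℂ = (1 - 1 / (r : ℂ)) * ⟪v β, x (v β)⟫_ℂ := by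
    intro β
    have hvv : ⟪v β, v β⟫_ℂ = (‖v β‖ : ℂ) ^ 2 := by
      rw [inner_self_eq_norm_sq_to_K]
      rfl
    rw [← inner_self_real_of_isSelfAdjoint hx (v β), hvv]
    have hdc : (d β : ℂ) = (1 - 1 / (r : ℂ))
        * (((⟪v β, x (v β)⟫_ℂ).re : ℂ) / (‖v β‖ : ℂ) ^ 2) := by
      simp only [hd, hα]
      push_cast
      ring
    rw [hdc]
    by_cases h0 : v β = 0
    · rw [h0]
      simp
    · have hne : (‖v β‖ : ℂ) ≠ 0 := by
        rw [Ne, Complex.ofReal_eq_zero, norm_eq_zero]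
        exact h0
      field_simp
  obtain ⟨haA, hasa, hanorm⟩ := diag_op_props A E hEA hEp hEsum d (norm_nonneg x) hdle
  -- the entries
  obtain ⟨Xm, hXm⟩ : ∃ Xm : ι → ι → κ × ι → κ × ι → ℂ,
      Xm = fun i j β γ => ⟪E β (ζ i), x (E γ (ζ j))⟫_ℂ := ⟨_, rfl⟩
  have hdiag : ∀ i j β, (d β : ℂ) * ⟪ζ i, E β (ζ j)⟫_ℂ = (1 - 1 / (r : ℂ)) * Xm i j β β := by
    intro i j β
    simp only [hXm]
    have h1 : ⟪ζ i, E β (ζ j)⟫_ℂ = ⟪E β (ζ i), E β (ζ j)⟫_ℂ := by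
      rw [← adjoint_inner_right (E β), hEsa, hEE]
    rw [h1, hEζ, hEζ]
    by_cases hi : β.2 = i
    · by_cases hj : β.2 = j
      · rw [if_pos hi, if_pos hj]
        exact hdv β
      · rw [if_neg hj, inner_zero_right, map_zero, inner_zero_right, mul_zero, mul_zero]
    · rw [if_neg hi, inner_zero_left, inner_zero_left, mul_zero, mul_zero]
  have hentry : ∀ (col : κ × ι → Fin r) (i j : ι),
      ⟪ζ i, (pinching (fun c => ∑ β, if col β = c then E β else 0) x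
          - ∑ β, (d β : ℂ) • E β - (1 / (r : ℂ)) • x) (ζ j)⟫_ℂ
        = ∑ β, ∑ γ, (if β = γ then 0 else
            ((if col β = col γ then (1 : ℂ) else 0) - 1 / (r : ℂ)) * Xm i j β γ) := by
    intro col i j
    obtain ⟨B, hB⟩ : ∃ B : H →L[ℂ] H, B = pinching (fun c => ∑ β, if col β = c then E β else 0) x
          - ∑ β, (d β : ℂ) • E β - (1 / (r : ℂ)) • x := ⟨_, rfl⟩
    rw [← hB]
    have hζsum : ∀ j, ζ j = ∑ β, E β (ζ j) := by
      intro j
      rw [← sum_apply, hEsum, one_apply_eq_self]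
    have h1 : ⟪ζ i, B (ζ j)⟫_ℂ = ∑ β, ∑ γ, ⟪ζ i, (E β * B * E γ) (ζ j)⟫_ℂ := by
      conv_lhs => rw [hζsum i, hζsum j]
      rw [map_sum, sum_inner]
      refine Finset.sum_congr rfl (fun β _ => ?_)
      rw [inner_sum]
      refine Finset.sum_congr rfl (fun γ _ => ?_)
      rw [mul_apply_eq_comp, mul_apply_eq_comp, ← adjoint_inner_right (E β), hEsa]
    rw [h1]
    refine Finset.sum_congr rfl (fun β _ => Finset.sum_congr rfl (fun γ _ => ?_))
    have h2 : E β * B * E γ = (if col β = col γ then E β * x * E γ else 0)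
        - (if β = γ then (d β : ℂ) • E β else 0) - (1 / (r : ℂ)) • (E β * x * E γ) := by
      rw [hB, mul_sub, sub_mul, pinching_entry E hEp hEorth col d x β γ, mul_smul_comm,
        smul_mul_assoc]
    have h3 : ⟪ζ i, (E β * x * E γ) (ζ j)⟫_ℂ = Xm i j β γ := by
      simp only [hXm]
      rw [mul_apply_eq_comp, mul_apply_eq_comp, ← adjoint_inner_right (E β), hEsa]
    rw [h2, sub_apply, sub_apply, inner_sub_right, inner_sub_right, smul_apply, inner_smul_right,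
      h3]
    by_cases hβγ : β = γ
    · subst hβγ
      rw [if_pos rfl, if_pos rfl, if_pos rfl, h3, smul_apply, inner_smul_right, hdiag]
      ring
    · rw [if_neg hβγ, if_neg hβγ, zero_apply, inner_zero_right, sub_zero]
      by_cases hc : col β = col γ
      · rw [if_pos hc, if_pos hc, h3]
        ring
      · rw [if_neg hc, if_neg hc, zero_apply, inner_zero_right]
        ring
  -- the second moment bound
  have hXbound : ∀ i j, ∑ β, ∑ γ, ‖Xm i j β γ‖ ^ 2 ≤ η ^ 2 * ‖x‖ ^ 2 := by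
    intro i j
    rw [Finset.sum_comm]
    have hγ : ∀ γ, ∑ β, ‖Xm i j β γ‖ ^ 2 ≤ η ^ 2 * ‖x‖ ^ 2 * ‖E γ (ζ j)‖ ^ 2 := by
      intro γ
      obtain ⟨w, hw⟩ : ∃ w : H, w = x (E γ (ζ j)) := ⟨_, rfl⟩
      have hβ : ∀ β, ‖Xm i j β γ‖ ^ 2 ≤ η ^ 2 * ‖E β w‖ ^ 2 := by
        intro β
        simp only [hXm]
        have h1 : ⟪E β (ζ i), x (E γ (ζ j))⟫_ℂ = ⟪E β (ζ i), E β w⟫_ℂ := by
          rw [← hw, ← adjoint_inner_left (E β), hEsa, hEE]
        rw [h1, ← mul_pow]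
        have h2 : ‖⟪E β (ζ i), E β w⟫_ℂ‖ ≤ η * ‖E β w‖ :=
          (norm_inner_le_norm _ _).trans (by gcongr; exact hEζnorm β i)
        exact pow_le_pow_left₀ (norm_nonneg _) h2 2
      calc ∑ β, ‖Xm i j β γ‖ ^ 2 ≤ ∑ β, η ^ 2 * ‖E β w‖ ^ 2 :=
            Finset.sum_le_sum (fun β _ => hβ β)
        _ = η ^ 2 * ‖w‖ ^ 2 := by
            rw [← Finset.mul_sum, sum_norm_sq_of_pou E hEp hEorth hEsum]
        _ ≤ η ^ 2 * (‖x‖ * ‖E γ (ζ j)‖) ^ 2 := by
            rw [hw]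
            gcongr
            exact le_opNorm _ _
        _ = η ^ 2 * ‖x‖ ^ 2 * ‖E γ (ζ j)‖ ^ 2 := by ring
    calc ∑ γ, ∑ β, ‖Xm i j β γ‖ ^ 2 ≤ ∑ γ, η ^ 2 * ‖x‖ ^ 2 * ‖E γ (ζ j)‖ ^ 2 :=
          Finset.sum_le_sum (fun γ _ => hγ γ)
      _ = η ^ 2 * ‖x‖ ^ 2 * ‖ζ j‖ ^ 2 := by
          rw [← Finset.mul_sum, sum_norm_sq_of_pou E hEp hEorth hEsum]
      _ ≤ η ^ 2 * ‖x‖ ^ 2 * 1 ^ 2 := by
          gcongr
          exact hζ1 j
      _ = η ^ 2 * ‖x‖ ^ 2 := by ring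
  -- averaging over all colourings
  obtain ⟨C, hC⟩ : ∃ C : ℝ, C = 2 / r * (Fintype.card ι : ℝ) ^ 2 * η ^ 2 * ‖x‖ ^ 2 := ⟨_, rfl⟩
  obtain ⟨D, hD⟩ : ∃ D : (κ × ι → Fin r) → ι → ι → ℂ,
      D = fun col i j => ∑ β, ∑ γ, (if β = γ then 0 else
            ((if col β = col γ then (1 : ℂ) else 0) - 1 / (r : ℂ)) * Xm i j β γ) := ⟨_, rfl⟩
  have hsumcol : ∑ col : κ × ι → Fin r, ∑ i, ∑ j, ‖D col i j‖ ^ 2
      ≤ ∑ _col : κ × ι → Fin r, C := by
    rw [Finset.sum_comm]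
    have hstep : ∀ i, ∑ col : κ × ι → Fin r, ∑ j, ‖D col i j‖ ^ 2
        ≤ (r : ℝ) ^ Fintype.card (κ × ι) * (2 / r) * ((Fintype.card ι : ℝ) * (η ^ 2 * ‖x‖ ^ 2)) := by
      intro i
      rw [Finset.sum_comm]
      calc ∑ j, ∑ col : κ × ι → Fin r, ‖D col i j‖ ^ 2
          ≤ ∑ _j : ι, (r : ℝ) ^ Fintype.card (κ × ι) * (2 / r) * (η ^ 2 * ‖x‖ ^ 2) := by
            refine Finset.sum_le_sum (fun j _ => ?_)
            rw [hD]
            refine (coloring_second_moment hr (Xm i j)).trans ?_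
            gcongr
            exact hXbound i j
        _ = (r : ℝ) ^ Fintype.card (κ × ι) * (2 / r)
              * ((Fintype.card ι : ℝ) * (η ^ 2 * ‖x‖ ^ 2)) := by
            rw [Finset.sum_const, Finset.card_univ, nsmul_eq_mul]
            ring
    calc ∑ i, ∑ col : κ × ι → Fin r, ∑ j, ‖D col i j‖ ^ 2
        ≤ ∑ _i : ι, (r : ℝ) ^ Fintype.card (κ × ι) * (2 / r)
            * ((Fintype.card ι : ℝ) * (η ^ 2 * ‖x‖ ^ 2)) :=
          Finset.sum_le_sum (fun i _ => hstep i)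
      _ = ∑ _col : κ × ι → Fin r, C := by
          rw [Finset.sum_const, Finset.sum_const, Finset.card_univ, Finset.card_univ,
            nsmul_eq_mul, nsmul_eq_mul, Fintype.card_fun, Fintype.card_fin, hC]
          push_cast
          ring
  have : Nonempty (Fin r) := ⟨⟨0, hr⟩⟩
  obtain ⟨col, -, hcol⟩ := Finset.exists_le_of_sum_le Finset.univ_nonempty hsumcol
  refine ⟨fun c => ∑ β, if col β = c then E β else 0, ∑ β, (d β : ℂ) • E β,
    isPartitionIn_of_coloring A E hEA hEp hEorth hEsum col, haA, hasa, hanorm, ?_⟩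
  rw [hC] at hcol
  refine le_trans (le_of_eq ?_) hcol
  refine Finset.sum_congr rfl (fun i _ => Finset.sum_congr rfl (fun j _ => ?_))
  rw [hentry col i j, hD]

/-! ### So-paving over a diffuse MASA of `B(H)` -/

/-- **Upper bound.** Over a diffuse MASA `A` of `B(H)`, every self-adjoint operator is `(ε, r)`
so-pavable as soon as `ε * r > 1`. -/
theorem soPavable_of_diffuse (A M : VonNeumannAlgebra H) (hM : ∀ y : H →L[ℂ] H, y ∈ M)
    (hA : IsMASA A M) (hdiff : IsDiffuse A) {ε : ℝ} {r : ℕ} (hεr : 1 < ε * r)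
    (x : H →L[ℂ] H) (hx : IsSelfAdjoint x) : SoPavable A M x ε r := by
  intro F δ hδ
  classical
  have hr : 0 < r := by
    rcases Nat.eq_zero_or_pos r with h | h
    · rw [h, Nat.cast_zero, mul_zero] at hεr
      exact absurd hεr (by norm_num)
    · exact h
  have hr0 : (0 : ℝ) < r := Nat.cast_pos.mpr hr
  have hr1 : (1 : ℝ) ≤ r := by exact_mod_cast hr
  have hrc : (r : ℂ) ≠ 0 := by exact_mod_cast hr.ne'
  have hgap : 0 < ε - 1 / r := by
    rw [sub_pos, div_lt_iff₀ hr0]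
    exact hεr
  have hAc := hA.2.1
  obtain ⟨ι, hι, e, ζ₀, heA, hep, horth, hsum, hζ₀, hF⟩ :=
    exists_diag_approx A hAc (fun y hy => hA.2.2 y (hM y) hy) F δ hδ
  obtain ⟨n, u, τ, hτ, hu, heu, hspan⟩ := exists_orthonormal_of_diag e hep horth ζ₀ hζ₀
  -- the normalised family, indexed by `ι`
  obtain ⟨ζ, hζdef⟩ : ∃ ζ : ι → H, ζ = fun j => if h : ∃ k, τ k = j then u h.choose else 0 :=
    ⟨_, rfl⟩
  have hζτ : ∀ k, ζ (τ k) = u k := by
    intro k
    have h : ∃ k', τ k' = τ k := ⟨k, rfl⟩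
    rw [hζdef]
    simp only [dif_pos h]
    rw [hτ h.choose_spec]
  have hζ : ∀ j, e j (ζ j) = ζ j := by
    intro j
    by_cases h : ∃ k, τ k = j
    · obtain ⟨k, rfl⟩ := h
      rw [hζτ, heu]
    · rw [hζdef]
      simp only [dif_neg h, map_zero]
  have hζ1 : ∀ j, ‖ζ j‖ ≤ 1 := by
    intro j
    by_cases h : ∃ k, τ k = j
    · obtain ⟨k, rfl⟩ := h
      rw [hζτ, hu.1 k]
    · rw [hζdef]
      simp only [dif_neg h, norm_zero]
      exact zero_le_one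
  -- a fine partition
  obtain ⟨N, hN⟩ : ∃ N : ℝ, N = (Fintype.card ι : ℝ) := ⟨_, rfl⟩
  have hN0 : 0 ≤ N := by
    rw [hN]
    exact Nat.cast_nonneg _
  obtain ⟨η, hηdef⟩ : ∃ η : ℝ, η = (ε - 1 / r) / (2 * (N + 1)) := ⟨_, rfl⟩
  have hηpos : 0 < η := by
    rw [hηdef]
    positivity
  obtain ⟨κ, hκ, f, hf, hfη⟩ := exists_fine_partition_family A hAc hdiff ζ hηpos
  obtain ⟨p, a, hp, haA, hasa, hanorm, hsq⟩ :=
    diffuse_aux A hAc e heA hep horth hsum ζ hζ hζ1 f hf hfη x hx hr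
  rw [← hN] at hsq
  obtain ⟨q, hq⟩ : ∃ q : H →L[ℂ] H, q = synth u ∘L adjoint (synth u) := ⟨_, rfl⟩
  have hqp : IsStarProjection q := by
    rw [hq]
    exact isStarProjection_synth hu
  refine ⟨p, a, q, hp, haA, hasa, hanorm, hM q, hqp, ?_, ?_⟩
  · intro ξ hξ
    obtain ⟨w, hw, hwδ⟩ := hF ξ hξ
    have hqw : q w = w := by
      rw [hq]
      exact hspan w hw
    have h1 : (1 - q) ξ = (1 - q) (ξ - w) := by
      rw [map_sub, sub_apply, sub_apply, one_apply_eq_self, one_apply_eq_self, hqw]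
      abel
    rw [h1]
    calc ‖(1 - q) (ξ - w)‖ ≤ ‖1 - q‖ * ‖ξ - w‖ := le_opNorm _ _
      _ ≤ 1 * ‖ξ - w‖ := by
          gcongr
          exact IsStarProjection.norm_le _ hqp.one_sub
      _ = ‖ξ - w‖ := one_mul _
      _ < δ := hwδ
  · obtain ⟨B, hB⟩ : ∃ B : H →L[ℂ] H, B = pinching p x - a - (1 / (r : ℂ)) • x := ⟨_, rfl⟩
    rw [← hB] at hsq
    have hsplit : q * (pinching p x - a) * q = q * B * q + (1 / (r : ℂ)) • (q * x * q) := by
      rw [hB, mul_sub (a := q) (c := (1 / (r : ℂ)) • x), sub_mul, mul_smul_comm, smul_mul_assoc]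
      abel
    have hqn : ‖q‖ ≤ 1 := IsStarProjection.norm_le _ hqp
    have hB1 : ‖q * B * q‖ ≤ (ε - 1 / r) * ‖x‖ := by
      have h1 : ‖q * B * q‖ ≤ Real.sqrt (∑ k, ∑ l, ‖⟪u k, B (u l)⟫_ℂ‖ ^ 2) := by
        rw [hq]
        exact norm_compress_le_frobenius u hu B
      have h2 : ∑ k, ∑ l, ‖⟪u k, B (u l)⟫_ℂ‖ ^ 2 ≤ ∑ i, ∑ j, ‖⟪ζ i, B (ζ j)⟫_ℂ‖ ^ 2 := by
        have h3 : ∀ k, ∑ l, ‖⟪u k, B (u l)⟫_ℂ‖ ^ 2 ≤ ∑ j, ‖⟪ζ (τ k), B (ζ j)⟫_ℂ‖ ^ 2 := by
          intro k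
          have := sum_comp_injective_le τ hτ (fun j => ‖⟪ζ (τ k), B (ζ j)⟫_ℂ‖ ^ 2)
            (fun j => by positivity)
          simp only [hζτ] at this
          rw [hζτ]
          exact this
        have h4 := sum_comp_injective_le τ hτ (fun i => ∑ j, ‖⟪ζ i, B (ζ j)⟫_ℂ‖ ^ 2)
            (fun i => Finset.sum_nonneg (fun j _ => by positivity))
        exact (Finset.sum_le_sum (fun k _ => h3 k)).trans h4
      have h5 : 2 / r * N ^ 2 * η ^ 2 * ‖x‖ ^ 2 ≤ ((ε - 1 / r) * ‖x‖) ^ 2 := by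
        have h6 : 2 / (r : ℝ) ≤ 2 := by
          rw [div_le_iff₀ hr0]
          nlinarith
        have h7 : N ^ 2 * η ^ 2 ≤ (ε - 1 / r) ^ 2 / 4 := by
          rw [hηdef, div_pow, mul_pow]
          rw [← mul_div_assoc, div_le_div_iff₀ (by positivity) (by norm_num)]
          have h8 : N ^ 2 ≤ (N + 1) ^ 2 := by nlinarith
          have h9 : 0 ≤ (ε - 1 / r) ^ 2 := sq_nonneg _
          nlinarith
        have h10 : 0 ≤ ‖x‖ ^ 2 := sq_nonneg _
        have h11 : 0 ≤ N ^ 2 * η ^ 2 := by positivity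
        calc 2 / r * N ^ 2 * η ^ 2 * ‖x‖ ^ 2 = 2 / r * (N ^ 2 * η ^ 2) * ‖x‖ ^ 2 := by ring
          _ ≤ 2 * ((ε - 1 / r) ^ 2 / 4) * ‖x‖ ^ 2 := by gcongr
          _ ≤ ((ε - 1 / r) * ‖x‖) ^ 2 := by
              have : 0 ≤ (ε - 1 / r) ^ 2 * ‖x‖ ^ 2 := by positivity
              nlinarith
      calc ‖q * B * q‖ ≤ Real.sqrt (∑ k, ∑ l, ‖⟪u k, B (u l)⟫_ℂ‖ ^ 2) := h1
        _ ≤ Real.sqrt (((ε - 1 / r) * ‖x‖) ^ 2) :=
            Real.sqrt_le_sqrt (h2.trans (hsq.trans h5))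
        _ = (ε - 1 / r) * ‖x‖ := Real.sqrt_sq (by positivity)
    have hB2 : ‖(1 / (r : ℂ)) • (q * x * q)‖ ≤ 1 / r * ‖x‖ := by
      rw [norm_smul]
      have h1 : ‖(1 / (r : ℂ))‖ = 1 / r := by
        rw [norm_div, norm_one, Complex.norm_natCast]
      rw [h1]
      have h2 : ‖q * x * q‖ ≤ 1 * ‖x‖ * 1 := by
        calc ‖q * x * q‖ ≤ ‖q * x‖ * ‖q‖ := norm_mul_le _ _
          _ ≤ ‖q‖ * ‖x‖ * ‖q‖ := by
              gcongr
              exact norm_mul_le _ _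
          _ ≤ 1 * ‖x‖ * 1 := by gcongr
      have h3 : (0 : ℝ) ≤ 1 / r := by positivity
      nlinarith
    calc ‖q * (pinching p x - a) * q‖ = ‖q * B * q + (1 / (r : ℂ)) • (q * x * q)‖ := by
          rw [hsplit]
      _ ≤ ‖q * B * q‖ + ‖(1 / (r : ℂ)) • (q * x * q)‖ := norm_add_le _ _
      _ ≤ (ε - 1 / r) * ‖x‖ + 1 / r * ‖x‖ := add_le_add hB1 hB2
      _ = ε * ‖x‖ := by ring

/-! ### The lower bound -/

omit [CompleteSpace H] in
lemma rankOneProj_apply (ω ξ : H) : rankOneProj ω ξ = ⟪ω, ξ⟫_ℂ • ω := rfl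

lemma isSelfAdjoint_rankOneProj (ω : H) : IsSelfAdjoint (rankOneProj ω) := by
  rw [isSelfAdjoint_iff', eq_comm, eq_adjoint_iff]
  intro ξ η
  rw [rankOneProj_apply, rankOneProj_apply, inner_smul_left, inner_smul_right, inner_conj_symm]
  ring

lemma isSelfAdjoint_symmetry (ω : H) : IsSelfAdjoint ((2 : ℂ) • rankOneProj ω - 1) := by
  refine IsSelfAdjoint.sub ?_ (IsSelfAdjoint.one _)
  exact IsSelfAdjoint.smul (by simp [IsSelfAdjoint]) (isSelfAdjoint_rankOneProj ω)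

/-- **Lower bound.** Over a diffuse abelian von Neumann algebra on a nonzero Hilbert space, some
symmetry `2 |ω⟩⟨ω| - 1` is not `(ε, r)` so-pavable when `ε * r < 1`. -/
theorem not_soPavable_symmetry (A M : VonNeumannAlgebra H)
    (hAc : ∀ a ∈ A, ∀ b ∈ A, a * b = b * a) (hdiff : IsDiffuse A)
    (hne : (1 : H →L[ℂ] H) ≠ 0) {ε : ℝ} {r : ℕ} (hr : ε * r < 1) :
    ∃ ω : H, ‖ω‖ = 1 ∧ ¬ SoPavable A M ((2 : ℂ) • rankOneProj ω - 1) ε r := by
  rcases Nat.eq_zero_or_pos r with h0 | hpos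
  · obtain ⟨f, hf, hfne⟩ := exists_cube_partition A hdiff hne 0
    obtain ⟨ω, hω, -⟩ := exists_rademacher A f hf hfne
    refine ⟨ω, hω, fun h => ?_⟩
    obtain ⟨p, a, q, hp, -⟩ := h ∅ 1 one_pos
    subst h0
    have h1 := hp.2.2
    rw [Finset.univ_eq_empty, Finset.sum_empty] at h1
    exact hne h1.symm
  · have hr0 : (0 : ℝ) < r := Nat.cast_pos.mpr hpos
    have hγ : 0 < 1 / (r : ℝ) - ε := by
      rw [sub_pos, lt_div_iff₀ hr0]
      exact hr
    obtain ⟨t, ht⟩ := exists_nat_gt (2 / (1 / (r : ℝ) - ε))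
    rw [div_lt_iff₀ hγ] at ht
    obtain ⟨f, hf, hfne⟩ := exists_cube_partition A hdiff hne t
    obtain ⟨ω, hω, s, hsA, hsa, hsq, hon⟩ := exists_rademacher A f hf hfne
    exact ⟨ω, hω, not_soPavable_of_rademacher A M hAc hω s hsA hsa hsq hon hpos ht⟩

/-- **Exact growth over diffuse MASAs of `B(H)`.** -/
theorem diffuse_dichotomy (A M : VonNeumannAlgebra H) (hM : ∀ y : H →L[ℂ] H, y ∈ M)
    (hA : IsMASA A M) (hdiff : IsDiffuse A) (hH : Nontrivial H) (ε : ℝ) (r : ℕ) :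
    (1 < ε * r → ∀ x : H →L[ℂ] H, IsSelfAdjoint x → SoPavable A M x ε r) ∧
    (ε * r < 1 → ∃ x : H →L[ℂ] H, IsSelfAdjoint x ∧ ¬ SoPavable A M x ε r) := by
  refine ⟨fun h x hx => soPavable_of_diffuse A M hM hA hdiff h x hx, fun h => ?_⟩
  obtain ⟨ω, -, hω⟩ := not_soPavable_symmetry A M hA.2.1 hdiff one_ne_zero h
  exact ⟨_, isSelfAdjoint_symmetry ω, hω⟩

end Vale.Agent.Lib.P078
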