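import Vale.Agent.Lib.P078.DiffuseDefs

/-!
# Existence of a diffuse MASA (P078)
-/

namespace Vale.Agent.Lib.P078

/-- `B(H)` has a diffuse MASA: there are a von Neumann algebra `M` on `H` containing all bounded
operators and a MASA `A` of `M` without minimal projections. -/
def HasDiffuseMasa (H : Type*) [NormedAddCommGroup H] [InnerProductSpace ℂ H] [CompleteSpace H] :
    Prop :=
  ∃ A M : VonNeumannAlgebra H, (∀ y : H →L[ℂ] H, y ∈ M) ∧ IsMASA A M ∧ IsDiffuse A

/-- Some nonzero complex Hilbert space `H` is such that `B(H)` has a diffuse MASA. -/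
def DiffuseMasaExists : Prop :=
  ∃ (H : Type) (_ : NormedAddCommGroup H) (_ : InnerProductSpace ℂ H) (_ : CompleteSpace H),
    Nontrivial H ∧ HasDiffuseMasa H

end Vale.Agent.Lib.P078
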