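import Vale.Agent.Lib.P078.TypeIAux
import Vale.Agent.Lib.P078.DiffuseDefs
import Vale.Agent.Lib.P078.Converse
import Vale.Agent.Lib.P078.WitnessDefs

/-!
# A diffuse MASA of `B(ℓ²(ℤ))`

A maximal commuting self-adjoint set of operators containing the bilateral shift is a maximal
abelian von Neumann algebra without minimal projections.
-/

namespace Vale.Agent.Lib.P078

open scoped ComplexOrder InnerProductSpace Matrix.Norms.L2Operator
open ContinuousLinearMap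

variable {H : Type*} [NormedAddCommGroup H] [InnerProductSpace ℂ H] [CompleteSpace H]

/-! ### Part U1 -/

/-- Zorn: a commuting star-closed set of operators lies in a maximal one. -/
lemma taskU1_zorn (S : Set (H →L[ℂ] H)) (hSc : ∀ a ∈ S, ∀ b ∈ S, a * b = b * a)
    (hSs : ∀ a ∈ S, star a ∈ S) :
    ∃ T : Set (H →L[ℂ] H), S ⊆ T ∧
      Maximal (fun T : Set (H →L[ℂ] H) =>
        T ∈ {T : Set (H →L[ℂ] H) | (∀ a ∈ T, ∀ b ∈ T, a * b = b * a) ∧ ∀ a ∈ T, star a ∈ T})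
        T := by
  refine zorn_subset_nonempty
    {T : Set (H →L[ℂ] H) | (∀ a ∈ T, ∀ b ∈ T, a * b = b * a) ∧ ∀ a ∈ T, star a ∈ T}
    ?_ S ⟨hSc, hSs⟩
  intro c hc hchain _
  refine ⟨⋃₀ c, ⟨?_, ?_⟩, fun s hs => Set.subset_sUnion_of_mem hs⟩
  · intro a ha b hb
    obtain ⟨t1, ht1, hat1⟩ := ha
    obtain ⟨t2, ht2, hbt2⟩ := hb
    rcases hchain.total ht1 ht2 with h12 | h21
    · exact (hc ht2).1 a (h12 hat1) b hbt2
    · exact (hc ht1).1 a hat1 b (h21 hbt2)
  · intro a ha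
    obtain ⟨t, ht, hat⟩ := ha
    exact ⟨t, ht, (hc ht).2 a hat⟩

/-- A normal operator commuting, together with its adjoint, with a maximal commuting
star-closed set belongs to that set. -/
lemma taskU1_mem_of_maximal {T : Set (H →L[ℂ] H)}
    (hmax : Maximal (fun T : Set (H →L[ℂ] H) =>
      T ∈ {T : Set (H →L[ℂ] H) | (∀ a ∈ T, ∀ b ∈ T, a * b = b * a) ∧ ∀ a ∈ T, star a ∈ T}) T)
    {z : H →L[ℂ] H} (hz : ∀ b ∈ T, b * z = z * b) (hzs : ∀ b ∈ T, b * star z = star z * b)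
    (hn : z * star z = star z * z) : z ∈ T := by
  have hT := hmax.prop
  have hgood : (T ∪ {z, star z}) ∈
      {T : Set (H →L[ℂ] H) | (∀ a ∈ T, ∀ b ∈ T, a * b = b * a) ∧ ∀ a ∈ T, star a ∈ T} := by
    constructor
    · intro a ha b hb
      rcases ha with ha | ha | ha
      · rcases hb with hb | hb | hb
        · exact hT.1 a ha b hb
        · rw [hb]
          exact hz a ha
        · rw [Set.mem_singleton_iff] at hb
          rw [hb]
          exact hzs a ha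
      · rw [ha]
        rcases hb with hb | hb | hb
        · exact (hz b hb).symm
        · rw [hb]
        · rw [Set.mem_singleton_iff] at hb
          rw [hb]
          exact hn
      · rw [Set.mem_singleton_iff] at ha
        rw [ha]
        rcases hb with hb | hb | hb
        · exact (hzs b hb).symm
        · rw [hb]
          exact hn.symm
        · rw [Set.mem_singleton_iff] at hb
          rw [hb]
    · intro a ha
      rcases ha with ha | ha | ha
      · exact Or.inl (hT.2 a ha)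
      · rw [ha]
        exact Or.inr (Or.inr rfl)
      · rw [Set.mem_singleton_iff] at ha
        rw [ha, star_star]
        exact Or.inr (Or.inl rfl)
  have heq : T = T ∪ {z, star z} := hmax.eq_of_subset hgood Set.subset_union_left
  rw [heq]
  exact Or.inr (Or.inl rfl)

/-- An operator commuting with a maximal commuting star-closed set, together with its adjoint,
is normal. -/
lemma taskU1_normal {T : Set (H →L[ℂ] H)}
    (hmax : Maximal (fun T : Set (H →L[ℂ] H) =>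
      T ∈ {T : Set (H →L[ℂ] H) | (∀ a ∈ T, ∀ b ∈ T, a * b = b * a) ∧ ∀ a ∈ T, star a ∈ T}) T)
    {y : H →L[ℂ] H} (hy : ∀ b ∈ T, b * y = y * b) (hys : ∀ b ∈ T, b * star y = star y * b) :
    y * star y = star y * y := by
  have hT := hmax.prop
  have hh : y + star y ∈ T := by
    have hs : star (y + star y) = y + star y := by
      rw [star_add, star_star, add_comm]
    refine taskU1_mem_of_maximal hmax ?_ ?_ ?_
    · intro b hb
      rw [mul_add, add_mul, hy b hb, hys b hb]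
    · intro b hb
      rw [hs, mul_add, add_mul, hy b hb, hys b hb]
    · rw [hs]
  have hk : Complex.I • (y - star y) ∈ T := by
    have hs : star (Complex.I • (y - star y)) = Complex.I • (y - star y) := by
      rw [star_smul, star_sub, star_star, Complex.star_def, Complex.conj_I, neg_smul,
        ← smul_neg, neg_sub]
    have hc : ∀ b ∈ T, b * (Complex.I • (y - star y)) = (Complex.I • (y - star y)) * b := by
      intro b hb
      rw [mul_smul_comm, smul_mul_assoc, mul_sub, sub_mul, hy b hb, hys b hb]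
    refine taskU1_mem_of_maximal hmax hc ?_ ?_
    · intro b hb
      rw [hs]
      exact hc b hb
    · rw [hs]
  have hcomm := hT.1 _ hh _ hk
  rw [mul_smul_comm, smul_mul_assoc] at hcomm
  have h1 : (y + star y) * (y - star y) = (y - star y) * (y + star y) :=
    smul_right_injective _ Complex.I_ne_zero hcomm
  have h2 : (y + star y) * (y - star y) - (y - star y) * (y + star y) =
      (star y * y - y * star y) + (star y * y - y * star y) := by
    noncomm_ring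
  rw [h1, sub_self, ← two_smul ℂ] at h2
  have h3 : star y * y - y * star y = 0 := by
    rcases smul_eq_zero.mp h2.symm with h | h
    · exact absurd h two_ne_zero
    · exact h
  exact (sub_eq_zero.mp h3).symm

theorem exists_masa_containing (S : Set (H →L[ℂ] H)) (hSc : ∀ a ∈ S, ∀ b ∈ S, a * b = b * a)
    (hSs : ∀ a ∈ S, star a ∈ S) :
    ∃ A : VonNeumannAlgebra H, (∀ a ∈ S, a ∈ A) ∧ (∀ a ∈ A, ∀ b ∈ A, a * b = b * a) ∧
      ∀ y : H →L[ℂ] H, (∀ a ∈ A, a * y = y * a) → y ∈ A := by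
  obtain ⟨T, hST, hmax⟩ := taskU1_zorn S hSc hSs
  have hT := hmax.prop
  have hTA : ∀ a ∈ T, a ∈ taskG_centralizer T := by
    intro a ha
    rw [taskG_mem_centralizer]
    intro b hb
    exact ⟨hT.1 b hb a ha, hT.1 (star b) (hT.2 b hb) a ha⟩
  have hAT : ∀ y ∈ taskG_centralizer T, y ∈ T := by
    intro y hy
    have hys : star y ∈ taskG_centralizer T := star_mem hy
    rw [taskG_mem_centralizer] at hy hys
    have h1 : ∀ b ∈ T, b * y = y * b := fun b hb => (hy b hb).1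
    have h2 : ∀ b ∈ T, b * star y = star y * b := fun b hb => (hys b hb).1
    exact taskU1_mem_of_maximal hmax h1 h2 (taskU1_normal hmax h1 h2)
  refine ⟨taskG_centralizer T, fun a ha => hTA a (hST ha), ?_, ?_⟩
  · intro a ha b hb
    exact hT.1 a (hAT a ha) b (hAT b hb)
  · intro y hy
    rw [taskG_mem_centralizer]
    intro b hb
    exact ⟨hy b (hTA b hb), hy (star b) (hTA (star b) (hT.2 b hb))⟩

/-! ### Part U2 -/

omit [CompleteSpace H] in
/-- the quadratic form of `b - l` at a vector. -/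
lemma taskU2_form (b : H →L[ℂ] H) (l : ℝ) (v : H) :
    RCLike.re ⟪(b - l • (1 : H →L[ℂ] H)) v, v⟫_ℂ = RCLike.re ⟪b v, v⟫_ℂ - l * ‖v‖ ^ 2 := by
  have h1 : (b - l • (1 : H →L[ℂ] H)) v = b v - (l : ℂ) • v := by
    rw [sub_apply, smul_apply, one_apply_eq_self, Complex.coe_smul]
  rw [h1, inner_sub_left, inner_smul_left, map_sub, Complex.conj_ofReal,
    inner_self_eq_norm_sq_to_K]
  congr 1
  have h2 : ((l : ℂ) * (((‖v‖ : ℝ) : ℂ)) ^ 2) = ((l * ‖v‖ ^ 2 : ℝ) : ℂ) := by push_cast; ring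
  exact (congrArg Complex.re h2).trans (Complex.ofReal_re _)

/-- dichotomy at the level `l` for a minimal projection. -/
lemma taskU2_dichotomy (A : VonNeumannAlgebra H)
    (hAc : ∀ a ∈ A, ∀ b ∈ A, a * b = b * a) {p : H →L[ℂ] H} (hpA : p ∈ A)
    (hp : IsStarProjection p)
    (hmin : ∀ p' ∈ A, IsStarProjection p' → p * p' = p' → p' = 0 ∨ p' = p)
    {b : H →L[ℂ] H} (hbA : b ∈ A) (hb : IsSelfAdjoint b) (l : ℝ) :
    (∀ ξ : H, l * ‖p ξ‖ ^ 2 ≤ RCLike.re ⟪b (p ξ), p ξ⟫_ℂ) ∨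
    (∀ ξ : H, RCLike.re ⟪b (p ξ), p ξ⟫_ℂ ≤ l * ‖p ξ‖ ^ 2) := by
  have hb'A : b - l • (1 : H →L[ℂ] H) ∈ A := sub_mem hbA (real_smul_mem A (one_mem A) _)
  have hb' : IsSelfAdjoint (b - l • (1 : H →L[ℂ] H)) :=
    hb.sub ((IsSelfAdjoint.all l).smul (IsSelfAdjoint.one _))
  obtain ⟨e, heA, he, -, hpos, hneg⟩ := exists_level_projection A hb'A hb'
  have hpe : p * e = e * p := hAc p hpA e heA
  have hproj : IsStarProjection (p * e) := hp.mul he hpe
  have hsub : p * (p * e) = p * e := by rw [← mul_assoc, hp.isIdempotentElem.eq]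
  rcases hmin (p * e) (mul_mem hpA heA) hproj hsub with h0 | h1
  · right
    intro ξ
    have hez : e (p ξ) = 0 := by
      have := congrArg (fun f : H →L[ℂ] H => f ξ) h0
      rw [hpe] at this
      simpa [mul_apply_eq_comp] using this
    have hle : (0 - (b - l • (1 : H →L[ℂ] H)) * (1 - e)).IsPositive := (le_def _ _).mp hneg
    have h2 := hle.re_inner_nonneg_left (p ξ)
    have h1e : (1 - e) (p ξ) = p ξ := by
      rw [sub_apply, one_apply_eq_self, hez, sub_zero]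
    have h3 : (0 - (b - l • (1 : H →L[ℂ] H)) * (1 - e)) (p ξ)
        = -((b - l • (1 : H →L[ℂ] H)) (p ξ)) := by
      rw [zero_sub, neg_apply, mul_apply_eq_comp, h1e]
    rw [h3, inner_neg_left, map_neg, taskU2_form] at h2
    linarith
  · left
    intro ξ
    have hee : e (p ξ) = p ξ := by
      have := congrArg (fun f : H →L[ℂ] H => f ξ) h1
      rw [hpe] at this
      simpa [mul_apply_eq_comp] using this
    have hpos' : ((b - l • (1 : H →L[ℂ] H)) * e).IsPositive := (nonneg_iff_isPositive _).mp hpos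
    have h2 := hpos'.re_inner_nonneg_left (p ξ)
    rw [mul_apply_eq_comp, hee, taskU2_form] at h2
    linarith

/-- the self-adjoint case. -/
lemma taskU2_sa (A : VonNeumannAlgebra H)
    (hAc : ∀ a ∈ A, ∀ b ∈ A, a * b = b * a) {p : H →L[ℂ] H} (hpA : p ∈ A)
    (hp : IsStarProjection p)
    (hmin : ∀ p' ∈ A, IsStarProjection p' → p * p' = p' → p' = 0 ∨ p' = p)
    {b : H →L[ℂ] H} (hbA : b ∈ A) (hb : IsSelfAdjoint b) : ∃ c : ℝ, b * p = (c : ℂ) • p := by
  by_cases hp0 : p = 0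
  · exact ⟨0, by rw [hp0]; simp⟩
  obtain ⟨ξ₀, hξ₀⟩ : ∃ ξ₀ : H, p ξ₀ ≠ 0 := by
    by_contra hcon
    apply hp0
    ext ξ
    rw [zero_apply]
    by_contra h
    exact hcon ⟨ξ, h⟩
  have hD := taskU2_dichotomy A hAc hpA hp hmin hbA hb
  have hn0 : 0 < ‖p ξ₀‖ ^ 2 := by positivity
  have hQc : ∀ ξ : H, RCLike.re ⟪b (p ξ), p ξ⟫_ℂ
      = RCLike.re ⟪b (p ξ₀), p ξ₀⟫_ℂ / ‖p ξ₀‖ ^ 2 * ‖p ξ‖ ^ 2 := by
    intro ξ
    by_cases hξ : p ξ = 0
    · simp [hξ]
    have hn : 0 < ‖p ξ‖ ^ 2 := by positivity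
    have hr : RCLike.re ⟪b (p ξ), p ξ⟫_ℂ / ‖p ξ‖ ^ 2
        = RCLike.re ⟪b (p ξ₀), p ξ₀⟫_ℂ / ‖p ξ₀‖ ^ 2 := by
      rcases hD ((RCLike.re ⟪b (p ξ), p ξ⟫_ℂ / ‖p ξ‖ ^ 2
        + RCLike.re ⟪b (p ξ₀), p ξ₀⟫_ℂ / ‖p ξ₀‖ ^ 2) / 2) with h | h
      · have h1 := h ξ
        have h2 := h ξ₀
        rw [← le_div_iff₀ hn] at h1
        rw [← le_div_iff₀ hn0] at h2
        linarith
      · have h1 := h ξ
        have h2 := h ξ₀
        rw [← div_le_iff₀ hn] at h1
        rw [← div_le_iff₀ hn0] at h2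
        linarith
    rw [← hr]
    field_simp
  refine ⟨RCLike.re ⟪b (p ξ₀), p ξ₀⟫_ℂ / ‖p ξ₀‖ ^ 2, ?_⟩
  have hpb : p * b = b * p := hAc p hpA b hbA
  have hpsym := hp.isSelfAdjoint.isSymmetric
  have hbsym := hb.isSymmetric
  apply ContinuousLinearMap.coe_inj.mp
  rw [← ext_inner_map]
  intro ξ
  have e1 : ⟪p ξ, ξ⟫_ℂ = ⟪p ξ, p ξ⟫_ℂ := by
    have h := hpsym (p ξ) ξ
    have h' : p (p ξ) = p ξ := by
      rw [← mul_apply_eq_comp, hp.isIdempotentElem.eq]
    simp only [ContinuousLinearMap.coe_coe] at h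
    rw [← h, h']
  have e2 : ⟪b (p ξ), ξ⟫_ℂ = ⟪b (p ξ), p ξ⟫_ℂ := by
    have h := hpsym (b (p ξ)) ξ
    have h' : p (b (p ξ)) = b (p ξ) := by
      rw [← mul_apply_eq_comp, ← mul_apply_eq_comp, hpb, mul_assoc,
        hp.isIdempotentElem.eq, mul_apply_eq_comp]
    simp only [ContinuousLinearMap.coe_coe] at h
    rw [← h, h']
  have e3 : ⟪b (p ξ), p ξ⟫_ℂ = ((RCLike.re ⟪b (p ξ), p ξ⟫_ℂ : ℝ) : ℂ) := by
    have h := hbsym.coe_re_inner_apply_self (p ξ)
    simp only [ContinuousLinearMap.coe_coe] at h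
    exact h.symm
  have e4 : ⟪p ξ, p ξ⟫_ℂ = ((‖p ξ‖ ^ 2 : ℝ) : ℂ) := by
    rw [inner_self_eq_norm_sq_to_K]
    norm_cast
  show ⟪(b * p) ξ, ξ⟫_ℂ = ⟪(((RCLike.re ⟪b (p ξ₀), p ξ₀⟫_ℂ / ‖p ξ₀‖ ^ 2 : ℝ) : ℂ) • p) ξ, ξ⟫_ℂ
  rw [mul_apply_eq_comp, smul_apply, inner_smul_left, Complex.conj_ofReal, e1, e2, e3, hQc ξ, e4]
  push_cast
  ring

theorem smul_of_minimal_projection (A : VonNeumannAlgebra H)
    (hAc : ∀ a ∈ A, ∀ b ∈ A, a * b = b * a) {p : H →L[ℂ] H} (hpA : p ∈ A)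
    (hp : IsStarProjection p)
    (hmin : ∀ p' ∈ A, IsStarProjection p' → p * p' = p' → p' = 0 ∨ p' = p)
    {b : H →L[ℂ] H} (hbA : b ∈ A) : ∃ c : ℂ, b * p = c • p := by
  have hsA : star b ∈ A := star_mem hbA
  have hhA : b + star b ∈ A := add_mem hbA hsA
  have hkA : Complex.I • (b - star b) ∈ A := A.toStarSubalgebra.smul_mem (sub_mem hbA hsA) _
  have hh : IsSelfAdjoint (b + star b) := IsSelfAdjoint.add_star_self b
  have hk : IsSelfAdjoint (Complex.I • (b - star b)) := by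
    rw [IsSelfAdjoint, star_smul, star_sub, star_star, Complex.star_def, Complex.conj_I,
      neg_smul, ← smul_neg, neg_sub]
  obtain ⟨c₁, h₁⟩ := taskU2_sa A hAc hpA hp hmin hhA hh
  obtain ⟨c₂, h₂⟩ := taskU2_sa A hAc hpA hp hmin hkA hk
  refine ⟨((c₁ : ℂ) - Complex.I * (c₂ : ℂ)) / 2, ?_⟩
  have hb : b = (1 / 2 : ℂ) • ((b + star b) - Complex.I • (Complex.I • (b - star b))) := by
    rw [smul_smul, Complex.I_mul_I, neg_one_smul, sub_neg_eq_add]
    have : b + star b + (b - star b) = (2 : ℂ) • b := by rw [two_smul]; abel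
    rw [this, smul_smul]
    norm_num
  calc b * p = ((1 / 2 : ℂ) • ((b + star b) - Complex.I • (Complex.I • (b - star b)))) * p := by
        rw [← hb]
    _ = (1 / 2 : ℂ) • ((b + star b) * p - Complex.I • ((Complex.I • (b - star b)) * p)) := by
        rw [smul_mul_assoc, sub_mul, smul_mul_assoc]
    _ = (((c₁ : ℂ) - Complex.I * (c₂ : ℂ)) / 2) • p := by
        rw [h₁, h₂, smul_smul, ← sub_smul, smul_smul]
        congr 1
        ring

/-! ### Part U3 -/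

/-- Reindexing a square-summable family along a bijection of the index set keeps it
square-summable. -/
theorem taskU3_mem (e : ℤ ≃ ℤ) (ξ : lp (fun _ : ℤ => ℂ) 2) :
    Memℓp (fun n => (ξ : ℤ → ℂ) (e n)) 2 := by
  have h2 : (0 : ℝ) < (2 : ENNReal).toReal := by norm_num
  have hξ := (memℓp_gen_iff h2).1 (lp.memℓp ξ)
  exact (memℓp_gen_iff h2).2 (e.summable_iff.2 hξ)

/-- The reindexing map along a bijection of the index set, as a linear map. -/
noncomputable def taskU3_lin (e : ℤ ≃ ℤ) :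
    lp (fun _ : ℤ => ℂ) 2 →ₗ[ℂ] lp (fun _ : ℤ => ℂ) 2 where
  toFun ξ := ⟨fun n => (ξ : ℤ → ℂ) (e n), taskU3_mem e ξ⟩
  map_add' ξ η := by
    apply lp.ext
    funext n
    simp
    rfl
  map_smul' c ξ := by
    apply lp.ext
    funext n
    simp

theorem taskU3_lin_apply (e : ℤ ≃ ℤ) (ξ : lp (fun _ : ℤ => ℂ) 2) (n : ℤ) :
    (taskU3_lin e ξ : ℤ → ℂ) n = (ξ : ℤ → ℂ) (e n) := rfl

theorem taskU3_norm (e : ℤ ≃ ℤ) (ξ : lp (fun _ : ℤ => ℂ) 2) :
    ‖taskU3_lin e ξ‖ = ‖ξ‖ := by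
  have h2 : (0 : ℝ) < (2 : ENNReal).toReal := by norm_num
  have h1 := lp.norm_rpow_eq_tsum h2 (taskU3_lin e ξ)
  have h3 := lp.norm_rpow_eq_tsum h2 ξ
  have h4 : (∑' n, ‖(taskU3_lin e ξ : ℤ → ℂ) n‖ ^ (2 : ENNReal).toReal)
      = ∑' n, ‖(ξ : ℤ → ℂ) n‖ ^ (2 : ENNReal).toReal :=
    Equiv.tsum_eq e (fun m => ‖(ξ : ℤ → ℂ) m‖ ^ (2 : ENNReal).toReal)
  have h5 : ‖taskU3_lin e ξ‖ ^ (2 : ENNReal).toReal = ‖ξ‖ ^ (2 : ENNReal).toReal := by
    rw [h1, h3, h4]
  have h6 : (2 : ENNReal).toReal = 2 := by norm_num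
  rw [h6] at h5
  have h7 : ‖taskU3_lin e ξ‖ ^ (2 : ℕ) = ‖ξ‖ ^ (2 : ℕ) := by
    exact_mod_cast h5
  exact (sq_eq_sq₀ (norm_nonneg _) (norm_nonneg _)).1 h7

/-- The reindexing map as a bounded operator. -/
noncomputable def taskU3_op (e : ℤ ≃ ℤ) :
    lp (fun _ : ℤ => ℂ) 2 →L[ℂ] lp (fun _ : ℤ => ℂ) 2 :=
  (taskU3_lin e).mkContinuous 1 (fun ξ => by rw [taskU3_norm, one_mul])

theorem taskU3_op_apply (e : ℤ ≃ ℤ) (ξ : lp (fun _ : ℤ => ℂ) 2) (n : ℤ) :
    (taskU3_op e ξ : ℤ → ℂ) n = (ξ : ℤ → ℂ) (e n) := rfl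

theorem taskU3_op_norm (e : ℤ ≃ ℤ) (ξ : lp (fun _ : ℤ => ℂ) 2) :
    ‖taskU3_op e ξ‖ = ‖ξ‖ := taskU3_norm e ξ

theorem taskU3_op_mul (e : ℤ ≃ ℤ) : taskU3_op e * taskU3_op e.symm = 1 := by
  ext ξ n
  simp [taskU3_op_apply]

theorem taskU3_adjoint (e : ℤ ≃ ℤ) : star (taskU3_op e) = taskU3_op e.symm := by
  rw [ContinuousLinearMap.star_eq_adjoint]
  symm
  rw [ContinuousLinearMap.eq_adjoint_iff]
  intro ξ η
  rw [lp.inner_eq_tsum, lp.inner_eq_tsum]
  simp only [taskU3_op_apply]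
  rw [← Equiv.tsum_eq e.symm (fun m => ⟪(ξ : ℤ → ℂ) m, (η : ℤ → ℂ) (e m)⟫_ℂ)]
  simp

theorem exists_shift : ∃ U : lp (fun _ : ℤ => ℂ) 2 →L[ℂ] lp (fun _ : ℤ => ℂ) 2,
    U * star U = star U * U ∧ ∀ (c : ℂ) (ξ : lp (fun _ : ℤ => ℂ) 2), U ξ = c • ξ → ξ = 0 := by
  refine ⟨taskU3_op (Equiv.subRight 1), ?_, ?_⟩
  · rw [taskU3_adjoint, taskU3_op_mul]
    have h := taskU3_op_mul (Equiv.subRight (1 : ℤ)).symm
    rw [Equiv.symm_symm] at h
    rw [h]
  · intro c ξ hξ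
    by_contra hne
    have hnorm : ‖ξ‖ ≠ 0 := norm_ne_zero_iff.2 hne
    have h1 : ‖c‖ * ‖ξ‖ = ‖ξ‖ := by
      rw [← norm_smul, ← hξ, taskU3_op_norm]
    have hc : ‖c‖ = 1 := by
      have := mul_right_cancel₀ hnorm (h1.trans (one_mul _).symm)
      exact this
    have hstep : ∀ n : ℤ, ‖(ξ : ℤ → ℂ) (n - 1)‖ = ‖(ξ : ℤ → ℂ) n‖ := by
      intro n
      have h2 : (taskU3_op (Equiv.subRight 1) ξ : ℤ → ℂ) n = ((c • ξ : lp (fun _ : ℤ => ℂ) 2) : ℤ → ℂ) n := by
        rw [hξ]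
      rw [taskU3_op_apply] at h2
      have h3 : (ξ : ℤ → ℂ) (n - 1) = c * (ξ : ℤ → ℂ) n := by
        simpa using h2
      rw [h3, norm_mul, hc, one_mul]
    have hconst : ∀ n : ℤ, ‖(ξ : ℤ → ℂ) n‖ = ‖(ξ : ℤ → ℂ) 0‖ := by
      intro n
      induction n using Int.induction_on with
      | zero => rfl
      | succ k ih =>
        have := hstep (k + 1)
        rw [add_sub_cancel_right] at this
        rw [← this, ih]
      | pred k ih =>
        have := hstep (-k)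
        rw [this, ih]
    have h2 : (0 : ℝ) < (2 : ENNReal).toReal := by norm_num
    have hsum := (memℓp_gen_iff h2).1 (lp.memℓp ξ)
    have hsum' : Summable (fun _ : ℤ => ‖(ξ : ℤ → ℂ) 0‖ ^ (2 : ENNReal).toReal) := by
      refine hsum.congr ?_
      intro n
      rw [hconst n]
    have hz := (summable_const_iff _).1 hsum'
    have h6 : (2 : ENNReal).toReal = 2 := by norm_num
    rw [h6] at hz
    have hz0 : ‖(ξ : ℤ → ℂ) 0‖ = 0 := by
      by_contra h0
      have hpos : 0 < ‖(ξ : ℤ → ℂ) 0‖ := lt_of_le_of_ne (norm_nonneg _) (Ne.symm h0)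
      have := Real.rpow_pos_of_pos hpos 2
      linarith
    apply hne
    apply lp.ext
    funext n
    have := hconst n
    rw [hz0] at this
    simpa using this

/-! ### The witness -/

/-- A diffuse MASA of `B(ℓ²(ℤ))` exists. -/
theorem exists_diffuse_masa :
    ∃ A M : VonNeumannAlgebra (lp (fun _ : ℤ => ℂ) 2), (∀ y : lp (fun _ : ℤ => ℂ) 2 →L[ℂ] lp (fun _ : ℤ => ℂ) 2, y ∈ M) ∧ IsMASA A M ∧
      IsDiffuse A := by
  obtain ⟨U, hUn, hUe⟩ := exists_shift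
  obtain ⟨A, hSA, hAc, hAm⟩ := exists_masa_containing ({U, star U} : Set (lp (fun _ : ℤ => ℂ) 2 →L[ℂ] lp (fun _ : ℤ => ℂ) 2))
    (by
      rintro a (rfl | rfl) b (rfl | rfl)
      · rfl
      · exact hUn
      · exact hUn.symm
      · rfl)
    (by
      rintro a (rfl | rfl)
      · exact Or.inr rfl
      · rw [star_star]
        exact Or.inl rfl)
  have hUA : U ∈ A := hSA U (Or.inl rfl)
  refine ⟨A, topAlgebra _, mem_topAlgebra, ⟨fun a _ => mem_topAlgebra a, hAc, fun x _ hx => hAm x hx⟩, ?_⟩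
  intro p hpA hp hp0
  by_contra hcon
  have hmin : ∀ p' ∈ A, IsStarProjection p' → p * p' = p' → p' = 0 ∨ p' = p := by
    intro p' hp'A hp' hpp'
    by_contra h
    rw [not_or] at h
    exact hcon ⟨p', hp'A, hp', h.1, h.2, hpp'⟩
  obtain ⟨c, hc⟩ := smul_of_minimal_projection A hAc hpA hp hmin hUA
  refine hp0 ?_
  ext ξ
  have h1 : U (p ξ) = c • p ξ := by
    have := congrArg (fun T : lp (fun _ : ℤ => ℂ) 2 →L[ℂ] lp (fun _ : ℤ => ℂ) 2 => T ξ) hc
    simpa using this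
  have h2 := hUe c (p ξ) h1
  rw [h2]
  rfl

/-- There is a nonzero Hilbert space `H` with a diffuse MASA of `B(H)`. -/
theorem exists_hilbert_diffuse_masa :
    ∃ (H : Type) (_ : NormedAddCommGroup H) (_ : InnerProductSpace ℂ H) (_ : CompleteSpace H)
      (_ : Nontrivial H) (A M : VonNeumannAlgebra H),
      (∀ y : H →L[ℂ] H, y ∈ M) ∧ IsMASA A M ∧ IsDiffuse A := by
  obtain ⟨A, M, hM, hA, hd⟩ := exists_diffuse_masa
  have hnt : Nontrivial (lp (fun _ : ℤ => ℂ) 2) := by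
    refine ⟨⟨lp.single 2 (0 : ℤ) (1 : ℂ), 0, fun h => ?_⟩⟩
    have h1 := congrArg (fun f : lp (fun _ : ℤ => ℂ) 2 => f 0) h
    simp at h1
  exact ⟨lp (fun _ : ℤ => ℂ) 2, inferInstance, inferInstance, inferInstance, hnt, A, M, hM, hA, hd⟩

/-- `B(ℓ²(ℤ))` has a diffuse MASA. -/
theorem hasDiffuseMasa_lp : HasDiffuseMasa (lp (fun _ : ℤ => ℂ) 2) :=
  exists_diffuse_masa

/-- Some nonzero Hilbert space has a diffuse MASA of `B(H)` (namely `ℓ²(ℤ)`). -/
theorem diffuseMasaExists : DiffuseMasaExists := by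
  have hnt : Nontrivial (lp (fun _ : ℤ => ℂ) 2) := by
    refine ⟨⟨lp.single 2 (0 : ℤ) (1 : ℂ), 0, fun h => ?_⟩⟩
    have h1 := congrArg (fun f : lp (fun _ : ℤ => ℂ) 2 => f 0) h
    simp at h1
  exact ⟨lp (fun _ : ℤ => ℂ) 2, inferInstance, inferInstance, inferInstance, hnt, hasDiffuseMasa_lp⟩

end Vale.Agent.Lib.P078
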