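import Vale.Agent.Lib.P078.FactorDefs
import Vale.Agent.Lib.P078.Trace

/-!
# MASAs of factors of type II_1

Let `M` be a factor without minimal projections having a separating unit trace vector `Ω` (a
factor of type `II_1` acting with a trace vector).  Two projections of `M` with the same trace are
Murray-von Neumann equivalent (greedy exhaustion by partial isometries and strong limits).  A MASA
`A` of `M` is diffuse, so by the exact Lyapunov theorem it contains, for every `k`, a partition of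
`1` into `2 ^ k` projections of equal trace; these are pairwise equivalent in `M`, which gives
`2 ^ k × 2 ^ k` matrix units of `M` with diagonal in `A`.  Hence the so-paving number of every
MASA of `M` is at least `ε⁻²`.
-/

namespace Vale.Agent.Lib.P078

open scoped InnerProductSpace Matrix.Norms.L2Operator
open ContinuousLinearMap Filter Topology

variable {H : Type*} [NormedAddCommGroup H] [InnerProductSpace ℂ H] [CompleteSpace H]

/-! ### In a factor, `f M e` is nonzero -/

/-- The span of the vectors `x (e ξ)` with `x ∈ M` is invariant under `M` and under the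
commutant of `M`. -/
lemma taskC1_invariant (M : VonNeumannAlgebra H) {e : H →L[ℂ] H} (heM : e ∈ M) :
    (∀ y ∈ M, ∀ v ∈ Submodule.span ℂ {v : H | ∃ x ∈ M, ∃ ξ : H, v = x (e ξ)},
        y v ∈ Submodule.span ℂ {v : H | ∃ x ∈ M, ∃ ξ : H, v = x (e ξ)}) ∧
      (∀ y ∈ M.commutant, ∀ v ∈ Submodule.span ℂ {v : H | ∃ x ∈ M, ∃ ξ : H, v = x (e ξ)},
        y v ∈ Submodule.span ℂ {v : H | ∃ x ∈ M, ∃ ξ : H, v = x (e ξ)}) := by
  refine ⟨?_, ?_⟩
  · intro y hy v hv
    induction hv using Submodule.span_induction with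
    | mem v hv =>
      obtain ⟨x, hx, ξ, rfl⟩ := hv
      exact Submodule.subset_span ⟨y * x, M.mul_mem hy hx, ξ, rfl⟩
    | zero => rw [map_zero]; exact Submodule.zero_mem _
    | add u v _ _ hu hv => rw [map_add]; exact Submodule.add_mem _ hu hv
    | smul c u _ hu => rw [map_smul]; exact Submodule.smul_mem _ c hu
  · intro y hy v hv
    induction hv using Submodule.span_induction with
    | mem v hv =>
      obtain ⟨x, hx, ξ, rfl⟩ := hv
      have hcomm : (x * e) * y = y * (x * e) :=
        (VonNeumannAlgebra.mem_commutant_iff.1 hy) (x * e) (M.mul_mem hx heM)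
      have h2 : y (x (e ξ)) = x (e (y ξ)) := by
        have h3 := congrArg (fun T : H →L[ℂ] H => T ξ) hcomm
        exact h3.symm
      rw [h2]
      exact Submodule.subset_span ⟨x, hx, y ξ, rfl⟩
    | zero => rw [map_zero]; exact Submodule.zero_mem _
    | add u v _ _ hu hv => rw [map_add]; exact Submodule.add_mem _ hu hv
    | smul c u _ hu => rw [map_smul]; exact Submodule.smul_mem _ c hu

theorem factor_exists_intertwiner (M : VonNeumannAlgebra H) (hF : IsFactor M)
    {e f : H →L[ℂ] H} (heM : e ∈ M) (hfM : f ∈ M) (he : IsStarProjection e)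
    (hf : IsStarProjection f) (he0 : e ≠ 0) (hf0 : f ≠ 0) :
    ∃ x ∈ M, f * x * e ≠ 0 := by
  have _h := And.intro hfM (And.intro he hf)
  by_contra hcon
  push Not at hcon
  obtain ⟨S, hS⟩ : ∃ S : Submodule ℂ H,
      S = Submodule.span ℂ {v : H | ∃ x ∈ M, ∃ ξ : H, v = x (e ξ)} := ⟨_, rfl⟩
  have hgen : ∀ x ∈ M, ∀ ξ : H, x (e ξ) ∈ S := by
    intro x hx ξ
    rw [hS]
    exact Submodule.subset_span ⟨x, hx, ξ, rfl⟩
  have hinvM : ∀ y ∈ M, ∀ v ∈ S, y v ∈ S := by
    rw [hS]
    exact (taskC1_invariant M heM).1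
  have hinvM' : ∀ y ∈ M.commutant, ∀ v ∈ S, y v ∈ S := by
    rw [hS]
    exact (taskC1_invariant M heM).2
  obtain ⟨z, hz⟩ : ∃ z : H →L[ℂ] H, z = S.topologicalClosure.starProjection := ⟨_, rfl⟩
  have hzM : z ∈ M := by
    rw [hz]
    exact starProjection_closure_mem M S hinvM'
  have hzM' : z ∈ M.commutant := by
    rw [hz]
    refine starProjection_closure_mem M.commutant S ?_
    rw [VonNeumannAlgebra.commutant_commutant]
    exact hinvM
  obtain ⟨c, hc⟩ := hF z hzM
    (fun x hx => ((VonNeumannAlgebra.mem_commutant_iff.1 hzM') x hx).symm)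
  obtain ⟨ξ, hξ⟩ : ∃ ξ, e ξ ≠ 0 := by
    by_contra h
    push Not at h
    exact he0 (ContinuousLinearMap.ext (fun ξ => by rw [h ξ]; rfl))
  have hzeξ : z (e ξ) = e ξ := by
    rw [hz]
    refine Submodule.starProjection_eq_self_iff.mpr (S.le_topologicalClosure ?_)
    exact hgen 1 M.one_mem ξ
  have hc1 : c = 1 := by
    rw [hc] at hzeξ
    have h1 : c • e ξ = e ξ := hzeξ
    have h2 : (c - 1) • e ξ = 0 := by rw [sub_smul, one_smul, h1, sub_self]
    rcases smul_eq_zero.1 h2 with h3 | h3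
    · exact sub_eq_zero.1 h3
    · exact absurd h3 hξ
  have hz1 : z = 1 := by rw [hc, hc1, one_smul]
  have htop : ∀ v : H, v ∈ S.topologicalClosure := by
    intro v
    have h1 : z v = v := by rw [hz1]; rfl
    rw [← h1, hz]
    exact Submodule.starProjection_apply_mem _ v
  have hker : S.topologicalClosure ≤ LinearMap.ker (f : H →ₗ[ℂ] H) := by
    refine Submodule.topologicalClosure_minimal _ ?_ (ContinuousLinearMap.isClosed_ker f)
    rw [hS]
    refine Submodule.span_le.2 ?_
    rintro _ ⟨x, hx, ξ', rfl⟩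
    have h1 := congrArg (fun T : H →L[ℂ] H => T ξ') (hcon x hx)
    exact h1
  refine hf0 (ContinuousLinearMap.ext (fun v => ?_))
  have h1 := hker (htop v)
  exact h1

/-! ### A nonzero element yields a nonzero partial isometry -/

/-- An inverse square root of a self-adjoint operator bounded below by a positive multiple of
the identity, obtained from the continuous functional calculus; it commutes with everything
commuting with the operator. -/
lemma taskC2_inv_sqrt {h' : H →L[ℂ] H} (hsa : IsSelfAdjoint h') {c : ℝ} (hc : 0 < c)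
    (hle : c • (1 : H →L[ℂ] H) ≤ h') :
    ∃ k : H →L[ℂ] H, IsSelfAdjoint k ∧ k * k * h' = 1 ∧
      ∀ y : H →L[ℂ] H, h' * y = y * h' → k * y = y * k := by
  obtain ⟨f, hfdef⟩ : ∃ f : ℝ → ℝ, f = fun t => (Real.sqrt (max t c))⁻¹ := ⟨_, rfl⟩
  have hf : Continuous f := by
    rw [hfdef]
    exact Continuous.inv₀ (Real.continuous_sqrt.comp (continuous_id.max continuous_const))
      (fun t => (Real.sqrt_pos.2 (lt_of_lt_of_le hc (le_max_right t c))).ne')
  refine ⟨cfc f h', cfc_predicate f h', ?_, ?_⟩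
  · have hspec : ∀ t ∈ spectrum ℝ h', c ≤ t := by
      refine (algebraMap_le_iff_le_spectrum (a := h') (r := c) hsa).mp ?_
      rw [Algebra.algebraMap_eq_smul_one]
      exact hle
    have h1 : cfc (fun t => f t * f t * t) h' = cfc f h' * cfc f h' * h' := by
      rw [cfc_mul (fun t => f t * f t) (fun t => t) h' (hf.mul hf).continuousOn
        continuous_id.continuousOn, cfc_mul f f h' hf.continuousOn hf.continuousOn,
        cfc_id' ℝ h' hsa]
    have h2 : cfc (fun t => f t * f t * t) h' = cfc (fun _ : ℝ => (1 : ℝ)) h' := by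
      apply cfc_congr
      intro t ht
      have hct := hspec t ht
      have htpos : 0 < t := lt_of_lt_of_le hc hct
      have hs : Real.sqrt t * Real.sqrt t = t := Real.mul_self_sqrt htpos.le
      have hs0 : Real.sqrt t ≠ 0 := (Real.sqrt_pos.2 htpos).ne'
      show f t * f t * t = 1
      rw [hfdef]
      show (Real.sqrt (max t c))⁻¹ * (Real.sqrt (max t c))⁻¹ * t = 1
      rw [max_eq_left hct]
      calc (Real.sqrt t)⁻¹ * (Real.sqrt t)⁻¹ * t
          = (Real.sqrt t)⁻¹ * (Real.sqrt t)⁻¹ * (Real.sqrt t * Real.sqrt t) := by rw [hs]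
        _ = 1 := by field_simp
    rw [← h1, h2, cfc_const_one ℝ h' hsa]
  · intro y hy
    exact ((show Commute h' y from hy).cfc_real f).eq

/-- The product of two commuting star projections is a star projection. -/
lemma taskC2_proj_mul {p q : H →L[ℂ] H} (hp : IsStarProjection p) (hq : IsStarProjection q)
    (hpq : p * q = q * p) : IsStarProjection (p * q) := by
  refine ⟨?_, ?_⟩
  · show p * q * (p * q) = p * q
    calc p * q * (p * q) = p * (q * p) * q := by simp only [mul_assoc]
      _ = p * (p * q) * q := by rw [hpq]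
      _ = (p * p) * (q * q) := by simp only [mul_assoc]
      _ = p * q := by rw [hp.isIdempotentElem.eq, hq.isIdempotentElem.eq]
  · show star (p * q) = p * q
    rw [star_mul, hp.isSelfAdjoint.star_eq, hq.isSelfAdjoint.star_eq, hpq]

theorem exists_partial_isometry_of_ne_zero (M : VonNeumannAlgebra H) {x : H →L[ℂ] H}
    (hxM : x ∈ M) (hx : x ≠ 0) :
    ∃ w ∈ M, w ≠ 0 ∧ IsStarProjection (star w * w) ∧
      (∀ e : H →L[ℂ] H, IsStarProjection e → x * e = x → star w * w * e = star w * w) ∧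
      (∀ f : H →L[ℂ] H, IsStarProjection f → f * x = x → f * w = w) := by
  obtain ⟨h, hh⟩ : ∃ h : H →L[ℂ] H, h = star x * x := ⟨_, rfl⟩
  have hhsa : IsSelfAdjoint h := by rw [hh]; exact IsSelfAdjoint.star_mul_self x
  have hh0 : 0 ≤ h := by rw [hh]; exact star_mul_self_nonneg x
  have hhM : h ∈ M := by rw [hh]; exact mul_mem (star_mem hxM) hxM
  have hhne : h ≠ 0 := by
    intro h0
    have h1 : ‖star x * x‖ = ‖x‖ * ‖x‖ := CStarRing.norm_star_mul_self
    rw [← hh, h0, norm_zero] at h1
    have h2 : ‖x‖ = 0 := by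
      rcases mul_self_eq_zero.mp h1.symm with h3
      exact h3
    exact hx (norm_eq_zero.mp h2)
  have h01 : (0 : H →L[ℂ] H) ≤ 1 := by
    have h1 := star_mul_self_nonneg (1 : H →L[ℂ] H)
    rwa [star_one, one_mul] at h1
  obtain ⟨c, hcdef⟩ : ∃ c : ℝ, c = ‖h‖ / 2 := ⟨_, rfl⟩
  have hnpos : 0 < ‖h‖ := norm_pos_iff.mpr hhne
  have hc : 0 < c := by rw [hcdef]; linarith
  have hc1sa : IsSelfAdjoint (c • (1 : H →L[ℂ] H)) :=
    (IsSelfAdjoint.all c).smul (IsSelfAdjoint.one _)
  -- the double commutant of `h`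
  obtain ⟨W, hW⟩ : ∃ W : VonNeumannAlgebra H, W = (taskG_centralizer {h}).commutant := ⟨_, rfl⟩
  have hhW : h ∈ W := by
    rw [hW, VonNeumannAlgebra.mem_commutant_iff]
    intro y hy
    rw [taskG_mem_centralizer] at hy
    exact ((hy h rfl).1).symm
  obtain ⟨b, hb⟩ : ∃ b : H →L[ℂ] H, b = h - c • (1 : H →L[ℂ] H) := ⟨_, rfl⟩
  have hbW : b ∈ W := by
    rw [hb]
    exact sub_mem hhW (real_smul_mem W (one_mem W) c)
  have hbsa : IsSelfAdjoint b := by
    rw [hb]
    exact hhsa.sub hc1sa
  obtain ⟨g, hgW, hg, hgb, hpos, hneg⟩ := exists_level_projection W hbW hbsa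
  -- `g` commutes with whatever commutes with `h`
  have hgc : ∀ y : H →L[ℂ] H, h * y = y * h → y * g = g * y := by
    intro y hy
    rw [hW, VonNeumannAlgebra.mem_commutant_iff] at hgW
    apply hgW y
    rw [taskG_mem_centralizer]
    intro b' hb'
    rw [Set.mem_singleton_iff] at hb'
    rw [hb']
    exact ⟨hy, by rw [hhsa.star_eq]; exact hy⟩
  have hgh : h * g = g * h := hgc h rfl
  have hgM : g ∈ M := by
    rw [← VonNeumannAlgebra.commutant_commutant M, VonNeumannAlgebra.mem_commutant_iff]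
    intro y hy
    apply hgc y
    rw [VonNeumannAlgebra.mem_commutant_iff] at hy
    exact hy h hhM
  -- `g ≠ 0`
  have hgne : g ≠ 0 := by
    intro g0
    rw [g0, sub_zero, mul_one] at hneg
    have hle : h ≤ algebraMap ℝ (H →L[ℂ] H) c := by
      rw [Algebra.algebraMap_eq_smul_one]
      have h1 := hneg
      rw [hb, sub_nonpos] at h1
      exact h1
    have hge : algebraMap ℝ (H →L[ℂ] H) (-c) ≤ h := by
      rw [Algebra.algebraMap_eq_smul_one]
      refine le_trans ?_ hh0
      rw [neg_smul, neg_nonpos]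
      exact smul_nonneg hc.le h01
    have h3 := norm_le_of_neg_le_of_le hhsa hc.le hge hle
    rw [hcdef] at h3
    linarith
  have hbg : b * g = h * g - c • g := by
    rw [hb, sub_mul, smul_mul_assoc, one_mul]
  -- `g ≤ e` whenever `x * e = x`
  have hge : ∀ e : H →L[ℂ] H, IsStarProjection e → x * e = x → g * e = g := by
    intro e he hxe
    have hhe : h * e = h := by rw [hh, mul_assoc, hxe]
    have heh : e * h = h := by
      have h1 := congrArg star hhe
      rwa [star_mul, he.isSelfAdjoint.star_eq, hhsa.star_eq] at h1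
    have heg : e * g = g * e := hgc e (by rw [hhe, heh])
    have e1 : (1 - e) * h = 0 := by rw [sub_mul, one_mul, heh, sub_self]
    have e2 : (1 - e) * g = g * (1 - e) := by rw [sub_mul, one_mul, heg, mul_sub, mul_one]
    have e3 : (1 - e) * (1 - e) = 1 - e := he.one_sub.isIdempotentElem.eq
    have hg1 : IsStarProjection (g * (1 - e)) := taskC2_proj_mul hg he.one_sub e2.symm
    have t1 : (1 - e) * (h * g) * (1 - e) = 0 := by
      rw [← mul_assoc, e1, zero_mul, zero_mul]
    have t2 : (1 - e) * (c • g) * (1 - e) = c • (g * (1 - e)) := by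
      rw [mul_smul_comm, smul_mul_assoc, e2, mul_assoc, e3]
    have hconj : (1 - e) * (b * g) * (1 - e) = -(c • (g * (1 - e))) := by
      rw [hbg, mul_sub (1 - e) (h * g) (c • g), sub_mul, t1, t2, zero_sub]
    have h0 : 0 ≤ (1 - e) * (b * g) * (1 - e) := by
      have h1 := star_left_conjugate_nonneg hpos (1 - e)
      rwa [he.one_sub.isSelfAdjoint.star_eq] at h1
    rw [hconj] at h0
    have h1 : 0 ≤ c • (g * (1 - e)) := smul_nonneg hc.le hg1.nonneg
    have h2 : c • (g * (1 - e)) = 0 := le_antisymm (neg_nonneg.mp h0) h1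
    have h3 : g * (1 - e) = 0 := by
      rcases smul_eq_zero.mp h2 with h4 | h4
      · exact absurd h4 hc.ne'
      · exact h4
    rw [mul_sub, mul_one, sub_eq_zero] at h3
    exact h3.symm
  -- the modified operator, bounded below by `c`
  obtain ⟨h', hh'⟩ : ∃ h' : H →L[ℂ] H, h' = b * g + c • (1 : H →L[ℂ] H) := ⟨_, rfl⟩
  have hh'sa : IsSelfAdjoint h' := by
    rw [hh']
    exact (IsSelfAdjoint.of_nonneg hpos).add hc1sa
  have hh'le : c • (1 : H →L[ℂ] H) ≤ h' := by
    rw [hh']
    exact le_add_of_nonneg_left hpos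
  have hh'g : h' * g = h * g := by
    rw [hh', add_mul, mul_assoc, hg.isIdempotentElem.eq, smul_mul_assoc, one_mul, hbg,
      sub_add_cancel]
  have hcomm' : ∀ y : H →L[ℂ] H, Commute h y → Commute g y → Commute h' y := by
    intro y hy1 hy2
    rw [hh', hb]
    exact ((hy1.sub_left ((Commute.one_left y).smul_left c)).mul_left hy2).add_left
      ((Commute.one_left y).smul_left c)
  obtain ⟨k, hksa, hkk, hkc⟩ := taskC2_inv_sqrt hh'sa hc hh'le
  have hkg : k * g = g * k := hkc g (hcomm' g hgh (Commute.refl g)).eq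
  have hkh : k * h = h * k := hkc h (hcomm' h (Commute.refl h) hgh.symm).eq
  have hkM : k ∈ M := by
    rw [← VonNeumannAlgebra.commutant_commutant M, VonNeumannAlgebra.mem_commutant_iff]
    intro y hy
    rw [VonNeumannAlgebra.mem_commutant_iff] at hy
    exact (hkc y (hcomm' y (hy h hhM) (hy g hgM)).eq).symm
  -- the partial isometry
  have hww : star (x * k * g) * (x * k * g) = g := by
    have c1 : Commute g (k * h * k) :=
      (((show Commute g k from hkg.symm).mul_right (show Commute g h from hgh.symm)).mul_right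
        (show Commute g k from hkg.symm))
    calc star (x * k * g) * (x * k * g)
        = g * (k * (star x * x) * k) * g := by
          rw [star_mul, star_mul, hg.isSelfAdjoint.star_eq, hksa.star_eq]
          simp only [mul_assoc]
      _ = g * (k * h * k) * g := by rw [hh]
      _ = (k * h * k) * g * g := by rw [c1.eq]
      _ = (k * h * k) * g := by rw [mul_assoc, hg.isIdempotentElem.eq]
      _ = k * k * (h * g) := by
          rw [mul_assoc k h k, ← hkh, ← mul_assoc, mul_assoc (k * k)]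
      _ = k * k * (h' * g) := by rw [hh'g]
      _ = g := by rw [← mul_assoc, hkk, one_mul]
  refine ⟨x * k * g, mul_mem (mul_mem hxM hkM) hgM, ?_, ?_, ?_, ?_⟩
  · intro hw0
    apply hgne
    rw [← hww, hw0, mul_zero]
  · rw [hww]
    exact hg
  · intro e he hxe
    rw [hww]
    exact hge e he hxe
  · intro f _ hfx
    rw [← mul_assoc, ← mul_assoc, hfx]

/-! ### Partial isometries between nonzero projections of a factor -/

theorem factor_exists_partial_isometry (M : VonNeumannAlgebra H) (hF : IsFactor M)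
    {e f : H →L[ℂ] H} (heM : e ∈ M) (hfM : f ∈ M) (he : IsStarProjection e)
    (hf : IsStarProjection f) (he0 : e ≠ 0) (hf0 : f ≠ 0) :
    ∃ w ∈ M, w ≠ 0 ∧ IsStarProjection (star w * w) ∧ e * (star w * w) = star w * w ∧
      f * w = w := by
  obtain ⟨x0, hx0M, hx0⟩ := factor_exists_intertwiner M hF heM hfM he hf he0 hf0
  have hxM : f * x0 * e ∈ M := M.mul_mem (M.mul_mem hfM hx0M) heM
  obtain ⟨w, hwM, hw0, hwp, hwe, hwf⟩ := exists_partial_isometry_of_ne_zero M hxM hx0
  refine ⟨w, hwM, hw0, hwp, ?_, ?_⟩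
  · have h1 := hwe e he (by rw [mul_assoc, he.isIdempotentElem.eq])
    have h2 := congrArg star h1
    rw [star_mul, he.isSelfAdjoint.star_eq, hwp.isSelfAdjoint.star_eq] at h2
    exact h2
  · exact hwf f hf (by rw [← mul_assoc, ← mul_assoc, hf.isIdempotentElem.eq])

/-! ### Adding orthogonal partial isometries -/

/-- An operator `a` for which `star a * a` is a star projection satisfies
`a * (star a * a) = a`. -/
theorem taskC4a_pi {a : H →L[ℂ] H} (h : IsStarProjection (star a * a)) :
    a * (star a * a) = a := by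
  obtain ⟨p, hp⟩ : ∃ p : H →L[ℂ] H, p = star a * a := ⟨_, rfl⟩
  rw [← hp] at h ⊢
  have hpp : p * p = p := h.isIdempotentElem.eq
  have hs : star p = p := h.isSelfAdjoint.star_eq
  have h0 : star (a - a * p) * (a - a * p) = 0 := by
    calc star (a - a * p) * (a - a * p)
        = (star a - p * star a) * (a - a * p) := by rw [star_sub, star_mul, hs]
      _ = star a * a - star a * a * p - p * (star a * a) + p * (star a * a) * p := by
          noncomm_ring
      _ = p - p * p - p * p + p * p * p := by rw [← hp]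
      _ = 0 := by
          rw [hpp, hpp]
          abel
  have h1 : a - a * p = 0 := (CStarRing.star_mul_self_eq_zero_iff _).mp h0
  exact (sub_eq_zero.mp h1).symm

/-- Let `star V * V` be a star projection below `e` with `f * V = V`, and let `w` be another
such operator living on the orthogonal complements of the initial and final projections of `V`.
Then `V + w` is again of this kind (from below `e` to below `f`), it extends `V`, and the
squared norms at `Ω` add. -/
theorem partial_isometry_add (M : VonNeumannAlgebra H) (Ω : H) {e f V w : H →L[ℂ] H}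
    (he : IsStarProjection e) (hf : IsStarProjection f)
    (hVM : V ∈ M) (hV : IsStarProjection (star V * V)) (heV : e * (star V * V) = star V * V)
    (hfV : f * V = V) (hwM : w ∈ M) (hw : IsStarProjection (star w * w))
    (hew : (e - star V * V) * (star w * w) = star w * w) (hfw : (f - V * star V) * w = w) :
    V + w ∈ M ∧ IsStarProjection (star (V + w) * (V + w)) ∧
      e * (star (V + w) * (V + w)) = star (V + w) * (V + w) ∧ f * (V + w) = V + w ∧
      (V + w) * (star V * V) = V ∧
      star (V + w) * (V + w) * (star V * V) = star V * V ∧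
      (V + w) * star (V + w) * (V * star V) = V * star V ∧
      ‖(V + w) Ω‖ ^ 2 = ‖V Ω‖ ^ 2 + ‖w Ω‖ ^ 2 := by
  obtain ⟨G, hG⟩ : ∃ G : H →L[ℂ] H, G = star V * V := ⟨_, rfl⟩
  obtain ⟨g, hg⟩ : ∃ g : H →L[ℂ] H, g = star w * w := ⟨_, rfl⟩
  have VG : V * G = V := by
    rw [hG]
    exact taskC4a_pi hV
  have wg : w * g = w := by
    rw [hg]
    exact taskC4a_pi hw
  rw [← hG] at hV heV hew
  rw [← hg] at hw hew
  have hGG : G * G = G := hV.isIdempotentElem.eq
  have hGs : star G = G := hV.isSelfAdjoint.star_eq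
  have hgs : star g = g := hw.isSelfAdjoint.star_eq
  have hee : e * e = e := he.isIdempotentElem.eq
  have hes : star e = e := he.isSelfAdjoint.star_eq
  have hff : f * f = f := hf.isIdempotentElem.eq
  have hfs : star f = f := hf.isSelfAdjoint.star_eq
  have sV : G * star V = star V := by
    have h := congrArg star VG
    rw [star_mul, hGs] at h
    exact h
  have Ge : G * e = G := by
    have h := congrArg star heV
    rw [star_mul, hGs, hes] at h
    exact h
  have sVf : star V * f = star V := by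
    have h := congrArg star hfV
    rw [star_mul, hfs] at h
    exact h
  have h1 : star V * w = 0 := by
    calc star V * w = star V * ((f - V * star V) * w) := by rw [hfw]
      _ = (star V * f - star V * V * star V) * w := by noncomm_ring
      _ = 0 := by rw [sVf, ← hG, sV, sub_self, zero_mul]
  have h1' : star w * V = 0 := by
    have h := congrArg star h1
    rw [star_mul, star_star, star_zero] at h
    exact h
  have Gg : G * g = 0 := by
    calc G * g = G * ((e - G) * g) := by rw [hew]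
      _ = (G * e - G * G) * g := by noncomm_ring
      _ = 0 := by rw [Ge, hGG, sub_self, zero_mul]
  have gG : g * G = 0 := by
    have h := congrArg star Gg
    rw [star_mul, hGs, hgs, star_zero] at h
    exact h
  have wG : w * G = 0 := by
    calc w * G = w * g * G := by rw [wg]
      _ = w * (g * G) := mul_assoc _ _ _
      _ = 0 := by rw [gG, mul_zero]
  have eg : e * g = g := by
    calc e * g = e * ((e - G) * g) := by rw [hew]
      _ = (e * e - e * G) * g := by noncomm_ring
      _ = g := by rw [hee, heV, hew]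
  have fw : f * w = w := by
    calc f * w = f * ((f - V * star V) * w) := by rw [hfw]
      _ = (f * f - f * V * star V) * w := by noncomm_ring
      _ = w := by rw [hff, hfV, hfw]
  have S : star (V + w) * (V + w) = G + g := by
    calc star (V + w) * (V + w)
        = star V * V + star V * w + star w * V + star w * w := by
          rw [star_add]
          noncomm_ring
      _ = G + g := by rw [h1, h1', ← hG, ← hg, add_zero, add_zero]
  have hVw : (V + w) * G = V := by rw [add_mul, VG, wG, add_zero]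
  refine ⟨M.add_mem hVM hwM, ?_, ?_, ?_, ?_, ?_, ?_, ?_⟩
  · rw [S]
    exact hV.add hw Gg
  · rw [S, mul_add, heV, eg]
  · rw [mul_add, hfV, fw]
  · rw [← hG]
    exact hVw
  · rw [← hG, S, add_mul, hGG, gG, add_zero]
  · calc (V + w) * star (V + w) * (V * star V)
        = (V + w) * ((star V * V + star w * V) * star V) := by
          rw [star_add]
          noncomm_ring
      _ = (V + w) * (G * star V) := by rw [h1', add_zero, ← hG]
      _ = (V + w) * G * star V := (mul_assoc _ _ _).symm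
      _ = V * star V := by rw [hVw]
  · have h2 : (star V) (w Ω) = 0 := by
      have h := congrArg (fun T : H →L[ℂ] H => T Ω) h1
      exact h
    have hin : ⟪V Ω, w Ω⟫_ℂ = 0 := by
      rw [← adjoint_inner_right, ← star_eq_adjoint, h2, inner_zero_right]
    rw [add_apply, norm_add_sq (𝕜 := ℂ), hin]
    simp

/-! ### The greedy exhaustion sequence -/

/-- An operator `w` with `star w * w` a star projection has norm at most one. -/
theorem taskC4b_norm_le_one {w : H →L[ℂ] H} (hw : IsStarProjection (star w * w)) :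
    ‖w‖ ≤ 1 := by
  have h1 : ‖star w * w‖ = ‖w‖ * ‖w‖ := CStarRing.norm_star_mul_self
  have h2 : ‖star w * w‖ ≤ 1 := hw.norm_le
  have h3 : 0 ≤ ‖w‖ := norm_nonneg w
  nlinarith

/-- For such a `w` and a unit vector `Ω`: `‖w Ω‖ ^ 2 ≤ 1`. -/
theorem taskC4b_norm_apply_sq_le_one {w : H →L[ℂ] H} (hw : IsStarProjection (star w * w))
    {Ω : H} (hΩ : ‖Ω‖ = 1) : ‖w Ω‖ ^ 2 ≤ 1 := by
  have h1 : ‖w Ω‖ ≤ ‖w‖ * ‖Ω‖ := w.le_opNorm Ω
  rw [hΩ, mul_one] at h1
  have h2 : ‖w‖ ≤ 1 := taskC4b_norm_le_one hw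
  have h3 : ‖w Ω‖ ≤ 1 := h1.trans h2
  have h4 : 0 ≤ ‖w Ω‖ := norm_nonneg _
  nlinarith

/-- The greedy step: a good `V` is extended to a good `V'` that captures at least half of the
supremum of `‖w Ω‖ ^ 2` over the admissible extensions `w`. -/
theorem taskC4b_step (M : VonNeumannAlgebra H) {Ω : H} (hΩ : ‖Ω‖ = 1) {e f : H →L[ℂ] H}
    (he : IsStarProjection e) (hf : IsStarProjection f) {V : H →L[ℂ] H}
    (hVM : V ∈ M) (hV : IsStarProjection (star V * V)) (heV : e * (star V * V) = star V * V)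
    (hfV : f * V = V) :
    ∃ V' : H →L[ℂ] H,
      (V' ∈ M ∧ IsStarProjection (star V' * V') ∧
        e * (star V' * V') = star V' * V' ∧ f * V' = V') ∧
      (V' * (star V * V) = V ∧
        star V' * V' * (star V * V) = star V * V ∧
        V' * star V' * (V * star V) = V * star V ∧
        ∀ w ∈ M, IsStarProjection (star w * w) →
          (e - star V * V) * (star w * w) = star w * w →
          (f - V * star V) * w = w → ‖w Ω‖ ^ 2 ≤ 2 * (‖V' Ω‖ ^ 2 - ‖V Ω‖ ^ 2)) := by
  classical
  obtain ⟨S, hS⟩ : ∃ S : Set ℝ, S = {t | ∃ w ∈ M, IsStarProjection (star w * w) ∧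
      (e - star V * V) * (star w * w) = star w * w ∧ (f - V * star V) * w = w ∧
      t = ‖w Ω‖ ^ 2} := ⟨_, rfl⟩
  have h0S : (0 : ℝ) ∈ S := by
    rw [hS]
    refine ⟨0, zero_mem M, ?_, ?_, ?_, ?_⟩
    · rw [mul_zero]
      exact IsStarProjection.zero _
    · rw [mul_zero, mul_zero]
    · rw [mul_zero]
    · simp
  have hbdd : BddAbove S := by
    refine ⟨1, ?_⟩
    intro t ht
    rw [hS] at ht
    obtain ⟨w, -, hw, -, -, rfl⟩ := ht
    exact taskC4b_norm_apply_sq_le_one hw hΩ
  have hne : S.Nonempty := ⟨0, h0S⟩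
  obtain ⟨w0, hw0M, hw0, hew0, hfw0, hs⟩ : ∃ w0 ∈ M, IsStarProjection (star w0 * w0) ∧
      (e - star V * V) * (star w0 * w0) = star w0 * w0 ∧ (f - V * star V) * w0 = w0 ∧
      sSup S ≤ 2 * ‖w0 Ω‖ ^ 2 := by
    by_cases hpos : 0 < sSup S
    · have hlt : sSup S / 2 < sSup S := by linarith
      obtain ⟨t, ht, hlt'⟩ := exists_lt_of_lt_csSup hne hlt
      rw [hS] at ht
      obtain ⟨w, hwM, hw, h1, h2, rfl⟩ := ht
      exact ⟨w, hwM, hw, h1, h2, by linarith⟩
    · rw [hS] at h0S
      obtain ⟨w, hwM, hw, h1, h2, -⟩ := h0S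
      refine ⟨w, hwM, hw, h1, h2, ?_⟩
      have h3 : 0 ≤ ‖w Ω‖ ^ 2 := by positivity
      have h4 : sSup S ≤ 0 := not_lt.mp hpos
      linarith
  obtain ⟨h1, h2, h3, h4, h5, h6, h7, h8⟩ :=
    partial_isometry_add M Ω he hf hVM hV heV hfV hw0M hw0 hew0 hfw0
  refine ⟨V + w0, ⟨h1, h2, h3, h4⟩, h5, h6, h7, ?_⟩
  intro w hwM hw hew hfw
  have hmem : ‖w Ω‖ ^ 2 ∈ S := by
    rw [hS]
    exact ⟨w, hwM, hw, hew, hfw, rfl⟩
  have hle : ‖w Ω‖ ^ 2 ≤ sSup S := le_csSup hbdd hmem
  rw [h8]
  linarith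

theorem exists_exhausting_sequence (M : VonNeumannAlgebra H) {Ω : H} (hΩ : IsTraceVector M Ω)
    (hsep : IsSeparating M Ω) {e f : H →L[ℂ] H} (heM : e ∈ M) (hfM : f ∈ M)
    (he : IsStarProjection e) (hf : IsStarProjection f) :
    ∃ V : ℕ → H →L[ℂ] H,
      (∀ n, V n ∈ M ∧ IsStarProjection (star (V n) * V n) ∧
        e * (star (V n) * V n) = star (V n) * V n ∧ f * V n = V n) ∧
      (∀ n, V (n + 1) * (star (V n) * V n) = V n) ∧
      (∀ n, star (V (n + 1)) * V (n + 1) * (star (V n) * V n) = star (V n) * V n) ∧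
      (∀ n, V (n + 1) * star (V (n + 1)) * (V n * star (V n)) = V n * star (V n)) ∧
      (∀ w ∈ M, IsStarProjection (star w * w) →
        (∀ n, (e - star (V n) * V n) * (star w * w) = star w * w) →
        (∀ n, (f - V n * star (V n)) * w = w) → w = 0) := by
  have _heM := heM
  have _hfM := hfM
  obtain ⟨P, hP⟩ : ∃ P : ℕ → (H →L[ℂ] H) → Prop, P = fun _ a =>
      a ∈ M ∧ IsStarProjection (star a * a) ∧ e * (star a * a) = star a * a ∧ f * a = a :=
    ⟨_, rfl⟩
  obtain ⟨R, hR⟩ : ∃ R : (H →L[ℂ] H) → (H →L[ℂ] H) → Prop, R = fun a b =>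
      b * (star a * a) = a ∧ star b * b * (star a * a) = star a * a ∧
      b * star b * (a * star a) = a * star a ∧
      ∀ w ∈ M, IsStarProjection (star w * w) →
        (e - star a * a) * (star w * w) = star w * w →
        (f - a * star a) * w = w → ‖w Ω‖ ^ 2 ≤ 2 * (‖b Ω‖ ^ 2 - ‖a Ω‖ ^ 2) := ⟨_, rfl⟩
  have h0 : P 0 0 := by
    rw [hP]
    refine ⟨zero_mem M, ?_, ?_, ?_⟩
    · rw [mul_zero]
      exact IsStarProjection.zero _
    · rw [mul_zero, mul_zero]
    · rw [mul_zero]
  have hstep : ∀ n a, P n a → ∃ b, P (n + 1) b ∧ R a b := by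
    intro n a ha
    rw [hP] at ha
    obtain ⟨b, hb1, hb2⟩ := taskC4b_step M hΩ.1 he hf ha.1 ha.2.1 ha.2.2.1 ha.2.2.2
    refine ⟨b, ?_, ?_⟩
    · rw [hP]
      exact hb1
    · rw [hR]
      exact hb2
  obtain ⟨V, hVP, hVR⟩ := exists_seq_of_step P R 0 h0 hstep
  rw [hP] at hVP
  rw [hR] at hVR
  refine ⟨V, hVP, fun n => (hVR n).1, fun n => (hVR n).2.1, fun n => (hVR n).2.2.1, ?_⟩
  intro w hwM hw hew hfw
  have hkey : ∀ n, ‖w Ω‖ ^ 2 ≤ 2 * (‖V (n + 1) Ω‖ ^ 2 - ‖V n Ω‖ ^ 2) :=
    fun n => (hVR n).2.2.2 w hwM hw (hew n) (hfw n)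
  have hsum : ∀ N : ℕ, (N : ℝ) * ‖w Ω‖ ^ 2 ≤ 2 * (‖V N Ω‖ ^ 2 - ‖V 0 Ω‖ ^ 2) := by
    intro N
    induction N with
    | zero => simp
    | succ N ih =>
      have h1 := hkey N
      push_cast
      linarith
  have hz : ‖w Ω‖ ^ 2 = 0 := by
    refine eq_zero_of_nat_mul_le (C := 2) (by positivity) (fun m => ?_)
    have h1 := hsum m
    have h2 : ‖V m Ω‖ ^ 2 ≤ 1 := taskC4b_norm_apply_sq_le_one (hVP m).2.1 hΩ.1
    have h3 : 0 ≤ ‖V 0 Ω‖ ^ 2 := by positivity
    linarith
  have hwΩ : w Ω = 0 := by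
    have h1 : ‖w Ω‖ = 0 := by
      rcases pow_eq_zero_iff (n := 2) (by norm_num) |>.mp hz with h
      exact h
    exact norm_eq_zero.mp h1
  exact hsep w hwM hwΩ

/-! ### Increasing sequences of projections converge strongly -/

/-- An increasing sequence of projections: later members fix the ranges of earlier ones. -/
lemma taskC5a_mono (G : ℕ → H →L[ℂ] H) (hGp : ∀ m, IsStarProjection (G m))
    (hmono : ∀ m, G (m + 1) * G m = G m) (m : ℕ) : ∀ k, G (m + k) * G m = G m := by
  intro k
  induction k with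
  | zero => exact (hGp m).isIdempotentElem.eq
  | succ k ih =>
    calc G (m + (k + 1)) * G m = G (m + k + 1) * (G (m + k) * G m) := by rw [ih, add_assoc]
      _ = (G (m + k + 1) * G (m + k)) * G m := (mul_assoc _ _ _).symm
      _ = G m := by rw [hmono, ih]

lemma taskC5a_mono' (G : ℕ → H →L[ℂ] H) (hGp : ∀ m, IsStarProjection (G m))
    (hmono : ∀ m, G (m + 1) * G m = G m) {m n : ℕ} (hmn : m ≤ n) : G n * G m = G m := by
  obtain ⟨k, rfl⟩ := Nat.exists_eq_add_of_le hmn
  exact taskC5a_mono G hGp hmono m k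

/-- Every vector of the span of the vectors fixed by some member is fixed by all late members. -/
lemma taskC5a_eventually_fixed (G : ℕ → H →L[ℂ] H) (hGp : ∀ m, IsStarProjection (G m))
    (hmono : ∀ m, G (m + 1) * G m = G m) {v : H}
    (hv : v ∈ Submodule.span ℂ {w : H | ∃ m, G m w = w}) :
    ∃ m0, ∀ m, m0 ≤ m → G m v = v := by
  induction hv using Submodule.span_induction with
  | mem w hw =>
    obtain ⟨m0, hm0⟩ := hw
    refine ⟨m0, fun m hm => ?_⟩
    calc G m w = G m (G m0 w) := by rw [hm0]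
      _ = (G m * G m0) w := (mul_apply_eq_comp _ _ _).symm
      _ = w := by rw [taskC5a_mono' G hGp hmono hm, hm0]
  | zero => exact ⟨0, fun m _ => map_zero _⟩
  | add x y _ _ hx hy =>
    obtain ⟨m1, h1⟩ := hx
    obtain ⟨m2, h2⟩ := hy
    refine ⟨max m1 m2, fun m hm => ?_⟩
    rw [map_add, h1 m (le_trans (le_max_left _ _) hm), h2 m (le_trans (le_max_right _ _) hm)]
  | smul a x _ hx =>
    obtain ⟨m1, h1⟩ := hx
    refine ⟨m1, fun m hm => ?_⟩
    rw [map_smul, h1 m hm]

theorem tendsto_of_seq_sup (G : ℕ → H →L[ℂ] H) (hGp : ∀ m, IsStarProjection (G m))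
    (hmono : ∀ m, G (m + 1) * G m = G m) {Q : H →L[ℂ] H} (hQ : IsStarProjection Q)
    (hQG : ∀ m, Q * G m = G m)
    (hlub : ∀ U : H →L[ℂ] H, (∀ m, U * G m = G m) → U * Q = Q) (ξ : H) :
    Tendsto (fun m => G m ξ) atTop (𝓝 (Q ξ)) := by
  -- `G m * Q = G m`
  have hGQ : ∀ m, G m * Q = G m := by
    intro m
    have h := congrArg star (hQG m)
    rw [star_mul, (hGp m).isSelfAdjoint.star_eq, hQ.isSelfAdjoint.star_eq] at h
    exact h
  obtain ⟨S, hS⟩ : ∃ S : Submodule ℂ H, S = Submodule.span ℂ {w : H | ∃ m, G m w = w} :=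
    ⟨_, rfl⟩
  have hrange : ∀ m η, G m η ∈ S := by
    intro m η
    rw [hS]
    refine Submodule.subset_span ⟨m, ?_⟩
    calc G m (G m η) = (G m * G m) η := (mul_apply_eq_comp _ _ _).symm
      _ = G m η := by rw [(hGp m).isIdempotentElem.eq]
  -- the projection onto the closure of `S` fixes every `G m`
  have hU : ∀ m, S.topologicalClosure.starProjection * G m = G m := by
    intro m
    ext η
    rw [mul_apply_eq_comp]
    exact Submodule.starProjection_eq_self_iff.mpr (S.le_topologicalClosure (hrange m η))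
  have hUQ := hlub _ hU
  have hmem : Q ξ ∈ S.topologicalClosure := by
    have h1 : S.topologicalClosure.starProjection (Q ξ) = Q ξ := by
      calc S.topologicalClosure.starProjection (Q ξ)
          = (S.topologicalClosure.starProjection * Q) ξ := (mul_apply_eq_comp _ _ _).symm
        _ = Q ξ := by rw [hUQ]
    rw [← h1]
    exact Submodule.starProjection_apply_mem _ _
  have hcl : Q ξ ∈ closure (S : Set H) := by
    rw [← Submodule.topologicalClosure_coe]
    exact hmem
  rw [Metric.tendsto_atTop]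
  intro ε hε
  obtain ⟨v, hvS, hv⟩ := Metric.mem_closure_iff.mp hcl (ε / 2) (half_pos hε)
  have hvS' : v ∈ Submodule.span ℂ {w : H | ∃ m, G m w = w} := by
    rw [← hS]
    exact hvS
  obtain ⟨m0, hm0⟩ := taskC5a_eventually_fixed G hGp hmono hvS'
  refine ⟨m0, fun m hm => ?_⟩
  rw [dist_eq_norm] at hv ⊢
  have h1 : G m ξ = G m (Q ξ) := by
    calc G m ξ = (G m * Q) ξ := by rw [hGQ]
      _ = G m (Q ξ) := mul_apply_eq_comp _ _ _
  have h2 : G m ξ - Q ξ = G m (Q ξ - v) + (v - Q ξ) := by
    rw [h1, map_sub, hm0 m hm]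
    abel
  have h3 : ‖G m (Q ξ - v)‖ ≤ ‖Q ξ - v‖ := by
    calc ‖G m (Q ξ - v)‖ ≤ ‖G m‖ * ‖Q ξ - v‖ := le_opNorm _ _
      _ ≤ 1 * ‖Q ξ - v‖ :=
          mul_le_mul_of_nonneg_right (IsStarProjection.norm_le _ (hGp m)) (norm_nonneg _)
      _ = ‖Q ξ - v‖ := one_mul _
  have h4 : ‖v - Q ξ‖ = ‖Q ξ - v‖ := norm_sub_rev _ _
  calc ‖G m ξ - Q ξ‖ = ‖G m (Q ξ - v) + (v - Q ξ)‖ := by rw [h2]
    _ ≤ ‖G m (Q ξ - v)‖ + ‖v - Q ξ‖ := norm_add_le _ _
    _ ≤ ‖Q ξ - v‖ + ‖Q ξ - v‖ := by rw [h4]; exact add_le_add_left h3 _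
    _ < ε / 2 + ε / 2 := add_lt_add hv hv
    _ = ε := add_halves ε

/-! ### The limit of a coherent sequence of partial isometries -/

/-- An operator `w` with `star w * w` a projection is fixed by right multiplication with
that projection. -/
lemma taskC5b_mul_proj {w : H →L[ℂ] H} (hw : IsStarProjection (star w * w)) :
    w * (star w * w) = w := by
  have hg : star w * w * (star w * w) = star w * w := hw.isIdempotentElem.eq
  have hz : star (w * (1 - star w * w)) * (w * (1 - star w * w)) = 0 := by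
    have hs : star (1 - star w * w) = 1 - star w * w := by
      rw [star_sub, star_one, star_mul, star_star]
    rw [star_mul, hs]
    calc (1 - star w * w) * star w * (w * (1 - star w * w))
        = (1 - star w * w) * ((star w * w) * (1 - star w * w)) := by simp only [mul_assoc]
      _ = (1 - star w * w) * (star w * w - star w * w * (star w * w)) := by
          rw [mul_sub, mul_one]
      _ = 0 := by rw [hg, sub_self, mul_zero]
  have h0 := (CStarRing.star_mul_self_eq_zero_iff _).mp hz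
  rw [mul_sub, mul_one] at h0
  exact (sub_eq_zero.mp h0).symm

/-- An operator `w` with `star w * w` a projection has norm at most one. -/
lemma taskC5b_norm_le {w : H →L[ℂ] H} (hw : IsStarProjection (star w * w)) : ‖w‖ ≤ 1 := by
  have h1 : ‖star w * w‖ ≤ 1 := IsStarProjection.norm_le _ hw
  rw [CStarRing.norm_star_mul_self] at h1
  by_contra h
  push Not at h
  nlinarith [norm_nonneg w]

/-- A coherent sequence of operators `V n` with `star (V n) * V n` projections that converge
strongly converges pointwise. -/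
lemma taskC5b_exists_tendsto (V : ℕ → H →L[ℂ] H)
    (hVp : ∀ n, IsStarProjection (star (V n) * V n))
    (hext : ∀ n, V (n + 1) * (star (V n) * V n) = V n)
    (hmono : ∀ n, star (V (n + 1)) * V (n + 1) * (star (V n) * V n) = star (V n) * V n)
    {Q : H →L[ℂ] H}
    (hQ : ∀ ξ : H, Tendsto (fun n => (star (V n) * V n) ξ) atTop (𝓝 (Q ξ))) (ξ : H) :
    ∃ l : H, Tendsto (fun n => V n ξ) atTop (𝓝 l) := by
  have hpi : ∀ n, V n * (star (V n) * V n) = V n := fun n => taskC5b_mul_proj (hVp n)
  have hnorm : ∀ n, ‖V n‖ ≤ 1 := fun n => taskC5b_norm_le (hVp n)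
  have hGG : ∀ n m, n ≤ m →
      star (V m) * V m * (star (V n) * V n) = star (V n) * V n := by
    intro n m hnm
    induction m, hnm using Nat.le_induction with
    | base => exact (hVp n).isIdempotentElem.eq
    | succ m hnm ih =>
      calc star (V (m + 1)) * V (m + 1) * (star (V n) * V n)
          = star (V (m + 1)) * V (m + 1) * (star (V m) * V m * (star (V n) * V n)) := by
            rw [ih]
        _ = (star (V (m + 1)) * V (m + 1) * (star (V m) * V m)) * (star (V n) * V n) := by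
            simp only [mul_assoc]
        _ = star (V m) * V m * (star (V n) * V n) := by rw [hmono m]
        _ = star (V n) * V n := ih
  have hVG : ∀ n m, n ≤ m → V m * (star (V n) * V n) = V n := by
    intro n m hnm
    induction m, hnm using Nat.le_induction with
    | base => exact hpi n
    | succ m hnm ih =>
      calc V (m + 1) * (star (V n) * V n)
          = V (m + 1) * (star (V m) * V m * (star (V n) * V n)) := by rw [hGG n m hnm]
        _ = (V (m + 1) * (star (V m) * V m)) * (star (V n) * V n) := by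
            simp only [mul_assoc]
        _ = V m * (star (V n) * V n) := by rw [hext m]
        _ = V n := ih
  have hdist : ∀ n m, n ≤ m →
      dist (V m ξ) (V n ξ) ≤ dist ((star (V m) * V m) ξ) ((star (V n) * V n) ξ) := by
    intro n m hnm
    have h1 : V m ((star (V m) * V m) ξ) = V m ξ := by
      show (V m * (star (V m) * V m)) ξ = V m ξ
      rw [hpi m]
    have h2 : V m ((star (V n) * V n) ξ) = V n ξ := by
      show (V m * (star (V n) * V n)) ξ = V n ξ
      rw [hVG n m hnm]
    rw [dist_eq_norm, dist_eq_norm]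
    calc ‖V m ξ - V n ξ‖ = ‖V m ((star (V m) * V m) ξ - (star (V n) * V n) ξ)‖ := by
          rw [map_sub, h1, h2]
      _ ≤ ‖V m‖ * ‖(star (V m) * V m) ξ - (star (V n) * V n) ξ‖ := le_opNorm _ _
      _ ≤ 1 * ‖(star (V m) * V m) ξ - (star (V n) * V n) ξ‖ :=
          mul_le_mul_of_nonneg_right (hnorm m) (norm_nonneg _)
      _ = ‖(star (V m) * V m) ξ - (star (V n) * V n) ξ‖ := one_mul _
  have hc : CauchySeq (fun n => V n ξ) := by
    rw [Metric.cauchySeq_iff]
    intro ε hε
    obtain ⟨N, hN⟩ := Metric.cauchySeq_iff.mp (hQ ξ).cauchySeq ε hε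
    refine ⟨N, fun m hm n hn => ?_⟩
    rcases le_total n m with hnm | hmn
    · exact lt_of_le_of_lt (hdist n m hnm) (hN m hm n hn)
    · rw [dist_comm]
      exact lt_of_le_of_lt (hdist m n hmn) (hN n hn m hm)
  exact cauchySeq_tendsto_of_complete hc

/-- A pointwise convergent sequence of bounded operators has a bounded operator as its
pointwise limit (Banach-Steinhaus). -/
lemma taskC5b_limit (V : ℕ → H →L[ℂ] H)
    (h : ∀ ξ : H, ∃ l : H, Tendsto (fun n => V n ξ) atTop (𝓝 l)) :
    ∃ W : H →L[ℂ] H, ∀ ξ : H, Tendsto (fun n => V n ξ) atTop (𝓝 (W ξ)) := by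
  choose f hf using h
  exact ⟨continuousLinearMapOfTendsto V (tendsto_pi_nhds.mpr hf), hf⟩

theorem exists_limit_partial_isometry (M : VonNeumannAlgebra H) (V : ℕ → H →L[ℂ] H)
    (hVM : ∀ n, V n ∈ M) (hVp : ∀ n, IsStarProjection (star (V n) * V n))
    (hext : ∀ n, V (n + 1) * (star (V n) * V n) = V n)
    (hmono : ∀ n, star (V (n + 1)) * V (n + 1) * (star (V n) * V n) = star (V n) * V n)
    (hmono' : ∀ n, V (n + 1) * star (V (n + 1)) * (V n * star (V n)) = V n * star (V n))
    {Q Q' : H →L[ℂ] H}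
    (hQ : ∀ ξ : H, Tendsto (fun n => (star (V n) * V n) ξ) atTop (𝓝 (Q ξ)))
    (hQ' : ∀ ξ : H, Tendsto (fun n => (V n * star (V n)) ξ) atTop (𝓝 (Q' ξ))) :
    ∃ W ∈ M, star W * W = Q ∧ W * star W = Q' := by
  have hpi : ∀ n, V n * (star (V n) * V n) = V n := fun n => taskC5b_mul_proj (hVp n)
  have hpiS : ∀ n, star (V n) * V n * star (V n) = star (V n) := by
    intro n
    have h := congrArg star (hpi n)
    rw [star_mul, star_mul, star_star] at h
    exact h
  have hFp : ∀ n, IsStarProjection (star (star (V n)) * star (V n)) := by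
    intro n
    rw [star_star]
    refine ⟨?_, ?_⟩
    · show V n * star (V n) * (V n * star (V n)) = V n * star (V n)
      calc V n * star (V n) * (V n * star (V n))
          = V n * (star (V n) * V n * star (V n)) := by simp only [mul_assoc]
        _ = V n * star (V n) := by rw [hpiS n]
    · show star (V n * star (V n)) = V n * star (V n)
      rw [star_mul, star_star]
  have hextS : ∀ n,
      star (V (n + 1)) * (star (star (V n)) * star (V n)) = star (V n) := by
    intro n
    rw [star_star]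
    calc star (V (n + 1)) * (V n * star (V n))
        = star (V (n + 1)) * (V (n + 1) * (star (V n) * V n) * star (V n)) := by
          rw [hext n]
      _ = (star (V (n + 1)) * V (n + 1) * (star (V n) * V n)) * star (V n) := by
          simp only [mul_assoc]
      _ = star (V n) * V n * star (V n) := by rw [hmono n]
      _ = star (V n) := hpiS n
  have hmonoS : ∀ n, star (star (V (n + 1))) * star (V (n + 1)) *
      (star (star (V n)) * star (V n)) = star (star (V n)) * star (V n) := by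
    intro n
    simp only [star_star]
    exact hmono' n
  have hQS : ∀ ξ : H,
      Tendsto (fun n => (star (star (V n)) * star (V n)) ξ) atTop (𝓝 (Q' ξ)) := by
    intro ξ
    simp only [star_star]
    exact hQ' ξ
  obtain ⟨W, hW⟩ := taskC5b_limit V (taskC5b_exists_tendsto V hVp hext hmono hQ)
  obtain ⟨W2, hW2⟩ := taskC5b_limit (fun n => star (V n))
    (taskC5b_exists_tendsto (fun n => star (V n)) hFp hextS hmonoS hQS)
  have hadj : W2 = star W := by
    rw [ContinuousLinearMap.star_eq_adjoint, ContinuousLinearMap.eq_adjoint_iff]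
    intro ξ η
    have h1 : Tendsto (fun n => ⟪star (V n) ξ, η⟫_ℂ) atTop (𝓝 ⟪W2 ξ, η⟫_ℂ) :=
      (hW2 ξ).inner tendsto_const_nhds
    have h2 : Tendsto (fun n => ⟪ξ, V n η⟫_ℂ) atTop (𝓝 ⟪ξ, W η⟫_ℂ) :=
      tendsto_const_nhds.inner (hW η)
    have h3 : (fun n => ⟪star (V n) ξ, η⟫_ℂ) = (fun n => ⟪ξ, V n η⟫_ℂ) := by
      funext n
      rw [ContinuousLinearMap.star_eq_adjoint, ContinuousLinearMap.adjoint_inner_left]
    rw [h3] at h1
    exact tendsto_nhds_unique h1 h2
  refine ⟨W, ?_, ?_, ?_⟩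
  · rw [← VonNeumannAlgebra.commutant_commutant M, VonNeumannAlgebra.mem_commutant_iff]
    intro y hy
    refine ContinuousLinearMap.ext fun ξ => ?_
    show y (W ξ) = W (y ξ)
    have h1 : Tendsto (fun n => y (V n ξ)) atTop (𝓝 (y (W ξ))) :=
      (y.continuous.tendsto _).comp (hW ξ)
    have h2 : Tendsto (fun n => V n (y ξ)) atTop (𝓝 (W (y ξ))) := hW (y ξ)
    have h3 : (fun n => y (V n ξ)) = (fun n => V n (y ξ)) := by
      funext n
      have hc : V n * y = y * V n :=
        (VonNeumannAlgebra.mem_commutant_iff.mp hy) (V n) (hVM n)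
      have h := congrArg (fun T : H →L[ℂ] H => T ξ) hc
      exact h.symm
    rw [h3] at h1
    exact tendsto_nhds_unique h1 h2
  · refine ContinuousLinearMap.ext fun η => ?_
    refine ext_inner_left ℂ fun ξ => ?_
    have h1 : Tendsto (fun n => ⟪V n ξ, V n η⟫_ℂ) atTop (𝓝 ⟪W ξ, W η⟫_ℂ) :=
      (hW ξ).inner (hW η)
    have h2 : Tendsto (fun n => ⟪ξ, (star (V n) * V n) η⟫_ℂ) atTop (𝓝 ⟪ξ, Q η⟫_ℂ) :=
      tendsto_const_nhds.inner (hQ η)
    have h3 : (fun n => ⟪V n ξ, V n η⟫_ℂ) = (fun n => ⟪ξ, (star (V n) * V n) η⟫_ℂ) := by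
      funext n
      show ⟪V n ξ, V n η⟫_ℂ = ⟪ξ, star (V n) (V n η)⟫_ℂ
      rw [ContinuousLinearMap.star_eq_adjoint, ContinuousLinearMap.adjoint_inner_right]
    rw [h3] at h1
    have h4 : ⟪W ξ, W η⟫_ℂ = ⟪ξ, Q η⟫_ℂ := tendsto_nhds_unique h1 h2
    show ⟪ξ, star W (W η)⟫_ℂ = ⟪ξ, Q η⟫_ℂ
    rw [ContinuousLinearMap.star_eq_adjoint, ContinuousLinearMap.adjoint_inner_right]
    exact h4
  · rw [← hadj]
    refine ContinuousLinearMap.ext fun η => ?_
    refine ext_inner_left ℂ fun ξ => ?_
    have h1 : Tendsto (fun n => ⟪star (V n) ξ, star (V n) η⟫_ℂ) atTop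
        (𝓝 ⟪W2 ξ, W2 η⟫_ℂ) := (hW2 ξ).inner (hW2 η)
    have h2 : Tendsto (fun n => ⟪ξ, (V n * star (V n)) η⟫_ℂ) atTop (𝓝 ⟪ξ, Q' η⟫_ℂ) :=
      tendsto_const_nhds.inner (hQ' η)
    have h3 : (fun n => ⟪star (V n) ξ, star (V n) η⟫_ℂ) =
        (fun n => ⟪ξ, (V n * star (V n)) η⟫_ℂ) := by
      funext n
      show ⟪star (V n) ξ, star (V n) η⟫_ℂ = ⟪ξ, V n (star (V n) η)⟫_ℂ
      rw [ContinuousLinearMap.star_eq_adjoint, ContinuousLinearMap.adjoint_inner_left]
    rw [h3] at h1
    have h4 : ⟪W2 ξ, W2 η⟫_ℂ = ⟪ξ, Q' η⟫_ℂ := tendsto_nhds_unique h1 h2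
    show ⟪ξ, W (W2 η)⟫_ℂ = ⟪ξ, Q' η⟫_ℂ
    rw [← h4, hadj, ContinuousLinearMap.star_eq_adjoint,
      ContinuousLinearMap.adjoint_inner_left]

/-! ### Projections of equal trace are equivalent -/

/-- If `w* w` is a projection then `w (w* w) = w`. -/
theorem taskC6_pi_mul {w : H →L[ℂ] H} (hw : IsStarProjection (star w * w)) :
    w * (star w * w) = w := by
  ext ξ
  have hg : (star w * w) ((star w * w) ξ) = (star w * w) ξ := by
    rw [← mul_apply_eq_comp, hw.isIdempotentElem.eq]
  have key : (star w * w) (ξ - (star w * w) ξ) = 0 := by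
    rw [map_sub, hg, sub_self]
  have h1 : ⟪w (ξ - (star w * w) ξ), w (ξ - (star w * w) ξ)⟫_ℂ = 0 := by
    rw [← adjoint_inner_right, ← star_eq_adjoint, ← mul_apply_eq_comp, key,
      inner_zero_right]
  have h0 : w (ξ - (star w * w) ξ) = 0 := inner_self_eq_zero.mp h1
  rw [map_sub, sub_eq_zero] at h0
  rw [mul_apply_eq_comp]
  exact h0.symm

/-- If `w* w` is a projection then so is `w w*`. -/
theorem taskC6_range_proj {w : H →L[ℂ] H} (hw : IsStarProjection (star w * w)) :
    IsStarProjection (w * star w) := by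
  refine ⟨?_, ?_⟩
  · have h := taskC6_pi_mul hw
    show w * star w * (w * star w) = w * star w
    calc w * star w * (w * star w) = (w * (star w * w)) * star w := by simp only [mul_assoc]
      _ = w * star w := by rw [h]
  · show star (w * star w) = w * star w
    rw [star_mul, star_star]

/-- The complement of a subprojection inside a projection is a projection. -/
theorem taskC6_sub_proj {e Q : H →L[ℂ] H} (he : IsStarProjection e) (hQ : IsStarProjection Q)
    (h : e * Q = Q) : IsStarProjection (e - Q) := by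
  have h' : Q * e = Q := taskS_mul_comm_of_le he hQ h
  refine ⟨?_, ?_⟩
  · show (e - Q) * (e - Q) = e - Q
    rw [sub_mul, mul_sub, mul_sub, he.isIdempotentElem.eq, hQ.isIdempotentElem.eq, h, h',
      sub_self, sub_zero]
  · show star (e - Q) = e - Q
    rw [star_sub, he.isSelfAdjoint.star_eq, hQ.isSelfAdjoint.star_eq]

/-- The vector state of a projection is the squared norm of the projected vector. -/
theorem taskC6_inner_proj {p : H →L[ℂ] H} (hp : IsStarProjection p) (ξ : H) :
    (⟪ξ, p ξ⟫_ℂ).re = ‖p ξ‖ ^ 2 := by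
  rw [taskW3_proj_inner hp ξ ξ]
  exact inner_self_eq_norm_sq (𝕜 := ℂ) (p ξ)

/-- Additivity of the squared norms over a projection and a subprojection. -/
theorem taskC6_norm_sq_split {e Q : H →L[ℂ] H} (he : IsStarProjection e)
    (hQ : IsStarProjection Q) (h : e * Q = Q) (Ω : H) :
    ‖e Ω‖ ^ 2 = ‖(e - Q) Ω‖ ^ 2 + ‖Q Ω‖ ^ 2 := by
  have hsum : e Ω = (e - Q) Ω + Q Ω := by
    rw [_root_.sub_apply, sub_add_cancel]
  have a1 := taskC6_inner_proj he Ω
  have a2 := taskC6_inner_proj (taskC6_sub_proj he hQ h) Ω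
  have a3 := taskC6_inner_proj hQ Ω
  have a4 : (⟪Ω, e Ω⟫_ℂ).re = (⟪Ω, (e - Q) Ω⟫_ℂ).re + (⟪Ω, Q Ω⟫_ℂ).re := by
    rw [← Complex.add_re, ← inner_add_right, ← hsum]
  linarith

/-- The complement of the supremum absorbs the complements of the members. -/
theorem taskC6_compl_mul {e Q G : H →L[ℂ] H} (he : IsStarProjection e)
    (hQ : IsStarProjection Q) (hG : IsStarProjection G) (heQ : e * Q = Q) (heG : e * G = G)
    (hQG : Q * G = G) : (e - G) * (e - Q) = e - Q := by
  have hGe : G * e = G := taskS_mul_comm_of_le he hG heG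
  have hGQ : G * Q = G := taskS_mul_comm_of_le hQ hG hQG
  rw [sub_mul, mul_sub, mul_sub, he.isIdempotentElem.eq, heQ, hGe, hGQ, sub_self, sub_zero]

theorem exists_partial_isometry_of_trace_eq (M : VonNeumannAlgebra H) (hF : IsFactor M)
    {Ω : H} (hΩ : IsTraceVector M Ω) (hsep : IsSeparating M Ω) {e f : H →L[ℂ] H}
    (heM : e ∈ M) (hfM : f ∈ M) (he : IsStarProjection e) (hf : IsStarProjection f)
    (htr : ‖e Ω‖ = ‖f Ω‖) :
    ∃ W ∈ M, star W * W = e ∧ W * star W = f := by
  obtain ⟨V, hV, hext, hmono, hmono', hmax⟩ :=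
    exists_exhausting_sequence M hΩ hsep heM hfM he hf
  have hVM : ∀ n, V n ∈ M := fun n => (hV n).1
  have hGp : ∀ n, IsStarProjection (star (V n) * V n) := fun n => (hV n).2.1
  have heG : ∀ n, e * (star (V n) * V n) = star (V n) * V n := fun n => (hV n).2.2.1
  have hfV : ∀ n, f * V n = V n := fun n => (hV n).2.2.2
  have hFp : ∀ n, IsStarProjection (V n * star (V n)) := fun n => taskC6_range_proj (hGp n)
  have hfF : ∀ n, f * (V n * star (V n)) = V n * star (V n) := by
    intro n
    rw [← mul_assoc, hfV n]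
  have hGM : ∀ n, star (V n) * V n ∈ M := fun n => mul_mem (star_mem (hVM n)) (hVM n)
  have hFM : ∀ n, V n * star (V n) ∈ M := fun n => mul_mem (hVM n) (star_mem (hVM n))
  obtain ⟨Q, hQM, hQp, hQG0, hQlub⟩ :=
    exists_seq_sup M (fun n => star (V n) * V n) hGM hGp hmono
  obtain ⟨Q', hQ'M, hQ'p, hQ'F0, hQ'lub⟩ :=
    exists_seq_sup M (fun n => V n * star (V n)) hFM hFp hmono'
  have hQG : ∀ n, Q * (star (V n) * V n) = star (V n) * V n := hQG0
  have hQ'F : ∀ n, Q' * (V n * star (V n)) = V n * star (V n) := hQ'F0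
  have hQt : ∀ ξ : H, Tendsto (fun n => (star (V n) * V n) ξ) atTop (𝓝 (Q ξ)) :=
    fun ξ => tendsto_of_seq_sup (fun n => star (V n) * V n) hGp hmono hQp hQG0 hQlub ξ
  have hQ't : ∀ ξ : H, Tendsto (fun n => (V n * star (V n)) ξ) atTop (𝓝 (Q' ξ)) :=
    fun ξ => tendsto_of_seq_sup (fun n => V n * star (V n)) hFp hmono' hQ'p hQ'F0 hQ'lub ξ
  obtain ⟨W, hWM, hWQ, hWQ'⟩ :=
    exists_limit_partial_isometry M V hVM hGp hext hmono hmono' hQt hQ't
  have heQ : e * Q = Q := hQlub e heG
  have hfQ' : f * Q' = Q' := hQ'lub f hfF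
  have he'p : IsStarProjection (e - Q) := taskC6_sub_proj he hQp heQ
  have hf'p : IsStarProjection (f - Q') := taskC6_sub_proj hf hQ'p hfQ'
  have he'M : e - Q ∈ M := sub_mem heM hQM
  have hf'M : f - Q' ∈ M := sub_mem hfM hQ'M
  have htrQ : ⟪Ω, Q Ω⟫_ℂ = ⟪Ω, Q' Ω⟫_ℂ := by
    rw [← hWQ, ← hWQ', mul_apply_eq_comp, mul_apply_eq_comp]
    exact hΩ.2 (star W) (star_mem hWM) W hWM
  have hnorm : ‖(e - Q) Ω‖ = ‖(f - Q') Ω‖ := by
    have h1 := taskC6_norm_sq_split he hQp heQ Ω
    have h2 := taskC6_norm_sq_split hf hQ'p hfQ' Ω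
    have h3 : ‖Q Ω‖ ^ 2 = ‖Q' Ω‖ ^ 2 := by
      rw [← taskC6_inner_proj hQp Ω, ← taskC6_inner_proj hQ'p Ω, htrQ]
    have h4 : ‖(e - Q) Ω‖ ^ 2 = ‖(f - Q') Ω‖ ^ 2 := by
      rw [htr] at h1
      linarith
    have h5 := congrArg Real.sqrt h4
    rwa [Real.sqrt_sq (norm_nonneg _), Real.sqrt_sq (norm_nonneg _)] at h5
  have hclaim : e - Q = 0 ∨ f - Q' = 0 := by
    by_contra hcon
    rw [not_or] at hcon
    obtain ⟨w, hwM, hw0, hwp, hew, hfw⟩ :=
      factor_exists_partial_isometry M hF he'M hf'M he'p hf'p hcon.1 hcon.2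
    apply hw0
    apply hmax w hwM hwp
    · intro n
      have h1 : (e - star (V n) * V n) * (e - Q) = e - Q :=
        taskC6_compl_mul he hQp (hGp n) heQ (heG n) (hQG n)
      calc (e - star (V n) * V n) * (star w * w)
          = (e - star (V n) * V n) * ((e - Q) * (star w * w)) := by rw [hew]
        _ = ((e - star (V n) * V n) * (e - Q)) * (star w * w) := by rw [mul_assoc]
        _ = (e - Q) * (star w * w) := by rw [h1]
        _ = star w * w := hew
    · intro n
      have h1 : (f - V n * star (V n)) * (f - Q') = f - Q' :=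
        taskC6_compl_mul hf hQ'p (hFp n) hfQ' (hfF n) (hQ'F n)
      calc (f - V n * star (V n)) * w
          = (f - V n * star (V n)) * ((f - Q') * w) := by rw [hfw]
        _ = ((f - V n * star (V n)) * (f - Q')) * w := by rw [mul_assoc]
        _ = (f - Q') * w := by rw [h1]
        _ = w := hfw
  have hboth : e - Q = 0 ∧ f - Q' = 0 := by
    rcases hclaim with h | h
    · refine ⟨h, ?_⟩
      apply hsep _ hf'M
      rw [← norm_eq_zero, ← hnorm, h, _root_.zero_apply, norm_zero]
    · refine ⟨?_, h⟩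
      apply hsep _ he'M
      rw [← norm_eq_zero, hnorm, h, _root_.zero_apply, norm_zero]
  refine ⟨W, hWM, ?_, ?_⟩
  · rw [hWQ]
    exact (sub_eq_zero.mp hboth.1).symm
  · rw [hWQ']
    exact (sub_eq_zero.mp hboth.2).symm

/-! ### Matrix units from equivalent projections; MASAs of diffuse algebras -/

/-- An operator whose initial projection is `g0` is unchanged by right multiplication
with `g0`. -/
lemma taskC7_mul_initial {w g0 : H →L[ℂ] H} (hg0 : IsStarProjection g0)
    (hw : star w * w = g0) : w * g0 = w := by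
  have hss : star g0 = g0 := hg0.isSelfAdjoint.star_eq
  have hgg : g0 * g0 = g0 := hg0.isIdempotentElem.eq
  have hd : star (w - w * g0) * (w - w * g0) = 0 := by
    have e : star (w - w * g0) * (w - w * g0)
        = star w * w - star w * w * g0 - g0 * (star w * w) + g0 * (star w * w) * g0 := by
      rw [star_sub, star_mul, hss]
      noncomm_ring
    rw [e, hw, hgg, hgg]
    abel
  have h0 : w - w * g0 = 0 := (CStarRing.star_mul_self_eq_zero_iff _).mp hd
  exact (sub_eq_zero.mp h0).symm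

theorem matrix_units_of_equivalent_partition (A M : VonNeumannAlgebra H)
    {n : ℕ} (hn : 0 < n) (g : Fin n → H →L[ℂ] H) (hg : IsPartitionIn A g)
    (v : Fin n → H →L[ℂ] H) (hvM : ∀ i, v i ∈ M)
    (hv1 : ∀ i, star (v i) * v i = g ⟨0, hn⟩) (hv2 : ∀ i, v i * star (v i) = g i) :
    IsMatrixUnitsOver A M (fun i j => v i * star (v j)) := by
  obtain ⟨hgA, hgorth, hgsum⟩ := hg
  have hg0 : IsStarProjection (g ⟨0, hn⟩) := (hgA ⟨0, hn⟩).2
  have hvg0 : ∀ i, v i * g ⟨0, hn⟩ = v i := fun i => taskC7_mul_initial hg0 (hv1 i)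
  have hgv : ∀ i, g i * v i = v i := by
    intro i
    rw [← hv2 i, mul_assoc, hv1 i, hvg0 i]
  have hsg : ∀ i, star (v i) * g i = star (v i) := by
    intro i
    have h := congrArg star (hgv i)
    rw [star_mul, (hgA i).2.isSelfAdjoint.star_eq] at h
    exact h
  refine ⟨fun i j => mul_mem (hvM i) (star_mem (hvM j)), fun i => ?_, fun i j => ?_,
    fun i j k l => ?_, ?_⟩
  · show v i * star (v i) ∈ A
    rw [hv2 i]
    exact (hgA i).1
  · show star (v i * star (v j)) = v j * star (v i)
    rw [star_mul, star_star]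
  · show v i * star (v j) * (v k * star (v l)) = if j = k then v i * star (v l) else 0
    by_cases hjk : j = k
    · rw [if_pos hjk, ← hjk]
      have e : v i * star (v j) * (v j * star (v l)) = v i * (star (v j) * v j) * star (v l) := by
        noncomm_ring
      rw [e, hv1 j, hvg0 i]
    · rw [if_neg hjk]
      have h0 : star (v j) * v k = 0 := by
        have e : star (v j) * v k = star (v j) * (g j * g k) * v k := by
          have e1 : star (v j) * (g j * g k) * v k = (star (v j) * g j) * (g k * v k) := by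
            noncomm_ring
          rw [e1, hsg j, hgv k]
        rw [e, hgorth j k hjk, mul_zero, zero_mul]
      have e2 : v i * star (v j) * (v k * star (v l)) = v i * (star (v j) * v k) * star (v l) := by
        noncomm_ring
      rw [e2, h0, mul_zero, zero_mul]
  · show ∑ i, v i * star (v i) = 1
    rw [← hgsum]
    exact Finset.sum_congr rfl fun i _ => hv2 i

theorem isDiffuse_of_isMASA (A M : VonNeumannAlgebra H) (hA : IsMASA A M)
    (hM : IsDiffuse M) : IsDiffuse A := by
  obtain ⟨hAM, hAc, hAmax⟩ := hA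
  intro p hpA hp hp0
  by_contra hcon
  push Not at hcon
  have hmin : ∀ p' ∈ A, IsStarProjection p' → p * p' = p' → p' = 0 ∨ p' = p := by
    intro p' hp'A hp' hpp'
    by_contra hne
    push Not at hne
    exact hcon p' hp'A hp' hne.1 hne.2 hpp'
  obtain ⟨p2, hp2M, hp2, hp20, hp2p, hpp2⟩ := hM p (hAM hpA) hp hp0
  have hp2p' : p2 * p = p2 := taskS_mul_comm_of_le hp hp2 hpp2
  have hp2A : p2 ∈ A := by
    refine hAmax p2 hp2M fun a haA => ?_
    obtain ⟨c, hc⟩ := smul_of_minimal_projection A hAc hpA hp hmin haA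
    have h1 : a * p2 = c • p2 := by
      calc a * p2 = a * (p * p2) := by rw [hpp2]
        _ = (a * p) * p2 := by rw [mul_assoc]
        _ = c • p2 := by rw [hc, smul_mul_assoc, hpp2]
    have h2 : p2 * a = c • p2 := by
      calc p2 * a = (p2 * p) * a := by rw [hp2p']
        _ = p2 * (p * a) := by rw [mul_assoc]
        _ = p2 * (a * p) := by rw [hAc p hpA a haA]
        _ = c • p2 := by rw [hc, mul_smul_comm, hp2p']
    rw [h1, h2]
  rcases hmin p2 hp2A hp2 hpp2 with h | h
  · exact hp20 h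
  · exact hp2p h

/-! ### Matrix units over a MASA; the so-paving number -/

theorem exists_matrix_units_of_factor (A M : VonNeumannAlgebra H) (hF : IsFactor M)
    (hdM : IsDiffuse M) {Ω : H} (hΩ : IsTraceVector M Ω) (hsep : IsSeparating M Ω)
    (hA : IsMASA A M) (k : ℕ) :
    ∃ e : Fin (2 ^ k) → Fin (2 ^ k) → H →L[ℂ] H, IsMatrixUnitsOver A M e := by
  have hAc := hA.2.1
  have hdA : IsDiffuse A := isDiffuse_of_isMASA A M hA hdM
  have hpos : 0 < 2 ^ k := Nat.two_pow_pos k
  obtain ⟨g, hg1, hg2, hg3, hg4⟩ := exists_equal_partition A hAc hdA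
    (fun _ : Unit => Ω) (fun _ : Unit => Ω) (E := 1) A.one_mem (IsStarProjection.one _) hpos
  have hg : IsPartitionIn A g := ⟨hg1, hg2, hg3⟩
  have hnorm : ∀ c, ‖g c Ω‖ ^ 2 = 1 / ((2 ^ k : ℕ) : ℝ) := by
    intro c
    have h1 := hg4 c ()
    have h2 : ⟪Ω, g c Ω⟫_ℂ = ⟪g c Ω, g c Ω⟫_ℂ := taskW3_proj_inner (hg1 c).2 Ω Ω
    have h3 : ⟪g c Ω, g c Ω⟫_ℂ = ((‖g c Ω‖ ^ 2 : ℝ) : ℂ) := by
      rw [inner_self_eq_norm_sq_to_K]
      norm_cast
    have h4 : ⟪Ω, (1 : H →L[ℂ] H) Ω⟫_ℂ = 1 := by
      rw [one_apply_eq_self, inner_self_eq_norm_sq_to_K, hΩ.1]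
      norm_num
    rw [h2, h3, h4, mul_one] at h1
    have h5 : ((‖g c Ω‖ ^ 2 : ℝ) : ℂ) = ((1 / ((2 ^ k : ℕ) : ℝ) : ℝ) : ℂ) := by
      rw [h1]
      push_cast
      rfl
    exact_mod_cast h5
  have heq : ∀ c, ‖g ⟨0, hpos⟩ Ω‖ = ‖g c Ω‖ := by
    intro c
    have h1 : ‖g ⟨0, hpos⟩ Ω‖ ^ 2 = ‖g c Ω‖ ^ 2 := by rw [hnorm, hnorm]
    exact (sq_eq_sq₀ (norm_nonneg _) (norm_nonneg _)).mp h1
  have hex : ∀ c, ∃ W ∈ M, star W * W = g ⟨0, hpos⟩ ∧ W * star W = g c := fun c =>
    exists_partial_isometry_of_trace_eq M hF hΩ hsep (hA.1 (hg1 _).1) (hA.1 (hg1 c).1)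
      (hg1 _).2 (hg1 c).2 (heq c)
  choose v hvM hv1 hv2 using hex
  exact ⟨_, matrix_units_of_equivalent_partition A M hpos g hg v hvM hv1 hv2⟩

theorem le_soPavingNumber_of_factor (A M : VonNeumannAlgebra H) (hF : IsFactor M)
    (hdM : IsDiffuse M) {Ω : H} (hΩ : IsTraceVector M Ω) (hsep : IsSeparating M Ω)
    (hA : IsMASA A M) {ε : ℝ} (hε : 0 < ε) :
    ((⌈1 / ε ^ 2⌉₊ : ℕ) : ℕ∞) ≤ soPavingNumber A M ε :=
  le_soPavingNumber_of_trace A M hA.1 hA.2.1 hΩ
    (exists_matrix_units_of_factor A M hF hdM hΩ hsep hA) hε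

theorem not_soPavable_of_factor (A M : VonNeumannAlgebra H) (hF : IsFactor M)
    (hdM : IsDiffuse M) {Ω : H} (hΩ : IsTraceVector M Ω) (hsep : IsSeparating M Ω)
    (hA : IsMASA A M) {ε : ℝ} {r : ℕ} (hr : 0 < r) (h : (r : ℝ) * ε ^ 2 < 1) :
    ∃ x ∈ M, IsSelfAdjoint x ∧ x * x = 1 ∧ ‖x‖ = 1 ∧ ¬ SoPavable A M x ε r := by
  have hrpos : (0 : ℝ) < (r : ℝ) := by exact_mod_cast hr
  have h1 : ε ^ 2 < 1 / (r : ℝ) := by
    rw [lt_div_iff₀ hrpos]
    linarith
  obtain ⟨k, hk⟩ := exists_pow_lt_of_lt_one (sub_pos.mpr h1) (by norm_num : (1 / 2 : ℝ) < 1)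
  have h2 : (1 / 2 : ℝ) ^ k = 1 / (2 ^ k : ℝ) := by
    rw [one_div, inv_pow, one_div]
  rw [h2] at hk
  obtain ⟨e, he⟩ := exists_matrix_units_of_factor A M hF hdM hΩ hsep hA k
  exact not_soPavable_of_matrix_units A M hA.1 hA.2.1 hΩ he (ε := ε) hr (by linarith)

end Vale.Agent.Lib.P078
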