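import Vale.Agent.Lib.P078.TraceDefs
import Vale.Agent.Lib.P078.DiffuseDefs

/-!
# Factors and separating vectors (P078)
-/

namespace Vale.Agent.Lib.P078

variable {H : Type*} [NormedAddCommGroup H] [InnerProductSpace ℂ H] [CompleteSpace H]

/-- `M` is a factor: every element of `M` commuting with all of `M` is a scalar multiple of `1`
(the centre of `M` is trivial). -/
def IsFactor (M : VonNeumannAlgebra H) : Prop :=
  ∀ z ∈ M, (∀ x ∈ M, z * x = x * z) → ∃ c : ℂ, z = c • (1 : H →L[ℂ] H)

/-- The vector `Ω` is separating for `M`: `x Ω = 0` with `x ∈ M` forces `x = 0`.  For a trace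
vector this says that the trace `x ↦ ⟪Ω, x Ω⟫` is faithful. -/
def IsSeparating (M : VonNeumannAlgebra H) (Ω : H) : Prop :=
  ∀ x ∈ M, x Ω = 0 → x = 0

end Vale.Agent.Lib.P078
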