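import Vale.Agent.Lib.P078.TypeI

/-!
# Induction of a von Neumann algebra to an invariant subspace: basic algebra

For a closed subspace `U` of `H`, `compr U x` is the compression of the operator `x` to `U`
and `extz U T` is the extension of an operator `T` on `U` by zero on the orthogonal complement.
-/

namespace Vale.Agent.Lib.P078

open scoped InnerProductSpace

variable {H : Type*} [NormedAddCommGroup H] [InnerProductSpace ℂ H] [CompleteSpace H]

section Induce

variable (U : Submodule ℂ H) [CompleteSpace U]

/-- The compression of an operator on `H` to the closed subspace `U`. -/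
noncomputable def compr (x : H →L[ℂ] H) : U →L[ℂ] U :=
  U.orthogonalProjectionOnto ∘L x ∘L U.subtypeL

/-- The extension by zero of an operator on the closed subspace `U` to `H`. -/
noncomputable def extz (T : U →L[ℂ] U) : H →L[ℂ] H :=
  U.subtypeL ∘L T ∘L U.orthogonalProjectionOnto

lemma compr_apply (x : H →L[ℂ] H) (v : U) :
    compr U x v = U.orthogonalProjectionOnto (x (v : H)) := rfl

lemma compr_apply_coe (x : H →L[ℂ] H) (v : U) :
    ((compr U x v : U) : H) = U.starProjection (x (v : H)) := rfl

lemma extz_apply (T : U →L[ℂ] U) (ξ : H) :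
    extz U T ξ = ((T (U.orthogonalProjectionOnto ξ) : U) : H) := rfl

lemma compr_extz (T : U →L[ℂ] U) : compr U (extz U T) = T := by
  ext v
  simp [compr_apply, extz_apply]

lemma extz_compr (x : H →L[ℂ] H) :
    extz U (compr U x) = U.starProjection * x * U.starProjection := by
  ext ξ
  rfl

lemma compr_add (x y : H →L[ℂ] H) : compr U (x + y) = compr U x + compr U y := by
  ext v
  simp [compr_apply]

lemma compr_sub (x y : H →L[ℂ] H) : compr U (x - y) = compr U x - compr U y := by
  ext v
  simp [compr_apply]

lemma compr_smul (c : ℂ) (x : H →L[ℂ] H) : compr U (c • x) = c • compr U x := by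
  ext v
  simp [compr_apply]

lemma compr_zero : compr U (0 : H →L[ℂ] H) = 0 := by
  ext v
  simp [compr_apply]

lemma compr_one : compr U (1 : H →L[ℂ] H) = 1 := by
  ext v
  simp [compr_apply]

lemma compr_sum {ι : Type*} (s : Finset ι) (x : ι → H →L[ℂ] H) :
    compr U (∑ i ∈ s, x i) = ∑ i ∈ s, compr U (x i) := by
  classical
  induction s using Finset.induction_on with
  | empty => simp [compr_zero]
  | insert a s ha ih => rw [Finset.sum_insert ha, Finset.sum_insert ha, compr_add, ih]

lemma compr_star (x : H →L[ℂ] H) : compr U (star x) = star (compr U x) := by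
  rw [ContinuousLinearMap.star_eq_adjoint, ContinuousLinearMap.star_eq_adjoint]
  rw [ContinuousLinearMap.eq_adjoint_iff]
  intro v w
  rw [compr_apply, compr_apply, Submodule.inner_orthogonalProjectionOnto_eq_of_mem_left,
    Submodule.inner_orthogonalProjectionOnto_eq_of_mem_right,
    ContinuousLinearMap.adjoint_inner_left]

/-- An operator commuting with the projection onto `U` maps `U` into itself. -/
lemma compr_apply_of_comm {x : H →L[ℂ] H}
    (hx : x * U.starProjection = U.starProjection * x) (v : U) :
    ((compr U x v : U) : H) = x (v : H) := by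
  rw [compr_apply_coe]
  have h1 : U.starProjection (v : H) = (v : H) := Submodule.starProjection_eq_self_iff.mpr v.2
  have h2 := congrArg (fun f : H →L[ℂ] H => f (v : H)) hx
  simp only [mul_apply_eq_comp, h1] at h2
  exact h2.symm

lemma compr_mul_of_comm_right (x : H →L[ℂ] H) {y : H →L[ℂ] H}
    (hy : y * U.starProjection = U.starProjection * y) :
    compr U (x * y) = compr U x * compr U y := by
  ext v
  rw [mul_apply_eq_comp, compr_apply_coe, compr_apply_coe,
    compr_apply_of_comm U hy, mul_apply_eq_comp]

lemma compr_mul_of_comm_left {x : H →L[ℂ] H} (y : H →L[ℂ] H)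
    (hx : x * U.starProjection = U.starProjection * x) :
    compr U (x * y) = compr U x * compr U y := by
  ext v
  rw [mul_apply_eq_comp, compr_apply_of_comm U hx, compr_apply_coe,
    mul_apply_eq_comp, compr_apply_coe]
  have h2 := congrArg (fun f : H →L[ℂ] H => f (y (v : H))) hx
  simp only [mul_apply_eq_comp] at h2
  exact h2.symm

lemma norm_compr_le (x : H →L[ℂ] H) : ‖compr U x‖ ≤ ‖x‖ := by
  refine ContinuousLinearMap.opNorm_le_bound _ (norm_nonneg _) (fun v => ?_)
  rw [compr_apply]
  calc ‖U.orthogonalProjectionOnto (x (v : H))‖ ≤ ‖x (v : H)‖ :=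
        Submodule.norm_orthogonalProjectionOnto_apply_le _ _
    _ ≤ ‖x‖ * ‖(v : H)‖ := x.le_opNorm _
    _ = ‖x‖ * ‖v‖ := by rw [Submodule.coe_norm]

lemma extz_mul (S T : U →L[ℂ] U) : extz U (S * T) = extz U S * extz U T := by
  ext ξ
  simp [extz_apply]

lemma extz_add (S T : U →L[ℂ] U) : extz U (S + T) = extz U S + extz U T := by
  ext ξ
  simp [extz_apply]

lemma extz_sub (S T : U →L[ℂ] U) : extz U (S - T) = extz U S - extz U T := by
  ext ξ
  simp [extz_apply]

lemma extz_smul (c : ℂ) (T : U →L[ℂ] U) : extz U (c • T) = c • extz U T := by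
  ext ξ
  simp [extz_apply]

lemma extz_one : extz U (1 : U →L[ℂ] U) = U.starProjection := by
  ext ξ
  rfl

lemma extz_star (T : U →L[ℂ] U) : extz U (star T) = star (extz U T) := by
  rw [ContinuousLinearMap.star_eq_adjoint, ContinuousLinearMap.star_eq_adjoint]
  rw [ContinuousLinearMap.eq_adjoint_iff]
  intro ξ ζ
  rw [extz_apply, extz_apply, ← Submodule.inner_orthogonalProjectionOnto_eq_of_mem_left,
    ← Submodule.inner_orthogonalProjectionOnto_eq_of_mem_right,
    ContinuousLinearMap.adjoint_inner_left]

lemma norm_extz_le (T : U →L[ℂ] U) : ‖extz U T‖ ≤ ‖T‖ := by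
  refine ContinuousLinearMap.opNorm_le_bound _ (norm_nonneg T) (fun ξ => ?_)
  rw [extz_apply, ← Submodule.coe_norm]
  calc ‖T (U.orthogonalProjectionOnto ξ)‖ ≤ ‖T‖ * ‖U.orthogonalProjectionOnto ξ‖ := T.le_opNorm _
    _ ≤ ‖T‖ * ‖ξ‖ :=
        mul_le_mul_of_nonneg_left (Submodule.norm_orthogonalProjectionOnto_apply_le _ _)
          (norm_nonneg T)

lemma norm_extz (T : U →L[ℂ] U) : ‖extz U T‖ = ‖T‖ := by
  refine le_antisymm (norm_extz_le U T) ?_
  calc ‖T‖ = ‖compr U (extz U T)‖ := by rw [compr_extz]
    _ ≤ ‖extz U T‖ := norm_compr_le U _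

lemma extz_mul_proj (T : U →L[ℂ] U) : extz U T * U.starProjection = extz U T := by
  ext ξ
  rw [mul_apply_eq_comp, extz_apply, extz_apply, Submodule.starProjection_apply,
    Submodule.orthogonalProjectionOnto_mem_subspace_eq_self]

lemma proj_mul_extz (T : U →L[ℂ] U) : U.starProjection * extz U T = extz U T := by
  ext ξ
  rw [mul_apply_eq_comp, extz_apply]
  exact Submodule.starProjection_eq_self_iff.mpr (Submodule.coe_mem _)

/-- For an operator commuting with the projection onto `U`, the compression vanishes exactly
when the operator vanishes on `U`. -/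
lemma compr_eq_zero_iff {x : H →L[ℂ] H}
    (hx : x * U.starProjection = U.starProjection * x) :
    compr U x = 0 ↔ x * U.starProjection = 0 := by
  constructor
  · intro h
    have h1 := extz_compr U x
    rw [h] at h1
    have h2 : extz U (0 : U →L[ℂ] U) = 0 := by
      ext ξ
      simp [extz_apply]
    rw [h2, ← hx, mul_assoc] at h1
    have h3 : U.starProjection * U.starProjection = U.starProjection :=
      (isStarProjection_starProjection (U := U)).isIdempotentElem.eq
    rw [h3] at h1
    exact h1.symm
  · intro h
    ext v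
    rw [compr_apply_of_comm U hx]
    have h1 : U.starProjection (v : H) = (v : H) := Submodule.starProjection_eq_self_iff.mpr v.2
    have h2 := congrArg (fun f : H →L[ℂ] H => f (v : H)) h
    simp only [mul_apply_eq_comp, h1] at h2
    simpa using h2

end Induce

end Vale.Agent.Lib.P078
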