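import Vale.Agent.Lib.P078.Core

/-!
# Auxiliary lemmas for so-paving over MASAs of von Neumann algebras with abelian commutant (P078)
-/

namespace Vale.Agent.Lib.P078

open scoped ComplexOrder InnerProductSpace Matrix.Norms.L2Operator
open ContinuousLinearMap

variable {H : Type*} [NormedAddCommGroup H] [InnerProductSpace ℂ H] [CompleteSpace H]

/-! ### Part A -/

/-- Elements of an abelian von Neumann algebra are normal: `‖g* ω‖ = ‖g ω‖`. -/
lemma taskA_norm_star_apply (Z : VonNeumannAlgebra H)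
    (hZc : ∀ a ∈ Z, ∀ b ∈ Z, a * b = b * a) {g : H →L[ℂ] H} (hg : g ∈ Z) (ω : H) :
    ‖(star g) ω‖ = ‖g ω‖ := by
  have hn : IsStarNormal g := ⟨hZc _ (star_mem hg) _ hg⟩
  rw [star_eq_adjoint]
  exact (isStarNormal_iff_norm_eq_adjoint.mp hn ω).symm

/-- Vectors of the closure of the orbit are approximated by orbit vectors. -/
lemma taskA_approx (Z : VonNeumannAlgebra H) (ω : H) {v : H}
    (hv : v ∈ (orbit Z ω).topologicalClosure) {δ : ℝ} (hδ : 0 < δ) :
    ∃ g ∈ Z, ‖v - g ω‖ < δ := by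
  have hmem : v ∈ closure ((orbit Z ω : Submodule ℂ H) : Set H) := by
    rw [← Submodule.topologicalClosure_coe]
    exact hv
  obtain ⟨w, ⟨a, ha, rfl⟩, hw⟩ := Metric.mem_closure_iff.mp hmem δ hδ
  exact ⟨a, ha, by rwa [dist_eq_norm] at hw⟩

/-- A vector of the closure of the orbit which is orthogonal to the orbit vanishes. -/
lemma taskA_eq_zero (Z : VonNeumannAlgebra H) (ω : H) {x : H}
    (hx : x ∈ (orbit Z ω).topologicalClosure)
    (horth : ∀ g ∈ Z, ⟪g ω, x⟫_ℂ = 0) : x = 0 := by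
  have h1 : x ∈ (orbit Z ω)ᗮ := by
    rw [Submodule.mem_orthogonal]
    rintro _ ⟨g, hg, rfl⟩
    exact horth g hg
  rw [← Submodule.orthogonal_closure] at h1
  have h2 := Submodule.inner_right_of_mem_orthogonal hx h1
  exact inner_self_eq_zero.mp h2

theorem cyclic_commutant_comm (Z : VonNeumannAlgebra H)
    (hZc : ∀ a ∈ Z, ∀ b ∈ Z, a * b = b * a) (ω : H)
    (S T : H →L[ℂ] H) (hS : ∀ g ∈ Z, g * S = S * g) (hT : ∀ g ∈ Z, g * T = T * g)
    (hpS : (orbit Z ω).topologicalClosure.starProjection * S *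
      (orbit Z ω).topologicalClosure.starProjection = S)
    (hpT : (orbit Z ω).topologicalClosure.starProjection * T *
      (orbit Z ω).topologicalClosure.starProjection = T) : S * T = T * S := by
  set K : Submodule ℂ H := (orbit Z ω).topologicalClosure with hK
  set p : H →L[ℂ] H := K.starProjection with hp
  have hpproj : IsStarProjection p := isStarProjection_starProjection
  have hpp : p * p = p := hpproj.isIdempotentElem.eq
  have hpsa : star p = p := hpproj.isSelfAdjoint.star_eq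
  -- `S`, `T`, `T*` are absorbed by `p` on both sides
  have hpS' : p * S = S := by
    conv_lhs => rw [← hpS]
    rw [← mul_assoc, ← mul_assoc, hpp, hpS]
  have hSp : S * p = S := by
    conv_lhs => rw [← hpS]
    rw [mul_assoc, hpp, hpS]
  have hpT' : p * T = T := by
    conv_lhs => rw [← hpT]
    rw [← mul_assoc, ← mul_assoc, hpp, hpT]
  have hTp : T * p = T := by
    conv_lhs => rw [← hpT]
    rw [mul_assoc, hpp, hpT]
  have hpTs : p * star T = star T := by
    have := congrArg star hTp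
    rwa [star_mul, hpsa] at this
  -- ranges lie in `K`
  have hSK : ∀ v, S v ∈ K := fun v => by
    have : S v = p (S v) := by rw [← mul_apply_eq_comp, hpS']
    rw [this]
    exact Submodule.starProjection_apply_mem _ _
  have hTK : ∀ v, T v ∈ K := fun v => by
    have : T v = p (T v) := by rw [← mul_apply_eq_comp, hpT']
    rw [this]
    exact Submodule.starProjection_apply_mem _ _
  -- commutation on vectors
  have hSv : ∀ g ∈ Z, ∀ v, S (g v) = g (S v) := fun g hg v => by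
    rw [← mul_apply_eq_comp, ← hS g hg, mul_apply_eq_comp]
  have hTv : ∀ g ∈ Z, ∀ v, T (g v) = g (T v) := fun g hg v => by
    rw [← mul_apply_eq_comp, ← hT g hg, mul_apply_eq_comp]
  have hTs : ∀ g ∈ Z, ∀ v, (star T) (g v) = g ((star T) v) := fun g hg v => by
    have h1 := hT (star g) (star_mem hg)
    have h2 := congrArg star h1
    rw [star_mul, star_mul, star_star] at h2
    rw [← mul_apply_eq_comp, h2, mul_apply_eq_comp]
  have hZv : ∀ a ∈ Z, ∀ b ∈ Z, ∀ v, a (b v) = b (a v) := fun a ha b hb v => by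
    rw [← mul_apply_eq_comp, hZc a ha b hb, mul_apply_eq_comp]
  -- the key identity, tested against orbit vectors
  have hkey : ∀ g2 ∈ Z, ⟪g2 ω, S (T ω)⟫_ℂ = ⟪g2 ω, T (S ω)⟫_ℂ := by
    intro g2 hg2
    set b : H := (star g2) (S ω) with hb
    have hbK : b ∈ K := by
      rw [hb, ← hSv _ (star_mem hg2)]
      exact hSK _
    have hR : ⟪g2 ω, T (S ω)⟫_ℂ = ⟪(star T) ω, b⟫_ℂ := by
      rw [hb, star_eq_adjoint g2, adjoint_inner_right, ← hTs g2 hg2, star_eq_adjoint T,
        adjoint_inner_left]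
    have hL : ∀ t ∈ Z, ⟪g2 ω, S (t ω)⟫_ℂ = ⟪(star t) ω, b⟫_ℂ := by
      intro t ht
      rw [hb, star_eq_adjoint g2, adjoint_inner_right, hZv g2 hg2 _ (star_mem ht),
        star_eq_adjoint t, adjoint_inner_left, hSv t ht]
    have hM : ∀ t ∈ Z, ∀ gb ∈ Z, ⟪(star t) ω - (star T) ω, gb ω⟫_ℂ =
        ⟪(star gb) ω, t ω - T ω⟫_ℂ := by
      intro t ht gb hgb
      rw [inner_sub_left, inner_sub_right, star_eq_adjoint t, adjoint_inner_left,
        star_eq_adjoint T, adjoint_inner_left, star_eq_adjoint gb, adjoint_inner_left,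
        adjoint_inner_left, hZv gb hgb t ht, hTv gb hgb]
    refine eq_of_forall_dist_le fun ε hε => ?_
    rw [dist_eq_norm]
    set c1 : ℝ := ‖T ω‖ + 1 + ‖(star T) ω‖ with hc1
    have hc1pos : 0 < c1 := by positivity
    obtain ⟨gb, hgb, hgbd⟩ := taskA_approx Z ω hbK (div_pos hε (mul_pos two_pos hc1pos))
    set c2 : ℝ := ‖g2 ω‖ * ‖S‖ + ‖(star gb) ω‖ + 1 with hc2
    have hc2pos : 0 < c2 := by positivity
    obtain ⟨t, ht, htd⟩ := taskA_approx Z ω (hTK ω)
      (lt_min one_pos (div_pos hε (mul_pos two_pos hc2pos)))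
    have htd1 : ‖T ω - t ω‖ < 1 := lt_of_lt_of_le htd (min_le_left _ _)
    have htd2 : ‖T ω - t ω‖ < ε / (2 * c2) := lt_of_lt_of_le htd (min_le_right _ _)
    have hdecomp : ⟪g2 ω, S (T ω)⟫_ℂ - ⟪g2 ω, T (S ω)⟫_ℂ =
        ⟪g2 ω, S (T ω - t ω)⟫_ℂ + ⟪(star gb) ω, t ω - T ω⟫_ℂ +
          ⟪(star t) ω - (star T) ω, b - gb ω⟫_ℂ := by
      rw [hR, ← hM t ht gb hgb, map_sub, inner_sub_right, hL t ht, inner_sub_right,
        inner_sub_left, inner_sub_left]
      ring
    rw [hdecomp]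
    have hst : ‖(star t) ω‖ ≤ ‖T ω‖ + 1 := by
      rw [taskA_norm_star_apply Z hZc ht]
      have h1 : ‖t ω‖ ≤ ‖T ω‖ + ‖T ω - t ω‖ := by
        have := norm_sub_le (T ω) (T ω - t ω)
        rwa [sub_sub_cancel] at this
      linarith
    have hb1 : ‖⟪g2 ω, S (T ω - t ω)⟫_ℂ‖ ≤ ‖g2 ω‖ * ‖S‖ * ‖T ω - t ω‖ := by
      refine (norm_inner_le_norm _ _).trans ?_
      rw [mul_assoc]
      exact mul_le_mul_of_nonneg_left (S.le_opNorm _) (norm_nonneg _)
    have hb2 : ‖⟪(star gb) ω, t ω - T ω⟫_ℂ‖ ≤ ‖(star gb) ω‖ * ‖T ω - t ω‖ := by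
      refine (norm_inner_le_norm _ _).trans ?_
      rw [norm_sub_rev]
    have hb3 : ‖⟪(star t) ω - (star T) ω, b - gb ω⟫_ℂ‖ ≤ c1 * ‖b - gb ω‖ := by
      refine (norm_inner_le_norm _ _).trans ?_
      refine mul_le_mul_of_nonneg_right ?_ (norm_nonneg _)
      refine (norm_sub_le _ _).trans ?_
      rw [hc1]
      linarith
    have hsum1 : ‖g2 ω‖ * ‖S‖ * ‖T ω - t ω‖ + ‖(star gb) ω‖ * ‖T ω - t ω‖ ≤ ε / 2 := by
      have h1 : ‖g2 ω‖ * ‖S‖ * ‖T ω - t ω‖ + ‖(star gb) ω‖ * ‖T ω - t ω‖ ≤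
          c2 * ‖T ω - t ω‖ := by
        rw [hc2]
        nlinarith [norm_nonneg (T ω - t ω)]
      have h2 : c2 * ‖T ω - t ω‖ ≤ c2 * (ε / (2 * c2)) :=
        mul_le_mul_of_nonneg_left htd2.le hc2pos.le
      have h3 : c2 * (ε / (2 * c2)) = ε / 2 := by field_simp
      linarith
    have hsum2 : c1 * ‖b - gb ω‖ ≤ ε / 2 := by
      have h2 : c1 * ‖b - gb ω‖ ≤ c1 * (ε / (2 * c1)) :=
        mul_le_mul_of_nonneg_left hgbd.le hc1pos.le
      have h3 : c1 * (ε / (2 * c1)) = ε / 2 := by field_simp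
      linarith
    calc ‖⟪g2 ω, S (T ω - t ω)⟫_ℂ + ⟪(star gb) ω, t ω - T ω⟫_ℂ +
          ⟪(star t) ω - (star T) ω, b - gb ω⟫_ℂ‖
        ≤ ‖⟪g2 ω, S (T ω - t ω)⟫_ℂ‖ + ‖⟪(star gb) ω, t ω - T ω⟫_ℂ‖ +
          ‖⟪(star t) ω - (star T) ω, b - gb ω⟫_ℂ‖ := norm_add₃_le
      _ ≤ ε := by linarith
  -- the commutator kills `ω`
  set D : H →L[ℂ] H := S * T - T * S with hD
  have hDω : D ω = 0 := by
    refine taskA_eq_zero Z ω ?_ ?_
    · rw [hD, sub_apply, mul_apply_eq_comp, mul_apply_eq_comp]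
      exact K.sub_mem (hSK _) (hTK _)
    · intro g hg
      rw [hD, sub_apply, mul_apply_eq_comp, mul_apply_eq_comp, inner_sub_right, hkey g hg,
        sub_self]
  -- hence it kills the orbit, and then `K`
  have hDorb : orbit Z ω ≤ LinearMap.ker (D : H →ₗ[ℂ] H) := by
    rintro _ ⟨g, hg, rfl⟩
    rw [LinearMap.mem_ker, coe_coe]
    have : D (g ω) = g (D ω) := by
      rw [hD, sub_apply, sub_apply, mul_apply_eq_comp, mul_apply_eq_comp, mul_apply_eq_comp,
        mul_apply_eq_comp, hTv g hg, hSv g hg, hSv g hg, hTv g hg, map_sub]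
    rw [this, hDω, map_zero]
  have hDK : K ≤ LinearMap.ker (D : H →ₗ[ℂ] H) :=
    Submodule.topologicalClosure_minimal _ hDorb (isClosed_ker D)
  have hDp : D * p = D := by
    rw [hD, sub_mul, mul_assoc, hTp, mul_assoc, hSp]
  have hD0 : D = 0 := by
    ext v
    rw [zero_apply, ← hDp, mul_apply_eq_comp]
    exact LinearMap.mem_ker.mp (hDK (Submodule.starProjection_apply_mem _ v))
  exact sub_eq_zero.mp hD0

/-! ### Part C -/

lemma taskC_mul_eq {ι : Type*} [DecidableEq ι] (e : ι → H →L[ℂ] H)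
    (hep : ∀ j, IsStarProjection (e j)) (horth : ∀ j k, j ≠ k → e j * e k = 0) (α j : ι) :
    e α * e j = if α = j then e α else 0 := by
  by_cases h : α = j
  · subst h
    rw [if_pos rfl]
    exact (hep α).isIdempotentElem.eq
  · rw [if_neg h]
    exact horth α j h

lemma taskC_left {ι : Type*} [Fintype ι] [DecidableEq ι] (e : ι → H →L[ℂ] H)
    (hep : ∀ j, IsStarProjection (e j)) (horth : ∀ j k, j ≠ k → e j * e k = 0)
    {r : ℕ} (col : ι → Fin r) (α : ι) (i : Fin r) :
    e α * (∑ j, if col j = i then e j else 0) = if col α = i then e α else 0 := by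
  rw [Finset.mul_sum, Finset.sum_eq_single α]
  · by_cases h : col α = i
    · rw [if_pos h]
      exact (hep α).isIdempotentElem.eq
    · rw [if_neg h, mul_zero]
  · intro j _ hj
    by_cases h : col j = i
    · rw [if_pos h]
      exact horth α j (Ne.symm hj)
    · rw [if_neg h, mul_zero]
  · intro hα
    exact absurd (Finset.mem_univ α) hα

lemma taskC_right {ι : Type*} [Fintype ι] [DecidableEq ι] (e : ι → H →L[ℂ] H)
    (hep : ∀ j, IsStarProjection (e j)) (horth : ∀ j k, j ≠ k → e j * e k = 0)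
    {r : ℕ} (col : ι → Fin r) (β : ι) (i : Fin r) :
    (∑ j, if col j = i then e j else 0) * e β = if col β = i then e β else 0 := by
  rw [Finset.sum_mul, Finset.sum_eq_single β]
  · by_cases h : col β = i
    · rw [if_pos h]
      exact (hep β).isIdempotentElem.eq
    · rw [if_neg h, zero_mul]
  · intro j _ hj
    by_cases h : col j = i
    · rw [if_pos h]
      exact horth j β hj
    · rw [if_neg h, zero_mul]
  · intro hβ
    exact absurd (Finset.mem_univ β) hβ

theorem pinching_entry {ι : Type*} [Fintype ι] [DecidableEq ι] (e : ι → H →L[ℂ] H)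
    (hep : ∀ j, IsStarProjection (e j)) (horth : ∀ j k, j ≠ k → e j * e k = 0)
    {r : ℕ} (col : ι → Fin r) (dd : ι → ℝ) (x : H →L[ℂ] H) (α β : ι) :
    e α * (pinching (fun i => ∑ j, if col j = i then e j else 0) x - ∑ j, (dd j : ℂ) • e j) * e β
      = (if col α = col β then e α * x * e β else 0) - (if α = β then (dd α : ℂ) • e α else 0) := by
  rw [mul_sub, sub_mul]
  congr 1
  · unfold pinching
    rw [Finset.mul_sum, Finset.sum_mul, Finset.sum_eq_single (col α)]
    · have h1 : e α * ((∑ j, if col j = col α then e j else 0) * x *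
          (∑ j, if col j = col α then e j else 0)) * e β
          = (e α * (∑ j, if col j = col α then e j else 0)) * x *
            ((∑ j, if col j = col α then e j else 0) * e β) := by
        simp only [mul_assoc]
      rw [h1, taskC_left e hep horth col α (col α), taskC_right e hep horth col β (col α),
        if_pos rfl]
      by_cases h : col α = col β
      · rw [if_pos h, if_pos h.symm]
      · rw [if_neg h, if_neg (fun h' => h h'.symm), mul_zero]
    · intro i _ hi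
      have h1 : e α * ((∑ j, if col j = i then e j else 0) * x *
          (∑ j, if col j = i then e j else 0)) * e β
          = (e α * (∑ j, if col j = i then e j else 0)) * x *
            ((∑ j, if col j = i then e j else 0) * e β) := by
        simp only [mul_assoc]
      rw [h1, taskC_left e hep horth col α i, if_neg (Ne.symm hi), zero_mul, zero_mul]
    · intro hα
      exact absurd (Finset.mem_univ (col α)) hα
  · rw [Finset.mul_sum, Finset.sum_mul, Finset.sum_eq_single α]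
    · rw [mul_smul_comm, smul_mul_assoc, (hep α).isIdempotentElem.eq,
        taskC_mul_eq e hep horth α β]
      by_cases h : α = β
      · rw [if_pos h, if_pos h]
      · rw [if_neg h, if_neg h, smul_zero]
    · intro j _ hj
      rw [mul_smul_comm, smul_mul_assoc, horth α j (Ne.symm hj), zero_mul, smul_zero]
    · intro hα
      exact absurd (Finset.mem_univ α) hα

/-! ### Part D -/

omit [CompleteSpace H] in
/-- The quadratic-form bound passes from a subspace to its closure. -/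
lemma taskD_closure (L : Submodule ℂ H) (y : H →L[ℂ] H) {C : ℝ}
    (h : ∀ v ∈ L, ‖⟪v, y v⟫_ℂ‖ ≤ C * ‖v‖ ^ 2) :
    ∀ v ∈ L.topologicalClosure, ‖⟪v, y v⟫_ℂ‖ ≤ C * ‖v‖ ^ 2 := by
  intro v hv
  have hcl : IsClosed {w : H | ‖⟪w, y w⟫_ℂ‖ ≤ C * ‖w‖ ^ 2} := by
    apply isClosed_le
    · exact (continuous_id.inner y.continuous).norm
    · exact continuous_const.mul (continuous_norm.pow 2)
  have hsub : (L : Set H) ⊆ {w : H | ‖⟪w, y w⟫_ℂ‖ ≤ C * ‖w‖ ^ 2} := fun w hw => h w hw
  have hv' : v ∈ closure (L : Set H) := by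
    rw [← Submodule.topologicalClosure_coe]; exact hv
  exact closure_minimal hsub hcl hv'

theorem norm_compress_le (L : Submodule ℂ H) (y : H →L[ℂ] H) (hy : IsSelfAdjoint y) {C : ℝ}
    (hC : 0 ≤ C) (h : ∀ v ∈ L, ‖⟪v, y v⟫_ℂ‖ ≤ C * ‖v‖ ^ 2) :
    ‖L.topologicalClosure.starProjection * y * L.topologicalClosure.starProjection‖ ≤ C := by
  set q := L.topologicalClosure.starProjection with hq
  have hqp : IsStarProjection q := isStarProjection_starProjection
  have hqs : IsSelfAdjoint q := hqp.isSelfAdjoint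
  have hT : IsSelfAdjoint (q * y * q) := by
    have := hy.conjugate q
    rwa [hqs.star_eq] at this
  have hcl := taskD_closure L y h
  have hqn : ∀ x : H, ‖q x‖ ≤ ‖x‖ := fun x => by
    rw [hq]; exact Submodule.norm_starProjection_apply_le _ x
  have hadj : ContinuousLinearMap.adjoint q = q := by
    rw [← star_eq_adjoint]; exact hqs.star_eq
  have key : ∀ x : H, ‖⟪(q * y * q) x, x⟫_ℂ‖ ≤ C * ‖x‖ ^ 2 := by
    intro x
    have e1 : ⟪(q * y * q) x, x⟫_ℂ = ⟪y (q x), q x⟫_ℂ := by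
      have : (q * y * q) x = q (y (q x)) := rfl
      rw [this, ← adjoint_inner_right q (y (q x)) x, hadj]
    have e2 : ‖⟪y (q x), q x⟫_ℂ‖ = ‖⟪q x, y (q x)⟫_ℂ‖ := norm_inner_symm _ _
    rw [e1, e2]
    have hmem : q x ∈ L.topologicalClosure := by
      rw [hq]; exact Submodule.starProjection_apply_mem _ x
    calc ‖⟪q x, y (q x)⟫_ℂ‖ ≤ C * ‖q x‖ ^ 2 := hcl _ hmem
      _ ≤ C * ‖x‖ ^ 2 := by
        apply mul_le_mul_of_nonneg_left _ hC
        exact pow_le_pow_left₀ (norm_nonneg _) (hqn x) 2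
  rw [norm_eq_iSup_rayleighQuotient (q * y * q) hT.isSymmetric]
  apply ciSup_le
  intro x
  rw [rayleighQuotient, reApplyInnerSelf_apply, abs_div, abs_sq]
  by_cases hx : ‖x‖ ^ 2 = 0
  · rw [hx, div_zero]; exact hC
  · have hpos : 0 < ‖x‖ ^ 2 := lt_of_le_of_ne (sq_nonneg _) (Ne.symm hx)
    rw [div_le_iff₀ hpos]
    exact le_trans (RCLike.abs_re_le_norm _) (key x)

/-! ### Part E -/

lemma taskE_sum_mul_piece {κ ι : Type} [Fintype ι] [DecidableEq ι]
    (W : VonNeumannAlgebra H) (hWc : ∀ a ∈ W, ∀ b ∈ W, a * b = b * a)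
    (g : κ → H →L[ℂ] H) (hgW : ∀ k, g k ∈ W)
    (f : ι → H →L[ℂ] H) (hfW : ∀ l, f l ∈ W) (hfp : ∀ l, IsStarProjection (f l))
    (hforth : ∀ l l', l ≠ l' → f l * f l' = 0) (c : ι → ℂ) (k : κ) (l : ι) :
    (∑ l', c l' • f l') * (g k * f l) = c l • (g k * f l) := by
  rw [Finset.sum_mul, Finset.sum_eq_single l]
  · rw [smul_mul_assoc, ← mul_assoc, hWc (f l) (hfW l) (g k) (hgW k), mul_assoc,
      (hfp l).isIdempotentElem.eq]
  · intro l' _ hl'
    rw [smul_mul_assoc, ← mul_assoc, hWc (f l') (hfW l') (g k) (hgW k), mul_assoc,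
      hforth l' l hl', mul_zero, smul_zero]
  · intro hl
    exact absurd (Finset.mem_univ l) hl

theorem exists_common_step (W : VonNeumannAlgebra H) (hWc : ∀ a ∈ W, ∀ b ∈ W, a * b = b * a)
    (s : Finset (H →L[ℂ] H)) (hs : ∀ h ∈ s, h ∈ W) {η : ℝ} (hη : 0 < η) :
    ∃ (κ : Type) (_ : Fintype κ) (g : κ → H →L[ℂ] H), IsPOU W g ∧
      ∀ h ∈ s, ∃ c : κ → ℂ, ∀ k, ‖(h - c k • 1) * g k‖ ≤ η := by
  classical
  induction s using Finset.induction_on with
  | empty =>
    refine ⟨Unit, inferInstance, fun _ => 1, ⟨fun _ => one_mem W, fun _ => IsStarProjection.one _,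
      ?_, ?_⟩, ?_⟩
    · intro j k hjk
      exact absurd (Subsingleton.elim j k) hjk
    · simp
    · intro h hh
      exact absurd hh (Finset.notMem_empty h)
  | insert h s hh ih =>
    obtain ⟨κ, hκ, g, ⟨hgW, hgp, hgorth, hgsum⟩, hsteps⟩ :=
      ih (fun h' hh' => hs h' (Finset.mem_insert_of_mem hh'))
    obtain ⟨ι, hι, f, c, ⟨hfW, hfp, hforth, hfsum⟩, hfb⟩ :=
      exists_step_approx W hWc (hs h (Finset.mem_insert_self h s)) hη
    have hproj : ∀ (k : κ) (l : ι), IsStarProjection (g k * f l) :=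
      fun k l => (hgp k).mul (hfp l) (hWc _ (hgW k) _ (hfW l))
    have hnorm : ∀ (k : κ) (l : ι), ‖g k * f l‖ ≤ 1 :=
      fun k l => IsStarProjection.norm_le _ (hproj k l)
    refine ⟨κ × ι, inferInstance, fun p => g p.1 * f p.2, ⟨?_, ?_, ?_, ?_⟩, ?_⟩
    · rintro ⟨k, l⟩
      exact mul_mem (hgW k) (hfW l)
    · rintro ⟨k, l⟩
      exact hproj k l
    · rintro ⟨k, l⟩ ⟨k', l'⟩ hne
      have e1 : (g k * f l) * (g k' * f l') = (g k * g k') * (f l * f l') := by
        rw [mul_assoc, ← mul_assoc (f l), hWc (f l) (hfW l) _ (hgW k'), mul_assoc, ← mul_assoc]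
      show (g k * f l) * (g k' * f l') = 0
      rw [e1]
      by_cases hk : k = k'
      · have hl : l ≠ l' := by
          intro hl
          exact hne (by rw [hk, hl])
        rw [hforth l l' hl, mul_zero]
      · rw [hgorth k k' hk, zero_mul]
    · rw [Fintype.sum_prod_type]
      simp only [← Finset.mul_sum, hfsum, mul_one, hgsum]
    · intro h' hh'
      rcases Finset.mem_insert.mp hh' with rfl | hh'
      · refine ⟨fun p => c p.2, ?_⟩
        rintro ⟨k, l⟩
        have e1 : (h' - c l • (1 : H →L[ℂ] H)) * (g k * f l)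
            = (h' - ∑ l', c l' • f l') * (g k * f l) := by
          rw [sub_mul, sub_mul, taskE_sum_mul_piece W hWc g hgW f hfW hfp hforth c k l,
            smul_mul_assoc, one_mul]
        show ‖(h' - c l • (1 : H →L[ℂ] H)) * (g k * f l)‖ ≤ η
        rw [e1]
        calc ‖(h' - ∑ l', c l' • f l') * (g k * f l)‖
            ≤ ‖h' - ∑ l', c l' • f l'‖ * ‖g k * f l‖ := norm_mul_le _ _
          _ ≤ η * 1 := mul_le_mul hfb (hnorm k l) (norm_nonneg _) hη.le
          _ = η := mul_one η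
      · obtain ⟨c', hc'⟩ := hsteps h' hh'
        refine ⟨fun p => c' p.1, ?_⟩
        rintro ⟨k, l⟩
        show ‖(h' - c' k • (1 : H →L[ℂ] H)) * (g k * f l)‖ ≤ η
        rw [← mul_assoc]
        calc ‖(h' - c' k • (1 : H →L[ℂ] H)) * g k * f l‖
            ≤ ‖(h' - c' k • (1 : H →L[ℂ] H)) * g k‖ * ‖f l‖ := norm_mul_le _ _
          _ ≤ η * 1 := mul_le_mul (hc' k) (IsStarProjection.norm_le _ (hfp l))
              (norm_nonneg _) hη.le
          _ = η := mul_one η

/-! ### Part B -/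

/-- Quadratic form bound for a matrix in terms of its operator norm. -/
lemma taskB_quad_le {n : ℕ} (B : Matrix (Fin n) (Fin n) ℂ) (a : Fin n → ℂ) :
    ‖∑ i, ∑ j, B i j * (starRingEnd ℂ (a i) * a j)‖ ≤ ‖B‖ * ∑ j, ‖a j‖ ^ 2 := by
  have h1 : ∑ i, ∑ j, B i j * (starRingEnd ℂ (a i) * a j)
      = ⟪(WithLp.toLp 2 a : EuclideanSpace ℂ (Fin n)),
          Matrix.toEuclideanCLM (n := Fin n) (𝕜 := ℂ) B (WithLp.toLp 2 a)⟫_ℂ := by
    rw [PiLp.inner_apply]
    refine Finset.sum_congr rfl (fun i _ => ?_)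
    rw [Matrix.ofLp_toEuclideanCLM]
    simp only [Matrix.mulVec, dotProduct, RCLike.inner_apply]
    rw [Finset.sum_mul]
    refine Finset.sum_congr rfl (fun j _ => ?_)
    ring
  rw [h1, ← Matrix.l2_opNorm_toEuclideanCLM]
  have h2 : ∑ j, ‖a j‖ ^ 2 = ‖(WithLp.toLp 2 a : EuclideanSpace ℂ (Fin n))‖ ^ 2 := by
    rw [EuclideanSpace.norm_sq_eq]
  rw [h2]
  calc ‖⟪(WithLp.toLp 2 a : EuclideanSpace ℂ (Fin n)),
          Matrix.toEuclideanCLM (n := Fin n) (𝕜 := ℂ) B (WithLp.toLp 2 a)⟫_ℂ‖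
      ≤ ‖(WithLp.toLp 2 a : EuclideanSpace ℂ (Fin n))‖
          * ‖Matrix.toEuclideanCLM (n := Fin n) (𝕜 := ℂ) B (WithLp.toLp 2 a)‖ :=
        norm_inner_le_norm _ _
    _ ≤ ‖(WithLp.toLp 2 a : EuclideanSpace ℂ (Fin n))‖
          * (‖Matrix.toEuclideanCLM (n := Fin n) (𝕜 := ℂ) B‖
            * ‖(WithLp.toLp 2 a : EuclideanSpace ℂ (Fin n))‖) := by
        gcongr
        exact le_opNorm _ _
    _ = ‖Matrix.toEuclideanCLM (n := Fin n) (𝕜 := ℂ) B‖
          * ‖(WithLp.toLp 2 a : EuclideanSpace ℂ (Fin n))‖ ^ 2 := by ring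

omit [CompleteSpace H] in
/-- Gram lemma: the pairing of a matrix with a Gram matrix is bounded by the operator norm
times the sum of the squared norms. -/
lemma taskB_gram_le {n : ℕ} (B : Matrix (Fin n) (Fin n) ℂ) (w : Fin n → H) :
    ‖∑ i, ∑ j, B i j * ⟪w i, w j⟫_ℂ‖ ≤ ‖B‖ * ∑ j, ‖w j‖ ^ 2 := by
  classical
  set S : Submodule ℂ H := Submodule.span ℂ (Set.range w) with hS
  have hwS : ∀ j, w j ∈ S := fun j => Submodule.subset_span (Set.mem_range_self j)
  have : FiniteDimensional ℂ S := FiniteDimensional.span_of_finite ℂ (Set.finite_range w)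
  let w' : Fin n → S := fun j => ⟨w j, hwS j⟩
  let b := stdOrthonormalBasis ℂ S
  have hinner : ∀ i j, ⟪w i, w j⟫_ℂ = ∑ l, ⟪w' i, b l⟫_ℂ * ⟪b l, w' j⟫_ℂ := by
    intro i j
    rw [b.sum_inner_mul_inner]
    rfl
  have hexp : ∑ i, ∑ j, B i j * ⟪w i, w j⟫_ℂ
      = ∑ l, ∑ i, ∑ j, B i j * (starRingEnd ℂ (⟪b l, w' i⟫_ℂ) * ⟪b l, w' j⟫_ℂ) := by
    calc ∑ i, ∑ j, B i j * ⟪w i, w j⟫_ℂ
        = ∑ i, ∑ j, ∑ l, B i j * (starRingEnd ℂ (⟪b l, w' i⟫_ℂ) * ⟪b l, w' j⟫_ℂ) := by
          refine Finset.sum_congr rfl (fun i _ => Finset.sum_congr rfl (fun j _ => ?_))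
          rw [hinner, Finset.mul_sum]
          refine Finset.sum_congr rfl (fun l _ => ?_)
          rw [inner_conj_symm]
      _ = ∑ i, ∑ l, ∑ j, B i j * (starRingEnd ℂ (⟪b l, w' i⟫_ℂ) * ⟪b l, w' j⟫_ℂ) :=
          Finset.sum_congr rfl (fun i _ => Finset.sum_comm)
      _ = ∑ l, ∑ i, ∑ j, B i j * (starRingEnd ℂ (⟪b l, w' i⟫_ℂ) * ⟪b l, w' j⟫_ℂ) :=
          Finset.sum_comm
  rw [hexp]
  calc ‖∑ l, ∑ i, ∑ j, B i j * (starRingEnd ℂ (⟪b l, w' i⟫_ℂ) * ⟪b l, w' j⟫_ℂ)‖
      ≤ ∑ l, ‖∑ i, ∑ j, B i j * (starRingEnd ℂ (⟪b l, w' i⟫_ℂ) * ⟪b l, w' j⟫_ℂ)‖ :=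
        norm_sum_le _ _
    _ ≤ ∑ l, ‖B‖ * ∑ j, ‖⟪b l, w' j⟫_ℂ‖ ^ 2 :=
        Finset.sum_le_sum (fun l _ => taskB_quad_le B (fun j => ⟪b l, w' j⟫_ℂ))
    _ = ‖B‖ * ∑ j, ‖w j‖ ^ 2 := by
        rw [← Finset.mul_sum, Finset.sum_comm]
        congr 1
        refine Finset.sum_congr rfl (fun j _ => ?_)
        rw [b.sum_sq_norm_inner_right]
        rfl

omit [CompleteSpace H] in
/-- The synthesis operator of a pairwise orthogonal family of vectors of norm at most one is a
contraction. -/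
lemma taskB_norm_synth_le {n : ℕ} {u : Fin n → H} (huo : ∀ i j, i ≠ j → ⟪u i, u j⟫_ℂ = 0)
    (hun : ∀ j, ‖u j‖ ≤ 1) : ‖synth u‖ ≤ 1 := by
  refine opNorm_le_bound _ zero_le_one (fun a => ?_)
  rw [one_mul, synth_apply]
  have h1 : ‖∑ k, a k • u k‖ ^ 2 = ∑ k, ‖a k‖ ^ 2 * ‖u k‖ ^ 2 := by
    rw [← inner_self_eq_norm_sq (𝕜 := ℂ), sum_inner, map_sum]
    refine Finset.sum_congr rfl (fun i _ => ?_)
    rw [inner_sum, Finset.sum_eq_single i]
    · rw [inner_self_eq_norm_sq (𝕜 := ℂ), norm_smul, mul_pow]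
    · intro j _ hji
      rw [inner_smul_left, inner_smul_right, huo i j (fun h => hji h.symm), mul_zero, mul_zero]
    · intro hi
      exact absurd (Finset.mem_univ i) hi
  have h2 : ‖∑ k, a k • u k‖ ^ 2 ≤ ‖a‖ ^ 2 := by
    rw [h1, EuclideanSpace.norm_sq_eq]
    refine Finset.sum_le_sum (fun k _ => ?_)
    have hk : ‖u k‖ ^ 2 ≤ 1 := pow_le_one₀ (norm_nonneg _) (hun k)
    nlinarith [sq_nonneg ‖a k‖]
  exact (pow_le_pow_iff_left₀ (norm_nonneg _) (norm_nonneg _) two_ne_zero).mp h2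

/-- Task B: the matrix paving hypothesis gives the paving inequality in Gram form for a finite
pairwise orthogonal family of vectors of norm at most one. -/
theorem exists_paving_gram {ε : ℝ} {r : ℕ} (hmp : MatrixPavable ε r)
    {J : Type} [Fintype J] [DecidableEq J] (u : J → H)
    (huo : ∀ i j, i ≠ j → ⟪u i, u j⟫_ℂ = 0) (hun : ∀ j, ‖u j‖ ≤ 1)
    (x : H →L[ℂ] H) (hx : IsSelfAdjoint x) :
    ∃ (c : J → Fin r) (d : J → ℝ), (∀ j, |d j| ≤ ‖x‖) ∧
      ∀ w : J → H, ‖∑ i, ∑ j, ((if c i = c j then ⟪u i, x (u j)⟫_ℂ else 0)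
          - (if i = j then (d i : ℂ) else 0)) * ⟪w i, w j⟫_ℂ‖ ≤ ε * ‖x‖ * ∑ j, ‖w j‖ ^ 2 := by
  classical
  -- nonnegativity of ε from the paving hypothesis
  obtain ⟨c₁, d₁, -, h₁⟩ := hmp 1 1 Matrix.isHermitian_one
  rw [← Matrix.l2_opNorm_toEuclideanCLM, ← Matrix.l2_opNorm_toEuclideanCLM] at h₁
  have hε : 0 ≤ ε := by
    by_contra hneg
    rw [not_le] at hneg
    have hpos : 0 < ‖Matrix.toEuclideanCLM (n := Fin 1) (𝕜 := ℂ) 1‖ := by
      rw [norm_pos_iff]
      intro h0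
      have := (Matrix.toEuclideanCLM (n := Fin 1) (𝕜 := ℂ)).injective (h0.trans (map_zero _).symm)
      exact one_ne_zero this
    have h2 := (norm_nonneg _).trans h₁
    nlinarith
  -- reindex by Fin n
  let e : J ≃ Fin (Fintype.card J) := Fintype.equivFin J
  let u' : Fin (Fintype.card J) → H := fun k => u (e.symm k)
  have hu'o : ∀ i j, i ≠ j → ⟪u' i, u' j⟫_ℂ = 0 :=
    fun i j hij => huo _ _ (fun h => hij (e.symm.injective h))
  have hu'n : ∀ j, ‖u' j‖ ≤ 1 := fun j => hun _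
  set T : Matrix (Fin (Fintype.card J)) (Fin (Fintype.card J)) ℂ :=
    Matrix.of fun j k => ⟪u' j, x (u' k)⟫_ℂ with hT
  have hTherm : T.IsHermitian := by
    ext j k
    rw [Matrix.conjTranspose_apply, hT, Matrix.of_apply, Matrix.of_apply, RCLike.star_def,
      inner_conj_symm, ← adjoint_inner_right, hx.adjoint_eq]
  have hTnorm : ‖T‖ ≤ ‖x‖ := by
    rw [← Matrix.l2_opNorm_toEuclideanCLM, hT, ← synth_conj_eq_matrix]
    calc ‖adjoint (synth u') ∘L x ∘L synth u'‖
        ≤ ‖adjoint (synth u')‖ * ‖x ∘L synth u'‖ := opNorm_comp_le _ _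
      _ ≤ ‖adjoint (synth u')‖ * (‖x‖ * ‖synth u'‖) := by
          gcongr; exact opNorm_comp_le _ _
      _ ≤ 1 * (‖x‖ * 1) := by
          gcongr
          · rw [LinearIsometryEquiv.norm_map]
            exact taskB_norm_synth_le hu'o hu'n
          · exact taskB_norm_synth_le hu'o hu'n
      _ = ‖x‖ := by ring
  obtain ⟨c, d, hd, hcd⟩ := hmp (Fintype.card J) T hTherm
  refine ⟨fun j => c (e j), fun j => d (e j), fun j => (hd _).trans hTnorm, fun w => ?_⟩
  have key := taskB_gram_le (pavedMatrix T c d) (fun k => w (e.symm k))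
  have hsum : ∑ i, ∑ j, ((if c (e i) = c (e j) then ⟪u i, x (u j)⟫_ℂ else 0)
        - (if i = j then ((d (e i) : ℝ) : ℂ) else 0)) * ⟪w i, w j⟫_ℂ
      = ∑ k, ∑ l, pavedMatrix T c d k l * ⟪w (e.symm k), w (e.symm l)⟫_ℂ := by
    rw [← Equiv.sum_comp e.symm]
    refine Finset.sum_congr rfl (fun k _ => ?_)
    rw [← Equiv.sum_comp e.symm]
    refine Finset.sum_congr rfl (fun l _ => ?_)
    simp only [pavedMatrix, Matrix.of_apply, Equiv.apply_symm_apply, hT, u',
      e.symm.injective.eq_iff]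
  have hsumw : ∑ j, ‖w j‖ ^ 2 = ∑ k, ‖w (e.symm k)‖ ^ 2 :=
    (Equiv.sum_comp e.symm (fun j => ‖w j‖ ^ 2)).symm
  rw [hsum, hsumw]
  calc ‖∑ k, ∑ l, pavedMatrix T c d k l * ⟪w (e.symm k), w (e.symm l)⟫_ℂ‖
      ≤ ‖pavedMatrix T c d‖ * ∑ k, ‖w (e.symm k)‖ ^ 2 := key
    _ ≤ ε * ‖x‖ * ∑ k, ‖w (e.symm k)‖ ^ 2 := by
        refine mul_le_mul_of_nonneg_right ?_ (Finset.sum_nonneg (fun k _ => sq_nonneg _))
        exact hcd.trans (mul_le_mul_of_nonneg_left hTnorm hε)

/-! ### Part F -/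

/-- Moving a self-adjoint operator and an operator across the inner product. -/
lemma taskF_inner (a y : H →L[ℂ] H) (ha : star a = a) (u v : H) :
    ⟪y (a u), v⟫_ℂ = ⟪u, (a * star y) v⟫_ℂ := by
  have h1 : ⟪u, (a * star y) v⟫_ℂ = ⟪(adjoint a) u, (star y) v⟫_ℂ :=
    (adjoint_inner_left a ((star y) v) u).symm
  rw [h1, ← star_eq_adjoint, ha, star_eq_adjoint, adjoint_inner_right]

theorem exists_central_lift (M : VonNeumannAlgebra H) (hZ : M.commutant ≤ M) (ω : H)
    {κ : Type} [Fintype κ] (g : κ → H →L[ℂ] H) (hgM : ∀ k, g k ∈ M)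
    (hgp : ∀ k, g k * (orbit M.commutant ω).topologicalClosure.starProjection
      = (orbit M.commutant ω).topologicalClosure.starProjection * g k)
    (hg : ∀ k, IsStarProjection (g k))
    (horth : ∀ k l, k ≠ l → g k * g l = 0) (hsum : ∑ k, g k = 1) :
    ∃ z : Option κ → H →L[ℂ] H, IsPOU M.commutant z ∧
      (∀ k, z (some k) * (orbit M.commutant ω).topologicalClosure.starProjection
        = g k * (orbit M.commutant ω).topologicalClosure.starProjection) ∧
      z none * (orbit M.commutant ω).topologicalClosure.starProjection = 0 := by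
  classical
  set p : H →L[ℂ] H := (orbit M.commutant ω).topologicalClosure.starProjection with hp
  have hpP : IsStarProjection p := isStarProjection_starProjection
  have hpp : p * p = p := hpP.isIdempotentElem.eq
  have hpsa : star p = p := hpP.isSelfAdjoint.star_eq
  have hcomm : ∀ a ∈ M.commutant, ∀ b ∈ M, a * b = b * a := by
    intro a ha b hb
    rw [VonNeumannAlgebra.mem_commutant_iff] at ha
    exact (ha b hb).symm
  have hZc : ∀ a ∈ M.commutant, ∀ b ∈ M.commutant, a * b = b * a :=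
    fun a ha b hb => hcomm a ha b (hZ hb)
  have hpM : p ∈ M := by
    apply starProjection_closure_mem M
    rintro y hy _ ⟨a, ha, rfl⟩
    exact ⟨y * a, mul_mem hy ha, rfl⟩
  have hpω : p ω = ω :=
    Submodule.starProjection_eq_self_iff.mpr
      ((orbit M.commutant ω).le_topologicalClosure ⟨1, one_mem _, rfl⟩)
  have hN : ∀ S T : H →L[ℂ] H, S ∈ M → T ∈ M → p * S * p = S → p * T * p = T →
      S * T = T * S := by
    intro S T hS hT hpS hpT
    exact cyclic_commutant_comm M.commutant hZc ω S T (fun a ha => hcomm a ha S hS)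
      (fun a ha => hcomm a ha T hT) hpS hpT
  -- the projections `f k = g k * p`
  set f : κ → H →L[ℂ] H := fun k => g k * p with hf
  have hfM : ∀ k, f k ∈ M := fun k => mul_mem (hgM k) hpM
  have hfp : ∀ k, f k * p = f k := by
    intro k
    simp only [hf]
    rw [mul_assoc, hpp]
  have hpf : ∀ k, p * f k = f k := by
    intro k
    simp only [hf]
    rw [← mul_assoc, ← hgp k, mul_assoc, hpp]
  have hff : ∀ k, f k * f k = f k := by
    intro k
    calc f k * f k = g k * (p * g k) * p := by simp only [hf, mul_assoc]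
      _ = g k * (g k * p) * p := by rw [hgp k]
      _ = (g k * g k) * (p * p) := by simp only [mul_assoc]
      _ = f k := by rw [(hg k).isIdempotentElem.eq, hpp]
  have hfl : ∀ k l, k ≠ l → f k * f l = 0 := by
    intro k l hkl
    calc f k * f l = g k * (p * g l) * p := by simp only [hf, mul_assoc]
      _ = g k * (g l * p) * p := by rw [hgp l]
      _ = (g k * g l) * (p * p) := by simp only [mul_assoc]
      _ = 0 := by rw [horth k l hkl, zero_mul]
  have hfsa : ∀ k, star (f k) = f k := by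
    intro k
    simp only [hf]
    rw [star_mul, hpsa, (hg k).isSelfAdjoint.star_eq, ← hgp k]
  have hpfp : ∀ k, p * f k * p = f k := by
    intro k
    rw [hpf, hfp]
  -- the central projections
  set z' : κ → H →L[ℂ] H :=
    fun k => (orbit M (f k ω)).topologicalClosure.starProjection with hz'
  have hz'Z : ∀ k, z' k ∈ M.commutant := by
    intro k
    apply starProjection_closure_mem M.commutant
    rintro y hy _ ⟨a, ha, rfl⟩
    rw [VonNeumannAlgebra.commutant_commutant] at hy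
    exact ⟨y * a, mul_mem hy ha, rfl⟩
  have hz'P : ∀ k, IsStarProjection (z' k) := fun k => isStarProjection_starProjection
  have h1 : ∀ k, z' k (f k ω) = f k ω := by
    intro k
    exact Submodule.starProjection_eq_self_iff.mpr
      ((orbit M (f k ω)).le_topologicalClosure ⟨1, one_mem _, rfl⟩)
  -- (2) the vector `(p - f k) ω` is orthogonal to the orbit of `f k ω`
  have hA : ∀ k, ∀ y ∈ M, ⟪y (f k ω), (p - f k) ω⟫_ℂ = 0 := by
    intro k y hy
    rw [taskF_inner (f k) y (hfsa k)]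
    have hsy : star y ∈ M := star_mem hy
    have hpd : p * (p - f k) = p - f k := by rw [mul_sub, hpp, hpf]
    have hY : p * (p * star y * p) * p = p * star y * p := by
      simp only [mul_assoc, hpp]
      rw [← mul_assoc p p, hpp]
    have hD : p * (p - f k) * p = p - f k := by
      rw [hpd, sub_mul, hpp, hfp]
    have hc := hN (p * star y * p) (p - f k) (mul_mem (mul_mem hpM hsy) hpM)
      (sub_mem hpM (hfM k)) hY hD
    have hop : f k * star y * (p - f k) = 0 := by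
      calc f k * star y * (p - f k) = (f k * p) * star y * (p * (p - f k)) := by
            rw [hfp, hpd]
        _ = f k * ((p * star y * p) * (p - f k)) := by simp only [mul_assoc]
        _ = f k * ((p - f k) * (p * star y * p)) := by rw [hc]
        _ = (f k * p - f k * f k) * (p * star y * p) := by rw [← mul_assoc, mul_sub]
        _ = 0 := by rw [hfp, hff, sub_self, zero_mul]
    have : (f k * star y) ((p - f k) ω) = (f k * star y * (p - f k)) ω := rfl
    rw [this, hop]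
    simp
  have h2 : ∀ k, z' k ω = f k ω := by
    intro k
    have hmem : (p - f k) ω ∈ (orbit M (f k ω)).topologicalClosureᗮ := by
      rw [Submodule.orthogonal_closure, Submodule.mem_orthogonal]
      rintro _ ⟨y, hy, rfl⟩
      exact hA k y hy
    have h0 : z' k ((p - f k) ω) = 0 := (Submodule.starProjection_apply_eq_zero_iff _).mpr hmem
    have hω : ω = f k ω + (p - f k) ω := by
      simp [sub_apply, hpω]
    calc z' k ω = z' k (f k ω + (p - f k) ω) := by rw [← hω]
      _ = z' k (f k ω) + z' k ((p - f k) ω) := map_add _ _ _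
      _ = f k ω := by rw [h1, h0, add_zero]
  -- (3) agreement on the cyclic subspace
  have h3 : ∀ k, z' k * p = g k * p := by
    intro k
    have hker : (orbit M.commutant ω).topologicalClosure ≤
        LinearMap.ker ((z' k - f k : H →L[ℂ] H) : H →ₗ[ℂ] H) := by
      apply Submodule.topologicalClosure_minimal
      · rintro _ ⟨h, hh, rfl⟩
        rw [LinearMap.mem_ker]
        have e1 : z' k (h ω) = h (z' k ω) := by
          have : (z' k * h) ω = (h * z' k) ω := by rw [hZc _ (hz'Z k) _ hh]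
          exact this
        have e2 : f k (h ω) = h (f k ω) := by
          have : (f k * h) ω = (h * f k) ω := by rw [hcomm h hh _ (hfM k)]
          exact this
        change (z' k - f k) (h ω) = 0
        rw [sub_apply, e1, e2, h2, sub_self]
      · exact ContinuousLinearMap.isClosed_ker _
    ext v
    have hv : p v ∈ (orbit M.commutant ω).topologicalClosure :=
      Submodule.starProjection_apply_mem _ v
    have := hker hv
    rw [LinearMap.mem_ker] at this
    have h4 : z' k (p v) = f k (p v) := by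
      have h5 : (z' k - f k) (p v) = 0 := this
      rw [sub_apply, sub_eq_zero] at h5
      exact h5
    change z' k (p v) = g k (p v)
    rw [h4]
    change g k (p (p v)) = g k (p v)
    have : p (p v) = (p * p) v := rfl
    rw [this, hpp]
  -- (4) orthogonality of the central projections
  have hB : ∀ k l, k ≠ l → ∀ y ∈ M, ∀ y' ∈ M, ⟪y (f k ω), y' (f l ω)⟫_ℂ = 0 := by
    intro k l hkl y hy y' hy'
    rw [taskF_inner (f k) y (hfsa k)]
    have hsy : star y ∈ M := star_mem hy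
    have hY : p * (p * (star y * y') * p) * p = p * (star y * y') * p := by
      simp only [mul_assoc, hpp]
      rw [← mul_assoc p p, hpp]
    have hc := hN (f k) (p * (star y * y') * p) (hfM k)
      (mul_mem (mul_mem hpM (mul_mem hsy hy')) hpM) (hpfp k) hY
    have hop : f k * star y * y' * f l = 0 := by
      calc f k * star y * y' * f l = (f k * p) * star y * y' * (p * f l) := by
            rw [hfp, hpf]
        _ = (f k * (p * (star y * y') * p)) * f l := by simp only [mul_assoc]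
        _ = ((p * (star y * y') * p) * f k) * f l := by rw [hc]
        _ = 0 := by rw [mul_assoc, hfl k l hkl, mul_zero]
    have : (f k * star y) (y' (f l ω)) = (f k * star y * y' * f l) ω := rfl
    rw [this, hop]
    simp
  have hzz : ∀ k l, k ≠ l → z' k * z' l = 0 := by
    intro k l hkl
    have hle : (orbit M (f l ω)).topologicalClosure ≤
        (orbit M (f k ω)).topologicalClosureᗮ := by
      apply Submodule.topologicalClosure_minimal
      · rintro _ ⟨y', hy', rfl⟩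
        rw [Submodule.orthogonal_closure, Submodule.mem_orthogonal]
        rintro _ ⟨y, hy, rfl⟩
        exact hB k l hkl y hy y' hy'
      · exact Submodule.isClosed_orthogonal _
    ext v
    have hv : z' l v ∈ (orbit M (f l ω)).topologicalClosure :=
      Submodule.starProjection_apply_mem _ v
    change z' k (z' l v) = 0
    exact (Submodule.starProjection_apply_eq_zero_iff _).mpr (hle hv)
  have hzi : ∀ k, z' k * z' k = z' k := fun k => (hz'P k).isIdempotentElem.eq
  have hsumP : IsStarProjection (∑ k, z' k) :=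
    isStarProjection_sum Finset.univ z' (fun k _ => hz'P k) (fun k _ l _ hkl => hzz k l hkl)
  have hmulsum : ∀ k, z' k * ∑ l, z' l = z' k := by
    intro k
    rw [Finset.mul_sum, Finset.sum_eq_single k]
    · exact hzi k
    · intro l _ hlk
      exact hzz k l (Ne.symm hlk)
    · intro h
      exact absurd (Finset.mem_univ k) h
  have hsummul : ∀ k, (∑ l, z' l) * z' k = z' k := by
    intro k
    rw [Finset.sum_mul, Finset.sum_eq_single k]
    · exact hzi k
    · intro l _ hlk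
      exact hzz l k hlk
    · intro h
      exact absurd (Finset.mem_univ k) h
  refine ⟨fun o => o.elim (1 - ∑ k, z' k) z', ⟨?_, ?_, ?_, ?_⟩, ?_, ?_⟩
  · rintro (_ | k)
    · exact sub_mem (one_mem _) (sum_mem (fun k _ => hz'Z k))
    · exact hz'Z k
  · rintro (_ | k)
    · exact hsumP.one_sub
    · exact hz'P k
  · rintro (_ | k) (_ | l) hne
    · exact absurd rfl hne
    · change (1 - ∑ k, z' k) * z' l = 0
      rw [sub_mul, one_mul, hsummul, sub_self]
    · change z' k * (1 - ∑ k, z' k) = 0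
      rw [mul_sub, mul_one, hmulsum, sub_self]
    · exact hzz k l (fun h => hne (congrArg some h))
  · rw [Fintype.sum_option]
    change (1 - ∑ k, z' k) + ∑ k, z' k = 1
    rw [sub_add_cancel]
  · intro k
    exact h3 k
  · change (1 - ∑ k, z' k) * p = 0
    rw [sub_mul, one_mul, Finset.sum_mul]
    simp_rw [h3]
    rw [← Finset.sum_mul, hsum, one_mul, sub_self]

/-! ### Part G -/

/-- The von Neumann algebra of all operators commuting with a set of operators and with the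
adjoints of its members. -/
noncomputable def taskG_centralizer (S : Set (H →L[ℂ] H)) : VonNeumannAlgebra H where
  toStarSubalgebra := StarSubalgebra.centralizer ℂ S
  centralizer_centralizer' := by simp

lemma taskG_mem_centralizer (S : Set (H →L[ℂ] H)) (y : H →L[ℂ] H) :
    y ∈ taskG_centralizer S ↔ ∀ b ∈ S, b * y = y * b ∧ star b * y = y * star b :=
  StarSubalgebra.mem_centralizer_iff ℂ

/-- A commutative set of operators closed under adjoints lies in a commutative von Neumann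
algebra all of whose members commute with the set (its double commutant). -/
lemma taskG_hull_of_set (S : Set (H →L[ℂ] H)) (hSc : ∀ a ∈ S, ∀ b ∈ S, a * b = b * a)
    (hSstar : ∀ a ∈ S, star a ∈ S) :
    ∃ W : VonNeumannAlgebra H, (∀ a ∈ W, ∀ b ∈ W, a * b = b * a) ∧ (∀ a ∈ S, a ∈ W) ∧
      ∀ y ∈ W, ∀ b ∈ S, b * y = y * b := by
  have hSC : ∀ a ∈ S, a ∈ taskG_centralizer S := by
    intro a ha
    rw [taskG_mem_centralizer]
    intro b hb
    exact ⟨hSc b hb a ha, hSc (star b) (hSstar b hb) a ha⟩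
  have hWcomm : ∀ y ∈ (taskG_centralizer S).commutant, ∀ b ∈ S, b * y = y * b := by
    intro y hy b hb
    rw [VonNeumannAlgebra.mem_commutant_iff] at hy
    exact hy b (hSC b hb)
  refine ⟨(taskG_centralizer S).commutant, ?_, ?_, hWcomm⟩
  · intro y hy y' hy'
    have hy'C : y' ∈ taskG_centralizer S := by
      rw [taskG_mem_centralizer]
      intro b hb
      exact ⟨hWcomm y' hy' b hb, hWcomm y' hy' (star b) (hSstar b hb)⟩
    rw [VonNeumannAlgebra.mem_commutant_iff] at hy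
    exact (hy y' hy'C).symm
  · intro a ha
    rw [VonNeumannAlgebra.mem_commutant_iff]
    intro g hg
    rw [taskG_mem_centralizer] at hg
    exact ((hg a ha).1).symm

/-- A commutative von Neumann subalgebra of `M` containing all compressions `p * h * p` of
elements of `M` to the cyclic subspace of the centre. -/
lemma taskG_exists_hull (M : VonNeumannAlgebra H) (hZ : M.commutant ≤ M) (ω : H) :
    ∃ W : VonNeumannAlgebra H, (∀ a ∈ W, ∀ b ∈ W, a * b = b * a) ∧ (∀ y ∈ W, y ∈ M) ∧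
      (∀ y ∈ W, y * (orbit M.commutant ω).topologicalClosure.starProjection
          = (orbit M.commutant ω).topologicalClosure.starProjection * y) ∧
      ∀ h ∈ M, (orbit M.commutant ω).topologicalClosure.starProjection * h
          * (orbit M.commutant ω).topologicalClosure.starProjection ∈ W := by
  have hpP : IsStarProjection (orbit M.commutant ω).topologicalClosure.starProjection :=
    isStarProjection_starProjection
  have hpM : (orbit M.commutant ω).topologicalClosure.starProjection ∈ M := by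
    refine starProjection_closure_mem M (orbit M.commutant ω) ?_
    rintro y hy _ ⟨a, ha, rfl⟩
    exact ⟨y * a, mul_mem hy ha, rfl⟩
  have hMZ : ∀ T ∈ M, ∀ g ∈ M.commutant, g * T = T * g := by
    intro T hT g hg
    rw [VonNeumannAlgebra.mem_commutant_iff] at hg
    exact (hg T hT).symm
  have hZc : ∀ a ∈ M.commutant, ∀ b ∈ M.commutant, a * b = b * a :=
    fun a ha b hb => hMZ b (hZ hb) a ha
  have hA := cyclic_commutant_comm M.commutant hZc ω
  set p : H →L[ℂ] H := (orbit M.commutant ω).topologicalClosure.starProjection with hp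
  have hNc : ∀ S ∈ {T : H →L[ℂ] H | T ∈ M ∧ p * T * p = T},
      ∀ T ∈ {T : H →L[ℂ] H | T ∈ M ∧ p * T * p = T}, S * T = T * S := by
    intro S hS T hT
    exact hA S T (fun g hg => hMZ S hS.1 g hg) (fun g hg => hMZ T hT.1 g hg) hS.2 hT.2
  have hNstar : ∀ T ∈ {T : H →L[ℂ] H | T ∈ M ∧ p * T * p = T},
      star T ∈ {T : H →L[ℂ] H | T ∈ M ∧ p * T * p = T} := by
    intro T hT
    refine ⟨star_mem hT.1, ?_⟩
    have h1 := congrArg star hT.2
    rw [star_mul, star_mul, hpP.isSelfAdjoint.star_eq, ← mul_assoc] at h1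
    exact h1
  have hNmem : ∀ h ∈ M, p * h * p ∈ {T : H →L[ℂ] H | T ∈ M ∧ p * T * p = T} := by
    intro h hh
    refine ⟨mul_mem (mul_mem hpM hh) hpM, ?_⟩
    calc p * (p * h * p) * p = (p * p) * h * (p * p) := by simp only [mul_assoc]
      _ = p * h * p := by rw [hpP.isIdempotentElem.eq]
  have hpN : p ∈ {T : H →L[ℂ] H | T ∈ M ∧ p * T * p = T} := by
    refine ⟨hpM, ?_⟩
    rw [hpP.isIdempotentElem.eq, hpP.isIdempotentElem.eq]
  have hSc : ∀ a ∈ {T : H →L[ℂ] H | T ∈ M.commutant ∨ (T ∈ M ∧ p * T * p = T)},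
      ∀ b ∈ {T : H →L[ℂ] H | T ∈ M.commutant ∨ (T ∈ M ∧ p * T * p = T)}, a * b = b * a := by
    rintro a (ha | ha) b (hb | hb)
    · exact hZc a ha b hb
    · exact hMZ b hb.1 a ha
    · exact (hMZ a ha.1 b hb).symm
    · exact hNc a ha b hb
  have hSstar : ∀ a ∈ {T : H →L[ℂ] H | T ∈ M.commutant ∨ (T ∈ M ∧ p * T * p = T)},
      star a ∈ {T : H →L[ℂ] H | T ∈ M.commutant ∨ (T ∈ M ∧ p * T * p = T)} := by
    rintro a (ha | ha)
    · exact Or.inl (star_mem ha)
    · exact Or.inr (hNstar a ha)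
  obtain ⟨W, hWc, hSW, hWS⟩ := taskG_hull_of_set _ hSc hSstar
  refine ⟨W, hWc, ?_, ?_, ?_⟩
  · intro y hy
    rw [← VonNeumannAlgebra.commutant_commutant M, VonNeumannAlgebra.mem_commutant_iff]
    intro g hg
    exact hWS y hy g (Or.inl hg)
  · intro y hy
    exact (hWS y hy p (Or.inr hpN)).symm
  · intro h hh
    exact hSW _ (Or.inr (hNmem h hh))

/-- The identity behind the estimate on one piece. -/
lemma taskG_piece_identity {p h zk gk : H →L[ℂ] H} (c : ℂ) (hpP : IsStarProjection p)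
    (hzP : IsStarProjection zk) (hgP : IsStarProjection gk) (hzp : zk * p = gk * p)
    (hpz : p * zk = zk * p) (hzh : zk * h = h * zk) {v v' : H} (hv : p v = v) (hv' : p v' = v') :
    ⟪zk v', ((p * h * p - c • 1) * gk) (zk v)⟫_ℂ = ⟪v', h (zk v)⟫_ℂ - c * ⟪v', zk v⟫_ℂ := by
  have hzz : ∀ x : H, zk (zk x) = zk x := by
    intro x
    rw [← mul_apply_eq_comp, hzP.isIdempotentElem.eq]
  have hgg : ∀ x : H, gk (gk x) = gk x := by
    intro x
    rw [← mul_apply_eq_comp, hgP.isIdempotentElem.eq]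
  have hzsa : ∀ x y : H, ⟪zk x, y⟫_ℂ = ⟪x, zk y⟫_ℂ := by
    intro x y
    rw [← adjoint_inner_right, ← star_eq_adjoint, hzP.isSelfAdjoint.star_eq]
  have hpsa : ∀ x y : H, ⟪p x, y⟫_ℂ = ⟪x, p y⟫_ℂ := by
    intro x y
    rw [← adjoint_inner_right, ← star_eq_adjoint, hpP.isSelfAdjoint.star_eq]
  have h1 : zk v = gk v := by
    have h2 := congrArg (fun f : H →L[ℂ] H => f v) hzp
    simp only [mul_apply_eq_comp, hv] at h2
    exact h2
  have h3 : gk (zk v) = zk v := by rw [h1, hgg]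
  have h4 : ∀ x : H, p (zk x) = zk (p x) := by
    intro x
    rw [← mul_apply_eq_comp, hpz, mul_apply_eq_comp]
  have h5 : ∀ x : H, zk (h x) = h (zk x) := by
    intro x
    rw [← mul_apply_eq_comp, hzh, mul_apply_eq_comp]
  have h6 : ((p * h * p - c • 1) * gk) (zk v) = p (h (zk v)) - c • zk v := by
    rw [mul_apply_eq_comp, h3, sub_apply, smul_apply, one_apply_eq_self, mul_apply_eq_comp,
      mul_apply_eq_comp, h4, hv]
  rw [h6, inner_sub_right, inner_smul_right, ← hpsa, h4, hv', hzsa, h5, hzz, hzsa, hzz]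

/-- The estimate on one piece of the partition. -/
lemma taskG_piece_bound {p h zk gk : H →L[ℂ] H} (c : ℂ) {η : ℝ} (hpP : IsStarProjection p)
    (hzP : IsStarProjection zk) (hgP : IsStarProjection gk) (hzp : zk * p = gk * p)
    (hpz : p * zk = zk * p) (hzh : zk * h = h * zk)
    (hR : ‖(p * h * p - c • 1) * gk‖ ≤ η / 2)
    {ω u u' : H} (hω : p ω = ω) (hu : p u = u) (hu' : p u' = u') :
    ‖⟪u', h (zk u)⟫_ℂ * ((‖zk ω‖ ^ 2 : ℝ) : ℂ) - ⟪ω, h (zk ω)⟫_ℂ * ⟪u', zk u⟫_ℂ‖
      ≤ η * ‖zk ω‖ ^ 2 * (‖zk u'‖ * ‖zk u‖) := by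
  have key : ∀ v v' : H, p v = v → p v' = v' →
      ‖⟪v', h (zk v)⟫_ℂ - c * ⟪v', zk v⟫_ℂ‖ ≤ η / 2 * (‖zk v'‖ * ‖zk v‖) := by
    intro v v' hv hv'
    rw [← taskG_piece_identity c hpP hzP hgP hzp hpz hzh hv hv']
    calc ‖⟪zk v', ((p * h * p - c • 1) * gk) (zk v)⟫_ℂ‖
        ≤ ‖zk v'‖ * ‖((p * h * p - c • 1) * gk) (zk v)‖ := norm_inner_le_norm _ _
      _ ≤ ‖zk v'‖ * (η / 2 * ‖zk v‖) := by
        refine mul_le_mul_of_nonneg_left ?_ (norm_nonneg _)
        exact le_trans (le_opNorm _ _) (mul_le_mul_of_nonneg_right hR (norm_nonneg _))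
      _ = η / 2 * (‖zk v'‖ * ‖zk v‖) := by ring
  have hzz : ∀ x : H, zk (zk x) = zk x := by
    intro x
    rw [← mul_apply_eq_comp, hzP.isIdempotentElem.eq]
  have hzsa : ∀ x y : H, ⟪zk x, y⟫_ℂ = ⟪x, zk y⟫_ℂ := by
    intro x y
    rw [← adjoint_inner_right, ← star_eq_adjoint, hzP.isSelfAdjoint.star_eq]
  have hμ : ⟪ω, zk ω⟫_ℂ = ((‖zk ω‖ ^ 2 : ℝ) : ℂ) := by
    have h1 : ⟪ω, zk ω⟫_ℂ = ⟪zk ω, zk ω⟫_ℂ := by rw [hzsa, hzz]
    rw [h1, inner_self_eq_norm_sq_to_K]
    norm_cast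
  have hY : ‖⟪u', zk u⟫_ℂ‖ ≤ ‖zk u'‖ * ‖zk u‖ := by
    have h1 : ⟪u', zk u⟫_ℂ = ⟪zk u', zk u⟫_ℂ := by rw [hzsa, hzz]
    rw [h1]
    exact norm_inner_le_norm _ _
  have k1 := key u u' hu hu'
  have k2 := key ω ω hω hω
  rw [hμ] at k2
  have e : ⟪u', h (zk u)⟫_ℂ * ((‖zk ω‖ ^ 2 : ℝ) : ℂ) - ⟪ω, h (zk ω)⟫_ℂ * ⟪u', zk u⟫_ℂ
      = ((‖zk ω‖ ^ 2 : ℝ) : ℂ) * (⟪u', h (zk u)⟫_ℂ - c * ⟪u', zk u⟫_ℂ)
        - (⟪ω, h (zk ω)⟫_ℂ - c * ((‖zk ω‖ ^ 2 : ℝ) : ℂ)) * ⟪u', zk u⟫_ℂ := by ring
  rw [e]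
  calc ‖((‖zk ω‖ ^ 2 : ℝ) : ℂ) * (⟪u', h (zk u)⟫_ℂ - c * ⟪u', zk u⟫_ℂ)
        - (⟪ω, h (zk ω)⟫_ℂ - c * ((‖zk ω‖ ^ 2 : ℝ) : ℂ)) * ⟪u', zk u⟫_ℂ‖
      ≤ ‖((‖zk ω‖ ^ 2 : ℝ) : ℂ) * (⟪u', h (zk u)⟫_ℂ - c * ⟪u', zk u⟫_ℂ)‖
        + ‖(⟪ω, h (zk ω)⟫_ℂ - c * ((‖zk ω‖ ^ 2 : ℝ) : ℂ)) * ⟪u', zk u⟫_ℂ‖ := norm_sub_le _ _
    _ ≤ ‖zk ω‖ ^ 2 * (η / 2 * (‖zk u'‖ * ‖zk u‖))
        + η / 2 * (‖zk ω‖ * ‖zk ω‖) * (‖zk u'‖ * ‖zk u‖) := by
      refine add_le_add ?_ ?_
      · rw [norm_mul, Complex.norm_real, Real.norm_of_nonneg (by positivity)]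
        exact mul_le_mul_of_nonneg_left k1 (by positivity)
      · rw [norm_mul]
        exact mul_le_mul k2 hY (norm_nonneg _) (le_trans (norm_nonneg _) k2)
    _ = η * ‖zk ω‖ ^ 2 * (‖zk u'‖ * ‖zk u‖) := by ring

theorem exists_central_pieces (M : VonNeumannAlgebra H) (hZ : M.commutant ≤ M) (ω : H)
    (s : Finset (H →L[ℂ] H)) (hs : ∀ h ∈ s, h ∈ M) {η : ℝ} (hη : 0 < η) :
    ∃ (κ : Type) (_ : Fintype κ) (z : κ → H →L[ℂ] H), IsPOU M.commutant z ∧
      ∀ h ∈ s, ∀ k, ∀ g ∈ M.commutant, ∀ g' ∈ M.commutant,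
        ‖⟪g' ω, h (z k (g ω))⟫_ℂ * ((‖z k ω‖ ^ 2 : ℝ) : ℂ)
            - ⟪ω, h (z k ω)⟫_ℂ * ⟪g' ω, z k (g ω)⟫_ℂ‖
          ≤ η * ‖z k ω‖ ^ 2 * (‖z k (g' ω)‖ * ‖z k (g ω)‖) := by
  classical
  obtain ⟨W, hWc, hWM, hWp, hWh⟩ := taskG_exists_hull M hZ ω
  have hpP : IsStarProjection (orbit M.commutant ω).topologicalClosure.starProjection :=
    isStarProjection_starProjection
  have hpM : (orbit M.commutant ω).topologicalClosure.starProjection ∈ M := by
    refine starProjection_closure_mem M (orbit M.commutant ω) ?_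
    rintro y hy _ ⟨a, ha, rfl⟩
    exact ⟨y * a, mul_mem hy ha, rfl⟩
  have hfix : ∀ g ∈ M.commutant,
      (orbit M.commutant ω).topologicalClosure.starProjection (g ω) = g ω := by
    intro g hg
    exact Submodule.starProjection_eq_self_iff.mpr
      ((orbit M.commutant ω).le_topologicalClosure ⟨g, hg, rfl⟩)
  have hfixω : (orbit M.commutant ω).topologicalClosure.starProjection ω = ω := by
    have h1 := hfix 1 (one_mem _)
    rwa [one_apply_eq_self] at h1
  obtain ⟨κ, hκ, g, hgW, hgc⟩ := exists_common_step W hWc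
    (s.image (fun h => (orbit M.commutant ω).topologicalClosure.starProjection * h
      * (orbit M.commutant ω).topologicalClosure.starProjection)) (by
      intro h' hh'
      obtain ⟨h, hh, rfl⟩ := Finset.mem_image.mp hh'
      exact hWh h (hs h hh)) (half_pos hη)
  obtain ⟨hgW1, hgP, hgorth, hgsum⟩ := hgW
  obtain ⟨z, hzPOU, hzsome, hznone⟩ := exists_central_lift M hZ ω g (fun k => hWM _ (hgW1 k))
    (fun k => hWp _ (hgW1 k)) hgP hgorth hgsum
  refine ⟨Option κ, inferInstance, z, hzPOU, ?_⟩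
  intro h hh k gg hgg gg' hgg'
  obtain ⟨hzZ, hzP, -, -⟩ := hzPOU
  cases k with
  | none =>
    have h0 : ∀ v : H, (orbit M.commutant ω).topologicalClosure.starProjection v = v →
        z none v = 0 := by
      intro v hv
      rw [← hv, ← mul_apply_eq_comp, hznone, zero_apply]
    rw [h0 _ (hfix gg hgg), h0 _ hfixω]
    simp
  | some k =>
    obtain ⟨c, hc⟩ := hgc _ (Finset.mem_image_of_mem _ hh)
    have hzc := hzZ (some k)
    rw [VonNeumannAlgebra.mem_commutant_iff] at hzc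
    exact taskG_piece_bound (c k) hpP (hzP (some k)) (hgP k) (hzsome k) (hzc _ hpM)
      ((hzc h (hs h hh)).symm) (hc k) hfixω (hfix gg hgg) (hfix gg' hgg')

end Vale.Agent.Lib.P078
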