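import Vale.Agent.Lib.P078.ApproxDefs
import Vale.Agent.Lib.P078.TypeIAux

/-!
# The Pauli (CAR) model of the hyperfinite factor of type II_1: definitions (P078)

The index group is `G = (⊕_ℕ ℤ/2) × (⊕_ℕ ℤ/2)`; on `ℓ²(G)` the twisted left and right regular
representations `λ`, `ρ` for the cocycle `σ((h, k), (h', k')) = (-1)^{⟨k, h'⟩}` commute, and the
commutant of `ρ(G)` is the von Neumann algebra `pM`.  The operators `λ(h, 0)` generate the
diagonal subalgebra; `pA` is its relative commutant in `pM`.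
-/

namespace Vale.Agent.Lib.P078

open scoped InnerProductSpace

/-- The index group of the Pauli basis: pairs `(h, k)` of finitely supported `ZMod 2`-valued
functions on `ℕ`. -/
abbrev PIdx : Type := (ℕ →₀ ZMod 2) × (ℕ →₀ ZMod 2)

/-- The pairing `∑ i, k i * h i` with values in `ZMod 2`. -/
def pPair (k h : ℕ →₀ ZMod 2) : ZMod 2 := k.sum fun i a => a * h i

/-- The sign `(-1)^{pPair k h}`. -/
noncomputable def pSgn (k h : ℕ →₀ ZMod 2) : ℂ := if pPair k h = 0 then 1 else -1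

/-- The cocycle `σ(g, g') = (-1)^{⟨g.2, g'.1⟩}`. -/
noncomputable def pCoc (g g' : PIdx) : ℂ := pSgn g.2 g'.1

/-- The Hilbert space `ℓ²(G)`. -/
abbrev PHilb : Type := lp (fun _ : PIdx => ℂ) 2

lemma pSgn_norm (k h : ℕ →₀ ZMod 2) : ‖pSgn k h‖ = 1 := by
  unfold pSgn
  split_ifs <;> simp

lemma pCoc_norm (g g' : PIdx) : ‖pCoc g g'‖ = 1 := pSgn_norm _ _

/-- A weighted translation of a square-summable family is square-summable. -/
lemma pW_mem (c : PIdx → ℂ) (hc : ∀ x, ‖c x‖ = 1) (g : PIdx) (v : PHilb) :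
    Memℓp (fun x => c x * (v : PIdx → ℂ) (x + g)) 2 := by
  have h2 : (0 : ℝ) < (2 : ENNReal).toReal := by norm_num
  have hv := (memℓp_gen_iff h2).1 (lp.memℓp v)
  refine (memℓp_gen_iff h2).2 ?_
  have h3 : (fun x : PIdx => ‖c x * (v : PIdx → ℂ) (x + g)‖ ^ (2 : ENNReal).toReal)
      = fun x : PIdx => ‖(v : PIdx → ℂ) ((Equiv.addRight g) x)‖ ^ (2 : ENNReal).toReal := by
    funext x
    rw [norm_mul, hc x, one_mul]
    rfl
  rw [h3]
  exact (Equiv.addRight g).summable_iff.2 hv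

/-- The weighted translation `(pWlin c hc g v) x = c x * v (x + g)` as a linear map. -/
noncomputable def pWlin (c : PIdx → ℂ) (hc : ∀ x, ‖c x‖ = 1) (g : PIdx) : PHilb →ₗ[ℂ] PHilb where
  toFun v := ⟨fun x => c x * (v : PIdx → ℂ) (x + g), pW_mem c hc g v⟩
  map_add' v w := by
    apply lp.ext
    funext x
    show c x * ((v + w : PHilb) : PIdx → ℂ) (x + g)
      = c x * (v : PIdx → ℂ) (x + g) + c x * (w : PIdx → ℂ) (x + g)
    rw [lp.coeFn_add, Pi.add_apply, mul_add]
  map_smul' a v := by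
    apply lp.ext
    funext x
    show c x * ((a • v : PHilb) : PIdx → ℂ) (x + g) = a • (c x * (v : PIdx → ℂ) (x + g))
    rw [lp.coeFn_smul, Pi.smul_apply, smul_eq_mul, smul_eq_mul]
    ring

lemma pWlin_norm (c : PIdx → ℂ) (hc : ∀ x, ‖c x‖ = 1) (g : PIdx) (v : PHilb) :
    ‖pWlin c hc g v‖ = ‖v‖ := by
  have h2 : (0 : ℝ) < (2 : ENNReal).toReal := by norm_num
  have h1 := lp.norm_rpow_eq_tsum h2 (pWlin c hc g v)
  have h3 := lp.norm_rpow_eq_tsum h2 v
  have h4 : (∑' x, ‖(pWlin c hc g v : PIdx → ℂ) x‖ ^ (2 : ENNReal).toReal)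
      = ∑' x, ‖(v : PIdx → ℂ) x‖ ^ (2 : ENNReal).toReal := by
    rw [← Equiv.tsum_eq (Equiv.addRight g) (fun m => ‖(v : PIdx → ℂ) m‖ ^ (2 : ENNReal).toReal)]
    refine tsum_congr fun x => ?_
    show ‖c x * (v : PIdx → ℂ) (x + g)‖ ^ (2 : ENNReal).toReal = _
    rw [norm_mul, hc x, one_mul]
    rfl
  have h5 : ‖pWlin c hc g v‖ ^ (2 : ENNReal).toReal = ‖v‖ ^ (2 : ENNReal).toReal := by
    rw [h1, h3, h4]
  have h6 : (2 : ENNReal).toReal = 2 := by norm_num
  rw [h6] at h5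
  have h7 : ‖pWlin c hc g v‖ ^ (2 : ℕ) = ‖v‖ ^ (2 : ℕ) := by
    exact_mod_cast h5
  exact (sq_eq_sq₀ (norm_nonneg _) (norm_nonneg _)).1 h7

/-- The weighted translation as a bounded operator on `ℓ²(G)`. -/
noncomputable def pWop (c : PIdx → ℂ) (hc : ∀ x, ‖c x‖ = 1) (g : PIdx) : PHilb →L[ℂ] PHilb :=
  (pWlin c hc g).mkContinuous 1 (fun v => by rw [pWlin_norm, one_mul])

/-- The twisted left regular representation: `(λ(g) v)(x) = σ(g, x + g) v(x + g)`, so that
`λ(g) δ_a = σ(g, a) δ_{a + g}`. -/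
noncomputable def pLam (g : PIdx) : PHilb →L[ℂ] PHilb :=
  pWop (fun x => pCoc g (x + g)) (fun _ => pCoc_norm _ _) g

/-- The twisted right regular representation: `(ρ(g) v)(x) = σ(x + g, g) v(x + g)`, so that
`ρ(g) δ_a = σ(a, g) δ_{a + g}`. -/
noncomputable def pRho (g : PIdx) : PHilb →L[ℂ] PHilb :=
  pWop (fun x => pCoc (x + g) g) (fun _ => pCoc_norm _ _) g

theorem pLam_apply (g : PIdx) (v : PHilb) (x : PIdx) :
    (pLam g v : PIdx → ℂ) x = pCoc g (x + g) * (v : PIdx → ℂ) (x + g) := rfl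

theorem pRho_apply (g : PIdx) (v : PHilb) (x : PIdx) :
    (pRho g v : PIdx → ℂ) x = pCoc (x + g) g * (v : PIdx → ℂ) (x + g) := rfl

/-- The basis vector `δ_g`. -/
noncomputable def pDelta (g : PIdx) : PHilb := lp.single 2 g (1 : ℂ)

/-- The trace vector `Ω = δ_0`. -/
noncomputable def pOmega : PHilb := pDelta 0

/-- The von Neumann algebra `pM = ρ(G)'` (the hyperfinite factor of type `II_1` in standard
form). -/
noncomputable def pM : VonNeumannAlgebra PHilb := taskG_centralizer (Set.range pRho)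

/-- The diagonal MASA: all elements of `pM` commuting with the operators `λ(h, 0)`. -/
noncomputable def pA : VonNeumannAlgebra PHilb :=
  taskG_centralizer (Set.range pRho ∪ Set.range fun h : ℕ →₀ ZMod 2 => pLam (h, 0))

/-- The type I algebra `pN n`: all elements of `pM` commuting with the operators `λ(h, 0)` for
`h` vanishing on `{0, …, n - 1}`. -/
noncomputable def pN (n : ℕ) : VonNeumannAlgebra PHilb :=
  taskG_centralizer (Set.range pRho ∪
    (fun h : ℕ →₀ ZMod 2 => pLam (h, 0)) '' {h | ∀ i < n, h i = 0})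

/-- The generator `λ(ε_i)`, `ε_i = (single i 1, 0)` (the Pauli `Z` at site `i`). -/
noncomputable def pZ (i : ℕ) : PHilb →L[ℂ] PHilb := pLam (Finsupp.single i 1, 0)

/-- The generator `λ(0, single i 1)` (the Pauli `X` at site `i`). -/
noncomputable def pX (i : ℕ) : PHilb →L[ℂ] PHilb := pLam (0, Finsupp.single i 1)

/-- The projection `pF n = ∏_{i < n} (1 + Z_i) / 2`. -/
noncomputable def pF : ℕ → PHilb →L[ℂ] PHilb
  | 0 => 1
  | n + 1 => pF n * ((1 / 2 : ℂ) • (1 + pZ n))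

/-- The finite subgroup `pG n` of all `(h, k)` with `h` and `k` supported in `{0, …, n - 1}`. -/
noncomputable def pG (n : ℕ) : Finset PIdx :=
  ((Finset.range n).finsupp fun _ => (Finset.univ : Finset (ZMod 2))) ×ˢ
    ((Finset.range n).finsupp fun _ => (Finset.univ : Finset (ZMod 2)))

/-- The truncation of `x` to the Fourier modes in `pG n`: `∑_{g ∈ pG n} (x Ω)(g) λ(g)`. -/
noncomputable def pTrunc (n : ℕ) (x : PHilb →L[ℂ] PHilb) : PHilb →L[ℂ] PHilb :=
  ∑ g ∈ pG n, (x pOmega : PIdx → ℂ) g • pLam g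

end Vale.Agent.Lib.P078
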