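import Vale.Agent.Lib.P078.ApproxDefs

/-!
# Crossed products by free profinite actions, described by their levels (P078)
-/

namespace Vale.Agent.Lib.P078

open scoped InnerProductSpace

variable {H : Type*} [NormedAddCommGroup H] [InnerProductSpace ℂ H] [CompleteSpace H]

/-- The element `∑ k, f k • e k` of the linear span of the family `e`. -/
noncomputable def proDiag {d : ℕ} (e : Fin d → H →L[ℂ] H) (f : Fin d → ℂ) : H →L[ℂ] H :=
  ∑ k, f k • e k

/-- The operator `∑ (f, γ) ∈ l, (∑ k, f k • e k) * u γ` of a finite list `l` of pairs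
(coefficient function, group element). -/
noncomputable def proOp {Γ : Type} {d : ℕ} (e : Fin d → H →L[ℂ] H) (u : Γ → H →L[ℂ] H)
    (l : List ((Fin d → ℂ) × Γ)) : H →L[ℂ] H :=
  (l.map fun t => proDiag e t.1 * u t.2).sum

/-- `u` is a unitary representation of the group `Γ` by elements of `M`. -/
def IsProRep {Γ : Type} [Group Γ] (M : VonNeumannAlgebra H) (u : Γ → H →L[ℂ] H) : Prop :=
  u 1 = 1 ∧ (∀ γ β, u (γ * β) = u γ * u β) ∧ ∀ γ, u γ ∈ M ∧ star (u γ) = u γ⁻¹

/-- A level: `e` is a partition in `A` into `d` projections, each of trace `1 / d` for the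
vector state of `Ω`, and conjugation by `u γ` permutes the `e k` the way `σ γ` permutes
their indices. -/
def IsProLevel {Γ : Type} (A : VonNeumannAlgebra H) (Ω : H) (u : Γ → H →L[ℂ] H) {d : ℕ}
    (e : Fin d → H →L[ℂ] H) (σ : Γ → Fin d → Fin d) : Prop :=
  IsPartitionIn A e ∧ (∀ k, ⟪Ω, e k Ω⟫_ℂ = ((d : ℂ))⁻¹) ∧
    ∀ γ k, u γ * e k * star (u γ) = e (σ γ k)

/-- The number of indices fixed by `σ γ`. -/
def proFix {Γ : Type} {d : ℕ} (σ : Γ → Fin d → Fin d) (γ : Γ) : ℕ :=
  (Finset.univ.filter fun k => σ γ k = k).card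

/-- A free profinite system of levels for the unitary representation `u` of `Γ`: a nonempty
family of levels, any two of which have a common refinement (each projection of either level
is in the span of the projections of the refinement), such that for every `γ ≠ 1` the
proportion of projections fixed by `γ` is arbitrarily small at suitable levels. -/
def IsProSystem (Γ : Type) [Group Γ] (A M : VonNeumannAlgebra H) (Ω : H)
    (u : Γ → H →L[ℂ] H) {I : Type} (d : I → ℕ) (e : (i : I) → Fin (d i) → H →L[ℂ] H)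
    (σ : (i : I) → Γ → Fin (d i) → Fin (d i)) : Prop :=
  Nonempty I ∧ IsProRep M u ∧ (∀ i, IsProLevel A Ω u (e i) (σ i)) ∧
    (∀ i j, ∃ k, (∀ m, e i m ∈ Submodule.span ℂ (Set.range (e k))) ∧
      ∀ m, e j m ∈ Submodule.span ℂ (Set.range (e k))) ∧
    ∀ γ, γ ≠ 1 → ∀ δ : ℝ, 0 < δ → ∃ i, (proFix (σ i) γ : ℝ) ≤ δ * d i

/-- The inclusion `A ⊆ M` is, with respect to the vector `Ω`, the crossed product of a free
profinite action of the group `Γ`: there are a unitary representation `u` of `Γ` in `M` and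
a free profinite system of levels in `A` such that the finite sums
`∑ (∑ k, f k • e i k) * u γ` are dense in `M` for the seminorm `x ↦ ‖x Ω‖`. -/
def IsProfiniteOver (Γ : Type) [Group Γ] (A M : VonNeumannAlgebra H) (Ω : H) : Prop :=
  ∃ (u : Γ → H →L[ℂ] H) (I : Type) (d : I → ℕ) (e : (i : I) → Fin (d i) → H →L[ℂ] H)
    (σ : (i : I) → Γ → Fin (d i) → Fin (d i)),
    IsProSystem Γ A M Ω u d e σ ∧
    ∀ x ∈ M, ∀ η : ℝ, 0 < η → ∃ i, ∃ l : List ((Fin (d i) → ℂ) × Γ),
      ‖(x - proOp (e i) u l) Ω‖ ≤ η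

end Vale.Agent.Lib.P078
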