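import Vale.Agent.Lib.P078.ProDefs
import Vale.Agent.Lib.P078.TypeIAux

/-!
# A model of crossed products by free profinite actions: definitions (P078)

For a group `Γ` acting on a set `S`, the group `BGrp Γ S = (⊕_S ℤ/2) ⋊ Γ` acts on `ℓ²` of
itself by left and right translations; `gM` is the commutant of the right translations (the
group von Neumann algebra), `bA` the relative commutant of the left translations by `⊕_S ℤ/2`.
-/

namespace Vale.Agent.Lib.P078

open scoped InnerProductSpace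

/-! ### The group von Neumann algebra of a group `G` -/

/-- The Hilbert space `ℓ²(G)`. -/
abbrev GHilb (G : Type) : Type := lp (fun _ : G => ℂ) 2

/-- Composition with a bijection of the index set preserves square-summability. -/
lemma gW_mem {G : Type} (φ : G ≃ G) (v : GHilb G) :
    Memℓp (fun x => (v : G → ℂ) (φ x)) 2 := by
  have h2 : (0 : ℝ) < (2 : ENNReal).toReal := by norm_num
  have hv := (memℓp_gen_iff h2).1 (lp.memℓp v)
  refine (memℓp_gen_iff h2).2 ?_
  exact φ.summable_iff.2 hv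

/-- Composition with a bijection of the index set, as a linear map. -/
noncomputable def gWlin {G : Type} (φ : G ≃ G) : GHilb G →ₗ[ℂ] GHilb G where
  toFun v := ⟨fun x => (v : G → ℂ) (φ x), gW_mem φ v⟩
  map_add' v w := by
    apply lp.ext
    funext x
    show ((v + w : GHilb G) : G → ℂ) (φ x) = (v : G → ℂ) (φ x) + (w : G → ℂ) (φ x)
    rw [lp.coeFn_add, Pi.add_apply]
  map_smul' a v := by
    apply lp.ext
    funext x
    show ((a • v : GHilb G) : G → ℂ) (φ x) = a • ((v : G → ℂ) (φ x))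
    rw [lp.coeFn_smul, Pi.smul_apply]

lemma gWlin_norm {G : Type} (φ : G ≃ G) (v : GHilb G) : ‖gWlin φ v‖ = ‖v‖ := by
  have h2 : (0 : ℝ) < (2 : ENNReal).toReal := by norm_num
  have h1 := lp.norm_rpow_eq_tsum h2 (gWlin φ v)
  have h3 := lp.norm_rpow_eq_tsum h2 v
  have h4 : (∑' x, ‖(gWlin φ v : G → ℂ) x‖ ^ (2 : ENNReal).toReal)
      = ∑' x, ‖(v : G → ℂ) x‖ ^ (2 : ENNReal).toReal := by
    rw [← Equiv.tsum_eq φ (fun m => ‖(v : G → ℂ) m‖ ^ (2 : ENNReal).toReal)]
    rfl
  have h5 : ‖gWlin φ v‖ ^ (2 : ENNReal).toReal = ‖v‖ ^ (2 : ENNReal).toReal := by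
    rw [h1, h3, h4]
  have h6 : (2 : ENNReal).toReal = 2 := by norm_num
  rw [h6] at h5
  have h7 : ‖gWlin φ v‖ ^ (2 : ℕ) = ‖v‖ ^ (2 : ℕ) := by
    exact_mod_cast h5
  exact (sq_eq_sq₀ (norm_nonneg _) (norm_nonneg _)).1 h7

/-- Composition with a bijection of the index set, as a bounded operator on `ℓ²(G)`. -/
noncomputable def gWop {G : Type} (φ : G ≃ G) : GHilb G →L[ℂ] GHilb G :=
  (gWlin φ).mkContinuous 1 (fun v => by rw [gWlin_norm, one_mul])

/-- The left regular representation: `(λ(g) v)(x) = v(g⁻¹ x)`, so that `λ(g) δ_a = δ_{g a}`. -/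
noncomputable def gLam {G : Type} [Group G] (g : G) : GHilb G →L[ℂ] GHilb G :=
  gWop (Equiv.mulLeft g⁻¹)

/-- The right regular representation: `(ρ(g) v)(x) = v(x g)`, so that
`ρ(g) δ_a = δ_{a g⁻¹}`. -/
noncomputable def gRho {G : Type} [Group G] (g : G) : GHilb G →L[ℂ] GHilb G :=
  gWop (Equiv.mulRight g)

theorem gLam_apply {G : Type} [Group G] (g : G) (v : GHilb G) (x : G) :
    (gLam g v : G → ℂ) x = (v : G → ℂ) (g⁻¹ * x) := rfl

theorem gRho_apply {G : Type} [Group G] (g : G) (v : GHilb G) (x : G) :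
    (gRho g v : G → ℂ) x = (v : G → ℂ) (x * g) := rfl

open Classical in
/-- The basis vector `δ_g`. -/
noncomputable def gDelta {G : Type} (g : G) : GHilb G := lp.single 2 g (1 : ℂ)

/-- The trace vector `Ω = δ_1`. -/
noncomputable def gOmega {G : Type} [Group G] : GHilb G := gDelta 1

/-- The group von Neumann algebra: the commutant of the right regular representation. -/
noncomputable def gM (G : Type) [Group G] : VonNeumannAlgebra (GHilb G) :=
  taskG_centralizer (Set.range (gRho : G → GHilb G →L[ℂ] GHilb G))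

/-! ### The group `(⊕_S ℤ/2) ⋊ Γ` -/

/-- The action of `Γ` on finitely supported functions: `(bAct γ k) s = k (γ⁻¹ • s)`. -/
noncomputable def bAct {Γ S : Type} [Group Γ] [MulAction Γ S] (γ : Γ) (k : S →₀ ZMod 2) :
    S →₀ ZMod 2 :=
  Finsupp.equivMapDomain (MulAction.toPerm γ) k

theorem bAct_apply {Γ S : Type} [Group Γ] [MulAction Γ S] (γ : Γ) (k : S →₀ ZMod 2) (s : S) :
    bAct γ k s = k (γ⁻¹ • s) := rfl

theorem bAct_add {Γ S : Type} [Group Γ] [MulAction Γ S] (γ : Γ) (k k' : S →₀ ZMod 2) :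
    bAct γ (k + k') = bAct γ k + bAct γ k' := by
  ext s
  simp [bAct_apply]

theorem bAct_zero {Γ S : Type} [Group Γ] [MulAction Γ S] (γ : Γ) :
    bAct γ (0 : S →₀ ZMod 2) = 0 := by
  ext s
  simp [bAct_apply]

theorem bAct_one {Γ S : Type} [Group Γ] [MulAction Γ S] (k : S →₀ ZMod 2) :
    bAct (1 : Γ) k = k := by
  ext s
  simp [bAct_apply]

theorem bAct_mul {Γ S : Type} [Group Γ] [MulAction Γ S] (γ β : Γ) (k : S →₀ ZMod 2) :
    bAct (γ * β) k = bAct γ (bAct β k) := by
  ext s
  simp [bAct_apply, mul_smul]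

/-- The semidirect product `(S →₀ ZMod 2) ⋊ Γ` -/
@[ext] structure BGrp (Γ S : Type) where
  /-- the finitely supported function -/
  fst : S →₀ ZMod 2
  /-- the group element -/
  snd : Γ

noncomputable instance {Γ S : Type} [Group Γ] [MulAction Γ S] : Group (BGrp Γ S) where
  mul a b := ⟨a.fst + bAct a.snd b.fst, a.snd * b.snd⟩
  one := ⟨0, 1⟩
  inv a := ⟨bAct a.snd⁻¹ a.fst, a.snd⁻¹⟩
  mul_assoc a b c := by
    apply BGrp.ext
    · show a.fst + bAct a.snd b.fst + bAct (a.snd * b.snd) c.fst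
        = a.fst + bAct a.snd (b.fst + bAct b.snd c.fst)
      rw [bAct_add, bAct_mul, add_assoc]
    · exact mul_assoc _ _ _
  one_mul a := by
    apply BGrp.ext
    · show (0 : S →₀ ZMod 2) + bAct 1 a.fst = a.fst
      rw [bAct_one, zero_add]
    · exact one_mul _
  mul_one a := by
    apply BGrp.ext
    · show a.fst + bAct a.snd 0 = a.fst
      rw [bAct_zero, add_zero]
    · exact mul_one _
  inv_mul_cancel a := by
    apply BGrp.ext
    · show bAct a.snd⁻¹ a.fst + bAct a.snd⁻¹ a.fst = 0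
      ext s
      rw [Finsupp.add_apply, Finsupp.zero_apply]
      exact CharTwo.add_self_eq_zero (R := ZMod 2) _
    · exact inv_mul_cancel _

theorem BGrp.mul_fst {Γ S : Type} [Group Γ] [MulAction Γ S] (a b : BGrp Γ S) :
    (a * b).fst = a.fst + bAct a.snd b.fst := rfl

theorem BGrp.mul_snd {Γ S : Type} [Group Γ] [MulAction Γ S] (a b : BGrp Γ S) :
    (a * b).snd = a.snd * b.snd := rfl

theorem BGrp.one_fst {Γ S : Type} [Group Γ] [MulAction Γ S] : (1 : BGrp Γ S).fst = 0 := rfl

theorem BGrp.one_snd {Γ S : Type} [Group Γ] [MulAction Γ S] : (1 : BGrp Γ S).snd = 1 := rfl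

theorem BGrp.inv_fst {Γ S : Type} [Group Γ] [MulAction Γ S] (a : BGrp Γ S) :
    (a⁻¹).fst = bAct a.snd⁻¹ a.fst := rfl

theorem BGrp.inv_snd {Γ S : Type} [Group Γ] [MulAction Γ S] (a : BGrp Γ S) :
    (a⁻¹).snd = a.snd⁻¹ := rfl


/-! ### The crossed product model -/

/-- The left translation by `(h, 1)`: the character of `{0, 1}^S` given by `h`. -/
noncomputable def bZ {Γ S : Type} [Group Γ] [MulAction Γ S] (h : S →₀ ZMod 2) :
    GHilb (BGrp Γ S) →L[ℂ] GHilb (BGrp Γ S) :=
  gLam (⟨h, 1⟩ : BGrp Γ S)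

/-- The left translation by `(0, γ)`: the unitary implementing the action of `γ`. -/
noncomputable def bU {Γ S : Type} [Group Γ] [MulAction Γ S] (γ : Γ) :
    GHilb (BGrp Γ S) →L[ℂ] GHilb (BGrp Γ S) :=
  gLam (⟨0, γ⟩ : BGrp Γ S)

/-- The subalgebra `L^∞({0, 1}^S)`: all elements of the group von Neumann algebra commuting
with the operators `bZ h`. -/
noncomputable def bA (Γ S : Type) [Group Γ] [MulAction Γ S] :
    VonNeumannAlgebra (GHilb (BGrp Γ S)) :=
  taskG_centralizer (Set.range (gRho : BGrp Γ S → _) ∪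
    Set.range (bZ : (S →₀ ZMod 2) → GHilb (BGrp Γ S) →L[ℂ] GHilb (BGrp Γ S)))

/-- The pairing `∑ s, h s * x s` with values in `ZMod 2`. -/
def bPair {S : Type} (h x : S →₀ ZMod 2) : ZMod 2 := h.sum fun s a => a * x s

/-- The sign `(-1)^{bPair h x}`: the value of the character `h` at the point `x`. -/
noncomputable def bSgn {S : Type} (h x : S →₀ ZMod 2) : ℂ := if bPair h x = 0 then 1 else -1

open Classical in
/-- All functions supported in the finite set `J`. -/
noncomputable def bSupp {S : Type} (J : Finset S) : Finset (S →₀ ZMod 2) :=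
  J.finsupp fun _ => (Finset.univ : Finset (ZMod 2))

/-- The minimal projection of level `J` at the point `x`:
`2^{-|J|} ∑_{h ∈ bSupp J} (-1)^{⟨h, x⟩} bZ h`. -/
noncomputable def bE {Γ S : Type} [Group Γ] [MulAction Γ S] (J : Finset S) (x : S →₀ ZMod 2) :
    GHilb (BGrp Γ S) →L[ℂ] GHilb (BGrp Γ S) :=
  (((bSupp J).card : ℂ))⁻¹ • ∑ h ∈ bSupp J, bSgn h x • (bZ h : GHilb (BGrp Γ S) →L[ℂ] _)

/-- The finite invariant subsets of `S`: the levels. -/
def BLev (Γ S : Type) [Group Γ] [MulAction Γ S] : Type :=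
  {J : Finset S // ∀ (γ : Γ), ∀ s ∈ J, γ • s ∈ J}

/-- The projections of level `J`, indexed by `Fin (bSupp J).card`. -/
noncomputable def bLevE {Γ S : Type} [Group Γ] [MulAction Γ S] (J : Finset S)
    (k : Fin (bSupp J).card) : GHilb (BGrp Γ S) →L[ℂ] GHilb (BGrp Γ S) :=
  bE J ((bSupp J).equivFin.symm k).1

open Classical in
/-- The action of `γ` on the indices of level `J`. -/
noncomputable def bLevS {Γ S : Type} [Group Γ] [MulAction Γ S] (J : Finset S) (γ : Γ)
    (k : Fin (bSupp J).card) : Fin (bSupp J).card :=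
  if h : bAct γ ((bSupp J).equivFin.symm k).1 ∈ bSupp J then (bSupp J).equivFin ⟨_, h⟩ else k

end Vale.Agent.Lib.P078
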