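import Vale.Agent.Lib.P078.NumberDefs

/-!
# Trace vectors and matrix units over a subalgebra (P078)
-/

namespace Vale.Agent.Lib.P078

open scoped InnerProductSpace

variable {H : Type*} [NormedAddCommGroup H] [InnerProductSpace ℂ H] [CompleteSpace H]

/-- `Ω` is a unit trace vector for `M`: `‖Ω‖ = 1` and the vector state `x ↦ ⟪Ω, x Ω⟫` is a
trace on `M`, i.e. `⟪Ω, x y Ω⟫ = ⟪Ω, y x Ω⟫` for all `x, y ∈ M`. -/
def IsTraceVector (M : VonNeumannAlgebra H) (Ω : H) : Prop :=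
  ‖Ω‖ = 1 ∧ ∀ x ∈ M, ∀ y ∈ M, ⟪Ω, x (y Ω)⟫_ℂ = ⟪Ω, y (x Ω)⟫_ℂ

/-- `e` is a system of `n × n` matrix units of `M` whose diagonal lies in `A`:
`e i j ∈ M`, `e i i ∈ A`, `(e i j)* = e j i`, `e i j * e k l = e i l` if `j = k` and `0`
otherwise, and `∑ i, e i i = 1`. -/
def IsMatrixUnitsOver (A M : VonNeumannAlgebra H) {n : ℕ}
    (e : Fin n → Fin n → H →L[ℂ] H) : Prop :=
  (∀ i j, e i j ∈ M) ∧ (∀ i, e i i ∈ A) ∧ (∀ i j, star (e i j) = e j i) ∧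
    (∀ i j k l, e i j * e k l = if j = k then e i l else 0) ∧ ∑ i, e i i = 1

end Vale.Agent.Lib.P078
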