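import Vale.Agent.Lib.P078.TypeIAux2

namespace Vale.Agent.Lib.P078

open scoped ComplexOrder InnerProductSpace
open ContinuousLinearMap

variable {H : Type*} [NormedAddCommGroup H] [InnerProductSpace ℂ H] [CompleteSpace H]

omit [CompleteSpace H] in
lemma inner_sum_sum_of_orthogonal {ι : Type*} (s : Finset ι) (v : ι → H) (y : H →L[ℂ] H)
    (h : ∀ i ∈ s, ∀ j ∈ s, i ≠ j → ⟪v i, y (v j)⟫_ℂ = 0) :
    ⟪∑ i ∈ s, v i, y (∑ j ∈ s, v j)⟫_ℂ = ∑ i ∈ s, ⟪v i, y (v i)⟫_ℂ := by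
  classical
  rw [map_sum, sum_inner]
  refine Finset.sum_congr rfl (fun i hi => ?_)
  rw [inner_sum, Finset.sum_eq_single i]
  · intro j hj hji
    exact h i hi j hj (Ne.symm hji)
  · intro hi'
    exact absurd hi hi'

omit [CompleteSpace H] in
lemma norm_sq_sum_of_orthogonal {ι : Type*} (s : Finset ι) (v : ι → H)
    (h : ∀ i ∈ s, ∀ j ∈ s, i ≠ j → ⟪v i, v j⟫_ℂ = 0) :
    ‖∑ i ∈ s, v i‖ ^ 2 = ∑ i ∈ s, ‖v i‖ ^ 2 := by
  have h1 := inner_sum_sum_of_orthogonal s v (1 : H →L[ℂ] H) (by simpa using h)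
  simp only [one_apply_eq_self, inner_self_eq_norm_sq_to_K] at h1
  exact_mod_cast h1

/-- Elements of `M` commute with elements of the commutant. -/
lemma commutant_comm (M : VonNeumannAlgebra H) {m t : H →L[ℂ] H} (hm : m ∈ M)
    (ht : t ∈ M.commutant) : t * m = m * t := by
  rw [VonNeumannAlgebra.mem_commutant_iff] at ht
  exact (ht m hm).symm

omit [CompleteSpace H] in
lemma sum_sum_sub_diag {ι : Type*} [DecidableEq ι] (K : Finset ι) (A : ι → ι → ℂ) (F : ι → ℂ) :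
    ∑ i ∈ K, ∑ j ∈ K, (A i j - (if i = j then F i else 0))
      = ∑ i ∈ K, ∑ j ∈ K, A i j - ∑ i ∈ K, F i := by
  rw [← Finset.sum_sub_distrib]
  refine Finset.sum_congr rfl (fun i hi => ?_)
  rw [Finset.sum_sub_distrib, Finset.sum_ite_eq, if_pos hi]


/-- The estimate on one central piece. -/
theorem piece_estimate {ι : Type} [Fintype ι] [DecidableEq ι]
    (M : VonNeumannAlgebra H) (hZ : M.commutant ≤ M)
    (e : ι → H →L[ℂ] H) (heM : ∀ j, e j ∈ M) (hep : ∀ j, IsStarProjection (e j))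
    (horth : ∀ i j, i ≠ j → e i * e j = 0)
    (z : H →L[ℂ] H) (hzZ : z ∈ M.commutant) (hz : IsStarProjection z) (ω : H)
    (x y : H →L[ℂ] H) (hxM : x ∈ M)
    (K : Finset ι) {θ η ρ ε ε' : ℝ} (hη : 0 ≤ η)
    (hK : ∀ j ∈ K, z (e j ω) ≠ 0 ∧ θ * ‖z ω‖ ^ 2 ≤ ‖z (e j ω)‖ ^ 2)
    {r : ℕ} (c : ι → Fin r) (d : ι → ℝ) (hd : ∀ j, |d j| ≤ ‖x‖)
    (hentry : ∀ i ∈ K, ∀ j ∈ K, e i * y * e j * z
      = (if c i = c j then e i * x * e j * z else 0)
        - (if i = j then (d i : ℂ) • (e i * z) else 0))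
    (u : ι → H) (hu : ∀ j ∈ K, u j = ((‖z (e j ω)‖⁻¹ : ℝ) : ℂ) • z (e j ω))
    (hpave : ∀ w : ι → H, ‖∑ i, ∑ j, ((if c i = c j then ⟪u i, x (u j)⟫_ℂ else 0)
          - (if i = j then (d i : ℂ) else 0)) * ⟪w i, w j⟫_ℂ‖ ≤ ε * ‖x‖ * ∑ j, ‖w j‖ ^ 2)
    (hstabx : ∀ i j, ∀ g ∈ M.commutant, ∀ g' ∈ M.commutant,
        ‖⟪g' ω, (e i * x * e j) (z (g ω))⟫_ℂ * ((‖z ω‖ ^ 2 : ℝ) : ℂ)
            - ⟪ω, (e i * x * e j) (z ω)⟫_ℂ * ⟪g' ω, z (g ω)⟫_ℂ‖
          ≤ η * ‖z ω‖ ^ 2 * (‖z (g' ω)‖ * ‖z (g ω)‖))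
    (hstabe : ∀ j, ∀ g ∈ M.commutant, ∀ g' ∈ M.commutant,
        ‖⟪g' ω, (e j) (z (g ω))⟫_ℂ * ((‖z ω‖ ^ 2 : ℝ) : ℂ)
            - ⟪ω, (e j) (z ω)⟫_ℂ * ⟪g' ω, z (g ω)⟫_ℂ‖
          ≤ η * ‖z ω‖ ^ 2 * (‖z (g' ω)‖ * ‖z (g ω)‖))
    (hηρ : η ≤ ρ * θ) (hρ : 0 ≤ ρ)
    (hfin : ε * ‖x‖ + ρ * ((Fintype.card ι : ℝ) + ‖x‖) ≤ ε' * ‖x‖ * (1 - ρ)) (hε' : 0 ≤ ε')
    (g : ι → H →L[ℂ] H) (hg : ∀ j, g j ∈ M.commutant) :
    ‖⟪∑ j ∈ K, g j (z (e j ω)), y (∑ j ∈ K, g j (z (e j ω)))⟫_ℂ‖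
      ≤ ε' * ‖x‖ * ‖∑ j ∈ K, g j (z (e j ω))‖ ^ 2 := by
  classical
  have hzM : z ∈ M := hZ hzZ
  have hgM : ∀ j, g j ∈ M := fun j => hZ (hg j)
  have hzsa : adjoint z = z := hz.isSelfAdjoint.adjoint_eq
  have hzz : ∀ v, z (z v) = z v := fun v => by
    rw [← mul_apply_eq_comp, hz.isIdempotentElem.eq]
  have hesa : ∀ j, adjoint (e j) = e j := fun j => (hep j).isSelfAdjoint.adjoint_eq
  have hee : ∀ j v, e j (e j v) = e j v := fun j v => by
    rw [← mul_apply_eq_comp, (hep j).isIdempotentElem.eq]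
  have hze : ∀ j, z * e j = e j * z := fun j => commutant_comm M (heM j) hzZ
  have hzx : z * x = x * z := commutant_comm M hxM hzZ
  have hzg : ∀ j, z * g j = g j * z := fun j => commutant_comm M (hgM j) hzZ
  have hge : ∀ i j, g i * e j = e j * g i := fun i j => commutant_comm M (heM j) (hg i)
  set a : ι → H := fun j => z (g j ω) with ha
  have hza : ∀ j, z (a j) = a j := fun j => hzz _
  -- the vectors
  have hvec : ∀ j, g j (z (e j ω)) = e j (a j) := by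
    intro j
    have h1 : g j * z * e j = e j * z * g j := by
      rw [mul_assoc, hze, ← mul_assoc, hge, mul_assoc, ← hzg, ← mul_assoc]
    exact congrArg (fun f : H →L[ℂ] H => f ω) h1
  -- the exact expansion
  set Xc : ι → ι → ℂ := fun i j => ⟪a i, (e i * x * e j) (a j)⟫_ℂ with hXc
  set Dr : ι → ℝ := fun i => ‖e i (a i)‖ ^ 2 with hDr
  have hDr' : ∀ i, ⟪a i, e i (a i)⟫_ℂ = (Dr i : ℂ) := by
    intro i
    rw [hDr]
    beta_reduce
    rw [← hee i (a i), ← adjoint_inner_left, hesa, hee, inner_self_eq_norm_sq_to_K]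
    norm_cast
  have hI : ⟪∑ j ∈ K, g j (z (e j ω)), y (∑ j ∈ K, g j (z (e j ω)))⟫_ℂ
      = ∑ i ∈ K, ∑ j ∈ K, ((if c i = c j then Xc i j else 0)
          - (if i = j then (d i : ℂ) * (Dr i : ℂ) else 0)) := by
    rw [map_sum, sum_inner]
    refine Finset.sum_congr rfl (fun i hi => ?_)
    rw [inner_sum]
    refine Finset.sum_congr rfl (fun j hj => ?_)
    rw [hvec i, hvec j]
    have h1 : ⟪e i (a i), y (e j (a j))⟫_ℂ = ⟪a i, (e i * y * e j * z) (g j ω)⟫_ℂ := by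
      rw [← adjoint_inner_right (e i), hesa]
      rfl
    rw [h1, hentry i hi j hj, sub_apply, inner_sub_right]
    congr 1
    · by_cases hc : c i = c j
      · rw [if_pos hc, if_pos hc]
        rfl
      · rw [if_neg hc, if_neg hc, zero_apply, inner_zero_right]
    · by_cases hij : i = j
      · rw [if_pos hij, if_pos hij, smul_apply, inner_smul_right, ← hDr' i, hij]
        rfl
      · rw [if_neg hij, if_neg hij, zero_apply, inner_zero_right]
  -- the norm of the vector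
  have hnorm : ‖∑ j ∈ K, g j (z (e j ω))‖ ^ 2 = ∑ j ∈ K, Dr j := by
    rw [norm_sq_sum_of_orthogonal]
    · refine Finset.sum_congr rfl (fun j _ => ?_)
      rw [hvec j]
    · intro i _ j _ hij
      rw [hvec i, hvec j, ← adjoint_inner_right (e i), hesa, ← mul_apply_eq_comp, horth i j hij,
        zero_apply, inner_zero_right]
  rcases K.eq_empty_or_nonempty with hK0 | ⟨j₀, hj₀⟩
  · subst hK0
    simp
  set μ : ℝ := ‖z ω‖ ^ 2 with hμ
  have hμpos : 0 < μ := by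
    have h1 := (hK j₀ hj₀).1
    have h2 : z (e j₀ ω) = e j₀ (z ω) := congrArg (fun f : H →L[ℂ] H => f ω) (hze j₀)
    rw [h2] at h1
    have h3 : z ω ≠ 0 := fun h0 => h1 (by rw [h0, map_zero])
    positivity
  set ν : ι → ℝ := fun j => ‖z (e j ω)‖ with hν
  have hνpos : ∀ j ∈ K, 0 < ν j := fun j hj => norm_pos_iff.mpr (hK j hj).1
  have hνθ : ∀ j ∈ K, θ * μ ≤ ν j ^ 2 := fun j hj => (hK j hj).2
  set w : ι → H := fun j => if j ∈ K then ((ν j / Real.sqrt μ : ℝ) : ℂ) • a j else 0 with hw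
  have hwnorm : ∀ j ∈ K, ‖w j‖ ^ 2 = ν j ^ 2 / μ * ‖a j‖ ^ 2 := by
    intro j hj
    simp only [hw, if_pos hj]
    rw [norm_smul, mul_pow, Complex.norm_real, Real.norm_eq_abs, sq_abs, div_pow,
      Real.sq_sqrt hμpos.le]
  have hwinner : ∀ i ∈ K, ∀ j ∈ K,
      ⟪w i, w j⟫_ℂ = ((ν i * ν j / μ : ℝ) : ℂ) * ⟪a i, a j⟫_ℂ := by
    intro i hi j hj
    simp only [hw, if_pos hi, if_pos hj]
    rw [inner_smul_left, inner_smul_right, Complex.conj_ofReal, ← mul_assoc,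
      ← Complex.ofReal_mul]
    congr 2
    rw [div_mul_div_comm, Real.mul_self_sqrt hμpos.le]
  -- rewriting the stability hypotheses
  have haux : ∀ h ∈ M, ∀ v₁ v₂ : H, z v₂ = v₂ → ⟪z v₁, h v₂⟫_ℂ = ⟪v₁, h v₂⟫_ℂ := by
    intro h hh v₁ v₂ hv
    have hzh : z * h = h * z := commutant_comm M hh hzZ
    rw [← adjoint_inner_right z, hzsa]
    have h1 : z (h v₂) = h (z v₂) := congrArg (fun f : H →L[ℂ] H => f v₂) hzh
    rw [h1, hv]
  have hb : ∀ h ∈ M, ∀ i j, ⟪g i ω, h (z (g j ω))⟫_ℂ = ⟪a i, h (a j)⟫_ℂ :=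
    fun h hh i j => (haux h hh (g i ω) (a j) (hza j)).symm
  have hcin : ∀ i j, ⟪g i ω, z (g j ω)⟫_ℂ = ⟪a i, a j⟫_ℂ := by
    intro i j
    show ⟪g i ω, a j⟫_ℂ = ⟪z (g i ω), a j⟫_ℂ
    rw [← adjoint_inner_right z, hzsa, hza]
  have hexM : ∀ i j, e i * x * e j ∈ M := fun i j => mul_mem (mul_mem (heM i) hxM) (heM j)
  have hTid : ∀ i ∈ K, ∀ j ∈ K, ⟪ω, (e i * x * e j) (z ω)⟫_ℂ
      = ((ν i * ν j : ℝ) : ℂ) * ⟪u i, x (u j)⟫_ℂ := by
    intro i hi j hj
    rw [hu i hi, hu j hj, map_smul, inner_smul_left, inner_smul_right, Complex.conj_ofReal]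
    have h1 : ⟪z (e i ω), x (z (e j ω))⟫_ℂ = ⟪ω, (e i * x * e j) (z ω)⟫_ℂ := by
      have hop : e i * (z * x * (z * e j)) = e i * x * e j * z := by
        rw [hzx, mul_assoc x z, ← mul_assoc z z, hz.isIdempotentElem.eq, hze]
        simp only [mul_assoc]
      have h2 : ⟪z (e i ω), x (z (e j ω))⟫_ℂ = ⟪ω, (e i * (z * x * (z * e j))) ω⟫_ℂ := by
        rw [← adjoint_inner_right z, hzsa]
        have h3 : ⟪ω, (e i * (z * x * (z * e j))) ω⟫_ℂ
            = ⟪ω, adjoint (e i) ((z * x * (z * e j)) ω)⟫_ℂ := by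
          rw [hesa]
          rfl
        rw [h3, adjoint_inner_right]
        rfl
      rw [h2, hop]
      rfl
    rw [h1]
    generalize ⟪ω, (e i * x * e j) (z ω)⟫_ℂ = t
    have hνi : (‖z (e i ω)‖ : ℂ) ≠ 0 := by
      exact_mod_cast (hνpos i hi).ne'
    have hνj : (‖z (e j ω)‖ : ℂ) ≠ 0 := by
      exact_mod_cast (hνpos j hj).ne'
    simp only [hν]
    push_cast
    field_simp
  -- the off-diagonal stability estimate
  have hX : ∀ i ∈ K, ∀ j ∈ K,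
      ‖Xc i j - ⟪u i, x (u j)⟫_ℂ * ⟪w i, w j⟫_ℂ‖ ≤ η * (‖a i‖ * ‖a j‖) := by
    intro i hi j hj
    have h1 : ‖⟪g i ω, (e i * x * e j) (z (g j ω))⟫_ℂ * ((μ : ℝ) : ℂ)
        - ⟪ω, (e i * x * e j) (z ω)⟫_ℂ * ⟪g i ω, z (g j ω)⟫_ℂ‖ ≤ η * μ * (‖a i‖ * ‖a j‖) :=
      hstabx i j (g j) (hg j) (g i) (hg i)
    have h2 : (Xc i j - ⟪u i, x (u j)⟫_ℂ * ⟪w i, w j⟫_ℂ) * ((μ : ℝ) : ℂ)
        = ⟪g i ω, (e i * x * e j) (z (g j ω))⟫_ℂ * ((μ : ℝ) : ℂ)
          - ⟪ω, (e i * x * e j) (z ω)⟫_ℂ * ⟪g i ω, z (g j ω)⟫_ℂ := by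
      rw [hb _ (hexM i j), hcin, hTid i hi j hj, hwinner i hi j hj]
      show (⟪a i, (e i * x * e j) (a j)⟫_ℂ - _) * _ = _
      generalize ⟪a i, (e i * x * e j) (a j)⟫_ℂ = t1
      generalize ⟪u i, x (u j)⟫_ℂ = t2
      generalize ⟪a i, a j⟫_ℂ = t3
      have hμc : ((μ : ℝ) : ℂ) ≠ 0 := by
        exact_mod_cast hμpos.ne'
      push_cast
      field_simp
    have h4 : ‖Xc i j - ⟪u i, x (u j)⟫_ℂ * ⟪w i, w j⟫_ℂ‖ * μ
        = ‖(Xc i j - ⟪u i, x (u j)⟫_ℂ * ⟪w i, w j⟫_ℂ) * ((μ : ℝ) : ℂ)‖ := by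
      rw [norm_mul, Complex.norm_real, Real.norm_eq_abs, abs_of_pos hμpos]
    have h5 : ‖Xc i j - ⟪u i, x (u j)⟫_ℂ * ⟪w i, w j⟫_ℂ‖ * μ ≤ η * (‖a i‖ * ‖a j‖) * μ := by
      rw [h4, h2]
      calc _ ≤ η * μ * (‖a i‖ * ‖a j‖) := h1
        _ = η * (‖a i‖ * ‖a j‖) * μ := by ring
    exact le_of_mul_le_mul_right h5 hμpos
  -- the diagonal stability estimate
  have hD : ∀ j ∈ K, |Dr j - ‖w j‖ ^ 2| ≤ η * ‖a j‖ ^ 2 := by
    intro j hj
    have h1 : ‖⟪g j ω, e j (z (g j ω))⟫_ℂ * ((μ : ℝ) : ℂ)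
        - ⟪ω, e j (z ω)⟫_ℂ * ⟪g j ω, z (g j ω)⟫_ℂ‖ ≤ η * μ * (‖a j‖ * ‖a j‖) :=
      hstabe j (g j) (hg j) (g j) (hg j)
    have h2 : ⟪g j ω, e j (z (g j ω))⟫_ℂ = (Dr j : ℂ) := by
      rw [hb _ (heM j), hDr']
    have h3 : ⟪ω, e j (z ω)⟫_ℂ = ((ν j ^ 2 : ℝ) : ℂ) := by
      have h4 : z (e j ω) = e j (z ω) := congrArg (fun f : H →L[ℂ] H => f ω) (hze j)
      have h5 : ⟪e j (z ω), e j (z ω)⟫_ℂ = ⟪ω, e j (z ω)⟫_ℂ := by
        rw [← adjoint_inner_right (e j), hesa, hee]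
        exact haux (e j) (heM j) ω (z ω) (hzz ω)
      rw [← h5, inner_self_eq_norm_sq_to_K, ← h4]
      norm_cast
    have h6 : ⟪g j ω, z (g j ω)⟫_ℂ = ((‖a j‖ ^ 2 : ℝ) : ℂ) := by
      rw [hcin, inner_self_eq_norm_sq_to_K]
      norm_cast
    rw [h2, h3, h6, ← Complex.ofReal_mul, ← Complex.ofReal_mul, ← Complex.ofReal_sub,
      Complex.norm_real, Real.norm_eq_abs] at h1
    have h7 : Dr j * μ - ν j ^ 2 * ‖a j‖ ^ 2 = (Dr j - ‖w j‖ ^ 2) * μ := by
      rw [hwnorm j hj]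
      field_simp
    rw [h7, abs_mul, abs_of_pos hμpos] at h1
    have h8 : η * μ * (‖a j‖ * ‖a j‖) = η * ‖a j‖ ^ 2 * μ := by ring
    rw [h8] at h1
    exact le_of_mul_le_mul_right h1 hμpos
  -- the paved main term
  have hwK : ∀ j, j ∉ K → w j = 0 := fun j hj => by simp only [hw, if_neg hj]
  have hsumW : ∑ j, ‖w j‖ ^ 2 = ∑ j ∈ K, ‖w j‖ ^ 2 := by
    refine (Finset.sum_subset (Finset.subset_univ K) (fun j _ hj => ?_)).symm
    rw [hwK j hj, norm_zero]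
    norm_num
  have hMain := hpave w
  rw [hsumW] at hMain
  have h1 : ∀ i j, ((if c i = c j then ⟪u i, x (u j)⟫_ℂ else 0)
        - (if i = j then (d i : ℂ) else 0)) * ⟪w i, w j⟫_ℂ
      = (if c i = c j then ⟪u i, x (u j)⟫_ℂ * ⟪w i, w j⟫_ℂ else 0)
        - (if i = j then (d i : ℂ) * ((‖w i‖ ^ 2 : ℝ) : ℂ) else 0) := by
    intro i j
    rw [sub_mul]
    congr 1
    · by_cases hc : c i = c j
      · rw [if_pos hc, if_pos hc]
      · rw [if_neg hc, if_neg hc, zero_mul]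
    · by_cases hij : i = j
      · rw [if_pos hij, if_pos hij, ← hij, inner_self_eq_norm_sq_to_K, Complex.ofReal_pow]
        rfl
      · rw [if_neg hij, if_neg hij, zero_mul]
  have hMainK : ∑ i, ∑ j, ((if c i = c j then ⟪u i, x (u j)⟫_ℂ else 0)
        - (if i = j then (d i : ℂ) else 0)) * ⟪w i, w j⟫_ℂ
      = ∑ i ∈ K, ∑ j ∈ K, (if c i = c j then ⟪u i, x (u j)⟫_ℂ * ⟪w i, w j⟫_ℂ else 0)
        - ∑ i ∈ K, (d i : ℂ) * ((‖w i‖ ^ 2 : ℝ) : ℂ) := by
    rw [← sum_sum_sub_diag]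
    calc ∑ i, ∑ j, ((if c i = c j then ⟪u i, x (u j)⟫_ℂ else 0)
          - (if i = j then (d i : ℂ) else 0)) * ⟪w i, w j⟫_ℂ
        = ∑ i ∈ K, ∑ j, ((if c i = c j then ⟪u i, x (u j)⟫_ℂ else 0)
          - (if i = j then (d i : ℂ) else 0)) * ⟪w i, w j⟫_ℂ :=
          (Finset.sum_subset (Finset.subset_univ K) (fun i _ hi =>
            Finset.sum_eq_zero (fun j _ => by rw [hwK i hi, inner_zero_left, mul_zero]))).symm
      _ = ∑ i ∈ K, ∑ j ∈ K, ((if c i = c j then ⟪u i, x (u j)⟫_ℂ else 0)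
          - (if i = j then (d i : ℂ) else 0)) * ⟪w i, w j⟫_ℂ :=
          Finset.sum_congr rfl (fun i _ => (Finset.sum_subset (Finset.subset_univ K)
            (fun j _ hj => by rw [hwK j hj, inner_zero_right, mul_zero])).symm)
      _ = _ := Finset.sum_congr rfl (fun i _ => Finset.sum_congr rfl (fun j _ => h1 i j))
  rw [hMainK] at hMain
  rw [sum_sum_sub_diag] at hI
  -- the two error sums
  set A₂ : ℝ := ∑ j ∈ K, ‖a j‖ ^ 2 with hA₂
  set W : ℝ := ∑ j ∈ K, ‖w j‖ ^ 2 with hW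
  have hA₂0 : 0 ≤ A₂ := Finset.sum_nonneg (fun j _ => by positivity)
  have hW0 : 0 ≤ W := Finset.sum_nonneg (fun j _ => by positivity)
  have hEX : ‖∑ i ∈ K, ∑ j ∈ K, (if c i = c j then Xc i j else 0)
      - ∑ i ∈ K, ∑ j ∈ K, (if c i = c j then ⟪u i, x (u j)⟫_ℂ * ⟪w i, w j⟫_ℂ else 0)‖
      ≤ η * ((K.card : ℝ) * A₂) := by
    rw [← Finset.sum_sub_distrib]
    calc ‖∑ i ∈ K, (∑ j ∈ K, (if c i = c j then Xc i j else 0)
          - ∑ j ∈ K, (if c i = c j then ⟪u i, x (u j)⟫_ℂ * ⟪w i, w j⟫_ℂ else 0))‖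
        ≤ ∑ i ∈ K, ‖∑ j ∈ K, (if c i = c j then Xc i j else 0)
          - ∑ j ∈ K, (if c i = c j then ⟪u i, x (u j)⟫_ℂ * ⟪w i, w j⟫_ℂ else 0)‖ :=
          norm_sum_le _ _
      _ ≤ ∑ i ∈ K, ∑ j ∈ K, η * ((‖a i‖ ^ 2 + ‖a j‖ ^ 2) / 2) := by
          refine Finset.sum_le_sum (fun i hi => ?_)
          rw [← Finset.sum_sub_distrib]
          refine (norm_sum_le _ _).trans (Finset.sum_le_sum (fun j hj => ?_))
          have h2 : ‖a i‖ * ‖a j‖ ≤ (‖a i‖ ^ 2 + ‖a j‖ ^ 2) / 2 := by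
            nlinarith [sq_nonneg (‖a i‖ - ‖a j‖)]
          by_cases hc : c i = c j
          · rw [if_pos hc, if_pos hc]
            exact (hX i hi j hj).trans (mul_le_mul_of_nonneg_left h2 hη)
          · rw [if_neg hc, if_neg hc, sub_zero, norm_zero]
            positivity
      _ = η * ((K.card : ℝ) * A₂) := by
          have h3 : ∀ i ∈ K, ∑ j ∈ K, η * ((‖a i‖ ^ 2 + ‖a j‖ ^ 2) / 2)
              = η * (((K.card : ℝ) * ‖a i‖ ^ 2 + A₂) / 2) := by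
            intro i _
            rw [← Finset.mul_sum, ← Finset.sum_div, Finset.sum_add_distrib, Finset.sum_const,
              nsmul_eq_mul]
          rw [Finset.sum_congr rfl h3, ← Finset.mul_sum, ← Finset.sum_div,
            Finset.sum_add_distrib, ← Finset.mul_sum, Finset.sum_const, nsmul_eq_mul]
          ring
  have hED : ‖∑ i ∈ K, (d i : ℂ) * (Dr i : ℂ) - ∑ i ∈ K, (d i : ℂ) * ((‖w i‖ ^ 2 : ℝ) : ℂ)‖
      ≤ ‖x‖ * (η * A₂) := by
    rw [← Finset.sum_sub_distrib]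
    calc ‖∑ i ∈ K, ((d i : ℂ) * (Dr i : ℂ) - (d i : ℂ) * ((‖w i‖ ^ 2 : ℝ) : ℂ))‖
        ≤ ∑ i ∈ K, ‖(d i : ℂ) * (Dr i : ℂ) - (d i : ℂ) * ((‖w i‖ ^ 2 : ℝ) : ℂ)‖ :=
          norm_sum_le _ _
      _ ≤ ∑ i ∈ K, ‖x‖ * (η * ‖a i‖ ^ 2) := by
          refine Finset.sum_le_sum (fun i hi => ?_)
          rw [← mul_sub, ← Complex.ofReal_sub, norm_mul, Complex.norm_real, Complex.norm_real,
            Real.norm_eq_abs, Real.norm_eq_abs]
          exact mul_le_mul (hd i) (hD i hi) (abs_nonneg _) (norm_nonneg x)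
      _ = ‖x‖ * (η * A₂) := by
          rw [← Finset.mul_sum, ← Finset.mul_sum]
  -- assembling
  have hθA : θ * A₂ ≤ W := by
    rw [hA₂, hW, Finset.mul_sum]
    refine Finset.sum_le_sum (fun j hj => ?_)
    rw [hwnorm j hj]
    have h2 : θ ≤ ν j ^ 2 / μ := (le_div_iff₀ hμpos).mpr (hνθ j hj)
    exact mul_le_mul_of_nonneg_right h2 (by positivity)
  have hnormge : W - η * A₂ ≤ ‖∑ j ∈ K, g j (z (e j ω))‖ ^ 2 := by
    rw [hnorm, hW, hA₂, Finset.mul_sum, ← Finset.sum_sub_distrib]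
    refine Finset.sum_le_sum (fun j hj => ?_)
    have h2 := hD j hj
    rw [abs_le] at h2
    linarith [h2.1]
  have hcard : (K.card : ℝ) ≤ (Fintype.card ι : ℝ) := by
    exact_mod_cast Finset.card_le_univ K
  have key : ∀ s1 d1 s2 d2 : ℂ, ‖s2 - d2‖ ≤ ε * ‖x‖ * W → ‖s1 - s2‖ ≤ η * ((K.card : ℝ) * A₂) →
      ‖d1 - d2‖ ≤ ‖x‖ * (η * A₂) →
      ‖s1 - d1‖ ≤ ε * ‖x‖ * W + η * ((K.card : ℝ) * A₂) + ‖x‖ * (η * A₂) := by
    intro s1 d1 s2 d2 h2 h3 h4
    have h5 : s1 - d1 = (s2 - d2) + (s1 - s2) - (d1 - d2) := by ring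
    rw [h5]
    exact (norm_sub_le _ _).trans (add_le_add ((norm_add_le _ _).trans (add_le_add h2 h3)) h4)
  have hN := key _ _ _ _ hMain hEX hED
  rw [← hI] at hN
  have hηA : η * A₂ ≤ ρ * W := by
    calc η * A₂ ≤ ρ * θ * A₂ := mul_le_mul_of_nonneg_right hηρ hA₂0
      _ = ρ * (θ * A₂) := by ring
      _ ≤ ρ * W := mul_le_mul_of_nonneg_left hθA hρ
  have hn0 : 0 ≤ (Fintype.card ι : ℝ) := Nat.cast_nonneg _
  have hx0 : 0 ≤ ‖x‖ := norm_nonneg x
  calc ‖⟪∑ j ∈ K, g j (z (e j ω)), y (∑ j ∈ K, g j (z (e j ω)))⟫_ℂ‖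
      ≤ ε * ‖x‖ * W + η * ((K.card : ℝ) * A₂) + ‖x‖ * (η * A₂) := hN
    _ ≤ ε * ‖x‖ * W + (Fintype.card ι : ℝ) * (η * A₂) + ‖x‖ * (η * A₂) := by
        have h5 : (K.card : ℝ) * (η * A₂) ≤ (Fintype.card ι : ℝ) * (η * A₂) :=
          mul_le_mul_of_nonneg_right hcard (mul_nonneg hη hA₂0)
        linarith
    _ ≤ ε * ‖x‖ * W + ((Fintype.card ι : ℝ) + ‖x‖) * (ρ * W) := by
        have h5 := mul_le_mul_of_nonneg_left hηA (add_nonneg hn0 hx0)
        linarith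
    _ = (ε * ‖x‖ + ρ * ((Fintype.card ι : ℝ) + ‖x‖)) * W := by ring
    _ ≤ ε' * ‖x‖ * (1 - ρ) * W := mul_le_mul_of_nonneg_right hfin hW0
    _ = ε' * ‖x‖ * (W - ρ * W) := by ring
    _ ≤ ε' * ‖x‖ * (W - η * A₂) := by
        refine mul_le_mul_of_nonneg_left ?_ (mul_nonneg hε' hx0)
        linarith
    _ ≤ ε' * ‖x‖ * ‖∑ j ∈ K, g j (z (e j ω))‖ ^ 2 :=
        mul_le_mul_of_nonneg_left hnormge (mul_nonneg hε' hx0)

/-! ### The module spanned by finitely many vectors over the commutant -/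

/-- The set of all `∑ α, g α (V α)` with coefficients `g α` in the von Neumann algebra `Z`. -/
def zmodSpan (Z : VonNeumannAlgebra H) {J : Type*} [Fintype J] (V : J → H) : Submodule ℂ H where
  carrier := {v | ∃ g : J → H →L[ℂ] H, (∀ α, g α ∈ Z) ∧ v = ∑ α, g α (V α)}
  add_mem' := by
    rintro _ _ ⟨g, hg, rfl⟩ ⟨g', hg', rfl⟩
    refine ⟨fun α => g α + g' α, fun α => add_mem (hg α) (hg' α), ?_⟩
    rw [← Finset.sum_add_distrib]
    rfl
  zero_mem' := ⟨fun _ => 0, fun _ => zero_mem Z, by simp⟩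
  smul_mem' := by
    rintro c _ ⟨g, hg, rfl⟩
    refine ⟨fun α => c • g α, fun α => Z.toStarSubalgebra.smul_mem (hg α) c, ?_⟩
    rw [Finset.smul_sum]
    rfl

lemma zmodSpan_invariant (Z : VonNeumannAlgebra H) {J : Type*} [Fintype J] (V : J → H)
    {t : H →L[ℂ] H} (ht : t ∈ Z) {w : H} (hw : w ∈ zmodSpan Z V) : t w ∈ zmodSpan Z V := by
  obtain ⟨g, hg, rfl⟩ := hw
  refine ⟨fun α => t * g α, fun α => mul_mem ht (hg α), ?_⟩
  rw [map_sum]
  rfl

lemma matrixPavable_nonneg {ε : ℝ} {r : ℕ} (hmp : MatrixPavable ε r) :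
    0 ≤ ε ∧ Nonempty (Fin r) := by
  obtain ⟨c₁, d₁, -, h₁⟩ := hmp 1 1 Matrix.isHermitian_one
  refine ⟨?_, ⟨c₁ 0⟩⟩
  rw [← Matrix.l2_opNorm_toEuclideanCLM, ← Matrix.l2_opNorm_toEuclideanCLM] at h₁
  by_contra hneg
  rw [not_le] at hneg
  have hpos : 0 < ‖Matrix.toEuclideanCLM (n := Fin 1) (𝕜 := ℂ) 1‖ := by
    rw [norm_pos_iff]
    intro h0
    have := (Matrix.toEuclideanCLM (n := Fin 1) (𝕜 := ℂ)).injective (h0.trans (map_zero _).symm)
    exact one_ne_zero this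
  have h2 := (norm_nonneg _).trans h₁
  nlinarith

/-! ### The main theorem for von Neumann algebras with abelian commutant -/

/-- Finite-dimensional `(ε, r)` paving implies `(ε', r)` so-paving, for every `ε' > ε`, over every
MASA `A` of every von Neumann algebra `M` whose commutant is contained in `M`. -/
theorem soPavable_of_commutant_le {ε ε' : ℝ} {r : ℕ} (hεε' : ε < ε') (hmp : MatrixPavable ε r)
    (A M : VonNeumannAlgebra H) (hZ : M.commutant ≤ M) (hA : IsMASA A M)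
    (x : H →L[ℂ] H) (hxM : x ∈ M) (hx : IsSelfAdjoint x) : SoPavable A M x ε' r := by
  classical
  intro F δ hδ
  obtain ⟨hAM, hAc, hAmax⟩ := hA
  obtain ⟨hε, ⟨i₀⟩⟩ := matrixPavable_nonneg hmp
  have hε' : 0 ≤ ε' := hε.trans hεε'.le
  have hZA : ∀ t ∈ M.commutant, t ∈ A := fun t ht =>
    hAmax t (hZ ht) (fun a ha => (commutant_comm M (hAM ha) ht).symm)
  have hAm : ∀ y : H →L[ℂ] H, (∀ a ∈ A, a * y = y * a) → y ∈ A := by
    intro y hy
    refine hAmax y ?_ hy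
    rw [← VonNeumannAlgebra.commutant_commutant M, VonNeumannAlgebra.mem_commutant_iff]
    intro t ht
    exact hy t (hZA t ht)
  by_cases hx0 : x = 0
  · subst hx0
    refine ⟨_, 0, 1, isPartitionIn_of_coloring A (fun _ : Unit => (1 : H →L[ℂ] H))
      (fun _ => one_mem A) (fun _ => IsStarProjection.one _)
      (fun j k h => absurd (Subsingleton.elim j k) h) (by simp) (fun _ => i₀), zero_mem A,
      IsSelfAdjoint.zero _, le_refl _, one_mem M, IsStarProjection.one _, ?_, ?_⟩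
    · intro ξ _
      simpa using hδ
    · simp [pinching]
  have hX : 0 < ‖x‖ := norm_pos_iff.mpr hx0
  obtain ⟨ι, hι, e, ζ, heA, hep, horth, hsum, hζ, hF⟩ :=
    exists_diag_approx A hAc hAm F (δ / 2) (half_pos hδ)
  let _ : Fintype ι := hι
  have heM : ∀ j, e j ∈ M := fun j => hAM (heA j)
  have heζ : ∀ j j', e j (ζ j') = if j = j' then ζ j' else 0 := by
    intro j j'
    by_cases h : j = j'
    · rw [if_pos h, h, hζ]
    · rw [if_neg h, ← hζ j', ← mul_apply_eq_comp, horth j j' h, zero_apply]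
  set ω : H := ∑ j, ζ j with hω
  have heω : ∀ j, e j ω = ζ j := by
    intro j
    rw [hω, map_sum, Finset.sum_eq_single j]
    · rw [heζ, if_pos rfl]
    · intro j' _ hj'
      rw [heζ, if_neg (Ne.symm hj')]
    · intro h
      exact absurd (Finset.mem_univ _) h
  -- coefficients of the approximants
  have hcoef : ∀ ξ ∈ F, ∃ α : ι → ℂ, ‖ξ - ∑ j, α j • ζ j‖ < δ / 2 := by
    intro ξ hξ
    obtain ⟨v, hv, hvδ⟩ := hF ξ hξ
    obtain ⟨α, rfl⟩ := (Submodule.mem_span_range_iff_exists_fun ℂ).mp hv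
    exact ⟨α, hvδ⟩
  choose! α hα using hcoef
  set Λ : ℝ := ∑ ξ ∈ F, ∑ j, ‖α ξ j‖ with hΛ
  have hΛ0 : 0 ≤ Λ :=
    Finset.sum_nonneg (fun ξ _ => Finset.sum_nonneg (fun j _ => norm_nonneg _))
  have hΛξ : ∀ ξ ∈ F, ∑ j, ‖α ξ j‖ ≤ Λ := fun ξ hξ =>
    Finset.single_le_sum (f := fun ξ => ∑ j, ‖α ξ j‖)
      (fun ξ _ => Finset.sum_nonneg (fun j _ => norm_nonneg _)) hξ
  -- parameters
  set n₀ : ℝ := (Fintype.card ι : ℝ) with hn₀
  have hn₀0 : 0 ≤ n₀ := Nat.cast_nonneg _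
  set D : ℝ := n₀ + ‖x‖ + ε' * ‖x‖ + 1 with hD
  have hDpos : 0 < D := by
    have h1 := mul_nonneg hε' hX.le
    linarith
  set ρ : ℝ := (ε' - ε) * ‖x‖ / D with hρ
  have hρpos : 0 < ρ := div_pos (mul_pos (sub_pos.mpr hεε') hX) hDpos
  set sθ : ℝ := δ / (2 * (Λ + 1) * (‖ω‖ + 1)) with hsθ
  have hsθpos : 0 < sθ := by positivity
  set θ : ℝ := sθ ^ 2 with hθ
  have hθpos : 0 < θ := by positivity
  have hsqrtθ : Real.sqrt θ = sθ := Real.sqrt_sq hsθpos.le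
  set η : ℝ := ρ * θ with hη
  have hηpos : 0 < η := mul_pos hρpos hθpos
  have hfin : ε * ‖x‖ + ρ * (n₀ + ‖x‖) ≤ ε' * ‖x‖ * (1 - ρ) := by
    have h1 : ρ * D = (ε' - ε) * ‖x‖ := div_mul_cancel₀ _ hDpos.ne'
    have h2 : ρ * D = ρ * (n₀ + ‖x‖) + ε' * ‖x‖ * ρ + ρ := by
      rw [hD]
      ring
    linarith
  -- the central pieces
  set s : Finset (H →L[ℂ] H) :=
    (Finset.univ.image (fun ij : ι × ι => e ij.1 * x * e ij.2)) ∪ (Finset.univ.image e) with hs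
  have hsM : ∀ h ∈ s, h ∈ M := by
    intro h hh
    rw [hs, Finset.mem_union, Finset.mem_image, Finset.mem_image] at hh
    rcases hh with ⟨ij, -, rfl⟩ | ⟨j, -, rfl⟩
    · exact mul_mem (mul_mem (heM ij.1) hxM) (heM ij.2)
    · exact heM j
  obtain ⟨κ, hκ, z, ⟨hzZ, hzp, hzorth, hzsum⟩, hstab⟩ :=
    exists_central_pieces M hZ ω s hsM hηpos
  let _ : Fintype κ := hκ
  have hzM : ∀ k, z k ∈ M := fun k => hZ (hzZ k)
  have hzA : ∀ k, z k ∈ A := fun k => hZA _ (hzZ k)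
  have hze : ∀ k j, z k * e j = e j * z k := fun k j => commutant_comm M (heM j) (hzZ k)
  set E : κ × ι → H →L[ℂ] H := fun α => z α.1 * e α.2 with hE
  have hEA : ∀ α, E α ∈ A := fun α => mul_mem (hzA α.1) (heA α.2)
  have hEp : ∀ α, IsStarProjection (E α) := fun α => (hzp α.1).mul (hep α.2) (hze α.1 α.2)
  have hEorth : ∀ α β, α ≠ β → E α * E β = 0 := by
    rintro ⟨k, j⟩ ⟨k', j'⟩ hne
    show z k * e j * (z k' * e j') = 0
    have h1 : z k * e j * (z k' * e j') = (z k * z k') * (e j * e j') := by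
      rw [mul_assoc, ← mul_assoc (e j), ← hze k' j, mul_assoc, ← mul_assoc]
    rw [h1]
    by_cases hk : k = k'
    · subst hk
      have hj : j ≠ j' := fun h => hne (by rw [h])
      rw [horth j j' hj, mul_zero]
    · rw [hzorth k k' hk, zero_mul]
  have hEsum : ∑ α, E α = 1 := by
    rw [Fintype.sum_prod_type]
    show ∑ k, ∑ j, z k * e j = 1
    simp_rw [← Finset.mul_sum, hsum, mul_one]
    exact hzsum
  -- the kept pieces and the orthonormal family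
  set kept : κ × ι → Prop := fun β =>
    z β.1 (ζ β.2) ≠ 0 ∧ θ * ‖z β.1 ω‖ ^ 2 ≤ ‖z β.1 (ζ β.2)‖ ^ 2 with hkept
  set V : κ × ι → H := fun β => if kept β then z β.1 (ζ β.2) else 0 with hV
  set u : κ × ι → H := fun β =>
    if kept β then ((‖z β.1 (ζ β.2)‖⁻¹ : ℝ) : ℂ) • z β.1 (ζ β.2) else 0 with hu
  have hzζ : ∀ β : κ × ι, z β.1 (ζ β.2) = E β ω := fun β => by
    show z β.1 (ζ β.2) = z β.1 (e β.2 ω)
    rw [heω]
  have hzζorth : ∀ β γ : κ × ι, β ≠ γ → ⟪z β.1 (ζ β.2), z γ.1 (ζ γ.2)⟫_ℂ = 0 := by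
    intro β γ hne
    rw [hzζ β, hzζ γ, ← adjoint_inner_right (E β), (hEp β).isSelfAdjoint.adjoint_eq,
      ← mul_apply_eq_comp, hEorth β γ hne, zero_apply, inner_zero_right]
  have huo : ∀ β γ, β ≠ γ → ⟪u β, u γ⟫_ℂ = 0 := by
    intro β γ hne
    simp only [hu]
    by_cases h1 : kept β
    · by_cases h2 : kept γ
      · rw [if_pos h1, if_pos h2, inner_smul_left, inner_smul_right, hzζorth β γ hne, mul_zero,
          mul_zero]
      · rw [if_neg h2, inner_zero_right]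
    · rw [if_neg h1, inner_zero_left]
  have hun : ∀ β, ‖u β‖ ≤ 1 := by
    intro β
    simp only [hu]
    by_cases h1 : kept β
    · rw [if_pos h1, norm_smul, Complex.norm_real, norm_inv, norm_norm,
        inv_mul_cancel₀ (norm_ne_zero_iff.mpr h1.1)]
    · rw [if_neg h1, norm_zero]
      exact zero_le_one
  obtain ⟨c, d, hd, hpave⟩ := exists_paving_gram hmp u huo hun x hx
  -- the partition, the diagonal element and the projection
  obtain ⟨haA, hasa, hanorm⟩ := diag_op_props A E hEA hEp hEsum d (norm_nonneg x) hd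
  have hPpart := isPartitionIn_of_coloring A E hEA hEp hEorth hEsum c
  set P : Fin r → H →L[ℂ] H := fun i => ∑ β, if c β = i then E β else 0 with hP
  set a : H →L[ℂ] H := ∑ β, (d β : ℂ) • E β with ha
  set y : H →L[ℂ] H := pinching P x - a with hy
  have hysa : IsSelfAdjoint y :=
    (isSelfAdjoint_pinching P (fun i => (hPpart.1 i).2.isSelfAdjoint) hx).sub hasa
  have hyM : y ∈ M := by
    have h1 : pinching P x ∈ M := by
      unfold pinching
      exact sum_mem (fun i _ => mul_mem (mul_mem (hAM (hPpart.1 i).1) hxM) (hAM (hPpart.1 i).1))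
    exact sub_mem h1 (hAM haA)
  set L : Submodule ℂ H := zmodSpan M.commutant V with hL
  set q : H →L[ℂ] H := L.topologicalClosure.starProjection with hq
  have hqM : q ∈ M :=
    starProjection_closure_mem M L (fun t ht w hw => zmodSpan_invariant _ V ht hw)
  have hqp : IsStarProjection q := isStarProjection_starProjection
  -- the finite set is almost in the range of q
  have hFapprox : ∀ ξ ∈ F, ‖(1 - q) ξ‖ < δ := by
    intro ξ hξ
    set v' : H := ∑ β : κ × ι, α ξ β.2 • V β with hv'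
    have hv'L : v' ∈ L := by
      refine ⟨fun β => α ξ β.2 • (1 : H →L[ℂ] H),
        fun β => M.commutant.toStarSubalgebra.smul_mem (one_mem _) _, ?_⟩
      rw [hv']
      refine Finset.sum_congr rfl (fun β _ => ?_)
      rw [smul_apply, one_apply_eq_self]
    have hqv : q v' = v' :=
      Submodule.starProjection_eq_self_iff.mpr (L.le_topologicalClosure hv'L)
    have h1 : ‖∑ j, α ξ j • ζ j - v'‖ ≤ (∑ j, ‖α ξ j‖) * (Real.sqrt θ * ‖ω‖) := by
      refine kept_approx z hzp hzorth hzsum ζ ω hθpos.le kept (fun β hβ => ?_) (α ξ)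
      by_cases h0 : z β.1 (ζ β.2) = 0
      · rw [h0, norm_zero, zero_pow two_ne_zero]
        exact mul_nonneg hθpos.le (sq_nonneg _)
      · have h2 : ¬ (θ * ‖z β.1 ω‖ ^ 2 ≤ ‖z β.1 (ζ β.2)‖ ^ 2) := fun h => hβ ⟨h0, h⟩
        exact (not_le.mp h2).le
    have h2 : (∑ j, ‖α ξ j‖) * (Real.sqrt θ * ‖ω‖) < δ / 2 := by
      rw [hsqrtθ]
      have h3 : Λ / (Λ + 1) < 1 := by
        rw [div_lt_one (by positivity)]
        linarith
      have h4 : ‖ω‖ / (‖ω‖ + 1) < 1 := by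
        rw [div_lt_one (by positivity)]
        linarith
      have h5 : Λ * (sθ * ‖ω‖) = δ / 2 * (Λ / (Λ + 1)) * (‖ω‖ / (‖ω‖ + 1)) := by
        rw [hsθ]
        field_simp
      calc (∑ j, ‖α ξ j‖) * (sθ * ‖ω‖) ≤ Λ * (sθ * ‖ω‖) :=
            mul_le_mul_of_nonneg_right (hΛξ ξ hξ) (by positivity)
        _ = δ / 2 * (Λ / (Λ + 1)) * (‖ω‖ / (‖ω‖ + 1)) := h5
        _ ≤ δ / 2 * (Λ / (Λ + 1)) * 1 := mul_le_mul_of_nonneg_left h4.le (by positivity)
        _ = δ / 2 * (Λ / (Λ + 1)) := mul_one _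
        _ < δ / 2 * 1 := mul_lt_mul_of_pos_left h3 (half_pos hδ)
        _ = δ / 2 := mul_one _
    have h7 : ‖ξ - v'‖ < δ := by
      calc ‖ξ - v'‖ = ‖(ξ - ∑ j, α ξ j • ζ j) + (∑ j, α ξ j • ζ j - v')‖ := by
            congr 1
            abel
        _ ≤ ‖ξ - ∑ j, α ξ j • ζ j‖ + ‖∑ j, α ξ j • ζ j - v'‖ := norm_add_le _ _
        _ < δ / 2 + δ / 2 := add_lt_add (hα ξ hξ) (h1.trans_lt h2)
        _ = δ := add_halves δ
    have h8 : (1 - q) ξ = (1 - q) (ξ - v') := by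
      rw [map_sub, sub_apply, sub_apply, one_apply_eq_self, one_apply_eq_self, hqv]
      abel
    rw [h8]
    calc ‖(1 - q) (ξ - v')‖ ≤ ‖1 - q‖ * ‖ξ - v'‖ := le_opNorm _ _
      _ ≤ 1 * ‖ξ - v'‖ := by
          gcongr
          exact IsStarProjection.norm_le _ hqp.one_sub
      _ = ‖ξ - v'‖ := one_mul _
      _ < δ := h7
  -- the quadratic form bound on the module
  have hquad : ∀ v ∈ L, ‖⟪v, y v⟫_ℂ‖ ≤ ε' * ‖x‖ * ‖v‖ ^ 2 := by
    rintro _ ⟨g, hg, rfl⟩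
    set vk : κ → H := fun k =>
      ∑ j ∈ Finset.univ.filter (fun j => kept (k, j)), g (k, j) (z k (e j ω)) with hvk
    have hsplit : ∑ β, g β (V β) = ∑ k, vk k := by
      rw [Fintype.sum_prod_type]
      refine Finset.sum_congr rfl (fun k _ => ?_)
      rw [hvk]
      beta_reduce
      rw [Finset.sum_filter]
      refine Finset.sum_congr rfl (fun j _ => ?_)
      show g (k, j) (if kept (k, j) then z k (ζ j) else 0)
        = if kept (k, j) then g (k, j) (z k (e j ω)) else 0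
      by_cases hk : kept (k, j)
      · rw [if_pos hk, if_pos hk, heω]
      · rw [if_neg hk, if_neg hk, map_zero]
    rw [hsplit]
    refine quad_bound_of_pieces M z hzZ hzp hzorth y hyM vk ?_ ?_
    · intro k
      rw [hvk]
      beta_reduce
      rw [map_sum]
      refine Finset.sum_congr rfl (fun j _ => ?_)
      have h1 : z k * g (k, j) = g (k, j) * z k := commutant_comm M (hZ (hg (k, j))) (hzZ k)
      have h2 : z k (g (k, j) (z k (e j ω))) = (z k * g (k, j)) (z k (e j ω)) := rfl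
      rw [h2, h1, mul_apply_eq_comp, ← mul_apply_eq_comp (z k) (z k),
        (hzp k).isIdempotentElem.eq]
    · intro k
      refine piece_estimate M hZ e heM hep horth (z k) (hzZ k) (hzp k) ω x y hxM
        (Finset.univ.filter (fun j => kept (k, j))) hηpos.le ?_ (fun j => c (k, j))
        (fun j => d (k, j)) (fun j => hd (k, j)) ?_ (fun j => u (k, j)) ?_ ?_ ?_ ?_ le_rfl
        hρpos.le hfin hε' (fun j => g (k, j)) (fun j => hg (k, j))
      · intro j hj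
        have h1 : kept (k, j) := (Finset.mem_filter.mp hj).2
        rw [heω]
        exact h1
      · intro i _ j _
        exact piece_entry M z hzZ hzM hzp hzorth e heM hep horth c d x hxM k i j
      · intro j hj
        have h1 : kept (k, j) := (Finset.mem_filter.mp hj).2
        simp only [hu]
        rw [if_pos h1, heω]
      · intro w
        have h1 := gram_restrict (fun β γ : κ × ι =>
          (if c β = c γ then ⟪u β, x (u γ)⟫_ℂ else 0) - (if β = γ then (d β : ℂ) else 0))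
          hpave k w
        have h2 : ∀ i j : ι, (if (k, i) = (k, j) then (d (k, i) : ℂ) else 0)
            = (if i = j then (d (k, i) : ℂ) else 0) := by
          intro i j
          by_cases hij : i = j
          · rw [if_pos hij, if_pos (by rw [hij])]
          · rw [if_neg hij, if_neg (fun h => hij (Prod.mk.inj h).2)]
        simp only [h2] at h1
        exact h1
      · intro i j
        exact hstab (e i * x * e j) (Finset.mem_union_left _
          (Finset.mem_image.mpr ⟨(i, j), Finset.mem_univ _, rfl⟩)) k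
      · intro j
        exact hstab (e j) (Finset.mem_union_right _
          (Finset.mem_image.mpr ⟨j, Finset.mem_univ _, rfl⟩)) k
  exact ⟨P, a, q, hPpart, haA, hasa, hanorm, hqM, hqp, hFapprox,
    norm_compress_le L y hysa (mul_nonneg hε' (norm_nonneg x)) hquad⟩

end Vale.Agent.Lib.P078
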