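import Vale.Agent.Lib.P078.TypeIAux

/-!
# Further auxiliary lemmas for so-paving over MASAs of von Neumann algebras with abelian commutant
-/

namespace Vale.Agent.Lib.P078

open scoped ComplexOrder InnerProductSpace Matrix.Norms.L2Operator
open ContinuousLinearMap

variable {H : Type*} [NormedAddCommGroup H] [InnerProductSpace ℂ H] [CompleteSpace H]

/-! ### Part H -/

theorem diag_op_props {ι : Type*} [Fintype ι] (A : VonNeumannAlgebra H) (E : ι → H →L[ℂ] H)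
    (hEA : ∀ α, E α ∈ A) (hEp : ∀ α, IsStarProjection (E α)) (hEsum : ∑ α, E α = 1)
    (d : ι → ℝ) {C : ℝ} (hC : 0 ≤ C) (hd : ∀ α, |d α| ≤ C) :
    (∑ α, (d α : ℂ) • E α) ∈ A ∧ IsSelfAdjoint (∑ α, (d α : ℂ) • E α) ∧
      ‖∑ α, (d α : ℂ) • E α‖ ≤ C := by
  have he0 : ∀ j, 0 ≤ E j := fun j => (hEp j).nonneg
  have hone : ∀ C : ℝ, algebraMap ℝ (H →L[ℂ] H) C = ∑ j, C • E j := by
    intro C
    rw [Algebra.algebraMap_eq_smul_one, ← hEsum, Finset.smul_sum]
  have hsa : IsSelfAdjoint (∑ j, (d j : ℂ) • E j) := by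
    refine isSelfAdjoint_sum _ (fun j _ => ?_)
    exact IsSelfAdjoint.smul (Complex.conj_ofReal _) (hEp j).isSelfAdjoint
  refine ⟨?_, hsa, ?_⟩
  · exact sum_mem (fun j _ => A.toStarSubalgebra.smul_mem (hEA j) _)
  · refine norm_le_of_neg_le_of_le hsa hC ?_ ?_
    · rw [hone]
      refine Finset.sum_le_sum (fun j _ => ?_)
      rw [Complex.coe_smul]
      exact smul_le_smul_of_nonneg_right (neg_le_of_abs_le (hd j)) (he0 j)
    · rw [hone]
      refine Finset.sum_le_sum (fun j _ => ?_)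
      rw [Complex.coe_smul]
      exact smul_le_smul_of_nonneg_right (le_of_abs_le (hd j)) (he0 j)

theorem isSelfAdjoint_pinching {r : ℕ} (P : Fin r → H →L[ℂ] H) (hP : ∀ i, IsSelfAdjoint (P i))
    {x : H →L[ℂ] H} (hx : IsSelfAdjoint x) : IsSelfAdjoint (pinching P x) := by
  unfold pinching
  refine isSelfAdjoint_sum _ (fun i _ => ?_)
  have h := hx.conjugate (P i)
  rw [(hP i).star_eq] at h
  exact h

/-! ### Part I -/

theorem taskI_cross {κ : Type} (M : VonNeumannAlgebra H)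
    (z : κ → H →L[ℂ] H) (hzZ : ∀ k, z k ∈ M.commutant) (hzp : ∀ k, IsStarProjection (z k))
    (hzorth : ∀ k l, k ≠ l → z k * z l = 0)
    (y : H →L[ℂ] H) (hyM : y ∈ M) (v : κ → H) (hv : ∀ k, z k (v k) = v k)
    (k l : κ) (hkl : k ≠ l) : ⟪v k, y (v l)⟫_ℂ = 0 := by
  have h1 : y * z k = z k * y := (VonNeumannAlgebra.mem_commutant_iff.mp (hzZ k)) y hyM
  have h2 : z k (y (z l (v l))) = y ((z k * z l) (v l)) := by
    have h3 := congrArg (fun T : H →L[ℂ] H => T (z l (v l))) h1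
    simp only [mul_apply_eq_comp] at h3
    rw [mul_apply_eq_comp]
    exact h3.symm
  calc ⟪v k, y (v l)⟫_ℂ = ⟪z k (v k), y (z l (v l))⟫_ℂ := by rw [hv k, hv l]
    _ = ⟪v k, z k (y (z l (v l)))⟫_ℂ := by
        rw [← adjoint_inner_right (z k), (hzp k).isSelfAdjoint.adjoint_eq]
    _ = ⟪v k, y ((z k * z l) (v l))⟫_ℂ := by rw [h2]
    _ = 0 := by rw [hzorth k l hkl]; simp

theorem taskI_cross_one {κ : Type}
    (z : κ → H →L[ℂ] H) (hzp : ∀ k, IsStarProjection (z k))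
    (hzorth : ∀ k l, k ≠ l → z k * z l = 0)
    (v : κ → H) (hv : ∀ k, z k (v k) = v k)
    (k l : κ) (hkl : k ≠ l) : ⟪v k, v l⟫_ℂ = 0 := by
  calc ⟪v k, v l⟫_ℂ = ⟪z k (v k), z l (v l)⟫_ℂ := by rw [hv k, hv l]
    _ = ⟪v k, z k (z l (v l))⟫_ℂ := by
        rw [← adjoint_inner_right (z k), (hzp k).isSelfAdjoint.adjoint_eq]
    _ = ⟪v k, (z k * z l) (v l)⟫_ℂ := by rw [mul_apply_eq_comp]
    _ = 0 := by rw [hzorth k l hkl]; simp

omit [CompleteSpace H] in
theorem taskI_expand {κ : Type} [Fintype κ] (y : H →L[ℂ] H) (v : κ → H)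
    (hc : ∀ k l, k ≠ l → ⟪v k, y (v l)⟫_ℂ = 0) :
    ⟪∑ k, v k, y (∑ k, v k)⟫_ℂ = ∑ k, ⟪v k, y (v k)⟫_ℂ := by
  classical
  rw [map_sum, sum_inner]
  refine Finset.sum_congr rfl fun k _ => ?_
  rw [inner_sum]
  exact Finset.sum_eq_single k (fun l _ hl => hc k l (Ne.symm hl)) (fun h => absurd (Finset.mem_univ k) h)

omit [CompleteSpace H] in
theorem taskI_norm_sq {κ : Type} [Fintype κ] (v : κ → H)
    (hc : ∀ k l, k ≠ l → ⟪v k, v l⟫_ℂ = 0) :
    ‖∑ k, v k‖ ^ 2 = ∑ k, ‖v k‖ ^ 2 := by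
  have h1 := taskI_expand (1 : H →L[ℂ] H) v (by simpa using hc)
  simp only [one_apply_eq_self, inner_self_eq_norm_sq_to_K] at h1
  exact_mod_cast h1

theorem quad_bound_of_pieces {κ : Type} [Fintype κ] (M : VonNeumannAlgebra H)
    (z : κ → H →L[ℂ] H) (hzZ : ∀ k, z k ∈ M.commutant) (hzp : ∀ k, IsStarProjection (z k))
    (hzorth : ∀ k l, k ≠ l → z k * z l = 0)
    (y : H →L[ℂ] H) (hyM : y ∈ M) (v : κ → H) (hv : ∀ k, z k (v k) = v k) {C : ℝ}
    (h : ∀ k, ‖⟪v k, y (v k)⟫_ℂ‖ ≤ C * ‖v k‖ ^ 2) :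
    ‖⟪∑ k, v k, y (∑ k, v k)⟫_ℂ‖ ≤ C * ‖∑ k, v k‖ ^ 2 := by
  rw [taskI_expand y v (taskI_cross M z hzZ hzp hzorth y hyM v hv),
    taskI_norm_sq v (taskI_cross_one z hzp hzorth v hv), Finset.mul_sum]
  exact (norm_sum_le _ _).trans (Finset.sum_le_sum fun k _ => h k)

/-! ### Part J -/

omit [CompleteSpace H] in
theorem gram_restrict {κ ι : Type} [Fintype κ] [Fintype ι] [DecidableEq κ] [DecidableEq ι]
    (B : κ × ι → κ × ι → ℂ) {C : ℝ}
    (h : ∀ W : κ × ι → H, ‖∑ α, ∑ β, B α β * ⟪W α, W β⟫_ℂ‖ ≤ C * ∑ α, ‖W α‖ ^ 2)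
    (k : κ) (w : ι → H) :
    ‖∑ i, ∑ j, B (k, i) (k, j) * ⟪w i, w j⟫_ℂ‖ ≤ C * ∑ j, ‖w j‖ ^ 2 := by
  have key := h (fun α => if α.1 = k then w α.2 else 0)
  have e1 : (∑ α : κ × ι, ∑ β : κ × ι, B α β *
      ⟪(if α.1 = k then w α.2 else 0 : H), (if β.1 = k then w β.2 else 0 : H)⟫_ℂ)
      = ∑ i, ∑ j, B (k, i) (k, j) * ⟪w i, w j⟫_ℂ := by
    rw [Fintype.sum_prod_type]
    rw [Finset.sum_eq_single k]
    · refine Finset.sum_congr rfl (fun i _ => ?_)
      rw [Fintype.sum_prod_type]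
      rw [Finset.sum_eq_single k]
      · simp
      · intro k' _ hk'
        simp [hk']
      · intro hk
        exact absurd (Finset.mem_univ k) hk
    · intro k' _ hk'
      simp [hk']
    · intro hk
      exact absurd (Finset.mem_univ k) hk
  have e2 : (∑ α : κ × ι, ‖(if α.1 = k then w α.2 else 0 : H)‖ ^ 2) = ∑ j, ‖w j‖ ^ 2 := by
    rw [Fintype.sum_prod_type]
    rw [Finset.sum_eq_single k]
    · simp
    · intro k' _ hk'
      simp [hk']
    · intro hk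
      exact absurd (Finset.mem_univ k) hk
  rw [e1, e2] at key
  exact key

/-! ### Part K -/

omit [CompleteSpace H] in
/-- Pythagoras for a finite family of pairwise orthogonal vectors. -/
lemma taskK_pythagoras {κ : Type} [Fintype κ] (r : κ → H)
    (horth : ∀ k l, k ≠ l → ⟪r k, r l⟫_ℂ = 0) : ‖∑ k, r k‖ ^ 2 = ∑ k, ‖r k‖ ^ 2 := by
  classical
  have h1 : ⟪∑ k, r k, ∑ k, r k⟫_ℂ = ∑ k, ⟪r k, r k⟫_ℂ := by
    rw [sum_inner]
    refine Finset.sum_congr rfl (fun k _ => ?_)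
    rw [inner_sum]
    exact Finset.sum_eq_single k (fun l _ hl => horth k l (Ne.symm hl))
      (fun h => absurd (Finset.mem_univ k) h)
  have h2 : (RCLike.re ⟪∑ k, r k, ∑ k, r k⟫_ℂ : ℝ) = ∑ k, RCLike.re ⟪r k, r k⟫_ℂ := by
    rw [h1, map_sum]
  simpa only [inner_self_eq_norm_sq] using h2

/-- Vectors in the ranges of mutually orthogonal projections are orthogonal. -/
lemma taskK_inner_eq_zero {κ : Type} (z : κ → H →L[ℂ] H) (hzp : ∀ k, IsStarProjection (z k))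
    (hzorth : ∀ k l, k ≠ l → z k * z l = 0) {k l : κ} (hkl : k ≠ l) (ξ ξ' : H) :
    ⟪z k ξ, z l ξ'⟫_ℂ = 0 := by
  rw [← adjoint_inner_right (z k), (hzp k).isSelfAdjoint.adjoint_eq, ← mul_apply_eq_comp,
    hzorth k l hkl, zero_apply, inner_zero_right]

/-- Pythagoras for the pieces of a vector along a partition of unity. -/
lemma taskK_norm_sq_eq {κ : Type} [Fintype κ] (z : κ → H →L[ℂ] H)
    (hzp : ∀ k, IsStarProjection (z k)) (hzorth : ∀ k l, k ≠ l → z k * z l = 0)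
    (hzsum : ∑ k, z k = 1) (ω : H) : ‖ω‖ ^ 2 = ∑ k, ‖z k ω‖ ^ 2 := by
  have h1 : ω = ∑ k, z k ω := by
    have h2 := congrArg (fun f : H →L[ℂ] H => f ω) hzsum
    simp only [sum_apply, one_apply_eq_self] at h2
    exact h2.symm
  rw [← taskK_pythagoras (fun k => z k ω)
    (fun k l hkl => taskK_inner_eq_zero z hzp hzorth hkl ω ω), ← h1]

theorem kept_approx {κ ι : Type} [Fintype κ] [Fintype ι]
    (z : κ → H →L[ℂ] H) (hzp : ∀ k, IsStarProjection (z k))
    (hzorth : ∀ k l, k ≠ l → z k * z l = 0) (hzsum : ∑ k, z k = 1)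
    (ζ : ι → H) (ω : H) {θ : ℝ} (hθ : 0 ≤ θ) (kept : κ × ι → Prop) [DecidablePred kept]
    (hkept : ∀ α, ¬ kept α → ‖z α.1 (ζ α.2)‖ ^ 2 ≤ θ * ‖z α.1 ω‖ ^ 2)
    (a : ι → ℂ) :
    ‖∑ j, a j • ζ j - ∑ α : κ × ι, a α.2 • (if kept α then z α.1 (ζ α.2) else 0)‖
      ≤ (∑ j, ‖a j‖) * (Real.sqrt θ * ‖ω‖) := by
  have hdiff : ∑ j, a j • ζ j - ∑ α : κ × ι, a α.2 • (if kept α then z α.1 (ζ α.2) else 0)
      = ∑ j, a j • ∑ k, (if kept (k, j) then 0 else z k (ζ j)) := by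
    rw [Fintype.sum_prod_type_right, ← Finset.sum_sub_distrib]
    refine Finset.sum_congr rfl (fun j _ => ?_)
    have h1 : ζ j = ∑ k, z k (ζ j) := by
      have h2 := congrArg (fun f : H →L[ℂ] H => f (ζ j)) hzsum
      simp only [sum_apply, one_apply_eq_self] at h2
      exact h2.symm
    show a j • ζ j - ∑ k, a j • (if kept (k, j) then z k (ζ j) else 0) = _
    rw [← Finset.smul_sum, ← smul_sub]
    congr 1
    nth_rewrite 1 [h1]
    rw [← Finset.sum_sub_distrib]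
    refine Finset.sum_congr rfl (fun k _ => ?_)
    by_cases hk : kept (k, j)
    · rw [if_pos hk, if_pos hk, sub_self]
    · rw [if_neg hk, if_neg hk, sub_zero]
  have hR : ∀ j, ‖∑ k, (if kept (k, j) then 0 else z k (ζ j))‖ ≤ Real.sqrt θ * ‖ω‖ := by
    intro j
    have h1 : ‖∑ k, (if kept (k, j) then 0 else z k (ζ j))‖ ^ 2
        = ∑ k, ‖(if kept (k, j) then 0 else z k (ζ j))‖ ^ 2 := by
      refine taskK_pythagoras _ (fun k l hkl => ?_)
      by_cases hk : kept (k, j)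
      · rw [if_pos hk, inner_zero_left]
      · by_cases hl : kept (l, j)
        · rw [if_pos hl, inner_zero_right]
        · rw [if_neg hk, if_neg hl]
          exact taskK_inner_eq_zero z hzp hzorth hkl _ _
    have h2 : ‖∑ k, (if kept (k, j) then 0 else z k (ζ j))‖ ^ 2 ≤ (Real.sqrt θ * ‖ω‖) ^ 2 := by
      rw [h1, mul_pow, Real.sq_sqrt hθ, taskK_norm_sq_eq z hzp hzorth hzsum ω, Finset.mul_sum]
      refine Finset.sum_le_sum (fun k _ => ?_)
      by_cases hk : kept (k, j)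
      · rw [if_pos hk, norm_zero]
        have : (0 : ℝ) ≤ θ * ‖z k ω‖ ^ 2 := by positivity
        simpa using this
      · rw [if_neg hk]
        exact hkept (k, j) hk
    exact (sq_le_sq₀ (norm_nonneg _) (by positivity)).mp h2
  rw [hdiff]
  calc ‖∑ j, a j • ∑ k, (if kept (k, j) then 0 else z k (ζ j))‖
      ≤ ∑ j, ‖a j • ∑ k, (if kept (k, j) then 0 else z k (ζ j))‖ := norm_sum_le _ _
    _ ≤ ∑ j, ‖a j‖ * (Real.sqrt θ * ‖ω‖) := by
        refine Finset.sum_le_sum (fun j _ => ?_)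
        rw [norm_smul]
        exact mul_le_mul_of_nonneg_left (hR j) (norm_nonneg _)
    _ = (∑ j, ‖a j‖) * (Real.sqrt θ * ‖ω‖) := by rw [Finset.sum_mul]

/-! ### Part L -/

omit [CompleteSpace H] in
/-- Moving a central idempotent out of a two-sided compression. -/
lemma taskL_move {zk a b T : H →L[ℂ] H} (hzz : zk * zk = zk) (ha : a * zk = zk * a)
    (hb : b * zk = zk * b) (hT : T * zk = zk * T) :
    (zk * a) * T * (zk * b) = a * T * b * zk := by
  calc (zk * a) * T * (zk * b) = (a * zk) * T * (zk * b) := by rw [ha]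
    _ = a * (zk * T) * zk * b := by simp only [mul_assoc]
    _ = a * (T * zk) * zk * b := by rw [hT]
    _ = a * T * (zk * zk) * b := by simp only [mul_assoc]
    _ = a * T * (zk * b) := by rw [hzz, mul_assoc]
    _ = a * T * (b * zk) := by rw [hb]
    _ = a * T * b * zk := by simp only [mul_assoc]

theorem piece_entry {κ ι : Type} [Fintype κ] [Fintype ι] [DecidableEq κ] [DecidableEq ι]
    (M : VonNeumannAlgebra H) (z : κ → H →L[ℂ] H) (hzZ : ∀ k, z k ∈ M.commutant)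
    (hzM : ∀ k, z k ∈ M)
    (hzp : ∀ k, IsStarProjection (z k)) (hzorth : ∀ k l, k ≠ l → z k * z l = 0)
    (e : ι → H →L[ℂ] H) (heM : ∀ j, e j ∈ M) (hep : ∀ j, IsStarProjection (e j))
    (horth : ∀ i j, i ≠ j → e i * e j = 0)
    {r : ℕ} (c : κ × ι → Fin r) (d : κ × ι → ℝ) (x : H →L[ℂ] H) (hxM : x ∈ M) (k : κ) (i j : ι) :
    e i * (pinching (fun l => ∑ α : κ × ι, if c α = l then z α.1 * e α.2 else 0) x
        - ∑ α : κ × ι, (d α : ℂ) • (z α.1 * e α.2)) * e j * z k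
      = (if c (k, i) = c (k, j) then e i * x * e j * z k else 0)
        - (if i = j then (d (k, i) : ℂ) • (e i * z k) else 0) := by
  have hcomm : ∀ k, ∀ T ∈ M, T * z k = z k * T := by
    intro k T hT
    have h1 := hzZ k
    rw [VonNeumannAlgebra.mem_commutant_iff] at h1
    exact h1 T hT
  have hEM : ∀ α : κ × ι, z α.1 * e α.2 ∈ M := fun α => mul_mem (hzM α.1) (heM α.2)
  have hEp : ∀ α : κ × ι, IsStarProjection (z α.1 * e α.2) := fun α =>
    (hzp α.1).mul (hep α.2) ((hcomm α.1 (e α.2) (heM α.2)).symm)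
  have hEorth : ∀ α β : κ × ι, α ≠ β → (z α.1 * e α.2) * (z β.1 * e β.2) = 0 := by
    intro α β hαβ
    have h1 : (z α.1 * e α.2) * (z β.1 * e β.2) = (z α.1 * z β.1) * (e α.2 * e β.2) := by
      calc (z α.1 * e α.2) * (z β.1 * e β.2) = z α.1 * (e α.2 * z β.1) * e β.2 := by
            simp only [mul_assoc]
        _ = z α.1 * (z β.1 * e α.2) * e β.2 := by rw [hcomm β.1 (e α.2) (heM α.2)]
        _ = (z α.1 * z β.1) * (e α.2 * e β.2) := by simp only [mul_assoc]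
    rw [h1]
    by_cases h2 : α.1 = β.1
    · have h3 : α.2 ≠ β.2 := fun h4 => hαβ (Prod.ext h2 h4)
      rw [horth _ _ h3, mul_zero]
    · rw [hzorth _ _ h2, zero_mul]
  have hYM : pinching (fun l => ∑ α : κ × ι, if c α = l then z α.1 * e α.2 else 0) x
      - ∑ α : κ × ι, (d α : ℂ) • (z α.1 * e α.2) ∈ M := by
    refine sub_mem ?_ ?_
    · unfold pinching
      refine sum_mem (fun l _ => ?_)
      have hP : (∑ α : κ × ι, if c α = l then z α.1 * e α.2 else 0) ∈ M := by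
        refine sum_mem (fun α _ => ?_)
        split_ifs
        · exact hEM α
        · exact zero_mem M
      exact mul_mem (mul_mem hP hxM) hP
    · exact sum_mem (fun α _ => M.toStarSubalgebra.smul_mem (hEM α) _)
  have hmain := pinching_entry (fun α : κ × ι => z α.1 * e α.2) hEp hEorth c d x (k, i) (k, j)
  have hzz : z k * z k = z k := (hzp k).isIdempotentElem.eq
  rw [taskL_move hzz (hcomm k (e i) (heM i)) (hcomm k (e j) (heM j)) (hcomm k _ hYM),
    taskL_move hzz (hcomm k (e i) (heM i)) (hcomm k (e j) (heM j)) (hcomm k x hxM)] at hmain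
  rw [hmain]
  congr 1
  by_cases hij : i = j
  · rw [if_pos hij, if_pos (by rw [hij]), hcomm k (e i) (heM i)]
  · rw [if_neg hij, if_neg (fun h => hij (Prod.mk.inj h).2)]

end Vale.Agent.Lib.P078
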