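import Vale.Agent.Lib.P078.InduceMain

/-!
# Type I von Neumann algebras: centrally orthogonal families

Vocabulary for passing from an abelian projection of `M` with central support `1` to an abelian
projection of the commutant with central support `1`.
-/

namespace Vale.Agent.Lib.P078

open scoped InnerProductSpace

variable {H : Type*} [NormedAddCommGroup H] [InnerProductSpace ℂ H] [CompleteSpace H]

/-- Two vectors are centrally orthogonal relative to `M`: the subspaces `M' M ξ` and `M' M ξ'`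
are orthogonal. -/
def COrth (M : VonNeumannAlgebra H) (ξ ξ' : H) : Prop :=
  ∀ m ∈ M, ∀ y ∈ M.commutant, ⟪y (m ξ), ξ'⟫_ℂ = 0

/-- A family of vectors fixed by `f` which are pairwise centrally orthogonal relative to `M`. -/
def IsCOFamily (M : VonNeumannAlgebra H) (f : H →L[ℂ] H) (Ξ : Set H) : Prop :=
  (∀ ξ ∈ Ξ, f ξ = ξ) ∧ ∀ ξ ∈ Ξ, ∀ ξ' ∈ Ξ, ξ ≠ ξ' → COrth M ξ ξ'

/-- The linear span of `M Ξ`. -/
def famSpan (M : VonNeumannAlgebra H) (Ξ : Set H) : Submodule ℂ H :=
  Submodule.span ℂ {v | ∃ m ∈ M, ∃ ξ ∈ Ξ, v = m ξ}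

/-- The span of `M Ξ` is invariant under `M`. -/
lemma famSpan_invariant (M : VonNeumannAlgebra H) (Ξ : Set H) :
    ∀ m ∈ M, ∀ v ∈ famSpan M Ξ, m v ∈ famSpan M Ξ := by
  intro m hm v hv
  unfold famSpan at hv ⊢
  induction hv using Submodule.span_induction with
  | mem v hv =>
    obtain ⟨m', hm', ξ, hξ, rfl⟩ := hv
    exact Submodule.subset_span ⟨m * m', mul_mem hm hm', ξ, hξ, rfl⟩
  | zero => simp
  | add u v _ _ hu hv => rw [map_add]; exact add_mem hu hv
  | smul c v _ hv => rw [map_smul]; exact Submodule.smul_mem _ c hv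

end Vale.Agent.Lib.P078
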