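import Vale.Agent.Lib.P078.Diffuse
import Vale.Agent.Lib.P078.DiffuseWitness
import Vale.Agent.Lib.P078.NumberDefs

/-!
# A universal lower bound for MASAs of an infinite-dimensional `B(H)`

A MASA of `B(H)` with a finite partition of unity into minimal projections forces `H` to be
finite-dimensional; hence, for `H` infinite-dimensional, every MASA has partitions of unity with
any number of nonzero pieces, and the Rademacher argument of `Diffuse.lean` shows that some
symmetry is not `(ε, r)` so-pavable when `ε * r < 1`.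
-/

namespace Vale.Agent.Lib.P078

open scoped ComplexOrder InnerProductSpace
open ContinuousLinearMap

variable {H : Type*} [NormedAddCommGroup H] [InnerProductSpace ℂ H] [CompleteSpace H]

/-! ### Minimal partitions of unity -/

/-- The compression of any operator by a minimal projection of a maximal abelian algebra is a
multiple of the projection. -/
lemma taskX1_compress (A : VonNeumannAlgebra H)
    (hAc : ∀ a ∈ A, ∀ b ∈ A, a * b = b * a)
    (hAm : ∀ y : H →L[ℂ] H, (∀ a ∈ A, a * y = y * a) → y ∈ A) {p : H →L[ℂ] H} (hpA : p ∈ A)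
    (hp : IsStarProjection p)
    (hmin : ∀ p' ∈ A, IsStarProjection p' → p * p' = p' → p' = 0 ∨ p' = p) (x : H →L[ℂ] H) :
    ∃ c : ℂ, p * x * p = c • p := by
  have hmem : p * x * p ∈ A := by
    apply hAm
    intro b hb
    obtain ⟨c, hc⟩ := smul_of_minimal_projection A hAc hpA hp hmin hb
    have hcomm : p * b = b * p := hAc p hpA b hb
    calc b * (p * x * p) = (b * p) * x * p := by simp only [mul_assoc]
      _ = c • (p * x * p) := by rw [hc]; simp only [smul_mul_assoc]
      _ = p * x * (c • p) := by simp only [mul_smul_comm]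
      _ = p * x * (p * b) := by rw [← hc, hcomm]
      _ = p * x * p * b := by simp only [mul_assoc]
  obtain ⟨c', hc'⟩ := smul_of_minimal_projection A hAc hpA hp hmin hmem
  refine ⟨c', ?_⟩
  rw [← hc', mul_assoc (p * x), hp.isIdempotentElem.eq]

/-- The range of a minimal projection of a maximal abelian algebra is at most
one-dimensional. -/
lemma taskX1_range_one (A : VonNeumannAlgebra H)
    (hAc : ∀ a ∈ A, ∀ b ∈ A, a * b = b * a)
    (hAm : ∀ y : H →L[ℂ] H, (∀ a ∈ A, a * y = y * a) → y ∈ A) {p : H →L[ℂ] H} (hpA : p ∈ A)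
    (hp : IsStarProjection p)
    (hmin : ∀ p' ∈ A, IsStarProjection p' → p * p' = p' → p' = 0 ∨ p' = p) {u w : H}
    (hu : p u = u) (hw : p w = w) (hu0 : u ≠ 0) : w ∈ Submodule.span ℂ {u} := by
  obtain ⟨c, hc⟩ := taskX1_compress A hAc hAm hpA hp hmin ((innerSL ℂ u).smulRight w)
  have h1 : p (((innerSL ℂ u).smulRight w) (p u)) = c • p u :=
    congrArg (fun T : H →L[ℂ] H => T u) hc
  rw [hu] at h1
  have h2 : ((innerSL ℂ u).smulRight w) u = ⟪u, u⟫_ℂ • w := rfl
  rw [h2, map_smul, hw] at h1
  have hne : ⟪u, u⟫_ℂ ≠ 0 := inner_self_ne_zero.mpr hu0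
  rw [Submodule.mem_span_singleton]
  refine ⟨(⟪u, u⟫_ℂ)⁻¹ * c, ?_⟩
  rw [mul_smul, ← h1, smul_smul, inv_mul_cancel₀ hne, one_smul]

theorem finiteDimensional_of_minimal_pou (A : VonNeumannAlgebra H)
    (hAc : ∀ a ∈ A, ∀ b ∈ A, a * b = b * a)
    (hAm : ∀ y : H →L[ℂ] H, (∀ a ∈ A, a * y = y * a) → y ∈ A) {N : ℕ}
    (g : Fin N → H →L[ℂ] H) (hg : IsPOU A g)
    (hmin : ∀ i, ∀ p' ∈ A, IsStarProjection p' → g i * p' = p' → p' = 0 ∨ p' = g i) :
    FiniteDimensional ℂ H := by
  classical
  obtain ⟨hgA, hgp, -, hsum⟩ := hg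
  have hidem : ∀ (i : Fin N) (v : H), g i (g i v) = g i v := by
    intro i v
    exact congrArg (fun T : H →L[ℂ] H => T v) (hgp i).isIdempotentElem.eq
  have hex : ∀ i, ∃ u : H, ∀ v : H, g i v ∈ Submodule.span ℂ {u} := by
    intro i
    by_cases h : ∃ u : H, g i u = u ∧ u ≠ 0
    · obtain ⟨u, hu, hu0⟩ := h
      exact ⟨u, fun v =>
        taskX1_range_one A hAc hAm (hgA i) (hgp i) (hmin i) hu (hidem i v) hu0⟩
    · refine ⟨0, fun v => ?_⟩
      have h0 : g i v = 0 := by
        by_contra hne
        exact h ⟨g i v, hidem i v, hne⟩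
      rw [h0]
      exact Submodule.zero_mem _
  choose u hu using hex
  have hspan : Submodule.span ℂ (Set.range u) = ⊤ := by
    rw [eq_top_iff]
    intro v _
    have h1 : (∑ j, g j) v = (1 : H →L[ℂ] H) v := by rw [hsum]
    rw [sum_apply] at h1
    have hv : v = ∑ j, g j v := h1.symm
    rw [hv]
    apply Submodule.sum_mem
    intro i _
    exact Submodule.span_mono (Set.singleton_subset_iff.mpr (Set.mem_range_self i)) (hu i v)
  rw [FiniteDimensional, Module.finite_def, ← hspan]
  exact Submodule.fg_span (Set.finite_range u)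

/-! ### Partitions of unity with many nonzero pieces -/

/-- Partitions of unity with `n + 1` nonzero pieces, by induction on `n`. -/
theorem taskX2_pou_succ (A : VonNeumannAlgebra H)
    (hAc : ∀ a ∈ A, ∀ b ∈ A, a * b = b * a)
    (hAm : ∀ y : H →L[ℂ] H, (∀ a ∈ A, a * y = y * a) → y ∈ A)
    (hinf : ¬ FiniteDimensional ℂ H) (n : ℕ) :
    ∃ g : Fin (n + 1) → H →L[ℂ] H, IsPOU A g ∧ ∀ i, g i ≠ 0 := by
  classical
  induction n with
  | zero =>
    have hne : (1 : H →L[ℂ] H) ≠ 0 := by
      intro h10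
      apply hinf
      have hzero : ∀ x : H, x = 0 := by
        intro x
        have h1 : (1 : H →L[ℂ] H) x = (0 : H →L[ℂ] H) x := by rw [h10]
        rw [one_apply_eq_self, zero_apply] at h1
        exact h1
      have hsub : Subsingleton H := ⟨fun x y => by rw [hzero x, hzero y]⟩
      infer_instance
    refine ⟨fun _ => 1, ⟨fun _ => one_mem A, fun _ => IsStarProjection.one _,
      fun j k hjk => ?_, ?_⟩, fun _ => hne⟩
    · have hj := j.isLt
      have hk := k.isLt
      exact absurd (Fin.ext (by omega)) hjk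
    · simp
  | succ n ih =>
    obtain ⟨g, hg, hgne⟩ := ih
    have hex : ∃ i, ∃ p' ∈ A, IsStarProjection p' ∧ g i * p' = p' ∧ p' ≠ 0 ∧ p' ≠ g i := by
      by_contra hcon
      apply hinf
      refine finiteDimensional_of_minimal_pou A hAc hAm g hg (fun i p' hp'A hp' hle => ?_)
      by_contra hne
      exact hcon ⟨i, p', hp'A, hp', hle, fun h0 => hne (Or.inl h0), fun h1 => hne (Or.inr h1)⟩
    obtain ⟨i, p', hp'A, hp', hle, hp'0, hp'g⟩ := hex
    obtain ⟨hgA, hgp, hgorth, hgsum⟩ := hg
    have hle' : p' * g i = p' := taskS_mul_comm_of_le (hgp i) hp' hle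
    obtain ⟨u, hu⟩ : ∃ u : Fin (n + 1) → H →L[ℂ] H, u = Function.update g i p' := ⟨_, rfl⟩
    obtain ⟨q, hq⟩ : ∃ q : H →L[ℂ] H, q = g i - p' := ⟨_, rfl⟩
    have hui : u i = p' := by rw [hu, Function.update_self]
    have hune : ∀ a, a ≠ i → u a = g a := fun a ha => by rw [hu, Function.update_of_ne ha]
    have hu_left : ∀ a, g a * u a = u a := by
      intro a
      by_cases h : a = i
      · rw [h, hui, hle]
      · rw [hune a h, (hgp a).isIdempotentElem.eq]
    have hu_right : ∀ a, u a * g a = u a := by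
      intro a
      by_cases h : a = i
      · rw [h, hui, hle']
      · rw [hune a h, (hgp a).isIdempotentElem.eq]
    have hq_left : g i * q = q := by
      rw [hq, mul_sub, (hgp i).isIdempotentElem.eq, hle]
    have hq_right : q * g i = q := by
      rw [hq, sub_mul, (hgp i).isIdempotentElem.eq, hle']
    have huu : ∀ a b, a ≠ b → u a * u b = 0 := by
      intro a b hab
      rw [← hu_right a, ← hu_left b, mul_assoc, ← mul_assoc (g a), hgorth a b hab, zero_mul,
        mul_zero]
    have huq : ∀ a, u a * q = 0 := by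
      intro a
      by_cases h : a = i
      · rw [h, hui, hq, mul_sub, hle', hp'.isIdempotentElem.eq, sub_self]
      · rw [← hu_right a, ← hq_left, mul_assoc, ← mul_assoc (g a), hgorth a i h, zero_mul,
          mul_zero]
    have hqu : ∀ b, q * u b = 0 := by
      intro b
      by_cases h : b = i
      · rw [h, hui, hq, sub_mul, hle, hp'.isIdempotentElem.eq, sub_self]
      · rw [← hq_right, ← hu_left b, mul_assoc, ← mul_assoc (g i), hgorth i b (Ne.symm h),
          zero_mul, mul_zero]
    have huA : ∀ a, u a ∈ A := by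
      intro a
      by_cases h : a = i
      · rw [h, hui]
        exact hp'A
      · rw [hune a h]
        exact hgA a
    have hup : ∀ a, IsStarProjection (u a) := by
      intro a
      by_cases h : a = i
      · rw [h, hui]
        exact hp'
      · rw [hune a h]
        exact hgp a
    have hu0 : ∀ a, u a ≠ 0 := by
      intro a
      by_cases h : a = i
      · rw [h, hui]
        exact hp'0
      · rw [hune a h]
        exact hgne a
    have hqA : q ∈ A := by
      rw [hq]
      exact sub_mem (hgA i) hp'A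
    have hqp : IsStarProjection q := by
      rw [hq]
      exact taskS_isStarProjection_sub (hgp i) hp' hle
    have hq0 : q ≠ 0 := by
      rw [hq]
      exact sub_ne_zero.mpr (Ne.symm hp'g)
    have husum : ∑ a, u a = 1 + (p' - g i) := by
      have hu_eq : ∀ a, u a = g a + (if a = i then p' - g i else 0) := by
        intro a
        by_cases h : a = i
        · rw [if_pos h, h, hui]
          abel
        · rw [if_neg h, hune a h, add_zero]
      rw [Finset.sum_congr rfl (fun a _ => hu_eq a), Finset.sum_add_distrib, hgsum,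
        Finset.sum_ite_eq' Finset.univ i (fun _ => p' - g i), if_pos (Finset.mem_univ i)]
    refine ⟨Fin.snoc (α := fun _ => H →L[ℂ] H) u q, ⟨?_, ?_, ?_, ?_⟩, ?_⟩
    · intro j
      refine Fin.lastCases ?_ (fun a => ?_) j
      · rw [Fin.snoc_last]
        exact hqA
      · rw [Fin.snoc_castSucc]
        exact huA a
    · intro j
      refine Fin.lastCases ?_ (fun a => ?_) j
      · rw [Fin.snoc_last]
        exact hqp
      · rw [Fin.snoc_castSucc]
        exact hup a
    · intro j k
      refine Fin.lastCases ?_ (fun a => ?_) j <;> refine Fin.lastCases ?_ (fun b => ?_) k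
      · intro h
        exact absurd rfl h
      · intro _
        rw [Fin.snoc_last, Fin.snoc_castSucc]
        exact hqu b
      · intro _
        rw [Fin.snoc_last, Fin.snoc_castSucc]
        exact huq a
      · intro h
        rw [Fin.snoc_castSucc, Fin.snoc_castSucc]
        exact huu a b (fun hab => h (by rw [hab]))
    · rw [Fin.sum_univ_castSucc]
      simp only [Fin.snoc_castSucc, Fin.snoc_last]
      rw [husum, hq]
      abel
    · intro j
      refine Fin.lastCases ?_ (fun a => ?_) j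
      · rw [Fin.snoc_last]
        exact hq0
      · rw [Fin.snoc_castSucc]
        exact hu0 a

theorem exists_pou_nonzero (A : VonNeumannAlgebra H)
    (hAc : ∀ a ∈ A, ∀ b ∈ A, a * b = b * a)
    (hAm : ∀ y : H →L[ℂ] H, (∀ a ∈ A, a * y = y * a) → y ∈ A)
    (hinf : ¬ FiniteDimensional ℂ H) (N : ℕ) (hN : 0 < N) :
    ∃ g : Fin N → H →L[ℂ] H, IsPOU A g ∧ ∀ i, g i ≠ 0 := by
  obtain ⟨n, rfl⟩ : ∃ n, N = n + 1 := ⟨N - 1, by omega⟩
  exact taskX2_pou_succ A hAc hAm hinf n

theorem exists_cube_partition_of_infinite (A : VonNeumannAlgebra H)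
    (hAc : ∀ a ∈ A, ∀ b ∈ A, a * b = b * a)
    (hAm : ∀ y : H →L[ℂ] H, (∀ a ∈ A, a * y = y * a) → y ∈ A)
    (hinf : ¬ FiniteDimensional ℂ H) (t : ℕ) :
    ∃ f : (Fin t → Bool) → H →L[ℂ] H, IsPOU A f ∧ ∀ k, f k ≠ 0 := by
  obtain ⟨g, ⟨hgA, hgp, hgorth, hgsum⟩, hgne⟩ :=
    exists_pou_nonzero A hAc hAm hinf (2 ^ t) (by positivity)
  have hcard : Fintype.card (Fin t → Bool) = 2 ^ t := by simp
  obtain ⟨e⟩ : Nonempty ((Fin t → Bool) ≃ Fin (2 ^ t)) := ⟨Fintype.equivFinOfCardEq hcard⟩
  refine ⟨fun k => g (e k), ⟨fun k => hgA _, fun k => hgp _,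
    fun j k hjk => hgorth _ _ (e.injective.ne hjk), ?_⟩, fun k => hgne _⟩
  rw [← hgsum]
  exact Equiv.sum_comp e g

/-! ### The universal lower bound -/

/-- **Universal lower bound.** Over any MASA of `B(H)`, `H` infinite-dimensional, some symmetry
`2 |ω⟩⟨ω| - 1` is not `(ε, r)` so-pavable when `ε * r < 1`. -/
theorem not_soPavable_of_infinite (A M : VonNeumannAlgebra H) (hM : ∀ y : H →L[ℂ] H, y ∈ M)
    (hA : IsMASA A M) (hinf : ¬ FiniteDimensional ℂ H) {ε : ℝ} {r : ℕ} (hr : ε * r < 1) :
    ∃ ω : H, ‖ω‖ = 1 ∧ ¬ SoPavable A M ((2 : ℂ) • rankOneProj ω - 1) ε r := by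
  have hAc := hA.2.1
  have hAm : ∀ y : H →L[ℂ] H, (∀ a ∈ A, a * y = y * a) → y ∈ A :=
    fun y hy => hA.2.2 y (hM y) hy
  have hne : (1 : H →L[ℂ] H) ≠ 0 := by
    intro h1
    apply hinf
    have hsub : Subsingleton H := by
      refine ⟨fun v w => ?_⟩
      have hz : ∀ u : H, u = 0 := by
        intro u
        have h2 : (1 : H →L[ℂ] H) u = u := one_apply_eq_self u
        rw [h1, zero_apply] at h2
        exact h2.symm
      rw [hz v, hz w]
    infer_instance
  rcases Nat.eq_zero_or_pos r with h0 | hpos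
  · obtain ⟨f, hf, hfne⟩ := exists_cube_partition_of_infinite A hAc hAm hinf 0
    obtain ⟨ω, hω, -⟩ := exists_rademacher A f hf hfne
    refine ⟨ω, hω, fun h => ?_⟩
    obtain ⟨p, a, q, hp, -⟩ := h ∅ 1 one_pos
    subst h0
    have h1 := hp.2.2
    rw [Finset.univ_eq_empty, Finset.sum_empty] at h1
    exact hne h1.symm
  · have hr0 : (0 : ℝ) < r := Nat.cast_pos.mpr hpos
    have hγ : 0 < 1 / (r : ℝ) - ε := by
      rw [sub_pos, lt_div_iff₀ hr0]
      exact hr
    obtain ⟨t, ht⟩ := exists_nat_gt (2 / (1 / (r : ℝ) - ε))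
    rw [div_lt_iff₀ hγ] at ht
    obtain ⟨f, hf, hfne⟩ := exists_cube_partition_of_infinite A hAc hAm hinf t
    obtain ⟨ω, hω, s, hsA, hsa, hsq, hon⟩ := exists_rademacher A f hf hfne
    exact ⟨ω, hω, not_soPavable_of_rademacher A M hAc hω s hsA hsa hsq hon hpos ht⟩

/-- **The so-paving number of every MASA of an infinite-dimensional `B(H)`** is at least
`⌈1/ε⌉`. -/
theorem le_soPavingNumber_of_infinite (A M : VonNeumannAlgebra H)
    (hM : ∀ y : H →L[ℂ] H, y ∈ M) (hA : IsMASA A M) (hinf : ¬ FiniteDimensional ℂ H) {ε : ℝ}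
    (hε : 0 < ε) : ((⌈1 / ε⌉₊ : ℕ) : ℕ∞) ≤ soPavingNumber A M ε := by
  unfold soPavingNumber
  refine le_iInf (fun r => le_iInf (fun hr => ?_))
  rw [Nat.cast_le, Nat.ceil_le]
  by_contra hcon
  rw [not_le] at hcon
  have h1 : ε * r < 1 := by
    rw [lt_div_iff₀ hε] at hcon
    rw [mul_comm]
    exact hcon
  obtain ⟨ω, -, hnot⟩ := not_soPavable_of_infinite A M hM hA hinf h1
  exact hnot (hr.2 _ (hM _) (isSelfAdjoint_symmetry ω))

/-! ### A witness: `ℓ²(ℤ)` is infinite-dimensional -/

theorem not_finiteDimensional_lp_int : ¬ FiniteDimensional ℂ (lp (fun _ : ℤ => ℂ) 2) := by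
  intro hfd
  have hon : Orthonormal ℂ (fun n : ℤ => (lp.single 2 n (1 : ℂ) : lp (fun _ : ℤ => ℂ) 2)) := by
    rw [orthonormal_iff_ite]
    intro i j
    rw [lp.inner_single_left]
    by_cases h : i = j
    · subst h
      simp
    · simp [h, lp.single_apply]
  have hfin := hon.linearIndependent.finite
  exact not_finite ℤ

end Vale.Agent.Lib.P078
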